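import Crest.Agent.R285.KK
import Crest.Agent.Lib.Prekopa.Basic

/-!
# R285/Poinc: Poincaré inequality for `mu W t c` (constant `1/t`)

Maurey's property (τ) from the midpoint Prékopa–Leindler inequality
`Crest.Agent.Lib.Prekopa.pl_euclidean`.
-/

set_option autoImplicit false

namespace Crest.Agent.R285

open MeasureTheory ProbabilityTheory Crest.OracleSampling Set
open scoped RealInnerProductSpace ContDiff

noncomputable section

variable {d : ℕ} {δ : ℝ} {W : E d → ℝ}

/-- Property (τ).  With `Φ = t|z-c|²/2 + W`, apply PL to `e^{g-Φ}`, `e^{-f-Φ}`, `e^{-Φ}`: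
`Φ x + Φ y - 2Φ((x+y)/2) ≥ t|x-y|²/4` (parallelogram + `Pot.midpoint`). -/
theorem prop_tau (hW : Pot d δ W) {t : ℝ} (ht : 0 < t) (c : E d) {f g : E d → ℝ}
    (hf : Measurable f) (hg : Measurable g) (H : ∀ x y, g x ≤ f y + t * ‖x - y‖ ^ 2 / 4) :
    (∫⁻ z, ENNReal.ofReal (Real.exp (g z)) ∂(mu W t c)) *
      ∫⁻ z, ENNReal.ofReal (Real.exp (-f z)) ∂(mu W t c) ≤ 1 := by
  have hZ := Zc_pos hW ht c
  have hP := mu_prob hW ht c
  have hd : Measurable (dens W t c) := by
    have := hW.smooth.continuous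
    unfold dens
    fun_prop
  have hρ : Measurable fun z => ENNReal.ofReal (dens W t c z / Zc W t c) := by fun_prop
  have h1 : ∫⁻ z, ENNReal.ofReal (dens W t c z / Zc W t c) = 1 := by
    have := hP.measure_univ
    rwa [mu, withDensity_apply _ MeasurableSet.univ, Measure.restrict_univ] at this
  unfold mu
  rw [lintegral_withDensity_eq_lintegral_mul _ hρ (by fun_prop),
    lintegral_withDensity_eq_lintegral_mul _ hρ (by fun_prop)]
  refine (Crest.Agent.Lib.Prekopa.pl_euclidean (hρ.mul (by fun_prop)) (hρ.mul (by fun_prop)) hρ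
    fun x y => ?_).trans (by rw [h1, one_pow])
  have hd0 : ∀ z, 0 ≤ dens W t c z / Zc W t c := fun z => div_nonneg (Real.exp_pos _).le hZ.le
  simp only [Pi.mul_apply]
  rw [← ENNReal.ofReal_mul (hd0 _), ← ENNReal.ofReal_mul (hd0 _),
    ← ENNReal.ofReal_mul (mul_nonneg (hd0 _) (Real.exp_pos _).le), ← ENNReal.ofReal_pow (hd0 _)]
  refine ENNReal.ofReal_le_ofReal ?_
  have e1 : ‖(1 / 2 : ℝ) • x + (1 / 2 : ℝ) • y - c‖ ^ 2 =
      (‖x - c‖ ^ 2 + ‖y - c‖ ^ 2) / 2 - ‖x - y‖ ^ 2 / 4 := by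
    have a1 : (1 / 2 : ℝ) • x + (1 / 2 : ℝ) • y - c = (1 / 2 : ℝ) • ((x - c) + (y - c)) := by
      module
    have a2 : x - y = (x - c) - (y - c) := by abel
    rw [a1, a2, norm_smul, mul_pow, norm_add_sq_real, norm_sub_sq_real (x - c) (y - c)]
    norm_num
    ring
  have e2 : dens W t c x * Real.exp (g x) * (dens W t c y * Real.exp (-f y)) ≤
      dens W t c ((1 / 2 : ℝ) • x + (1 / 2 : ℝ) • y) ^ 2 := by
    unfold dens
    rw [sq (Real.exp _), ← Real.exp_add, ← Real.exp_add, ← Real.exp_add, ← Real.exp_add, Real.exp_le_exp, e1]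
    linarith [H x y, hW.midpoint x y]
  calc _ = dens W t c x * Real.exp (g x) * (dens W t c y * Real.exp (-f y)) / Zc W t c ^ 2 := by
        field_simp
    _ ≤ dens W t c ((1 / 2 : ℝ) • x + (1 / 2 : ℝ) • y) ^ 2 / Zc W t c ^ 2 := by gcongr
    _ = _ := by rw [div_pow]

theorem poinc_exp {u b : ℝ} (hu : |u| ≤ b) (hb : b ≤ 1) :
    1 + u + u ^ 2 / 2 - b ^ 3 ≤ Real.exp u := by
  have h := Real.exp_bound (hu.trans hb) (n := 3) (by norm_num)
  simp only [Finset.sum_range_succ, Finset.range_zero, Finset.sum_empty, Nat.factorial] at h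
  have h1 := (abs_le.1 h).1
  have h2 : |u| ^ 3 ≤ b ^ 3 := pow_le_pow_left₀ (abs_nonneg _) hu 3
  have h3 : 0 ≤ |u| ^ 3 := by positivity
  norm_num at h1
  linarith

/-- The variance of a bounded function from property (τ). -/
theorem poinc_bdd (hW : Pot d δ W) {t : ℝ} (ht : 0 < t) (c : E d) {f : E d → ℝ}
    (hf : Measurable f) {M : ℝ} (hM : ∀ x, |f x| ≤ M) {q : ℝ → E d → ℝ} {Q : ℝ}
    (hq : ∀ᶠ ε in nhdsWithin (0 : ℝ) (Ioi 0), Measurable (q ε) ∧ Integrable (q ε) (mu W t c) ∧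
      (∀ x, 0 ≤ q ε x) ∧ ∀ x y, ε * f x - ε ^ 2 * q ε x ≤ ε * f y + t * ‖x - y‖ ^ 2 / 4)
    (hQ : Filter.Tendsto (fun ε => ∫ x, q ε x ∂(mu W t c)) (nhdsWithin 0 (Ioi 0)) (nhds Q)) :
    ∫ z, f z ^ 2 ∂(mu W t c) - (∫ z, f z ∂(mu W t c)) ^ 2 ≤ Q := by
  have hP := mu_prob hW ht c
  have i1 : Integrable f (mu W t c) := (pg_of_bdd hf hM).integrable_mu hW ht c
  have i2 : Integrable (fun z => f z ^ 2) (mu W t c) :=
    ((pg_of_bdd hf hM).pow 2).integrable_mu hW ht c
  set a := ∫ z, f z ∂(mu W t c) with ha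
  set V := ∫ z, f z ^ 2 ∂(mu W t c) - a ^ 2 with hV
  set K := M + |a| with hK
  have hK0 : 0 ≤ K := add_nonneg ((abs_nonneg _).trans (hM 0)) (abs_nonneg _)
  have hu : ∀ z, |f z - a| ≤ K := fun z => (abs_sub _ _).trans (by linarith [hM z])
  -- the quadratic lower bound
  have quad : ∀ s : ℝ, Integrable (fun z => 1 + s * (f z - a) + (s * (f z - a)) ^ 2 / 2) (mu W t c) ∧
      ∫ z, (1 + s * (f z - a) + (s * (f z - a)) ^ 2 / 2) ∂(mu W t c) = 1 + s ^ 2 * V / 2 := by
    intro s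
    have e : (fun z => 1 + s * (f z - a) + (s * (f z - a)) ^ 2 / 2) = fun z =>
        (1 - s * a + s ^ 2 * a ^ 2 / 2) + ((s - s ^ 2 * a) * f z + s ^ 2 / 2 * f z ^ 2) := by
      ext z; ring
    rw [e]
    have i3 : Integrable (fun z => (s - s ^ 2 * a) * f z + s ^ 2 / 2 * f z ^ 2) (mu W t c) :=
      (i1.const_mul _).add (i2.const_mul _)
    refine ⟨(integrable_const _).add i3, ?_⟩
    rw [integral_add (integrable_const _) i3,
      integral_add (i1.const_mul _) (i2.const_mul _), integral_const_mul, integral_const_mul,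
      integral_const, probReal_univ, smul_eq_mul, ← ha, hV]
    ring
  have t0 : Filter.Tendsto (fun ε : ℝ => ε) (nhdsWithin 0 (Ioi 0)) (nhds 0) :=
    Filter.tendsto_id.mono_left nhdsWithin_le_nhds
  have tβ : Filter.Tendsto (fun ε : ℝ => V / 2 - ε * K ^ 3) (nhdsWithin 0 (Ioi 0))
      (nhds (V / 2 - 0 * K ^ 3)) := tendsto_const_nhds.sub (t0.mul_const _)
  have tα : Filter.Tendsto (fun ε : ℝ => V / 2 - ε * K ^ 3 -
      Real.exp (ε * K) * ∫ x, q ε x ∂(mu W t c)) (nhdsWithin 0 (Ioi 0))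
      (nhds (V / 2 - 0 * K ^ 3 - Real.exp (0 * K) * Q)) :=
    tβ.sub (((Real.continuous_exp.tendsto _).comp (t0.mul_const K)).mul hQ)
  have tA := ((t0.pow 2).mul tα).const_add 1
  have tB := ((t0.pow 2).mul tβ).const_add 1
  have tK := t0.mul_const K
  have key := le_of_tendsto ((tα.add tβ).add ((t0.pow 2).mul (tα.mul tβ))) (b := 0) ?_
  · simp only [zero_mul, sub_zero, Real.exp_zero, one_mul, ne_eq, OfNat.ofNat_ne_zero,
      not_false_eq_true, zero_pow, add_zero] at key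
    linarith
  filter_upwards [hq, tA.eventually (lt_mem_nhds (show (0 : ℝ) < _ by norm_num)),
    tB.eventually (lt_mem_nhds (show (0 : ℝ) < _ by norm_num)),
    tK.eventually (gt_mem_nhds (show _ < (1 : ℝ) by norm_num)), self_mem_nhdsWithin]
    with ε ⟨m1, m2, m3, m4⟩ hA hB hεK hε
  have hε : 0 < ε := hε
  have hu' : ∀ z, |ε * (f z - a)| ≤ ε * K := fun z => by
    rw [abs_mul, abs_of_pos hε]; exact mul_le_mul_of_nonneg_left (hu z) hε.le
  have hτ := prop_tau hW ht c (f := fun z => ε * (f z - a))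
    (g := fun z => ε * (f z - a) - ε ^ 2 * q ε z) (by fun_prop) (by fun_prop)
    (fun x y => by linarith [m4 x y])
  have j1 : Integrable (fun z => Real.exp (ε * (f z - a) - ε ^ 2 * q ε z)) (mu W t c) := by
    refine Integrable.of_bound (Measurable.aestronglyMeasurable (by fun_prop)) (Real.exp (ε * K))
      (Filter.Eventually.of_forall fun z => ?_)
    rw [Real.norm_eq_abs, abs_of_pos (Real.exp_pos _), Real.exp_le_exp]
    have := mul_nonneg (sq_nonneg ε) (m3 z)
    linarith [(abs_le.1 (hu' z)).2]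
  have j2 : Integrable (fun z => Real.exp (-(ε * (f z - a)))) (mu W t c) := by
    refine Integrable.of_bound (Measurable.aestronglyMeasurable (by fun_prop)) (Real.exp (ε * K))
      (Filter.Eventually.of_forall fun z => ?_)
    rw [Real.norm_eq_abs, abs_of_pos (Real.exp_pos _), Real.exp_le_exp]
    linarith [(abs_le.1 (hu' z)).1]
  rw [← ofReal_integral_eq_lintegral_ofReal j1 (Filter.Eventually.of_forall fun z =>
      (Real.exp_pos _).le), ← ofReal_integral_eq_lintegral_ofReal j2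
      (Filter.Eventually.of_forall fun z => (Real.exp_pos _).le),
    ← ENNReal.ofReal_mul (integral_nonneg fun z => (Real.exp_pos _).le),
    ENNReal.ofReal_le_one] at hτ
  have l1 : 1 + ε ^ 2 * (V / 2 - ε * K ^ 3 - Real.exp (ε * K) * ∫ x, q ε x ∂(mu W t c)) ≤
      ∫ z, Real.exp (ε * (f z - a) - ε ^ 2 * q ε z) ∂(mu W t c) := by
    have := integral_mono (((quad ε).1.sub (integrable_const ((ε * K) ^ 3))).sub
      (m2.const_mul (ε ^ 2 * Real.exp (ε * K)))) j1 fun z => by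
        have b1 := poinc_exp (hu' z) hεK.le
        have b2 : 1 - ε ^ 2 * q ε z ≤ Real.exp (-(ε ^ 2 * q ε z)) := by
          linarith [Real.add_one_le_exp (-(ε ^ 2 * q ε z))]
        have b3 : Real.exp (ε * (f z - a)) ≤ Real.exp (ε * K) :=
          Real.exp_le_exp.2 (abs_le.1 (hu' z)).2
        have b4 := mul_le_mul_of_nonneg_left b2 (Real.exp_pos (ε * (f z - a))).le
        have b5 := mul_le_mul_of_nonneg_right b3 (mul_nonneg (sq_nonneg ε) (m3 z))
        simp only [Pi.sub_apply]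
        rw [sub_eq_add_neg (ε * (f z - a)) (ε ^ 2 * q ε z), Real.exp_add]
        linarith
    simp only [Pi.sub_apply] at this
    have i4 : Integrable (fun z => 1 + ε * (f z - a) + (ε * (f z - a)) ^ 2 / 2 - (ε * K) ^ 3)
      (mu W t c) := (quad ε).1.sub (integrable_const _)
    rw [integral_sub i4 (m2.const_mul _),
      integral_sub (quad ε).1 (integrable_const _), (quad ε).2, integral_const, probReal_univ,
      integral_const_mul, smul_eq_mul] at this
    linarith
  have l2 : 1 + ε ^ 2 * (V / 2 - ε * K ^ 3) ≤ ∫ z, Real.exp (-(ε * (f z - a))) ∂(mu W t c) := by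
    have := integral_mono ((quad (-ε)).1.sub (integrable_const ((ε * K) ^ 3))) j2 fun z => by
      have b1 := poinc_exp (u := -(ε * (f z - a))) (by rw [abs_neg]; exact hu' z) hεK.le
      simp only [Pi.sub_apply]
      linarith
    simp only [Pi.sub_apply] at this
    rw [integral_sub (quad (-ε)).1 (integrable_const _), (quad (-ε)).2, integral_const,
      probReal_univ, smul_eq_mul] at this
    linarith
  have l3 := (mul_le_mul l1 l2 hB.le (hA.le.trans l1)).trans hτ
  refine le_of_mul_le_mul_left ?_ (show 0 < ε ^ 2 by positivity)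
  linarith

theorem poinc_amgm {t ε m s : ℝ} (ht : 0 < t) : ε * (m * s) ≤ ε ^ 2 * (m ^ 2 / t) + t * s ^ 2 / 4 := by
  refine le_of_mul_le_mul_left ?_ ht
  have : t * (ε ^ 2 * (m ^ 2 / t) + t * s ^ 2 / 4) = ε ^ 2 * m ^ 2 + t ^ 2 * s ^ 2 / 4 := by
    field_simp
  rw [this]
  nlinarith [sq_nonneg (ε * m - t * s / 2)]

/-- Bounded `C¹` functions. -/
theorem poinc_c1 (hW : Pot d δ W) {t : ℝ} (ht : 0 < t) (c : E d) {f : E d → ℝ}
    (hf : Differentiable ℝ f) {M : ℝ} (hM0 : 0 < M) (hM : ∀ x, |f x| ≤ M) {S : E d → ℝ}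
    (hS : Continuous S) (hS' : PG S) (hfS : ∀ z, ‖fderiv ℝ f z‖ ^ 2 ≤ S z) :
    ∫ z, f z ^ 2 ∂(mu W t c) - (∫ z, f z ∂(mu W t c)) ^ 2 ≤ t⁻¹ * ∫ z, S z ∂(mu W t c) := by
  obtain ⟨-, C, k, hC⟩ := hS'
  have hS0 : ∀ z, 0 ≤ S z := fun z => (sq_nonneg _).trans (hfS z)
  have hC0 : 0 ≤ C := by simpa using (abs_nonneg _).trans (hC 0)
  set Mx : E d × ℝ → ℝ := fun p => sSup ((fun v => S (p.1 + p.2 • v)) '' Metric.closedBall 0 1)
    with hMx
  have hc : Continuous Mx := (isCompact_closedBall (0 : E d) 1).continuous_sSup (by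
    show Continuous fun w : (E d × ℝ) × E d => S (w.1.1 + w.1.2 • w.2)
    fun_prop)
  have hle : ∀ x r v, ‖v‖ ≤ 1 → S (x + r • v) ≤ Mx (x, r) := fun x r v hv =>
    le_csSup ((isCompact_closedBall (0 : E d) 1).image (by fun_prop)).bddAbove
      ⟨v, by simpa using hv, rfl⟩
  have h0 : ∀ p, 0 ≤ Mx p := fun p => (hS0 _).trans (hle p.1 p.2 0 (by simp))
  have hz : ∀ x, Mx (x, 0) = S x := fun x => by
    simp only [hMx, zero_smul, add_zero]
    rw [Set.Nonempty.image_const ⟨0, by simp⟩, csSup_singleton]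
  have hb : ∀ x r, |r| ≤ 1 → Mx (x, r) ≤ C * (2 * (1 + ‖x‖)) ^ k := by
    intro x r hr
    refine csSup_le ⟨_, 0, by simp, rfl⟩ ?_
    rintro _ ⟨v, hv, rfl⟩
    refine ((le_abs_self _).trans (hC _)).trans (mul_le_mul_of_nonneg_left
      (pow_le_pow_left₀ (by positivity) ?_ k) hC0)
    have a1 : ‖v‖ ≤ 1 := by simpa using hv
    have a2 : ‖r • v‖ ≤ 1 := by
      rw [norm_smul, Real.norm_eq_abs]; exact mul_le_one₀ hr (norm_nonneg _) a1
    have a3 := norm_add_le x (r • v)
    have a4 := norm_nonneg x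
    linarith
  have hbI : Integrable (fun x : E d => t⁻¹ * (C * (2 * (1 + ‖x‖)) ^ k)) (mu W t c) :=
    ((((((pg_const 1).add pg_norm).const_mul 2).pow k).const_mul C).const_mul _).integrable_mu hW ht c
  have tr : Filter.Tendsto (fun ε : ℝ => √(8 * M / t * ε)) (nhdsWithin 0 (Ioi 0)) (nhds 0) := by
    have : Continuous fun ε : ℝ => √(8 * M / t * ε) := by fun_prop
    simpa using (this.tendsto 0).mono_left nhdsWithin_le_nhds
  have ev : ∀ᶠ ε in nhdsWithin (0 : ℝ) (Ioi 0), ∀ x,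
      ‖t⁻¹ * Mx (x, √(8 * M / t * ε))‖ ≤ t⁻¹ * (C * (2 * (1 + ‖x‖)) ^ k) := by
    filter_upwards [tr.eventually (gt_mem_nhds (show _ < (1 : ℝ) by norm_num))] with ε hε x
    rw [Real.norm_eq_abs, abs_of_nonneg (mul_nonneg (by positivity) (h0 _))]
    exact mul_le_mul_of_nonneg_left (hb x _ (by rw [abs_of_nonneg (Real.sqrt_nonneg _)]; exact hε.le))
      (by positivity)
  have hm : ∀ ε, Measurable fun x => t⁻¹ * Mx (x, √(8 * M / t * ε)) := fun ε =>
    Continuous.measurable (by fun_prop)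
  refine poinc_bdd hW ht c hf.continuous.measurable hM
    (q := fun ε x => t⁻¹ * Mx (x, √(8 * M / t * ε))) ?_ ?_
  · filter_upwards [ev, self_mem_nhdsWithin] with ε h1 hε
    have hε : 0 < ε := hε
    refine ⟨hm ε, hbI.mono' (hm ε).aestronglyMeasurable (Filter.Eventually.of_forall h1),
      fun x => mul_nonneg (by positivity) (h0 _), fun x y => ?_⟩
    have hr : 0 < √(8 * M / t * ε) := Real.sqrt_pos.2 (by positivity)
    rcases le_total ‖x - y‖ (√(8 * M / t * ε)) with hxy | hxy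
    · have a1 := (convex_closedBall x (√(8 * M / t * ε))).norm_image_sub_le_of_norm_fderiv_le
        (𝕜 := ℝ) (f := f) (C := √(Mx (x, √(8 * M / t * ε)))) (fun z _ => hf z) (fun z hz => by
          refine Real.le_sqrt_of_sq_le ((hfS z).trans ?_)
          have := hle x (√(8 * M / t * ε)) ((√(8 * M / t * ε))⁻¹ • (z - x)) (by
            rw [norm_smul, Real.norm_eq_abs, abs_of_pos (inv_pos.2 hr), inv_mul_le_iff₀ hr, mul_one]
            simpa [dist_eq_norm] using hz)
          rwa [smul_inv_smul₀ hr.ne', add_sub_cancel] at this)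
        (x := y) (y := x) (by simpa [dist_eq_norm, norm_sub_rev] using hxy) (by simpa using hr.le)
      have a2 := poinc_amgm (ε := ε) (m := √(Mx (x, √(8 * M / t * ε)))) (s := ‖x - y‖) ht
      rw [Real.sq_sqrt (h0 _), div_eq_inv_mul (Mx _)] at a2
      have a3 := mul_le_mul_of_nonneg_left ((le_abs_self _).trans a1) hε.le
      linarith
    · have a1 : 8 * M / t * ε ≤ ‖x - y‖ ^ 2 := by
        rw [← Real.sq_sqrt (show 0 ≤ 8 * M / t * ε by positivity)]
        exact pow_le_pow_left₀ hr.le hxy 2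
      rw [div_mul_eq_mul_div, div_le_iff₀ ht] at a1
      have a2 := mul_le_mul_of_nonneg_left (abs_le.1 (hM x)).2 hε.le
      have a3 := mul_le_mul_of_nonneg_left (abs_le.1 (hM y)).1 hε.le
      have a4 : 0 ≤ ε ^ 2 * (t⁻¹ * Mx (x, √(8 * M / t * ε))) :=
        mul_nonneg (sq_nonneg _) (mul_nonneg (by positivity) (h0 _))
      linarith
  · rw [← integral_const_mul]
    refine tendsto_integral_filter_of_dominated_convergence _
      (Filter.Eventually.of_forall fun ε => (hm ε).aestronglyMeasurable)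
      (ev.mono fun ε h => Filter.Eventually.of_forall h) hbI
      (Filter.Eventually.of_forall fun x => ?_)
    rw [← hz x]
    exact ((hc.tendsto (x, 0)).comp (tendsto_const_nhds.prodMk_nhds tr)).const_mul _

theorem poinc_sin_le {s : ℝ} (hs : 0 < s) (u : ℝ) : |s⁻¹ * Real.sin (s * u)| ≤ |u| := by
  rw [abs_mul, abs_of_pos (inv_pos.2 hs), inv_mul_le_iff₀ hs]
  refine Real.abs_sin_le_abs.trans (le_of_eq ?_)
  rw [abs_mul, abs_of_pos hs]

theorem poinc_sin_bdd {s : ℝ} (hs : 0 < s) (u : ℝ) : |s⁻¹ * Real.sin (s * u)| ≤ s⁻¹ := by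
  rw [abs_mul, abs_of_pos (inv_pos.2 hs)]
  exact mul_le_of_le_one_right (inv_pos.2 hs).le (Real.abs_sin_le_one _)

/-- Removing the truncation. -/
theorem poinc_lim (hW : Pot d δ W) {t : ℝ} (ht : 0 < t) (c : E d) {f : E d → ℝ} (h0 : PG f) {B : ℝ}
    (h : ∀ s : ℝ, 0 < s → ∫ z, (s⁻¹ * Real.sin (s * f z)) ^ 2 ∂(mu W t c) -
      (∫ z, s⁻¹ * Real.sin (s * f z) ∂(mu W t c)) ^ 2 ≤ B) :
    ∫ z, f z ^ 2 ∂(mu W t c) - (∫ z, f z ∂(mu W t c)) ^ 2 ≤ B := by
  have hf := h0.1
  have tl : ∀ u : ℝ, Filter.Tendsto (fun s : ℝ => s⁻¹ * Real.sin (s * u)) (nhdsWithin 0 (Ioi 0))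
      (nhds u) := by
    intro u
    have := ((hasDerivAt_mul_const u (x := (0 : ℝ))).sin).tendsto_slope_zero_right
    simpa using this
  have t1 : Filter.Tendsto (fun s : ℝ => ∫ z, s⁻¹ * Real.sin (s * f z) ∂(mu W t c))
      (nhdsWithin 0 (Ioi 0)) (nhds (∫ z, f z ∂(mu W t c))) := by
    refine tendsto_integral_filter_of_dominated_convergence (fun z => |f z|)
      (Filter.Eventually.of_forall fun s => Measurable.aestronglyMeasurable (by fun_prop)) ?_
      (h0.integrable_mu hW ht c).abs (Filter.Eventually.of_forall fun z => tl _)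
    filter_upwards [self_mem_nhdsWithin] with s hs
    exact Filter.Eventually.of_forall fun z => poinc_sin_le hs _
  have t2 : Filter.Tendsto (fun s : ℝ => ∫ z, (s⁻¹ * Real.sin (s * f z)) ^ 2 ∂(mu W t c))
      (nhdsWithin 0 (Ioi 0)) (nhds (∫ z, f z ^ 2 ∂(mu W t c))) := by
    refine tendsto_integral_filter_of_dominated_convergence (fun z => f z ^ 2)
      (Filter.Eventually.of_forall fun s => Measurable.aestronglyMeasurable (by fun_prop)) ?_
      ((h0.pow 2).integrable_mu hW ht c) (Filter.Eventually.of_forall fun z => (tl _).pow 2)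
    filter_upwards [self_mem_nhdsWithin] with s hs
    refine Filter.Eventually.of_forall fun z => ?_
    rw [Real.norm_eq_abs, abs_of_nonneg (sq_nonneg _)]
    exact sq_le_sq.2 (poinc_sin_le hs _)
  refine le_of_tendsto (t2.sub (t1.pow 2)) ?_
  filter_upwards [self_mem_nhdsWithin] with s hs
  exact h s hs

theorem poinc_norm_sq (L : E d →L[ℝ] ℝ) : ‖L‖ ^ 2 = ∑ k, L (ee k) ^ 2 := by
  obtain ⟨v, rfl⟩ := (InnerProductSpace.toDual ℝ (E d)).surjective L
  rw [LinearIsometryEquiv.norm_map, EuclideanSpace.real_norm_sq_eq]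
  refine Finset.sum_congr rfl fun k _ => ?_
  simp [ee, EuclideanSpace.inner_single_right]

/-- Key step: let `f` be bounded, `L`-Lipschitz, and `m` a measurable function with `0 ≤ m ≤ L` and
`limsup_{y → x} |f y - f x|/|y - x| ≤ m x`.  For `ε > 0` let
`m_ε x = sup {|f y - f x|/|y-x| : 0 < |y-x| < 4εL/t}` (lower semicontinuous hence measurable; or use
any measurable majorant tending to `m`); then `g = εf - ε² m_ε²/t` satisfies the hypothesis of
`prop_tau` for `εf` (if `|x-y| ≥ 4εL/t` use the Lipschitz bound, else `εm r - t r²/4 ≤ ε²m²/t`).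
Expand `E e^{g} E e^{-εf} ≤ 1` to second order (`e^u ≥ 1 + u + u²/2 - |u|³` for `|u| ≤ 1`), divide by
`ε²`, let `ε → 0` (dominated convergence).  For `C¹` functions one may take
`m_ε x = sup_{closedBall x (4εL/t)} ‖fderiv f‖`, which is continuous in `x`; the case of a general
polynomially growing `C¹` function follows by multiplying with a smooth cutoff `χ(x/R)`
(`ContDiffBump`), `R → ∞`.  `‖fderiv f z‖² = ∑ k, (dd (ee k) f z)²`. -/
theorem poincare (hW : Pot d δ W) {t : ℝ} (ht : 0 < t) (c : E d) {f : E d → ℝ}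
    (hf : ContDiff ℝ 1 f) (h0 : PG f) (h1 : ∀ k, PG (dd (ee k) f)) :
    ∫ z, f z ^ 2 ∂(mu W t c) - (∫ z, f z ∂(mu W t c)) ^ 2 ≤
      t⁻¹ * ∫ z, ∑ k, dd (ee k) f z ^ 2 ∂(mu W t c) := by
  refine poinc_lim hW ht c h0 fun s hs => ?_
  have hd : Differentiable ℝ f := hf.differentiable (by norm_num)
  have hc := hf.continuous_fderiv (by norm_num)
  have hD : ∀ z, HasFDerivAt (fun z => s⁻¹ * Real.sin (s * f z))
      (s⁻¹ • Real.cos (s * f z) • s • fderiv ℝ f z) z := fun z =>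
    (((hd z).hasFDerivAt.const_mul s).sin).const_mul s⁻¹
  refine poinc_c1 hW ht c (fun z => (hD z).differentiableAt) (inv_pos.2 hs)
    (fun z => poinc_sin_bdd hs _) ?_ (PG.sum _ fun k _ => (h1 k).pow 2) fun z => ?_
  · unfold dd
    fun_prop
  · rw [(hD z).fderiv, smul_comm (Real.cos _), inv_smul_smul₀ hs.ne', norm_smul, mul_pow,
      poinc_norm_sq, Real.norm_eq_abs, sq_abs]
    exact mul_le_of_le_one_left (Finset.sum_nonneg fun _ _ => sq_nonneg _) (Real.cos_sq_le_one _)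

/-- Lipschitz version: `g = εf - ε²L²/t`; truncate `f` to `max (-M) (min f M)` first, `M → ∞`. -/
theorem poincare_lip (hW : Pot d δ W) {t : ℝ} (ht : 0 < t) (c : E d) {f : E d → ℝ} {L : NNReal}
    (hf : LipschitzWith L f) :
    ∫ z, f z ^ 2 ∂(mu W t c) - (∫ z, f z ∂(mu W t c)) ^ 2 ≤ (L : ℝ) ^ 2 / t := by
  have hP := mu_prob hW ht c
  have hm := hf.continuous.measurable
  refine poinc_lim hW ht c (pg_of_lip hf) fun s hs => ?_
  refine poinc_bdd hW ht c (by fun_prop) (fun z => poinc_sin_bdd hs _)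
    (q := fun _ _ => (L : ℝ) ^ 2 / t) ?_ (by simp)
  filter_upwards [self_mem_nhdsWithin] with ε hε
  have hε : 0 < ε := hε
  refine ⟨measurable_const, integrable_const _, fun _ => by positivity, fun x y => ?_⟩
  have a1 : s⁻¹ * Real.sin (s * f x) - s⁻¹ * Real.sin (s * f y) ≤ L * ‖x - y‖ := by
    rw [← mul_sub, inv_mul_le_iff₀ hs]
    refine (le_abs_self _).trans ((Real.abs_sin_sub_sin_le _ _).trans ?_)
    rw [← mul_sub, abs_mul, abs_of_pos hs]
    refine mul_le_mul_of_nonneg_left ?_ hs.le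
    simpa [dist_eq_norm] using hf.dist_le_mul x y
  have a2 := poinc_amgm (ε := ε) (m := L) (s := ‖x - y‖) ht
  have a3 := mul_le_mul_of_nonneg_left a1 hε.le
  linarith

end

end Crest.Agent.R285
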