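import Crest.Agent.R285.Pot

/-!
# R285/KK: the Laplace integrals `KK`, smoothness, basic facts on `mu`

Only `W ≥ 0` and continuity of `W` are used.  Differentiation under the integral:
`hasFDerivAt_integral_of_dominated_of_fderiv_le` on a unit ball (dominate by
`C (1+|z|)^(k+2) exp(A|z| - θ₀|z|²/2)`).  `ContDiff ℝ ∞`: prove `∀ n : ℕ, ∀ h, PG h → ContDiff ℝ n ..`
by induction with `contDiff_succ_iff_fderiv` (the derivative is a finite sum of smooth coefficient
times `KK` of other `PG` functions times constant linear forms), then `contDiff_infty`.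
-/

set_option autoImplicit false

namespace Crest.Agent.R285

open MeasureTheory ProbabilityTheory Crest.OracleSampling Set
open scoped RealInnerProductSpace ContDiff

noncomputable section

variable {d : ℕ} {δ : ℝ} {W : E d → ℝ}

theorem PG.kk_ex {f : E d → ℝ} (hf : PG f) :
    ∃ (C : ℝ) (k : ℕ), 0 ≤ C ∧ ∀ z, |f z| ≤ C * (1 + ‖z‖) ^ k := by
  obtain ⟨C, k, h⟩ := hf.2
  refine ⟨C, k, ?_, h⟩
  have := h 0
  simp only [norm_zero, add_zero, one_pow, mul_one] at this
  exact (abs_nonneg _).trans this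

theorem kk_pg_of_le {f : E d → ℝ} (hf : Measurable f) {A B : ℝ} (hA : 0 ≤ A) (hB : 0 ≤ B)
    (h : ∀ z, |f z| ≤ A + B * ‖z‖) : PG f :=
  ⟨hf, A + B, 1, fun z => (h z).trans (by nlinarith [norm_nonneg z])⟩

theorem pg_const (c : ℝ) : PG (fun _ : E d => c) := by
  exact ⟨measurable_const, |c|, 0, fun z => by simp⟩

theorem pg_coord (k : Fin d) : PG (fun z : E d => z k) := by
  refine kk_pg_of_le (by fun_prop) le_rfl zero_le_one fun z => ?_
  rw [zero_add, one_mul]
  exact PiLp.norm_apply_le z k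

theorem pg_norm : PG (fun z : E d => ‖z‖) := by
  exact kk_pg_of_le (by fun_prop) le_rfl zero_le_one fun z => by simp

theorem pg_inner (v : E d) : PG (fun z : E d => ⟪z, v⟫) := by
  refine kk_pg_of_le (by fun_prop) le_rfl (norm_nonneg v) fun z => ?_
  rw [zero_add, mul_comm]
  exact abs_real_inner_le_norm _ _

theorem PG.add {f g : E d → ℝ} (hf : PG f) (hg : PG g) : PG (fun z => f z + g z) := by
  obtain ⟨C, k, hC, h1⟩ := hf.kk_ex
  obtain ⟨C', k', hC', h2⟩ := hg.kk_ex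
  refine ⟨hf.1.add hg.1, C + C', k + k', fun z => ?_⟩
  have hz : 1 ≤ 1 + ‖z‖ := le_add_of_nonneg_right (norm_nonneg z)
  have h3 : C * (1 + ‖z‖) ^ k ≤ C * (1 + ‖z‖) ^ (k + k') :=
    mul_le_mul_of_nonneg_left (pow_le_pow_right₀ hz (by omega)) hC
  have h4 : C' * (1 + ‖z‖) ^ k' ≤ C' * (1 + ‖z‖) ^ (k + k') :=
    mul_le_mul_of_nonneg_left (pow_le_pow_right₀ hz (by omega)) hC'
  have h5 := abs_add_le (f z) (g z)
  rw [add_mul]
  linarith [h1 z, h2 z]

theorem PG.sub {f g : E d → ℝ} (hf : PG f) (hg : PG g) : PG (fun z => f z - g z) := by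
  have hg' : PG (fun z => -g z) := ⟨hg.1.neg, by simpa only [abs_neg] using hg.2⟩
  simpa only [sub_eq_add_neg] using hf.add hg'

theorem PG.mul {f g : E d → ℝ} (hf : PG f) (hg : PG g) : PG (fun z => f z * g z) := by
  obtain ⟨C, k, hC, h1⟩ := hf.kk_ex
  obtain ⟨C', k', hC', h2⟩ := hg.kk_ex
  refine ⟨hf.1.mul hg.1, C * C', k + k', fun z => ?_⟩
  rw [abs_mul, pow_add, mul_mul_mul_comm]
  exact mul_le_mul (h1 z) (h2 z) (abs_nonneg _) (by positivity)

theorem PG.pow {f : E d → ℝ} (hf : PG f) (n : ℕ) : PG (fun z => f z ^ n) := by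
  induction n with
  | zero => simpa only [pow_zero] using pg_const 1
  | succ n ih => simpa only [pow_succ] using ih.mul hf

theorem PG.const_mul {f : E d → ℝ} (hf : PG f) (c : ℝ) : PG (fun z => c * f z) := by
  exact (pg_const c).mul hf

theorem PG.sum {ι : Type} (s : Finset ι) {f : ι → E d → ℝ} (hf : ∀ i ∈ s, PG (f i)) :
    PG (fun z => ∑ i ∈ s, f i z) := by
  classical
  induction s using Finset.induction_on with
  | empty => simpa only [Finset.sum_empty] using pg_const 0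
  | insert i s hi ih =>
    simp only [Finset.sum_insert hi]
    exact (hf i (Finset.mem_insert_self _ _)).add
      (ih fun j hj => hf j (Finset.mem_insert_of_mem hj))

theorem pg_of_bdd {f : E d → ℝ} (hf : Measurable f) {M : ℝ} (hM : ∀ x, |f x| ≤ M) : PG f := by
  exact ⟨hf, M, 0, fun z => by simpa using hM z⟩

theorem pg_of_lip {f : E d → ℝ} {L : NNReal} (hf : LipschitzWith L f) : PG f := by
  refine kk_pg_of_le hf.continuous.measurable (abs_nonneg (f 0)) L.2 fun z => ?_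
  have h1 := hf.dist_le_mul z 0
  rw [Real.dist_eq, dist_zero_right] at h1
  have h2 := abs_sub_abs_le_abs_sub (f z) (f 0)
  change |f z| ≤ |f 0| + (L : ℝ) * ‖z‖
  linarith

theorem Pot.pg (h : Pot d δ W) (hδ : 0 ≤ δ) : PG W := by
  refine ⟨h.smooth.continuous.measurable, δ, 2, fun z => ?_⟩
  rw [abs_of_nonneg (h.nonneg z)]
  refine (h.le_sq hδ z).trans ?_
  rw [mul_div_assoc]
  exact mul_le_mul_of_nonneg_left (by nlinarith [norm_nonneg z]) hδ

theorem Pot.pg_grad (h : Pot d δ W) (hδ : 0 ≤ δ) (k : Fin d) : PG (fun z => gradient W z k) := by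
  have hc := h.grad_c1.continuous
  refine kk_pg_of_le (by fun_prop) le_rfl hδ fun z => ?_
  rw [zero_add]
  exact (PiLp.norm_apply_le (gradient W z) k).trans (h.grad_le hδ z)

theorem kk_gauss {a : ℝ} (ha : 0 < a) : Integrable (fun z : E d => Real.exp (-(a * ‖z‖ ^ 2))) := by
  have h := (GaussianFourier.integrable_cexp_neg_mul_sq_norm_add (V := E d) (b := (a : ℂ))
    (by simpa using ha) 0 0).norm
  refine h.congr (Filter.Eventually.of_forall fun z => ?_)
  simp only [zero_mul, add_zero, Complex.norm_exp]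
  congr 1
  rw [← Complex.ofReal_neg, ← Complex.ofReal_pow, ← Complex.ofReal_mul, Complex.ofReal_re]
  ring

theorem kk_dom {a : ℝ} (ha : 0 < a) (A C : ℝ) (k : ℕ) :
    Integrable (fun z : E d => C * (1 + ‖z‖) ^ k * Real.exp (A * ‖z‖ - a * ‖z‖ ^ 2)) := by
  simp only [mul_assoc]
  refine Integrable.const_mul ?_ C
  refine ((kk_gauss (d := d) (half_pos ha)).const_mul
    (Real.exp ((k + A) ^ 2 / (2 * a)))).mono' (by fun_prop) ?_
  refine Filter.Eventually.of_forall fun z => ?_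
  have hz := norm_nonneg z
  rw [Real.norm_of_nonneg (by positivity), ← Real.exp_add]
  have h1 : (1 + ‖z‖) ^ k ≤ Real.exp (k * ‖z‖) := by
    rw [Real.exp_nat_mul]
    exact pow_le_pow_left₀ (by positivity) (by linarith [Real.add_one_le_exp ‖z‖]) k
  refine (mul_le_mul_of_nonneg_right h1 (Real.exp_pos _).le).trans ?_
  rw [← Real.exp_add, Real.exp_le_exp]
  have h2 : (k + A) ^ 2 / (2 * a) - (k + A) * ‖z‖ + a / 2 * ‖z‖ ^ 2 =
      (k + A - a * ‖z‖) ^ 2 / (2 * a) := by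
    field_simp
    ring
  have h3 : 0 ≤ (k + A - a * ‖z‖) ^ 2 / (2 * a) := by positivity
  linarith

/-- the linear form of the exponent in the natural parameters -/
def kkL (z : E d) : ℝ × E d →L[ℝ] ℝ :=
  (innerSL ℝ z).comp (ContinuousLinearMap.snd ℝ ℝ (E d)) -
    (‖z‖ ^ 2 / 2) • ContinuousLinearMap.fst ℝ ℝ (E d)

theorem kkL_apply (z : E d) (p : ℝ × E d) : kkL z p = ⟪z, p.2⟫ - p.1 * ‖z‖ ^ 2 / 2 := by
  simp [kkL]
  ring

theorem kkL_cont : Continuous (kkL : E d → ℝ × E d →L[ℝ] ℝ) := by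
  unfold kkL
  fun_prop

theorem kkL_norm (z : E d) : ‖kkL z‖ ≤ (1 + ‖z‖) ^ 2 := by
  refine ContinuousLinearMap.opNorm_le_bound _ (by positivity) fun p => ?_
  rw [kkL_apply, Real.norm_eq_abs]
  have h1 : |⟪z, p.2⟫| ≤ ‖z‖ * ‖p‖ :=
    (abs_real_inner_le_norm _ _).trans (mul_le_mul_of_nonneg_left (norm_snd_le p) (norm_nonneg _))
  have h2 : |p.1 * ‖z‖ ^ 2 / 2| ≤ ‖p‖ * ‖z‖ ^ 2 / 2 := by
    rw [abs_div, abs_mul, abs_of_nonneg (sq_nonneg ‖z‖), abs_two]
    have : |p.1| ≤ ‖p‖ := norm_fst_le p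
    gcongr
  have h3 := abs_sub ⟪z, p.2⟫ (p.1 * ‖z‖ ^ 2 / 2)
  have h4 := norm_nonneg z
  have h5 := norm_nonneg p
  have h6 : 0 ≤ ‖p‖ * ‖z‖ ^ 2 := by positivity
  have h7 : 0 ≤ ‖z‖ * ‖p‖ := by positivity
  nlinarith

theorem kk_pg_L (v : ℝ × E d) : PG (fun z : E d => kkL z v) := by
  refine ⟨(kkL_cont.clm_apply continuous_const).measurable, ‖v‖, 2, fun z => ?_⟩
  rw [mul_comm]
  exact ((kkL z).le_opNorm v).trans (mul_le_mul_of_nonneg_right (kkL_norm z) (norm_nonneg _))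

/-- the Laplace integral in the natural parameters -/
def kkLL (W : E d → ℝ) (h : E d → ℝ) (p : ℝ × E d) : ℝ := ∫ z, h z * Real.exp (kkL z p - W z)

theorem kk_exp_le (hW : Pot d δ W) {a A : ℝ} {p : ℝ × E d} (h1 : 2 * a ≤ p.1) (h2 : ‖p.2‖ ≤ A)
    (z : E d) : Real.exp (kkL z p - W z) ≤ Real.exp (A * ‖z‖ - a * ‖z‖ ^ 2) := by
  rw [Real.exp_le_exp, kkL_apply]
  have h3 : ⟪z, p.2⟫ ≤ ‖z‖ * A :=
    (real_inner_le_norm _ _).trans (mul_le_mul_of_nonneg_left h2 (norm_nonneg _))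
  have h4 := hW.nonneg z
  have h5 := mul_le_mul_of_nonneg_right h1 (sq_nonneg ‖z‖)
  linarith

theorem kk_meas (hW : Pot d δ W) {h : E d → ℝ} (hh : PG h) (p : ℝ × E d) :
    Measurable fun z => h z * Real.exp (kkL z p - W z) :=
  hh.1.mul ((kkL_cont.clm_apply continuous_const).sub hW.smooth.continuous).rexp.measurable

theorem kk_integrable (hW : Pot d δ W) {h : E d → ℝ} (hh : PG h) {p : ℝ × E d} (hp : 0 < p.1) :
    Integrable fun z => h z * Real.exp (kkL z p - W z) := by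
  obtain ⟨C, k, hC, hb⟩ := hh.kk_ex
  refine (kk_dom (half_pos hp) ‖p.2‖ C k).mono' (kk_meas hW hh p).aestronglyMeasurable
    (Filter.Eventually.of_forall fun z => ?_)
  rw [norm_mul, Real.norm_of_nonneg (Real.exp_pos _).le]
  exact mul_le_mul (hb z) (kk_exp_le hW (by linarith) le_rfl z) (Real.exp_pos _).le
    (by positivity)

theorem kk_eq (θ : ℝ) (y z : E d) :
    kkL z (θ, θ • y) - W z = θ * ⟪z, y⟫ - θ * ‖z‖ ^ 2 / 2 - W z := by
  rw [kkL_apply, real_inner_smul_right]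

theorem kk_KK_eq (θ : ℝ) (h : E d → ℝ) (y : E d) : KK W θ h y = kkLL W h (θ, θ • y) := by
  simp only [KK, kkLL, kk_eq]

theorem kk_hasFDerivAt (hW : Pot d δ W) {h : E d → ℝ} (hh : PG h) {p : ℝ × E d} (hp : 0 < p.1) :
    ∃ L : ℝ × E d →L[ℝ] ℝ, HasFDerivAt (kkLL W h) L p ∧
      ∀ v, L v = kkLL W (fun z => kkL z v * h z) p := by
  obtain ⟨C, k, hC, hb⟩ := hh.kk_ex
  have hm : ∀ q : ℝ × E d, AEStronglyMeasurable
      (fun z => (h z * Real.exp (kkL z q - W z)) • kkL z) volume := fun q =>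
    (kk_meas hW hh q).aestronglyMeasurable.smul kkL_cont.aestronglyMeasurable
  have hbd : ∀ z, ∀ q ∈ Metric.ball p (p.1 / 2), ‖(h z * Real.exp (kkL z q - W z)) • kkL z‖ ≤
      C * (1 + ‖z‖) ^ (k + 2) * Real.exp ((‖p.2‖ + p.1 / 2) * ‖z‖ - p.1 / 4 * ‖z‖ ^ 2) := by
    intro z q hq
    rw [Metric.mem_ball, dist_eq_norm] at hq
    have h1 : |q.1 - p.1| ≤ p.1 / 2 := (norm_fst_le (q - p)).trans hq.le
    have h2 : ‖q.2 - p.2‖ ≤ p.1 / 2 := (norm_snd_le (q - p)).trans hq.le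
    have h3 : ‖q.2‖ ≤ ‖p.2‖ + p.1 / 2 := by
      have := norm_sub_norm_le q.2 p.2
      linarith
    have h4 := kk_exp_le hW (a := p.1 / 4) (by linarith [(abs_le.1 h1).1]) h3 z
    rw [norm_smul, norm_mul, Real.norm_of_nonneg (Real.exp_pos _).le, pow_add]
    calc ‖h z‖ * Real.exp (kkL z q - W z) * ‖kkL z‖
        ≤ C * (1 + ‖z‖) ^ k * Real.exp ((‖p.2‖ + p.1 / 2) * ‖z‖ - p.1 / 4 * ‖z‖ ^ 2) *
          (1 + ‖z‖) ^ 2 :=
          mul_le_mul (mul_le_mul (hb z) h4 (Real.exp_pos _).le (by positivity)) (kkL_norm z)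
            (norm_nonneg _) (by positivity)
      _ = _ := by ring
  have hint := kk_dom (d := d) (show 0 < p.1 / 4 by linarith) (‖p.2‖ + p.1 / 2) C (k + 2)
  refine ⟨∫ z, (h z * Real.exp (kkL z p - W z)) • kkL z, ?_, fun v => ?_⟩
  · refine hasFDerivAt_integral_of_dominated_of_fderiv_le
      (F := fun q z => h z * Real.exp (kkL z q - W z))
      (F' := fun q z => (h z * Real.exp (kkL z q - W z)) • kkL z)
      (Metric.ball_mem_nhds p (half_pos hp))
      (Filter.Eventually.of_forall fun q => (kk_meas hW hh q).aestronglyMeasurable)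
      (kk_integrable hW hh hp) (hm p) (Filter.Eventually.of_forall hbd) hint
      (Filter.Eventually.of_forall fun z q _ => ?_)
    have h1 := (((kkL z).hasFDerivAt (x := q)).sub_const (W z)).exp.const_mul (h z)
    rwa [smul_smul] at h1
  · rw [ContinuousLinearMap.integral_apply (hint.mono' (hm p)
      (Filter.Eventually.of_forall fun z => hbd z p (Metric.mem_ball_self (half_pos hp))))]
    refine integral_congr_ae (Filter.Eventually.of_forall fun z => ?_)
    simp only [smul_apply, smul_eq_mul]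
    ring

theorem kk_contDiffOn (hW : Pot d δ W) {h : E d → ℝ} (hh : PG h) :
    ContDiffOn ℝ ∞ (kkLL W h) {p | 0 < p.1} := by
  have ho : IsOpen {p : ℝ × E d | 0 < p.1} := isOpen_lt continuous_const continuous_fst
  have hd : ∀ h : E d → ℝ, PG h → DifferentiableOn ℝ (kkLL W h) {p | 0 < p.1} := by
    intro h hh p hp
    obtain ⟨L, hL, -⟩ := kk_hasFDerivAt hW hh hp
    exact hL.differentiableAt.differentiableWithinAt
  rw [contDiffOn_infty]
  intro n
  induction n generalizing h with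
  | zero => exact contDiffOn_zero.2 (hd h hh).continuousOn
  | succ n ih =>
    rw [Nat.cast_succ, contDiffOn_succ_iff_fderiv_of_isOpen ho]
    refine ⟨hd h hh, fun h => absurd h (by simp), contDiffOn_clm_apply.2 fun v => ?_⟩
    refine (ih ((kk_pg_L v).mul hh)).congr fun p hp => ?_
    obtain ⟨L, hL, hL'⟩ := kk_hasFDerivAt hW hh hp
    rw [hL.fderiv, hL']

theorem KK_integrable (hW : Pot d δ W) {θ : ℝ} (hθ : 0 < θ) {h : E d → ℝ} (hh : PG h) (y : E d) :
    Integrable (fun z => h z * Real.exp (θ * ⟪z, y⟫ - θ * ‖z‖ ^ 2 / 2 - W z)) := by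
  simpa only [kk_eq] using kk_integrable hW hh (p := (θ, θ • y)) hθ

theorem KK_add (hW : Pot d δ W) {θ : ℝ} (hθ : 0 < θ) {f g : E d → ℝ} (hf : PG f) (hg : PG g)
    (y : E d) : KK W θ (fun z => f z + g z) y = KK W θ f y + KK W θ g y := by
  simp only [KK, add_mul]
  exact integral_add (KK_integrable hW hθ hf y) (KK_integrable hW hθ hg y)

theorem KK_const_mul (θ c : ℝ) (f : E d → ℝ) (y : E d) :
    KK W θ (fun z => c * f z) y = c * KK W θ f y := by
  simp only [KK, mul_assoc]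
  exact integral_const_mul _ _

theorem KK_sum (hW : Pot d δ W) {θ : ℝ} (hθ : 0 < θ) {ι : Type} (s : Finset ι) {f : ι → E d → ℝ}
    (hf : ∀ i ∈ s, PG (f i)) (y : E d) :
    KK W θ (fun z => ∑ i ∈ s, f i z) y = ∑ i ∈ s, KK W θ (f i) y := by
  simp only [KK, Finset.sum_mul]
  exact integral_finsetSum _ fun i hi => KK_integrable hW hθ (hf i hi) y

theorem II_pos (hW : Pot d δ W) {θ : ℝ} (hθ : 0 < θ) (y : E d) : 0 < II W θ y := by
  have h1 := KK_integrable hW hθ (pg_const 1) y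
  simp only [II, KK, one_mul] at h1 ⊢
  exact integral_exp_pos h1

theorem dens_eq (θ : ℝ) (y z : E d) : dens W θ y z =
    Real.exp (-(θ * ‖y‖ ^ 2 / 2)) * Real.exp (θ * ⟪z, y⟫ - θ * ‖z‖ ^ 2 / 2 - W z) := by
  rw [dens, ← Real.exp_add, norm_sub_sq_real]
  congr 1
  ring

theorem Zc_eq (θ : ℝ) (y : E d) : Zc W θ y = Real.exp (-(θ * ‖y‖ ^ 2 / 2)) * II W θ y := by
  simp only [Zc, II, KK, dens_eq, one_mul]
  exact integral_const_mul _ _

theorem Zc_pos (hW : Pot d δ W) {θ : ℝ} (hθ : 0 < θ) (y : E d) : 0 < Zc W θ y := by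
  rw [Zc_eq]
  exact mul_pos (Real.exp_pos _) (II_pos hW hθ y)

theorem integrable_dens (hW : Pot d δ W) {θ : ℝ} (hθ : 0 < θ) {h : E d → ℝ} (hh : PG h) (y : E d) :
    Integrable (fun z => h z * dens W θ y z) := by
  simp only [dens_eq, mul_left_comm (h _)]
  exact (KK_integrable hW hθ hh y).const_mul _

theorem kk_dens_cont (hW : Pot d δ W) (θ : ℝ) (y : E d) : Continuous (dens W θ y) := by
  have := hW.smooth.continuous
  unfold dens
  fun_prop

theorem kk_dens_meas (hW : Pot d δ W) (θ : ℝ) (y : E d) :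
    Measurable fun z => ENNReal.ofReal (dens W θ y z / Zc W θ y) :=
  ((kk_dens_cont hW θ y).div_const _).measurable.ennreal_ofReal

theorem kk_dens_nonneg (hW : Pot d δ W) {θ : ℝ} (hθ : 0 < θ) (y z : E d) :
    0 ≤ dens W θ y z / Zc W θ y := div_nonneg (Real.exp_pos _).le (Zc_pos hW hθ y).le

theorem mu_prob (hW : Pot d δ W) {θ : ℝ} (hθ : 0 < θ) (y : E d) :
    IsProbabilityMeasure (mu W θ y) := by
  have h1 : Integrable fun z => dens W θ y z / Zc W θ y := by
    simpa only [one_mul] using (integrable_dens hW hθ (pg_const 1) y).div_const (Zc W θ y)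
  refine ⟨?_⟩
  rw [mu, withDensity_apply _ MeasurableSet.univ, Measure.restrict_univ,
    ← ofReal_integral_eq_lintegral_ofReal h1
      (Filter.Eventually.of_forall (kk_dens_nonneg hW hθ y)), integral_div]
  change ENNReal.ofReal (Zc W θ y / Zc W θ y) = 1
  rw [div_self (Zc_pos hW hθ y).ne', ENNReal.ofReal_one]

theorem PG.integrable_mu {h : E d → ℝ} (hh : PG h) (hW : Pot d δ W) {θ : ℝ} (hθ : 0 < θ)
    (y : E d) : Integrable h (mu W θ y) := by
  rw [mu, integrable_withDensity_iff (kk_dens_meas hW θ y)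
    (Filter.Eventually.of_forall fun _ => ENNReal.ofReal_lt_top)]
  simp only [ENNReal.toReal_ofReal (kk_dens_nonneg hW hθ y _), ← mul_div_assoc]
  exact (integrable_dens hW hθ hh y).div_const _

/-- Vector-valued version. -/
theorem integrable_mu_of_norm (hW : Pot d δ W) {θ : ℝ} (hθ : 0 < θ) (y : E d) {g : E d → E d}
    (hg : Continuous g) {L : ℝ} (hL : ∀ z, ‖g z‖ ≤ L * (1 + ‖z‖)) : Integrable g (mu W θ y) := by
  exact ((((pg_const 1).add pg_norm).const_mul L).integrable_mu hW hθ y).mono'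
    hg.aestronglyMeasurable (Filter.Eventually.of_forall hL)

theorem integral_mu_dens (hW : Pot d δ W) {θ : ℝ} (hθ : 0 < θ) (h : E d → ℝ) (y : E d) :
    ∫ z, h z ∂(mu W θ y) = (∫ z, h z * dens W θ y z) / Zc W θ y := by
  rw [mu, integral_withDensity_eq_integral_toReal_smul (kk_dens_meas hW θ y)
    (Filter.Eventually.of_forall fun _ => ENNReal.ofReal_lt_top), ← integral_div]
  refine integral_congr_ae (Filter.Eventually.of_forall fun z => ?_)
  simp only [ENNReal.toReal_ofReal (kk_dens_nonneg hW hθ y _), smul_eq_mul]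
  ring

theorem integral_mu (hW : Pot d δ W) {θ : ℝ} (hθ : 0 < θ) (h : E d → ℝ) (y : E d) :
    ∫ z, h z ∂(mu W θ y) = KK W θ h y / II W θ y := by
  rw [integral_mu_dens hW hθ, Zc_eq]
  simp only [dens_eq, mul_left_comm (h _)]
  rw [integral_const_mul, mul_div_mul_left _ _ (Real.exp_pos _).ne']
  rfl

theorem GG_apply (hW : Pot d δ W) (hδ : 0 ≤ δ) {θ : ℝ} (hθ : 0 < θ) (y : E d) (k : Fin d) :
    GG W θ y k = KK W θ (fun z => gradient W z k) y / II W θ y := by
  have h1 : Integrable (gradient W) (mu W θ y) :=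
    integrable_mu_of_norm hW hθ y hW.grad_c1.continuous (L := δ) fun z =>
      (hW.grad_le hδ z).trans (mul_le_mul_of_nonneg_left (by linarith) hδ)
  rw [← integral_mu hW hθ]
  exact ((EuclideanSpace.proj k : E d →L[ℝ] ℝ).integral_comp_comm h1).symm

theorem KK_smooth (hW : Pot d δ W) {θ : ℝ} (hθ : 0 < θ) {h : E d → ℝ} (hh : PG h) :
    ContDiff ℝ ∞ (KK W θ h) := by
  have h1 : KK W θ h = kkLL W h ∘ fun y => (θ, θ • y) := funext fun y => kk_KK_eq θ h y
  rw [h1]
  exact (kk_contDiffOn hW hh).comp_contDiff (by fun_prop) fun _ => hθ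

theorem dd_KK (hW : Pot d δ W) {θ : ℝ} (hθ : 0 < θ) {h : E d → ℝ} (hh : PG h) (v : E d) :
    dd v (KK W θ h) = KK W θ (fun z => θ * ⟪z, v⟫ * h z) := by
  funext y
  have h1 : KK W θ h = kkLL W h ∘ fun y => (θ, θ • y) := funext fun y => kk_KK_eq θ h y
  obtain ⟨L, hL, hL'⟩ := kk_hasFDerivAt hW hh (p := (θ, θ • y)) hθ
  have h2 : HasFDerivAt (fun y : E d => (θ, θ • y))
      ((0 : E d →L[ℝ] ℝ).prod (θ • ContinuousLinearMap.id ℝ (E d))) y :=
    (hasFDerivAt_const θ y).prodMk ((hasFDerivAt_id y).const_smul θ)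
  rw [dd, h1, (hL.comp y h2).fderiv, ContinuousLinearMap.comp_apply, hL', kk_KK_eq]
  congr 1
  funext z
  simp [kkL_apply, real_inner_smul_right]

theorem smooth_integral_mu (hW : Pot d δ W) {θ : ℝ} (hθ : 0 < θ) {h : E d → ℝ} (hh : PG h) :
    ContDiff ℝ ∞ (fun y => ∫ z, h z ∂(mu W θ y)) := by
  simp only [integral_mu hW hθ]
  exact (KK_smooth hW hθ hh).div (KK_smooth hW hθ (pg_const 1)) fun y => (II_pos hW hθ y).ne'

theorem GG_smooth (hW : Pot d δ W) (hδ : 0 ≤ δ) {θ : ℝ} (hθ : 0 < θ) : ContDiff ℝ ∞ (GG W θ) := by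
  refine contDiff_euclidean.2 fun k => ?_
  simp only [GG_apply hW hδ hθ]
  exact (KK_smooth hW hθ (hW.pg_grad hδ k)).div (KK_smooth hW hθ (pg_const 1))
    fun y => (II_pos hW hθ y).ne'

theorem kk_th_pos (s : ℝ) : 0 < th s := pow_pos (Real.cosh_pos s) 2

/-- Joint smoothness in `(s, y)` with `θ = cosh² s`. -/
theorem KK_smooth2 (hW : Pot d δ W) {h : E d → ℝ} (hh : PG h) :
    ContDiff ℝ ∞ (fun y : ℝ × E d => KK W (th y.1) h y.2) := by
  have h1 : (fun y : ℝ × E d => KK W (th y.1) h y.2) =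
      kkLL W h ∘ fun y : ℝ × E d => (th y.1, th y.1 • y.2) := funext fun y => kk_KK_eq _ h _
  have h2 : ContDiff ℝ ∞ fun y : ℝ × E d => th y.1 :=
    (Real.contDiff_cosh.comp contDiff_fst).pow 2
  rw [h1]
  exact (kk_contDiffOn hW hh).comp_contDiff (h2.prodMk (h2.smul contDiff_snd))
    fun y => kk_th_pos y.1

theorem dd_et_KK (hW : Pot d δ W) {h : E d → ℝ} (hh : PG h) (y : ℝ × E d) :
    dd et (fun y : ℝ × E d => KK W (th y.1) h y.2) y =
      2 * aa y.1 * th y.1 * KK W (th y.1) (fun z => (⟪z, y.2⟫ - ‖z‖ ^ 2 / 2) * h z) y.2 := by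
  have h1 : (fun y : ℝ × E d => KK W (th y.1) h y.2) =
      kkLL W h ∘ fun y : ℝ × E d => (th y.1, th y.1 • y.2) := funext fun y => kk_KK_eq _ h _
  obtain ⟨L, hL, hL'⟩ := kk_hasFDerivAt hW hh (p := (th y.1, th y.1 • y.2)) (kk_th_pos y.1)
  have h2 : HasDerivAt th (2 * aa y.1 * th y.1) y.1 := by
    have hc := (Real.cosh_pos y.1).ne'
    refine ((Real.hasDerivAt_cosh y.1).fun_pow 2).congr_deriv ?_
    simp only [aa, th, Real.tanh_eq_sinh_div_cosh]
    field_simp
    norm_num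
    ring
  have h3 : HasFDerivAt (fun y : ℝ × E d => th y.1)
      ((2 * aa y.1 * th y.1) • ContinuousLinearMap.fst ℝ ℝ (E d)) y :=
    h2.comp_hasFDerivAt y hasFDerivAt_fst
  have h4 := h3.prodMk (h3.fun_smul (hasFDerivAt_snd (𝕜 := ℝ) (p := y)))
  rw [dd, h1, (hL.comp y h4).fderiv, ContinuousLinearMap.comp_apply, hL', ← KK_const_mul,
    kk_KK_eq]
  congr 1
  funext z
  simp [kkL_apply, et, real_inner_smul_right]
  ring

end

end Crest.Agent.R285
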