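import Crest.Agent.R285.DefsA

/-!
# R285/PD: calculus of `dd`, `pdl`, `pd` for smooth functions
-/

set_option autoImplicit false

namespace Crest.Agent.R285

open MeasureTheory ProbabilityTheory Crest.OracleSampling Set
open scoped RealInnerProductSpace ContDiff

noncomputable section

variable {X : Type} [NormedAddCommGroup X] [NormedSpace ℝ X] {ι : Type}

theorem pd_hf {φ : X → ℝ} (h : ContDiff ℝ ∞ φ) (y : X) : HasFDerivAt φ (fderiv ℝ φ y) y :=
  (h.differentiable (by simp) y).hasFDerivAt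

theorem dd_smooth {φ : X → ℝ} (h : ContDiff ℝ ∞ φ) (v : X) : ContDiff ℝ ∞ (dd v φ) := by
  exact (h.fderiv_right (m := ∞) (by simp)).clm_apply contDiff_const

theorem dd_const (v : X) (c : ℝ) : dd v (fun _ => c) = fun _ => 0 := by
  funext y
  simp [dd]

theorem dd_add {φ ψ : X → ℝ} (h : ContDiff ℝ ∞ φ) (h' : ContDiff ℝ ∞ ψ) (v : X) :
    dd v (fun y => φ y + ψ y) = fun y => dd v φ y + dd v ψ y := by
  funext y
  exact congrArg (fun L : X →L[ℝ] ℝ => L v) ((pd_hf h y).add (pd_hf h' y)).fderiv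

theorem dd_sub {φ ψ : X → ℝ} (h : ContDiff ℝ ∞ φ) (h' : ContDiff ℝ ∞ ψ) (v : X) :
    dd v (fun y => φ y - ψ y) = fun y => dd v φ y - dd v ψ y := by
  funext y
  exact congrArg (fun L : X →L[ℝ] ℝ => L v) ((pd_hf h y).sub (pd_hf h' y)).fderiv

theorem dd_mul {φ ψ : X → ℝ} (h : ContDiff ℝ ∞ φ) (h' : ContDiff ℝ ∞ ψ) (v : X) :
    dd v (fun y => φ y * ψ y) = fun y => dd v φ y * ψ y + φ y * dd v ψ y := by
  funext y
  have := congrArg (fun L : X →L[ℝ] ℝ => L v) ((pd_hf h y).mul (pd_hf h' y)).fderiv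
  refine this.trans ?_
  simp only [dd, add_apply, smul_apply, smul_eq_mul]
  ring

theorem dd_const_mul {φ : X → ℝ} (h : ContDiff ℝ ∞ φ) (c : ℝ) (v : X) :
    dd v (fun y => c * φ y) = fun y => c * dd v φ y := by
  funext y
  exact congrArg (fun L : X →L[ℝ] ℝ => L v) ((pd_hf h y).const_mul c).fderiv

theorem dd_div_const {φ : X → ℝ} (h : ContDiff ℝ ∞ φ) (c : ℝ) (v : X) :
    dd v (fun y => φ y / c) = fun y => dd v φ y / c := by
  simp only [div_eq_inv_mul]
  exact dd_const_mul h _ v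

theorem dd_sum {κ : Type} (s : Finset κ) {φ : κ → X → ℝ} (h : ∀ i ∈ s, ContDiff ℝ ∞ (φ i)) (v : X) :
    dd v (fun y => ∑ i ∈ s, φ i y) = fun y => ∑ i ∈ s, dd v (φ i) y := by
  funext y
  have := congrArg (fun L : X →L[ℝ] ℝ => L v)
    (HasFDerivAt.fun_sum (u := s) fun i hi => pd_hf (h i hi) y).fderiv
  refine this.trans ?_
  simp only [dd, sum_apply]

theorem dd_exp {φ : X → ℝ} (h : ContDiff ℝ ∞ φ) (v : X) :
    dd v (fun y => Real.exp (φ y)) = fun y => Real.exp (φ y) * dd v φ y := by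
  funext y
  exact congrArg (fun L : X →L[ℝ] ℝ => L v) (pd_hf h y).exp.fderiv

theorem dd_clm (L : X →L[ℝ] ℝ) (v : X) : dd v L = fun _ => L v := by
  funext y
  simp [dd]

/-- Linearity in the direction. -/
theorem dd_dir_sum {κ : Type} (s : Finset κ) (c : κ → ℝ) (v : κ → X) (φ : X → ℝ) (y : X) :
    dd (∑ i ∈ s, c i • v i) φ y = ∑ i ∈ s, c i * dd (v i) φ y := by
  simp [dd]

theorem dd_dir_add (v w : X) (φ : X → ℝ) (y : X) : dd (v + w) φ y = dd v φ y + dd w φ y := by
  simp [dd]

theorem dd_dir_smul (c : ℝ) (v : X) (φ : X → ℝ) (y : X) : dd (c • v) φ y = c * dd v φ y := by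
  simp [dd]

theorem dd_dir_zero (φ : X → ℝ) : dd (0 : X) φ = fun _ => 0 := by
  funext y
  simp [dd]

/-- Symmetry of second derivatives (`ContDiffAt.isSymmSndFDerivAt`). -/
theorem dd_comm {φ : X → ℝ} (h : ContDiff ℝ ∞ φ) (v w : X) : dd v (dd w φ) = dd w (dd v φ) := by
  funext y
  have hd : DifferentiableAt ℝ (fderiv ℝ φ) y :=
    (h.fderiv_right (m := ∞) (by simp)).differentiable (by simp) y
  have key : ∀ a b : X, dd a (dd b φ) y = fderiv ℝ (fderiv ℝ φ) y a b := by
    intro a b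
    have := (hd.hasFDerivAt.clm_apply (hasFDerivAt_const b y)).fderiv
    have e : dd a (dd b φ) y = fderiv ℝ (fun y => fderiv ℝ φ y b) y a := rfl
    rw [e, this]
    simp
  rw [key, key]
  refine (h.contDiffAt.isSymmSndFDerivAt ?_).eq v w
  simp only [minSmoothness_of_isRCLikeNormedField]
  exact WithTop.coe_le_coe.2 le_top

/-- Chain rule. -/
theorem dd_comp {Y : Type} [NormedAddCommGroup Y] [NormedSpace ℝ Y] {φ : X → ℝ}
    (h : ContDiff ℝ ∞ φ) {T : Y → X} (hT : ContDiff ℝ ∞ T) (v y : Y) :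
    dd v (fun y => φ (T y)) y = dd (fderiv ℝ T y v) φ (T y) := by
  exact congrArg (fun L : Y →L[ℝ] ℝ => L v)
    ((pd_hf h (T y)).comp y (hT.differentiable (by simp) y).hasFDerivAt).fderiv

theorem dd_comp_affine {Y : Type} [NormedAddCommGroup Y] [NormedSpace ℝ Y] {φ : X → ℝ}
    (h : ContDiff ℝ ∞ φ) (L : Y →L[ℝ] X) (b : X) (v : Y) :
    dd v (fun y => φ (L y + b)) = fun y => dd (L v) φ (L y + b) := by
  funext y
  exact congrArg (fun L : Y →L[ℝ] ℝ => L v)
    ((pd_hf h (L y + b)).comp y (L.hasFDerivAt.add_const b)).fderiv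

theorem pdl_smooth (e : ι → X) (l : List ι) {φ : X → ℝ} (h : ContDiff ℝ ∞ φ) :
    ContDiff ℝ ∞ (pdl e l φ) := by
  induction l with
  | nil => exact h
  | cons k l ih => exact dd_smooth ih _

theorem pdl_append (e : ι → X) (l l' : List ι) (φ : X → ℝ) :
    pdl e (l ++ l') φ = pdl e l (pdl e l' φ) := by
  induction l with
  | nil => rfl
  | cons k l ih => simp only [List.cons_append, pdl, ih]

theorem pdl_perm (e : ι → X) {l l' : List ι} (hl : l.Perm l') {φ : X → ℝ} (h : ContDiff ℝ ∞ φ) :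
    pdl e l φ = pdl e l' φ := by
  induction hl with
  | nil => rfl
  | cons k _ ih => simp only [pdl, ih]
  | swap a b l => exact dd_comm (pdl_smooth e l h) _ _
  | trans _ _ ih1 ih2 => exact ih1.trans ih2

theorem pd_coe (e : ι → X) (l : List ι) {φ : X → ℝ} (h : ContDiff ℝ ∞ φ) :
    pd e (l : Multiset ι) φ = pdl e l φ := by
  exact pdl_perm e (Multiset.coe_eq_coe.1 (Multiset.coe_toList _)) h

theorem pd_smooth (e : ι → X) (s : Multiset ι) {φ : X → ℝ} (h : ContDiff ℝ ∞ φ) :
    ContDiff ℝ ∞ (pd e s φ) := by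
  exact pdl_smooth e _ h

theorem pd_zero (e : ι → X) (φ : X → ℝ) : pd e 0 φ = φ := by
  simp [pd, pdl]

theorem pd_singleton (e : ι → X) (k : ι) (φ : X → ℝ) : pd e {k} φ = dd (e k) φ := by
  simp [pd, pdl]

theorem pd_cons (e : ι → X) (k : ι) (s : Multiset ι) {φ : X → ℝ} (h : ContDiff ℝ ∞ φ) :
    pd e (k ::ₘ s) φ = dd (e k) (pd e s φ) := by
  induction s using Quotient.inductionOn with
  | _ l =>
    change pd e ((k :: l : List ι) : Multiset ι) φ = dd (e k) (pd e (l : Multiset ι) φ)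
    rw [pd_coe e _ h, pd_coe e _ h]
    rfl

theorem pd_cons' (e : ι → X) (k : ι) (s : Multiset ι) {φ : X → ℝ} (h : ContDiff ℝ ∞ φ) :
    pd e (k ::ₘ s) φ = pd e s (dd (e k) φ) := by
  induction s using Quotient.inductionOn with
  | _ l =>
    change pd e ((k :: l : List ι) : Multiset ι) φ = pd e (l : Multiset ι) (dd (e k) φ)
    rw [pd_coe e _ h, pd_coe e _ (dd_smooth h _),
      pdl_perm e (List.perm_append_singleton k l).symm h, pdl_append]
    rfl

theorem pd_add (e : ι → X) (s s' : Multiset ι) {φ : X → ℝ} (h : ContDiff ℝ ∞ φ) :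
    pd e (s + s') φ = pd e s (pd e s' φ) := by
  induction s using Multiset.induction_on with
  | empty => rw [zero_add, pd_zero]
  | cons k s ih => rw [Multiset.cons_add, pd_cons e k _ h, ih, pd_cons e k s (pd_smooth e s' h)]

theorem pd_map {κ : Type} (e : ι → X) (g : κ → ι) (s : Multiset κ) {φ : X → ℝ}
    (h : ContDiff ℝ ∞ φ) : pd e (s.map g) φ = pd (fun k => e (g k)) s φ := by
  induction s using Multiset.induction_on with
  | empty => rw [Multiset.map_zero, pd_zero, pd_zero]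
  | cons k s ih => rw [Multiset.map_cons, pd_cons e _ _ h, ih, pd_cons _ k s h]

theorem pd_fun_add (e : ι → X) (s : Multiset ι) {φ ψ : X → ℝ} (h : ContDiff ℝ ∞ φ)
    (h' : ContDiff ℝ ∞ ψ) :
    pd e s (fun y => φ y + ψ y) = fun y => pd e s φ y + pd e s ψ y := by
  induction s using Multiset.induction_on with
  | empty => simp only [pd_zero]
  | cons k s ih =>
    rw [pd_cons e k s (h.add h'), ih, dd_add (pd_smooth e s h) (pd_smooth e s h'),
      pd_cons e k s h, pd_cons e k s h']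

theorem pd_fun_sub (e : ι → X) (s : Multiset ι) {φ ψ : X → ℝ} (h : ContDiff ℝ ∞ φ)
    (h' : ContDiff ℝ ∞ ψ) :
    pd e s (fun y => φ y - ψ y) = fun y => pd e s φ y - pd e s ψ y := by
  induction s using Multiset.induction_on with
  | empty => simp only [pd_zero]
  | cons k s ih =>
    rw [pd_cons e k s (h.sub h'), ih, dd_sub (pd_smooth e s h) (pd_smooth e s h'),
      pd_cons e k s h, pd_cons e k s h']

theorem pd_const_mul (e : ι → X) (s : Multiset ι) {φ : X → ℝ} (h : ContDiff ℝ ∞ φ) (c : ℝ) :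
    pd e s (fun y => c * φ y) = fun y => c * pd e s φ y := by
  induction s using Multiset.induction_on with
  | empty => simp only [pd_zero]
  | cons k s ih =>
    rw [pd_cons e k s (contDiff_const.mul h), ih, dd_const_mul (pd_smooth e s h), pd_cons e k s h]

theorem pd_zero_aux (e : ι → X) (s : Multiset ι) :
    pd e s (fun _ => (0 : ℝ)) = fun _ => 0 := by
  induction s using Multiset.induction_on with
  | empty => rw [pd_zero]
  | cons k s ih => rw [pd_cons e k s contDiff_const, ih, dd_const]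

theorem pd_const (e : ι → X) {s : Multiset ι} (hs : s ≠ 0) (c : ℝ) :
    pd e s (fun _ => c) = fun _ => 0 := by
  obtain ⟨k, hk⟩ := Multiset.exists_mem_of_ne_zero hs
  obtain ⟨t, rfl⟩ := Multiset.exists_cons_of_mem hk
  rw [pd_cons' e k t contDiff_const, dd_const, pd_zero_aux]

theorem pd_fun_zero (e : ι → X) (s : Multiset ι) : pd e s (fun _ => (0 : ℝ)) = fun _ => 0 := by
  exact pd_zero_aux e s

/-- If `φ` is constant in a direction occurring in `s` then `pd e s φ = 0`. -/
theorem pd_eq_zero_of_mem (e : ι → X) {s : Multiset ι} {k : ι} (hk : k ∈ s) {φ : X → ℝ}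
    (h : ContDiff ℝ ∞ φ) (h0 : dd (e k) φ = fun _ => 0) : pd e s φ = fun _ => 0 := by
  obtain ⟨t, rfl⟩ := Multiset.exists_cons_of_mem hk
  rw [pd_cons' e k t h, h0, pd_fun_zero]

/-- Affine changes of variables. -/
theorem pd_comp_affine {Y : Type} [NormedAddCommGroup Y] [NormedSpace ℝ Y] (e : ι → Y)
    (s : Multiset ι) {φ : X → ℝ} (h : ContDiff ℝ ∞ φ) (L : Y →L[ℝ] X) (b : X) :
    pd e s (fun y => φ (L y + b)) = fun y => pd (fun k => L (e k)) s φ (L y + b) := by
  have hs : ContDiff ℝ ∞ fun y => φ (L y + b) := h.comp (L.contDiff.add contDiff_const)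
  induction s using Multiset.induction_on with
  | empty => simp only [pd_zero]
  | cons k s ih =>
    rw [pd_cons e k s hs, ih, dd_comp_affine (pd_smooth _ s h), pd_cons _ k s h]

/-- Leibniz rule over subsets of the index positions (`Finset.sum_powerset_insert`). -/
theorem pd_mul {κ : Type} [DecidableEq κ] (e : ι → X) (i : κ → ι) (S : Finset κ) {φ ψ : X → ℝ}
    (h : ContDiff ℝ ∞ φ) (h' : ContDiff ℝ ∞ ψ) :
    pd e (S.val.map i) (fun y => φ y * ψ y) =
      fun y => ∑ T ∈ S.powerset, pd e (T.val.map i) φ y * pd e ((S \ T).val.map i) ψ y := by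
  induction S using Finset.induction_on with
  | empty => simp [pd_zero]
  | insert a S ha ih =>
    rw [Finset.insert_val_of_notMem ha, Multiset.map_cons, pd_cons e _ _ (h.mul h'), ih,
      dd_sum _ fun T _ => (pd_smooth e _ h).mul (pd_smooth e _ h')]
    funext y
    rw [Finset.sum_powerset_insert ha, ← Finset.sum_add_distrib]
    refine Finset.sum_congr rfl fun T hT => ?_
    have hTS : T ⊆ S := Finset.mem_powerset.1 hT
    have haT : a ∉ T := fun q => ha (hTS q)
    have e1 : insert a S \ T = insert a (S \ T) := Finset.insert_sdiff_of_notMem S haT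
    have e2 : insert a S \ insert a T = S \ T := by
      rw [Finset.insert_sdiff_insert, Finset.sdiff_insert_of_notMem ha]
    have ha' : a ∉ S \ T := fun q => ha (Finset.mem_sdiff.1 q).1
    rw [e1, e2, Finset.insert_val_of_notMem ha', Finset.insert_val_of_notMem haT,
      Multiset.map_cons, Multiset.map_cons, pd_cons e _ _ h, pd_cons e _ _ h',
      dd_mul (pd_smooth e _ h) (pd_smooth e _ h')]
    exact add_comm _ _

/-- Space derivatives on `ℝ × E d` are derivatives of the slice. -/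
theorem pd_slice {d : ℕ} (s : Multiset (Fin d)) {φ : ℝ × E d → ℝ} (h : ContDiff ℝ ∞ φ) (r : ℝ)
    (x : E d) : pd ex s φ (r, x) = pd ee s (fun x => φ (r, x)) x := by
  have := pd_comp_affine ee s h (ContinuousLinearMap.inr ℝ ℝ (E d)) (r, 0)
  simp only [ContinuousLinearMap.inr_apply, Prod.mk_add_mk, zero_add, add_zero] at this
  rw [this]
  rfl

theorem pd_basis {d : ℕ} (v : E d) : v = ∑ k, v k • ee k := by
  have := (EuclideanSpace.basisFun (Fin d) ℝ).sum_repr v
  simpa [ee] using this.symm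

/-- Expansion of a direction in the standard basis. -/
theorem dd_expand {d : ℕ} (v : E d) (φ : E d → ℝ) (y : E d) :
    dd v φ y = ∑ k, v k * dd (ee k) φ y := by
  rw [← dd_dir_sum, ← pd_basis]

theorem dd_expand2 {d : ℕ} (r : ℝ) (v : E d) (φ : ℝ × E d → ℝ) (y : ℝ × E d) :
    dd (r, v) φ y = r * dd et φ y + ∑ k, v k * dd (ex k) φ y := by
  rw [← dd_dir_sum, ← dd_dir_smul, ← dd_dir_add]
  congr 1
  have e : ∑ k, v k • (ex k : ℝ × E d) = (0, ∑ k, v k • ee k) := by
    rw [← ContinuousLinearMap.inr_apply (R := ℝ), map_sum]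
    simp [ex]
  rw [e, ← pd_basis]
  simp [et]

end

end Crest.Agent.R285
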