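import Crest.Agent.R285.DefsW
import Crest.Agent.R285.PD
import Crest.Agent.R285.KK

/-!
# R285/ApInt: the polynomials `Ap` and differentiation of `g · KK`
-/

set_option autoImplicit false

namespace Crest.Agent.R285

open MeasureTheory ProbabilityTheory Crest.OracleSampling Set
open scoped RealInnerProductSpace ContDiff

noncomputable section

variable {d : ℕ} {δ : ℝ} {W : E d → ℝ}

theorem RR_smooth (hW : Pot d δ W) {θ : ℝ} (hθ : 0 < θ) : ContDiff ℝ ∞ (RR W θ) := by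
  exact (KK_smooth hW hθ (pg_const 1)).inv fun y => (II_pos hW hθ y).ne'

theorem GR_smooth (hW : Pot d δ W) (hδ : 0 ≤ δ) {θ : ℝ} (hθ : 0 < θ) (k : Fin d) :
    ContDiff ℝ ∞ (fun y => GG W θ y k * RR W θ y) := by
  exact (contDiff_euclidean.1 (GG_smooth hW hδ hθ) k).mul (RR_smooth hW hθ)

theorem Ap_zero (θ : ℝ) (x : E d) (g : E d → ℝ) (z : E d) : Ap θ x 0 g z = g x := by
  rw [Ap, pd_zero, ← mul_assoc, ← Real.exp_add, neg_add_cancel, Real.exp_zero, one_mul]

theorem apint_inner_ee (z : E d) (k : Fin d) : ⟪z, ee k⟫ = z k := by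
  rw [ee, EuclideanSpace.inner_single_right]
  simp

theorem apint_lin_smooth (θ : ℝ) (z : E d) : ContDiff ℝ ∞ fun y : E d => θ * ⟪z, y⟫ :=
  contDiff_const.mul (innerSL ℝ z).contDiff

theorem apint_dd_exp (θ : ℝ) (z v : E d) :
    dd v (fun y : E d => Real.exp (θ * ⟪z, y⟫)) =
      fun y => θ * ⟪z, v⟫ * Real.exp (θ * ⟪z, y⟫) := by
  have h1 : dd v (fun y : E d => ⟪z, y⟫) = fun _ => ⟪z, v⟫ := dd_clm (innerSL ℝ z) v
  have h2 : ContDiff ℝ ∞ fun y : E d => ⟪z, y⟫ := (innerSL ℝ z).contDiff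
  rw [dd_exp (apint_lin_smooth θ z), dd_const_mul h2, h1]
  funext y
  ring

/-- `pd_cons'` and the product rule. -/
theorem Ap_cons (θ : ℝ) (x : E d) (k : Fin d) (s : Multiset (Fin d)) {g : E d → ℝ}
    (hg : ContDiff ℝ ∞ g) (z : E d) :
    Ap θ x (k ::ₘ s) g z = Ap θ x s (dd (ee k) g) z + θ * z k * Ap θ x s g z := by
  have he := (apint_lin_smooth θ z).exp
  have e : dd (ee k) (fun y => Real.exp (θ * ⟪z, y⟫) * g y) =
      fun y => Real.exp (θ * ⟪z, y⟫) * dd (ee k) g y +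
        θ * z k * (Real.exp (θ * ⟪z, y⟫) * g y) := by
    rw [dd_mul he hg, apint_dd_exp, apint_inner_ee]
    funext y
    ring
  simp only [Ap]
  rw [pd_cons' ee k s (he.mul hg), e,
    pd_fun_add ee s (he.mul (dd_smooth hg _)) (contDiff_const.mul (he.mul hg)),
    pd_const_mul ee s (he.mul hg)]
  ring

theorem Ap_smooth (θ : ℝ) (x : E d) (s : Multiset (Fin d)) {g : E d → ℝ} (hg : ContDiff ℝ ∞ g) :
    ContDiff ℝ ∞ (Ap θ x s g) := by
  induction s using Multiset.induction_on generalizing g with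
  | empty =>
    rw [show Ap θ x 0 g = fun _ => g x from funext fun z => Ap_zero θ x g z]
    exact contDiff_const
  | cons k s ih =>
    rw [show Ap θ x (k ::ₘ s) g = _ from funext fun z => Ap_cons θ x k s hg z]
    exact (ih (dd_smooth hg _)).add
      ((contDiff_const.mul (EuclideanSpace.proj k : E d →L[ℝ] ℝ).contDiff).mul (ih hg))

theorem Ap_pg (θ : ℝ) (x : E d) (s : Multiset (Fin d)) {g : E d → ℝ} (hg : ContDiff ℝ ∞ g) :
    PG (Ap θ x s g) := by
  induction s using Multiset.induction_on generalizing g with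
  | empty =>
    rw [show Ap θ x 0 g = fun _ => g x from funext fun z => Ap_zero θ x g z]
    exact pg_const _
  | cons k s ih =>
    rw [show Ap θ x (k ::ₘ s) g = _ from funext fun z => Ap_cons θ x k s hg z]
    exact (ih (dd_smooth hg _)).add (((pg_coord k).const_mul θ).mul (ih hg))

/-- Appell property (induction on `S` with `Ap_cons`, generalising `g`). -/
theorem dd_Ap {κ : Type} [DecidableEq κ] (θ : ℝ) (x : E d) (i : κ → Fin d) (S : Finset κ)
    {g : E d → ℝ} (hg : ContDiff ℝ ∞ g) (j : Fin d) (z : E d) :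
    dd (ee j) (Ap θ x (S.val.map i) g) z =
      θ * ∑ m ∈ S, if i m = j then Ap θ x ((S.erase m).val.map i) g z else 0 := by
  induction S using Finset.induction_on generalizing g with
  | empty =>
    rw [Finset.empty_val, Multiset.map_zero,
      show Ap θ x 0 g = fun _ => g x from funext fun z => Ap_zero θ x g z, dd_const]
    simp
  | insert a S ha ih =>
    have hc : ContDiff ℝ ∞ fun z : E d => z (i a) :=
      (EuclideanSpace.proj (i a) : E d →L[ℝ] ℝ).contDiff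
    have hd : dd (ee j) (fun z : E d => z (i a)) = fun _ => if i a = j then 1 else 0 := by
      rw [show (fun z : E d => z (i a)) = (EuclideanSpace.proj (i a) : E d →L[ℝ] ℝ) from rfl,
        dd_clm]
      funext _
      simp [ee]
    rw [Finset.insert_val_of_notMem ha, Multiset.map_cons,
      show Ap θ x (i a ::ₘ S.val.map i) g = _ from funext fun z => Ap_cons θ x (i a) _ hg z,
      dd_add (Ap_smooth θ x _ (dd_smooth hg _)) ((contDiff_const.mul hc).mul (Ap_smooth θ x _ hg)),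
      dd_mul (contDiff_const.mul hc) (Ap_smooth θ x _ hg), dd_const_mul hc, hd]
    simp only
    rw [ih (dd_smooth hg _), ih hg, Finset.sum_insert ha, Finset.erase_insert ha]
    have e : ∑ m ∈ S, (if i m = j then Ap θ x (((insert a S).erase m).val.map i) g z else 0) =
        (∑ m ∈ S, if i m = j then Ap θ x ((S.erase m).val.map i) (dd (ee (i a)) g) z else 0) +
          θ * z (i a) * ∑ m ∈ S, if i m = j then Ap θ x ((S.erase m).val.map i) g z else 0 := by
      rw [Finset.mul_sum, ← Finset.sum_add_distrib]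
      refine Finset.sum_congr rfl fun m hm => ?_
      have hma : a ≠ m := fun h => ha (h ▸ hm)
      have ha' : a ∉ S.erase m := fun h => ha (Finset.mem_of_mem_erase h)
      rw [Finset.erase_insert_of_ne hma, Finset.insert_val_of_notMem ha', Multiset.map_cons,
        Ap_cons θ x _ _ hg]
      split_ifs <;> simp
    rw [e]
    split_ifs <;> ring

/-- Induction on `s` generalising `g, h`: `pd_cons'`, `dd_mul`, `dd_KK`, `Ap_cons`, `KK_add`. -/
theorem star1 (hW : Pot d δ W) {θ : ℝ} (hθ : 0 < θ) (x : E d) (s : Multiset (Fin d))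
    {g h : E d → ℝ} (hg : ContDiff ℝ ∞ g) (hh : PG h) :
    pd ee s (fun y => g y * KK W θ h y) x = KK W θ (fun z => h z * Ap θ x s g z) x := by
  induction s using Multiset.induction_on generalizing g h with
  | empty =>
    simp only [pd_zero, Ap_zero]
    rw [← KK_const_mul]
    simp only [mul_comm]
  | cons k s ih =>
    have hh' : PG fun z => θ * ⟪z, ee k⟫ * h z := ((pg_inner _).const_mul θ).mul hh
    rw [pd_cons' ee k s (hg.mul (KK_smooth hW hθ hh)), dd_mul hg (KK_smooth hW hθ hh),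
      dd_KK hW hθ hh, pd_fun_add ee s ((dd_smooth hg _).mul (KK_smooth hW hθ hh))
        (hg.mul (KK_smooth hW hθ hh'))]
    simp only
    rw [ih (dd_smooth hg _) hh, ih hg hh', ← KK_add hW hθ (hh.mul (Ap_pg θ x s (dd_smooth hg _)))
      (hh'.mul (Ap_pg θ x s hg))]
    congr 1
    funext z
    rw [Ap_cons θ x k s hg, apint_inner_ee]
    ring

theorem apint_phi_smooth (hW : Pot d δ W) {θ : ℝ} (hθ : 0 < θ) (x : E d)
    {g₁ g₂ h : E d → ℝ} (hg₁ : ContDiff ℝ ∞ g₁) (hg₂ : ContDiff ℝ ∞ g₂) (hh : PG h) :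
    ContDiff ℝ ∞ fun p : E d × E d => g₁ p.1 * g₂ p.2 * KK W θ h (p.1 + p.2 - x) :=
  ((hg₁.comp contDiff_fst).mul (hg₂.comp contDiff_snd)).mul
    ((KK_smooth hW hθ hh).comp ((contDiff_fst.add contDiff_snd).sub contDiff_const))

theorem apint_dd_phi (hW : Pot d δ W) {θ : ℝ} (hθ : 0 < θ) (x v w : E d)
    {g₁ g₂ h : E d → ℝ} (hg₁ : ContDiff ℝ ∞ g₁) (hg₂ : ContDiff ℝ ∞ g₂) (hh : PG h) :
    dd (v, w) (fun p : E d × E d => g₁ p.1 * g₂ p.2 * KK W θ h (p.1 + p.2 - x)) =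
      fun p => (dd v g₁ p.1 * g₂ p.2 + g₁ p.1 * dd w g₂ p.2) * KK W θ h (p.1 + p.2 - x) +
        g₁ p.1 * g₂ p.2 * KK W θ (fun z => θ * ⟪z, v + w⟫ * h z) (p.1 + p.2 - x) := by
  have h1 : ContDiff ℝ ∞ fun p : E d × E d => g₁ p.1 := hg₁.comp contDiff_fst
  have h2 : ContDiff ℝ ∞ fun p : E d × E d => g₂ p.2 := hg₂.comp contDiff_snd
  have h3 : ContDiff ℝ ∞ fun p : E d × E d => KK W θ h (p.1 + p.2 - x) :=
    (KK_smooth hW hθ hh).comp ((contDiff_fst.add contDiff_snd).sub contDiff_const)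
  have e1 : dd (v, w) (fun p : E d × E d => g₁ p.1) = fun p => dd v g₁ p.1 := by
    simpa using dd_comp_affine hg₁ (ContinuousLinearMap.fst ℝ (E d) (E d)) 0 (v, w)
  have e2' : dd (v, w) (fun p : E d × E d => g₂ p.2) = fun p => dd w g₂ p.2 := by
    simpa using dd_comp_affine hg₂ (ContinuousLinearMap.snd ℝ (E d) (E d)) 0 (v, w)
  have e3 : dd (v, w) (fun p : E d × E d => KK W θ h (p.1 + p.2 - x)) =
      fun p => KK W θ (fun z => θ * ⟪z, v + w⟫ * h z) (p.1 + p.2 - x) := by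
    have := dd_comp_affine (KK_smooth hW hθ hh)
      (ContinuousLinearMap.fst ℝ (E d) (E d) + ContinuousLinearMap.snd ℝ (E d) (E d)) (-x) (v, w)
    rw [dd_KK hW hθ hh] at this
    simp only [sub_eq_add_neg]
    exact this
  rw [dd_mul (h1.mul h2) h3, dd_mul h1 h2, e1, e2', e3]

theorem apint_star0 (hW : Pot d δ W) {θ : ℝ} (hθ : 0 < θ) (x : E d) (b : Multiset (Fin d))
    {g₁ g₂ h : E d → ℝ} (hg₁ : ContDiff ℝ ∞ g₁) (hg₂ : ContDiff ℝ ∞ g₂) (hh : PG h) :
    pd e2 (b.map Sum.inr)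
        (fun p : E d × E d => g₁ p.1 * g₂ p.2 * KK W θ h (p.1 + p.2 - x)) (x, x) =
      KK W θ (fun z => h z * g₁ x * Ap θ x b g₂ z) x := by
  induction b using Multiset.induction_on generalizing g₂ h with
  | empty =>
    simp only [Multiset.map_zero, pd_zero, Ap_zero, add_sub_cancel_right]
    rw [← KK_const_mul]
    congr 1
    funext z
    ring
  | cons k b ih =>
    have hh' : PG fun z => θ * ⟪z, ee k⟫ * h z := ((pg_inner _).const_mul θ).mul hh
    rw [Multiset.map_cons, pd_cons' e2 _ _ (apint_phi_smooth hW hθ x hg₁ hg₂ hh),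
      show (e2 (Sum.inr k) : E d × E d) = (0, ee k) from rfl, apint_dd_phi hW hθ x _ _ hg₁ hg₂ hh]
    simp only [dd_dir_zero, zero_mul, zero_add]
    rw [pd_fun_add e2 _ (apint_phi_smooth hW hθ x hg₁ (dd_smooth hg₂ _) hh)
      (apint_phi_smooth hW hθ x hg₁ hg₂ hh')]
    simp only
    rw [ih (dd_smooth hg₂ _) hh, ih hg₂ hh',
      ← KK_add hW hθ ((hh.mul (pg_const _)).mul (Ap_pg θ x b (dd_smooth hg₂ _)))
      ((hh'.mul (pg_const _)).mul (Ap_pg θ x b hg₂))]
    congr 1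
    funext z
    rw [Ap_cons θ x k b hg₂, apint_inner_ee]
    ring

/-- Two-variable version, induction on `a` then `b`. -/
theorem star2 (hW : Pot d δ W) {θ : ℝ} (hθ : 0 < θ) (x : E d) (a b : Multiset (Fin d))
    {g₁ g₂ h : E d → ℝ} (hg₁ : ContDiff ℝ ∞ g₁) (hg₂ : ContDiff ℝ ∞ g₂) (hh : PG h) :
    pd e2 (a.map Sum.inl + b.map Sum.inr)
        (fun p : E d × E d => g₁ p.1 * g₂ p.2 * KK W θ h (p.1 + p.2 - x)) (x, x) =
      KK W θ (fun z => h z * Ap θ x a g₁ z * Ap θ x b g₂ z) x := by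
  induction a using Multiset.induction_on generalizing g₁ h with
  | empty =>
    simp only [Multiset.map_zero, zero_add, Ap_zero]
    exact apint_star0 hW hθ x b hg₁ hg₂ hh
  | cons k a ih =>
    have hh' : PG fun z => θ * ⟪z, ee k⟫ * h z := ((pg_inner _).const_mul θ).mul hh
    rw [Multiset.map_cons, Multiset.cons_add, pd_cons' e2 _ _ (apint_phi_smooth hW hθ x hg₁ hg₂ hh),
      show (e2 (Sum.inl k) : E d × E d) = (ee k, 0) from rfl, apint_dd_phi hW hθ x _ _ hg₁ hg₂ hh]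
    simp only [dd_dir_zero, mul_zero, add_zero]
    rw [pd_fun_add e2 _ (apint_phi_smooth hW hθ x (dd_smooth hg₁ _) hg₂ hh)
      (apint_phi_smooth hW hθ x hg₁ hg₂ hh')]
    simp only
    rw [ih (dd_smooth hg₁ _) hh, ih hg₁ hh',
      ← KK_add hW hθ ((hh.mul (Ap_pg θ x a (dd_smooth hg₁ _))).mul (Ap_pg θ x b hg₂))
      ((hh'.mul (Ap_pg θ x a hg₁)).mul (Ap_pg θ x b hg₂))]
    congr 1
    funext z
    rw [Ap_cons θ x k a hg₁, apint_inner_ee]
    ring

theorem PP_pg (hW : Pot d δ W) {θ : ℝ} (hθ : 0 < θ) (x : E d) (s : Multiset (Fin d)) :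
    PG (PP W θ x s) := by
  exact (Ap_pg θ x s (RR_smooth hW hθ)).const_mul _

theorem PF_pg (hW : Pot d δ W) (hδ : 0 ≤ δ) {θ : ℝ} (hθ : 0 < θ) (x : E d) (k : Fin d)
    (s : Multiset (Fin d)) : PG (PF W θ x k s) := by
  exact (((hW.pg_grad hδ k).mul (Ap_pg θ x s (RR_smooth hW hθ))).sub
    (Ap_pg θ x s (GR_smooth hW hδ hθ k))).const_mul _

theorem PP_zero (hW : Pot d δ W) {θ : ℝ} (hθ : 0 < θ) (x z : E d) : PP W θ x 0 z = 1 := by
  rw [PP, Ap_zero, RR, mul_inv_cancel₀ (II_pos hW hθ x).ne']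

/-- `∫ PP s dμ = ∂^s (RR · II) = ∂^s 1` by `integral_mu`, `star1`. -/
theorem mean_PP (hW : Pot d δ W) {θ : ℝ} (hθ : 0 < θ) (x : E d) {s : Multiset (Fin d)}
    (hs : s ≠ 0) : ∫ z, PP W θ x s z ∂(mu W θ x) = 0 := by
  have h1 := star1 hW hθ x s (RR_smooth hW hθ) (pg_const 1)
  have e : (fun y => RR W θ y * KK W θ (fun _ => 1) y) = fun _ => 1 :=
    funext fun y => inv_mul_cancel₀ (II_pos hW hθ y).ne'
  rw [e, pd_const ee hs] at h1
  simp only [one_mul] at h1
  rw [integral_mu hW hθ]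
  unfold PP
  rw [KK_const_mul, ← h1]
  simp

/-- `∫ PF k s dμ = ∂^s(RR · KK(∂_k W)) - ∂^s(GG_k RR II) = 0` (`GG_apply`). -/
theorem mean_PF (hW : Pot d δ W) (hδ : 0 ≤ δ) {θ : ℝ} (hθ : 0 < θ) (x : E d) (k : Fin d)
    (s : Multiset (Fin d)) : ∫ z, PF W θ x k s z ∂(mu W θ x) = 0 := by
  have h1 := star1 hW hθ x s (RR_smooth hW hθ) (hW.pg_grad hδ k)
  have h2 := star1 hW hθ x s (GR_smooth hW hδ hθ k) (pg_const 1)
  have e : (fun y => GG W θ y k * RR W θ y * KK W θ (fun _ => 1) y) =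
      fun y => RR W θ y * KK W θ (fun z => gradient W z k) y := by
    funext y
    have := (II_pos hW hθ y).ne'
    rw [GG_apply hW hδ hθ, RR, ← II]
    field_simp
  rw [e, h1] at h2
  simp only [one_mul] at h2
  have h3 := KK_add hW hθ (((hW.pg_grad hδ k).mul (Ap_pg θ x s (RR_smooth hW hθ))).sub
    (Ap_pg θ x s (GR_smooth hW hδ hθ k))) (Ap_pg θ x s (GR_smooth hW hδ hθ k)) x
  simp only [sub_add_cancel] at h3
  rw [h2] at h3
  rw [integral_mu hW hθ]
  unfold PF
  rw [KK_const_mul, left_eq_add.1 (h3.trans (add_comm _ _))]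
  simp

theorem PG.memLp_mu {h : E d → ℝ} (hh : PG h) (hW : Pot d δ W) {θ : ℝ} (hθ : 0 < θ) (x : E d) :
    MemLp h 2 (mu W θ x) := by
  exact (memLp_two_iff_integrable_sq hh.1.aestronglyMeasurable).2
    ((hh.pow 2).integrable_mu hW hθ x)

end

end Crest.Agent.R285
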