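import Crest.Agent.R285.DefsA

/-!
# R285/OpBd: calculus of operator-norm bounds for matrices
-/

set_option autoImplicit false

namespace Crest.Agent.R285

open MeasureTheory ProbabilityTheory Crest.OracleSampling Set
open scoped RealInnerProductSpace ContDiff

noncomputable section

variable {O J K : Type} [Fintype O] [Fintype J] [Fintype K]

theorem opbd_cs (f g : O → ℝ) : |∑ o, f o * g o| ≤ √(∑ o, f o ^ 2) * √(∑ o, g o ^ 2) := by
  rw [← Real.sqrt_mul (Finset.sum_nonneg fun _ _ => sq_nonneg _)]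
  exact Real.abs_le_sqrt (Finset.sum_mul_sq_le_sq_mul_sq _ _ _)

theorem opbd_sum_eq (M : O → J → ℝ) (A : J → ℝ) (B : O → ℝ) :
    ∑ o, ∑ j, B o * M o j * A j = ∑ o, B o * ∑ j, M o j * A j := by
  simp only [Finset.mul_sum, mul_assoc]

theorem opbd_msf {α κ : Type} {p : κ → Prop} [Fintype {m // p m}] (S : Finset κ)
    (hS : ∀ m, m ∈ S ↔ p m) (j : κ → α) : msf (fun m : {m // p m} => j m) = S.val.map j := by
  have h : (Finset.univ : Finset {m // p m}).val.map Subtype.val = S.val := by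
    refine (Multiset.Nodup.ext ((Finset.univ : Finset {m // p m}).nodup.map
      Subtype.val_injective) S.nodup).2 fun m => ?_
    simp [hS]
  rw [← h, Multiset.map_map]
  rfl

theorem opbd_integral_cs {α : Type} [MeasurableSpace α] {μ : Measure α} {F G : α → ℝ}
    (hF : MemLp F 2 μ) (hG : MemLp G 2 μ) :
    |∫ z, F z * G z ∂μ| ≤ √(∫ z, F z ^ 2 ∂μ) * √(∫ z, G z ^ 2 ∂μ) := by
  have iF := hF.integrable_sq
  have iG := hG.integrable_sq
  have iFG : Integrable (fun z => F z * G z) μ := hF.integrable_mul hG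
  rw [← Real.sqrt_mul (integral_nonneg fun _ => sq_nonneg _)]
  refine Real.abs_le_sqrt ?_
  have h : discrim (∫ z, F z ^ 2 ∂μ) (2 * ∫ z, F z * G z ∂μ) (∫ z, G z ^ 2 ∂μ) ≤ 0 := by
    refine discrim_le_zero fun t => ?_
    have h1 : 0 ≤ ∫ z, (t * F z + G z) ^ 2 ∂μ := integral_nonneg fun _ => sq_nonneg _
    have h2 : (fun z => (t * F z + G z) ^ 2)
        = fun z => (t * t * F z ^ 2 + 2 * t * (F z * G z)) + G z ^ 2 := by
      funext z; ring
    have h3 : Integrable (fun z => t * t * F z ^ 2 + 2 * t * (F z * G z)) μ :=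
      (iF.const_mul _).add (iFG.const_mul _)
    rw [h2, integral_add h3 iG,
      integral_add (iF.const_mul _) (iFG.const_mul _), integral_const_mul, integral_const_mul] at h1
    linarith
  rw [discrim] at h
  linarith

theorem OpBd.mono {M : O → J → ℝ} {C C' : ℝ} (h : OpBd M C) (hC : C ≤ C') : OpBd M C' := by
  intro A B
  refine (h A B).trans ?_
  gcongr

theorem opBd_zero {C : ℝ} (hC : 0 ≤ C) : OpBd (fun (_ : O) (_ : J) => (0 : ℝ)) C := by
  intro A B
  simp only [mul_zero, zero_mul, Finset.sum_const_zero, abs_zero]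
  positivity

theorem opBd_id [DecidableEq O] : OpBd (fun o o' : O => if o = o' then (1 : ℝ) else 0) 1 := by
  intro A B
  have : ∑ o, ∑ j, B o * (if o = j then (1 : ℝ) else 0) * A j = ∑ o, A o * B o := by
    simp [mul_comm]
  rw [this, one_mul]
  exact opbd_cs A B

theorem OpBd.add {M M' : O → J → ℝ} {C C' : ℝ} (h : OpBd M C) (h' : OpBd M' C') :
    OpBd (fun o j => M o j + M' o j) (C + C') := by
  intro A B
  simp only [mul_add, add_mul, Finset.sum_add_distrib]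
  exact (abs_add_le _ _).trans (add_le_add (h A B) (h' A B))

theorem OpBd.sub {M M' : O → J → ℝ} {C C' : ℝ} (h : OpBd M C) (h' : OpBd M' C') :
    OpBd (fun o j => M o j - M' o j) (C + C') := by
  intro A B
  simp only [mul_sub, sub_mul, add_mul, Finset.sum_sub_distrib]
  exact (abs_sub _ _).trans (add_le_add (h A B) (h' A B))

theorem OpBd.sum {ι : Type} (s : Finset ι) {M : ι → O → J → ℝ} {C : ι → ℝ}
    (h : ∀ i ∈ s, OpBd (M i) (C i)) : OpBd (fun o j => ∑ i ∈ s, M i o j) (∑ i ∈ s, C i) := by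
  classical
  induction s using Finset.induction_on with
  | empty => simpa using opBd_zero (O := O) (J := J) le_rfl
  | insert i s hi ih =>
    simp only [Finset.sum_insert hi]
    exact (h i (Finset.mem_insert_self _ _)).add
      (ih fun k hk => h k (Finset.mem_insert_of_mem hk))

theorem OpBd.const_mul {M : O → J → ℝ} {C : ℝ} (h : OpBd M C) (c : ℝ) :
    OpBd (fun o j => c * M o j) (|c| * C) := by
  intro A B
  have : ∑ o, ∑ j, B o * (c * M o j) * A j = c * ∑ o, ∑ j, B o * M o j * A j := by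
    simp only [Finset.mul_sum]
    exact Finset.sum_congr rfl fun o _ => Finset.sum_congr rfl fun j _ => by ring
  rw [this, abs_mul, mul_assoc, mul_assoc, ← mul_assoc C]
  exact mul_le_mul_of_nonneg_left (h A B) (abs_nonneg c)

theorem OpBd.transpose {M : O → J → ℝ} {C : ℝ} (h : OpBd M C) : OpBd (fun j o => M o j) C := by
  intro A B
  have : ∑ j, ∑ o, B j * M o j * A o = ∑ o, ∑ j, A o * M o j * B j := by
    rw [Finset.sum_comm]
    exact Finset.sum_congr rfl fun o _ => Finset.sum_congr rfl fun j _ => by ring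
  rw [this, mul_right_comm]
  exact h B A

/-- `‖M A‖² ≤ C² ‖A‖²`. -/
theorem OpBd.apply_le {M : O → J → ℝ} {C : ℝ} (h : OpBd M C) (hC : 0 ≤ C) (A : J → ℝ) :
    ∑ o, (∑ j, M o j * A j) ^ 2 ≤ C ^ 2 * ∑ j, A j ^ 2 := by
  have h1 := h A fun o => ∑ j, M o j * A j
  rw [opbd_sum_eq] at h1
  simp only [← sq] at h1
  obtain ⟨S, hS⟩ : ∃ S, S = ∑ o, (∑ j, M o j * A j) ^ 2 := ⟨_, rfl⟩
  rw [← hS] at h1 ⊢
  have hS0 : 0 ≤ S := hS ▸ Finset.sum_nonneg fun _ _ => sq_nonneg _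
  have hA : 0 ≤ ∑ j, A j ^ 2 := Finset.sum_nonneg fun _ _ => sq_nonneg _
  rw [abs_of_nonneg hS0] at h1
  have e1 := Real.sq_sqrt hS0
  have e2 := Real.sq_sqrt hA
  rw [← e2, ← mul_pow]
  nlinarith [sq_nonneg (C * √(∑ j, A j ^ 2) - √S)]

theorem opBd_of_apply_le {M : O → J → ℝ} {C : ℝ} (hC : 0 ≤ C)
    (h : ∀ A : J → ℝ, ∑ o, (∑ j, M o j * A j) ^ 2 ≤ C ^ 2 * ∑ j, A j ^ 2) : OpBd M C := by
  intro A B
  rw [opbd_sum_eq, mul_comm]
  refine (opbd_cs _ _).trans (mul_le_mul_of_nonneg_left ?_ (Real.sqrt_nonneg _))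
  refine (Real.sqrt_le_sqrt (h A)).trans_eq ?_
  rw [Real.sqrt_mul (sq_nonneg C), Real.sqrt_sq hC]

theorem OpBd.entry_le {M : O → J → ℝ} {C : ℝ} (h : OpBd M C) (o : O) (j : J) : |M o j| ≤ C := by
  classical
  simpa [Finset.sum_ite_eq', apply_ite] using
    h (fun j' => if j' = j then 1 else 0) fun o' => if o' = o then 1 else 0

theorem OpBd.comp {M₂ : O → K → ℝ} {M₁ : K → J → ℝ} {C₂ C₁ : ℝ} (h₂ : OpBd M₂ C₂)
    (h₁ : OpBd M₁ C₁) (hC₂ : 0 ≤ C₂) (hC₁ : 0 ≤ C₁) :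
    OpBd (fun o j => ∑ k, M₂ o k * M₁ k j) (C₂ * C₁) := by
  refine opBd_of_apply_le (mul_nonneg hC₂ hC₁) fun A => ?_
  have e (o : O) : ∑ j, (∑ k, M₂ o k * M₁ k j) * A j = ∑ k, M₂ o k * ∑ j, M₁ k j * A j := by
    simp only [Finset.sum_mul, Finset.mul_sum, mul_assoc]
    exact Finset.sum_comm
  simp only [e]
  refine (h₂.apply_le hC₂ _).trans ?_
  rw [mul_pow, mul_assoc]
  exact mul_le_mul_of_nonneg_left (h₁.apply_le hC₁ A) (sq_nonneg _)

theorem OpBd.reidx {O' J' : Type} [Fintype O'] [Fintype J'] {M : O → J → ℝ} {C : ℝ} (h : OpBd M C)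
    (eO : O' ≃ O) (eJ : J' ≃ J) : OpBd (fun o j => M (eO o) (eJ j)) C := by
  intro A B
  have := h (fun j => A (eJ.symm j)) fun o => B (eO.symm o)
  rw [← eO.sum_comp, ← eO.sum_comp, ← eJ.sum_comp] at this
  simp only [← eJ.sum_comp, Equiv.symm_apply_apply] at this
  exact this

/-- `id ⊗ M`. -/
theorem OpBd.idL {T : Type} [Fintype T] [DecidableEq T] {M : O → J → ℝ} {C : ℝ} (h : OpBd M C)
    (hC : 0 ≤ C) : OpBd (fun (o : T × O) (j : T × J) => if o.1 = j.1 then M o.2 j.2 else 0) C := by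
  refine opBd_of_apply_le hC fun A => ?_
  simp only [Fintype.sum_prod_type]
  rw [Finset.mul_sum]
  refine Finset.sum_le_sum fun t _ => le_trans (le_of_eq ?_) (h.apply_le hC fun j => A (t, j))
  refine Finset.sum_congr rfl fun o _ => ?_
  congr 1
  rw [Finset.sum_comm]
  simp

/-- Kronecker product `(M ⊗ id)(id ⊗ M')`. -/
theorem OpBd.kron {O' J' : Type} [Fintype O'] [Fintype J'] {M : O → J → ℝ} {M' : O' → J' → ℝ}
    {C C' : ℝ} (h : OpBd M C) (h' : OpBd M' C') (hC : 0 ≤ C) (hC' : 0 ≤ C') :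
    OpBd (fun (o : O × O') (j : J × J') => M o.1 j.1 * M' o.2 j.2) (C * C') := by
  classical
  have h1 : OpBd (fun (o : O × O') (k : J × O') => if o.2 = k.2 then M o.1 k.1 else 0) C :=
    (h.idL (T := O') hC).reidx (Equiv.prodComm O O') (Equiv.prodComm J O')
  have h2 := h1.comp (h'.idL (T := J) hC') hC hC'
  convert h2 using 3 with o j
  simp [Fintype.sum_prod_type]

theorem opBd_clm {d : ℕ} (A : E d →L[ℝ] E d) : OpBd (fun k l : Fin d => A (ee l) k) ‖A‖ := by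
  refine opBd_of_apply_le (norm_nonneg A) fun a => ?_
  have hv : (WithLp.toLp 2 a : E d) = ∑ l, a l • ee l := by
    ext k
    simp [ee, Pi.single_apply]
  have e (k : Fin d) : ∑ l, A (ee l) k * a l = A (WithLp.toLp 2 a) k := by
    rw [hv, map_sum]
    simp [mul_comm]
  simp only [e]
  have h1 := EuclideanSpace.real_norm_sq_eq (A (WithLp.toLp 2 a))
  have h2 := EuclideanSpace.real_norm_sq_eq (WithLp.toLp 2 a : E d)
  rw [← h1, ← h2, ← mul_pow]
  exact pow_le_pow_left₀ (norm_nonneg _) (A.le_opNorm _) 2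

/-- Gram matrices of two families of functions with `L²` bounds (Cauchy–Schwarz). -/
theorem opBd_gram {α : Type} [MeasurableSpace α] {μ : Measure α} {φ : O → α → ℝ} {ψ : J → α → ℝ}
    (hφ : ∀ o, MemLp (φ o) 2 μ) (hψ : ∀ j, MemLp (ψ j) 2 μ) {C₁ C₂ : ℝ} (h₁ : 0 ≤ C₁) (h₂ : 0 ≤ C₂)
    (H₁ : ∀ B : O → ℝ, ∫ z, (∑ o, B o * φ o z) ^ 2 ∂μ ≤ C₁ ^ 2 * ∑ o, B o ^ 2)
    (H₂ : ∀ A : J → ℝ, ∫ z, (∑ j, A j * ψ j z) ^ 2 ∂μ ≤ C₂ ^ 2 * ∑ j, A j ^ 2) :
    OpBd (fun o j => ∫ z, φ o z * ψ j z ∂μ) (C₁ * C₂) := by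
  intro A B
  have hF : MemLp (fun z => ∑ o, B o * φ o z) 2 μ :=
    memLp_finsetSum _ fun o _ => (hφ o).const_mul _
  have hG : MemLp (fun z => ∑ j, A j * ψ j z) 2 μ :=
    memLp_finsetSum _ fun j _ => (hψ j).const_mul _
  have hi (o : O) (j : J) : Integrable (fun z => B o * A j * (φ o z * ψ j z)) μ :=
    ((hφ o).integrable_mul (hψ j)).const_mul _
  have e : ∑ o, ∑ j, B o * (∫ z, φ o z * ψ j z ∂μ) * A j
      = ∫ z, (∑ o, B o * φ o z) * (∑ j, A j * ψ j z) ∂μ := by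
    have e1 (z : α) : (∑ o, B o * φ o z) * (∑ j, A j * ψ j z)
        = ∑ o, ∑ j, B o * A j * (φ o z * ψ j z) := by
      rw [Finset.sum_mul_sum]
      exact Finset.sum_congr rfl fun o _ => Finset.sum_congr rfl fun j _ => by ring
    simp only [e1]
    rw [integral_finsetSum _ fun o _ => integrable_finsetSum _ fun j _ => hi o j]
    refine Finset.sum_congr rfl fun o _ => ?_
    rw [integral_finsetSum _ fun j _ => hi o j]
    refine Finset.sum_congr rfl fun j _ => ?_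
    rw [integral_const_mul]
    ring
  rw [e]
  refine (opbd_integral_cs hF hG).trans ?_
  have a1 := Real.sqrt_le_sqrt (H₁ B)
  have a2 := Real.sqrt_le_sqrt (H₂ A)
  rw [Real.sqrt_mul (sq_nonneg _), Real.sqrt_sq h₁] at a1
  rw [Real.sqrt_mul (sq_nonneg _), Real.sqrt_sq h₂] at a2
  refine (mul_le_mul a1 a2 (Real.sqrt_nonneg _) (by positivity)).trans_eq ?_
  ring

/-- Splitting index tuples along subsets `S ⊆ κ`, `T ⊆ ι` of positions
(`Equiv.piEquivPiSubtypeProd`, `kron`, `reidx`; `msf (fun m : {m // m ∈ S} => j m) = S.val.map j`). -/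
theorem OpBd.sub_prod {α ι κ : Type} [Fintype α] [Fintype ι] [Fintype κ] [DecidableEq ι]
    [DecidableEq κ] (S : Finset κ) (T : Finset ι) {M₁ : Multiset α → Multiset α → ℝ}
    {M₂ : α → Multiset α → Multiset α → ℝ} {C₁ C₂ : ℝ} (hC₁ : 0 ≤ C₁) (hC₂ : 0 ≤ C₂)
    (h₁ : OpBd (fun (j : {m // m ∈ S} → α) (i : {m // m ∈ T} → α) => M₁ (msf j) (msf i)) C₁)
    (h₂ : OpBd (fun (j : α × ({m // m ∉ S} → α)) (i : {m // m ∉ T} → α) =>
      M₂ j.1 (msf j.2) (msf i)) C₂) :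
    OpBd (fun (j : α × (κ → α)) (i : ι → α) =>
      M₁ (S.val.map j.2) (T.val.map i) * M₂ j.1 (Sᶜ.val.map j.2) (Tᶜ.val.map i)) (C₁ * C₂) := by
  have h := (h₁.kron h₂ hC₁ hC₂).reidx
    (((Equiv.refl α).prodCongr (Equiv.piEquivPiSubtypeProd (· ∈ S) fun _ => α)).trans
      ((Equiv.prodAssoc _ _ _).symm.trans
        (((Equiv.prodComm _ _).prodCongr (Equiv.refl _)).trans (Equiv.prodAssoc _ _ _))))
    (Equiv.piEquivPiSubtypeProd (· ∈ T) fun _ => α)
  convert h using 3 with j i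
  rw [← opbd_msf (p := (· ∈ S)) S (fun _ => Iff.rfl), ← opbd_msf (p := (· ∈ T)) T (fun _ => Iff.rfl),
    ← opbd_msf (p := (· ∉ S)) Sᶜ (fun _ => Finset.mem_compl),
    ← opbd_msf (p := (· ∉ T)) Tᶜ (fun _ => Finset.mem_compl)]
  rfl

end

end Crest.Agent.R285
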