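import Crest.Agent.R285.ApInt
import Crest.Agent.R285.Poinc
import Crest.Agent.R285.OpBd

/-!
# R285/Appell: dimension-free variance bounds for Appell functions
-/

set_option autoImplicit false

namespace Crest.Agent.R285

open MeasureTheory ProbabilityTheory Crest.OracleSampling Set
open scoped RealInnerProductSpace ContDiff

noncomputable section

section aux

variable {d : ℕ} {δ : ℝ} {W : E d → ℝ}

/-- Extension of a tuple by the value `l` at `m`. -/
def appell_ext {ι α : Type} [DecidableEq ι] (m : ι) (l : α) (i : {m' // m' ≠ m} → α) : ι → α :=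
  (Equiv.funSplitAt m α).symm (l, i)

theorem appell_ext_self {ι α : Type} [DecidableEq ι] (m : ι) (l : α) (i : {m' // m' ≠ m} → α) :
    appell_ext m l i m = l := by simp [appell_ext]

theorem appell_ext_msf {ι α : Type} [Fintype ι] [DecidableEq ι] (m : ι) (l : α)
    (i : {m' // m' ≠ m} → α) : (Finset.univ.erase m).val.map (appell_ext m l i) = msf i := by
  have h1 : (Finset.univ.erase m : Finset ι) =
      (Finset.univ : Finset {m' // m' ≠ m}).map (Function.Embedding.subtype _) := by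
    ext a; simp
  rw [h1, Finset.map_val, Multiset.map_map, msf]
  refine Multiset.map_congr rfl fun a _ => ?_
  simp [appell_ext, a.2]

theorem appell_sum_ext {ι α : Type} [Fintype ι] [DecidableEq ι] [Fintype α] (m : ι)
    (F : (ι → α) → ℝ) : ∑ l, ∑ i, F (appell_ext m l i) = ∑ i, F i := by
  rw [← (Equiv.funSplitAt m α).symm.sum_comp F, Fintype.sum_prod_type]
  rfl

theorem appell_slice {ι α : Type} [Fintype ι] [DecidableEq ι] [Fintype α] [DecidableEq α]
    (A : (ι → α) → ℝ) (F : Multiset α → ℝ) (l : α) :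
    ∑ i, A i * ∑ m, (if i m = l then F ((Finset.univ.erase m).val.map i) else 0) =
      ∑ m, ∑ i, A (appell_ext m l i) * F (msf i) := by
  simp only [Finset.mul_sum]
  rw [Finset.sum_comm]
  refine Finset.sum_congr rfl fun m _ => ?_
  rw [← appell_sum_ext m, Finset.sum_eq_single l]
  · refine Finset.sum_congr rfl fun i _ => ?_
    rw [appell_ext_self, if_pos rfl, appell_ext_msf]
  · intro l' _ hl
    refine Finset.sum_eq_zero fun i _ => ?_
    rw [appell_ext_self, if_neg hl, mul_zero]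
  · simp

theorem appell_card {ι : Type} [Fintype ι] [DecidableEq ι] (m : ι) :
    Fintype.card {m' // m' ≠ m} < Fintype.card ι :=
  Fintype.card_subtype_lt (x := m) (by simp)

theorem appell_dd_sum {κ : Type} [Fintype κ] (A : κ → ℝ) {φ : κ → E d → ℝ}
    (h : ∀ i, ContDiff ℝ 1 (φ i)) (v z : E d) :
    dd v (fun z => ∑ i, A i * φ i z) z = ∑ i, A i * dd v (φ i) z := by
  have h1 : HasFDerivAt (fun z => ∑ i, A i * φ i z) (∑ i, A i • fderiv ℝ (φ i) z) z :=
    HasFDerivAt.fun_sum fun i _ =>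
      (((h i).differentiable one_ne_zero z).hasFDerivAt.const_mul (A i))
  rw [dd, h1.fderiv]
  simp [dd]

theorem appell_PP_smooth (hW : Pot d δ W) {θ : ℝ} (hθ : 0 < θ) (x : E d) (s : Multiset (Fin d)) :
    ContDiff ℝ ∞ (PP W θ x s) :=
  contDiff_const.mul (Ap_smooth θ x s (RR_smooth hW hθ))

theorem appell_PP_c1 (hW : Pot d δ W) {θ : ℝ} (hθ : 0 < θ) (x : E d) (s : Multiset (Fin d)) :
    ContDiff ℝ 1 (PP W θ x s) := (appell_PP_smooth hW hθ x s).of_le (by exact_mod_cast le_top)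

theorem appell_dd_PP (hW : Pot d δ W) {θ : ℝ} (hθ : 0 < θ) (x : E d) {ι : Type} [Fintype ι]
    [DecidableEq ι] (i : ι → Fin d) (l : Fin d) (z : E d) :
    dd (ee l) (PP W θ x (msf i)) z =
      θ * ∑ m, if i m = l then PP W θ x ((Finset.univ.erase m).val.map i) z else 0 := by
  have h1 := congrFun (dd_const_mul (Ap_smooth θ x (msf i) (RR_smooth hW hθ)) (II W θ x) (ee l)) z
  have h2 := dd_Ap θ x i Finset.univ (RR_smooth hW hθ) l z
  refine h1.trans ?_
  rw [msf, h2, mul_left_comm, Finset.mul_sum]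
  congr 1
  refine Finset.sum_congr rfl fun m _ => ?_
  split_ifs
  · rfl
  · exact mul_zero _

theorem appell_grad_c1 (hW : Pot d δ W) (k : Fin d) : ContDiff ℝ 1 fun z => gradient W z k :=
  (EuclideanSpace.proj k : E d →L[ℝ] ℝ).contDiff.comp hW.grad_c1

theorem appell_dd_grad (hW : Pot d δ W) (k l : Fin d) (z : E d) :
    dd (ee l) (fun z => gradient W z k) z = fderiv ℝ (gradient W) z (ee l) k := by
  have h1 := (EuclideanSpace.proj k : E d →L[ℝ] ℝ).hasFDerivAt.comp z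
    (hW.grad_c1.differentiable one_ne_zero z).hasFDerivAt
  exact congrArg (fun L : E d →L[ℝ] ℝ => L (ee l)) h1.fderiv

theorem appell_hess_pg (hW : Pot d δ W) (hδ : 0 ≤ δ) (k l : Fin d) :
    PG fun z => fderiv ℝ (gradient W) z (ee l) k := by
  have hc : Continuous fun z => fderiv ℝ (gradient W) z (ee l) k :=
    (EuclideanSpace.proj k : E d →L[ℝ] ℝ).continuous.comp
      ((hW.grad_c1.continuous_fderiv one_ne_zero).clm_apply continuous_const)
  refine pg_of_bdd hc.measurable (M := δ * ‖(ee l : E d)‖) fun z => ?_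
  refine le_trans (PiLp.norm_apply_le (fderiv ℝ (gradient W) z (ee l)) k) ?_
  exact ((fderiv ℝ (gradient W) z).le_opNorm _).trans
    (mul_le_mul_of_nonneg_right (hW.hess_norm hδ z) (norm_nonneg _))

theorem appell_PF_eq (hW : Pot d δ W) (θ : ℝ) (x : E d) (k : Fin d) (s : Multiset (Fin d)) :
    PF W θ x k s = fun z => gradient W z k * PP W θ x s z -
      II W θ x * Ap θ x s (fun y => GG W θ y k * RR W θ y) z := by
  have := hW.zero
  funext z
  simp only [PF, PP]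
  ring

theorem appell_PF_c1 (hW : Pot d δ W) (hδ : 0 ≤ δ) {θ : ℝ} (hθ : 0 < θ) (x : E d) (k : Fin d)
    (s : Multiset (Fin d)) : ContDiff ℝ 1 (PF W θ x k s) := by
  rw [appell_PF_eq hW]
  exact ((appell_grad_c1 hW k).mul (appell_PP_c1 hW hθ x s)).sub (contDiff_const.mul
    ((Ap_smooth θ x s (GR_smooth hW hδ hθ k)).of_le (by exact_mod_cast le_top)))

theorem appell_dd_PF (hW : Pot d δ W) (hδ : 0 ≤ δ) {θ : ℝ} (hθ : 0 < θ) (x : E d) {ι : Type}
    [Fintype ι] [DecidableEq ι] (k : Fin d) (i : ι → Fin d) (l : Fin d) (z : E d) :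
    dd (ee l) (PF W θ x k (msf i)) z =
      fderiv ℝ (gradient W) z (ee l) k * PP W θ x (msf i) z +
      θ * ∑ m, if i m = l then PF W θ x k ((Finset.univ.erase m).val.map i) z else 0 := by
  have hA : ContDiff ℝ 1 (Ap θ x (msf i) (fun y => GG W θ y k * RR W θ y)) :=
    (Ap_smooth θ x _ (GR_smooth hW hδ hθ k)).of_le (by exact_mod_cast le_top)
  have h1 := (((appell_grad_c1 hW k).differentiable one_ne_zero z).hasFDerivAt.mul
    ((appell_PP_c1 hW hθ x (msf i)).differentiable one_ne_zero z).hasFDerivAt).sub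
    ((hA.differentiable one_ne_zero z).hasFDerivAt.const_mul (II W θ x))
  have h2 : dd (ee l) (PF W θ x k (msf i)) z =
      gradient W z k * dd (ee l) (PP W θ x (msf i)) z +
        PP W θ x (msf i) z * dd (ee l) (fun z => gradient W z k) z -
        II W θ x * dd (ee l) (Ap θ x (msf i) (fun y => GG W θ y k * RR W θ y)) z := by
    rw [appell_PF_eq hW]
    exact congrArg (fun L : E d →L[ℝ] ℝ => L (ee l)) h1.fderiv
  have h3 := dd_Ap θ x i Finset.univ (GR_smooth hW hδ hθ k) l z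
  rw [h2, appell_dd_grad hW, appell_dd_PP hW hθ, msf, h3]
  have h4 : (∑ m, if i m = l then PF W θ x k ((Finset.univ.erase m).val.map i) z else 0) =
      gradient W z k *
        (∑ m, if i m = l then PP W θ x ((Finset.univ.erase m).val.map i) z else 0) -
      II W θ x * ∑ m, if i m = l then Ap θ x ((Finset.univ.erase m).val.map i)
        (fun y => GG W θ y k * RR W θ y) z else 0 := by
    rw [Finset.mul_sum, Finset.mul_sum, ← Finset.sum_sub_distrib]
    refine Finset.sum_congr rfl fun m _ => ?_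
    split_ifs
    · rw [appell_PF_eq hW]
    · simp
  rw [h4]
  ring

theorem appell_int_sq (hW : Pot d δ W) {θ : ℝ} (hθ : 0 < θ) (x : E d) {ι : Type} [Fintype ι]
    {F : ι → Fin d → E d → ℝ} (hF : ∀ m l, PG (F m l)) {b : ℝ}
    (hb : ∀ m, ∑ l, ∫ z, F m l z ^ 2 ∂(mu W θ x) ≤ b) :
    ∫ z, ∑ l, (∑ m, F m l z) ^ 2 ∂(mu W θ x) ≤ (Fintype.card ι : ℝ) ^ 2 * b := by
  have hi : ∀ m l, Integrable (fun z => F m l z ^ 2) (mu W θ x) := fun m l =>
    ((hF m l).pow 2).integrable_mu hW hθ x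
  calc ∫ z, ∑ l, (∑ m, F m l z) ^ 2 ∂(mu W θ x)
      ≤ ∫ z, (Fintype.card ι : ℝ) * ∑ m, ∑ l, F m l z ^ 2 ∂(mu W θ x) := by
        refine integral_mono
          ((PG.sum _ fun l _ => (PG.sum _ fun m _ => hF m l).pow 2).integrable_mu hW hθ x)
          ((integrable_finsetSum _ fun m _ => integrable_finsetSum _ fun l _ => hi m l).const_mul _)
          fun z => ?_
        simp only
        rw [Finset.sum_comm, Finset.mul_sum]
        exact Finset.sum_le_sum fun l _ => sq_sum_le_card_mul_sum_sq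
    _ = (Fintype.card ι : ℝ) * ∑ m, ∑ l, ∫ z, F m l z ^ 2 ∂(mu W θ x) := by
        rw [integral_const_mul, integral_finsetSum _ fun m _ =>
          integrable_finsetSum _ fun l _ => hi m l]
        congr 1
        exact Finset.sum_congr rfl fun m _ => integral_finsetSum _ fun l _ => hi m l
    _ ≤ (Fintype.card ι : ℝ) * ∑ _m : ι, b :=
        mul_le_mul_of_nonneg_left (Finset.sum_le_sum fun m _ => hb m) (Nat.cast_nonneg _)
    _ = _ := by rw [Finset.sum_const, nsmul_eq_mul, Finset.card_univ]; ring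

end aux

theorem appell_PP (n : ℕ) : ∃ C : ℝ, 0 ≤ C ∧ ∀ (d : ℕ) (δ : ℝ) (W : E d → ℝ), Pot d δ W →
    ∀ θ ∈ Icc (1 : ℝ) 3, ∀ (x : E d) (ι : Type) [Fintype ι] [DecidableEq ι], Fintype.card ι < n →
    ∀ A : (ι → Fin d) → ℝ,
      ∫ z, (∑ i, A i * PP W θ x (msf i) z) ^ 2 ∂(mu W θ x) ≤ C ^ 2 * ∑ i, A i ^ 2 := by
  induction n with
  | zero => exact ⟨0, le_rfl, fun _ _ _ _ _ _ _ _ _ _ h => absurd h (Nat.not_lt_zero _)⟩
  | succ n ih =>
    obtain ⟨C, hC, ih⟩ := ih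
    refine ⟨1 + 2 * n * C, by positivity, fun d δ W hW θ hθ x ι _ _ hι A => ?_⟩
    have hθ0 : 0 < θ := by linarith [hθ.1]
    have hA : 0 ≤ ∑ i, A i ^ 2 := Finset.sum_nonneg fun i _ => sq_nonneg _
    have hnC : (0 : ℝ) ≤ 2 * n * C := by positivity
    have := mu_prob hW hθ0 x
    rcases isEmpty_or_nonempty ι with he | ⟨⟨m₀⟩⟩
    · have h0 : ∀ i : ι → Fin d, msf i = 0 := fun i => by simp [msf]
      simp only [h0, PP_zero hW hθ0, mul_one, integral_const, probReal_univ, one_smul,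
        Fintype.sum_unique]
      have h1 : (1 : ℝ) ≤ (1 + 2 * n * C) ^ 2 := one_le_pow₀ (by linarith)
      nlinarith [sq_nonneg (A default)]
    · have hpg : ∀ s, PG (PP W θ x s) := PP_pg hW hθ0 x
      have hdd : ∀ l z, dd (ee l) (fun z => ∑ i, A i * PP W θ x (msf i) z) z =
          θ * ∑ m, ∑ i, A (appell_ext m l i) * PP W θ x (msf i) z := by
        intro l z
        rw [appell_dd_sum A (fun i => appell_PP_c1 hW hθ0 x _), ← appell_slice A
          (fun s => PP W θ x s z) l, Finset.mul_sum]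
        exact Finset.sum_congr rfl fun i _ => by rw [appell_dd_PP hW hθ0]; ring
      have hF : ∀ (m : ι) (l : Fin d),
          PG fun z => ∑ i, A (appell_ext m l i) * PP W θ x (msf i) z :=
        fun m l => PG.sum _ fun i _ => (hpg _).const_mul _
      have hP := poincare hW hθ0 x (f := fun z => ∑ i, A i * PP W θ x (msf i) z)
        (ContDiff.sum fun i _ => contDiff_const.mul (appell_PP_c1 hW hθ0 x _))
        (PG.sum _ fun i _ => (hpg _).const_mul _) (fun l => by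
          rw [show dd (ee l) (fun z => ∑ i, A i * PP W θ x (msf i) z) = _ from funext (hdd l)]
          exact (PG.sum _ fun m _ => hF m l).const_mul θ)
      have hmean : ∫ z, ∑ i, A i * PP W θ x (msf i) z ∂(mu W θ x) = 0 := by
        rw [integral_finsetSum _ fun i _ => ((hpg _).const_mul _).integrable_mu hW hθ0 x]
        refine Finset.sum_eq_zero fun i _ => ?_
        rw [integral_const_mul, mean_PP hW hθ0 x, mul_zero]
        intro h
        have : i m₀ ∈ msf i := Multiset.mem_map.2 ⟨m₀, Finset.mem_univ_val m₀, rfl⟩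
        simp [h] at this
      have hb := appell_int_sq hW hθ0 x hF (b := C ^ 2 * ∑ i, A i ^ 2) (fun m => by
        rw [← appell_sum_ext m (fun i => A i ^ 2), Finset.mul_sum]
        exact Finset.sum_le_sum fun l _ => ih d δ W hW θ hθ x _
          (lt_of_lt_of_le (appell_card m) (Nat.lt_succ_iff.1 hι)) _)
      simp only [hdd, mul_pow, ← Finset.mul_sum] at hP
      rw [hmean, integral_const_mul, ← mul_assoc] at hP
      have e1 : θ⁻¹ * θ ^ 2 = θ := by field_simp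
      rw [e1] at hP
      have hcard : (Fintype.card ι : ℝ) ^ 2 ≤ (n : ℝ) ^ 2 :=
        pow_le_pow_left₀ (Nat.cast_nonneg _) (by exact_mod_cast Nat.lt_succ_iff.1 hι) 2
      have hb0 : 0 ≤ C ^ 2 * ∑ i, A i ^ 2 := by positivity
      have h1 := mul_le_mul hθ.2 (hb.trans (mul_le_mul_of_nonneg_right hcard hb0))
        (integral_nonneg fun z => Finset.sum_nonneg fun l _ => sq_nonneg _) (by norm_num)
      have h2 : 3 * ((n : ℝ) ^ 2 * C ^ 2) ≤ (1 + 2 * n * C) ^ 2 := by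
        nlinarith [sq_nonneg ((n : ℝ) * C)]
      have h3 := mul_le_mul_of_nonneg_right h2 hA
      nlinarith

theorem appell_PF (n : ℕ) : ∃ C : ℝ, 0 ≤ C ∧ ∀ (d : ℕ) (δ : ℝ) (W : E d → ℝ), Pot d δ W → 0 ≤ δ →
    ∀ θ ∈ Icc (1 : ℝ) 3, ∀ (x : E d) (κ : Type) [Fintype κ] [DecidableEq κ], Fintype.card κ < n →
    ∀ B : Fin d × (κ → Fin d) → ℝ,
      ∫ z, (∑ j, B j * PF W θ x j.1 (msf j.2) z) ^ 2 ∂(mu W θ x) ≤
        (C * δ) ^ 2 * ∑ j, B j ^ 2 := by
  induction n with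
  | zero => exact ⟨0, le_rfl, fun _ _ _ _ _ _ _ _ _ _ _ h => absurd h (Nat.not_lt_zero _)⟩
  | succ n ih =>
    obtain ⟨C, hC, ih⟩ := ih
    obtain ⟨CP, hCP, hPP⟩ := appell_PP (n + 1)
    refine ⟨2 * CP + 3 * n * C, by positivity, fun d δ W hW hδ θ hθ x κ _ _ hκ B => ?_⟩
    have hθ0 : 0 < θ := by linarith [hθ.1]
    have hB : 0 ≤ ∑ j, B j ^ 2 := Finset.sum_nonneg fun i _ => sq_nonneg _
    have hpg : ∀ s, PG (PP W θ x s) := PP_pg hW hθ0 x
    have hpf : ∀ k s, PG (PF W θ x k s) := PF_pg hW hδ hθ0 x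
    obtain ⟨U, hU⟩ : ∃ U : Fin d → E d → ℝ,
        U = fun k z => ∑ i, B (k, i) * PP W θ x (msf i) z := ⟨_, rfl⟩
    obtain ⟨T, hT⟩ : ∃ T : Fin d → E d → ℝ,
        T = fun l z => ∑ k, fderiv ℝ (gradient W) z (ee l) k * U k z := ⟨_, rfl⟩
    obtain ⟨F, hF⟩ : ∃ F : κ → Fin d → E d → ℝ, F = fun m l z =>
        ∑ j : Fin d × ({m' // m' ≠ m} → Fin d),
          B (j.1, appell_ext m l j.2) * PF W θ x j.1 (msf j.2) z := ⟨_, rfl⟩
    have hUpg : ∀ k, PG (U k) := fun k => by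
      rw [hU]; exact PG.sum _ fun i _ => (hpg _).const_mul _
    have hTpg : ∀ l, PG (T l) := fun l => by
      rw [hT]; exact PG.sum _ fun k _ => (appell_hess_pg hW hδ k l).mul (hUpg k)
    have hFpg : ∀ m l, PG (F m l) := fun m l => by
      rw [hF]; exact PG.sum _ fun j _ => (hpf _ _).const_mul _
    have hdd : ∀ l z, dd (ee l) (fun z => ∑ j, B j * PF W θ x j.1 (msf j.2) z) z =
        T l z + θ * ∑ m, F m l z := by
      intro l z
      rw [appell_dd_sum B (fun j => appell_PF_c1 hW hδ hθ0 x _ _), Fintype.sum_prod_type, hT, hF]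
      simp only [Fintype.sum_prod_type]
      rw [Finset.sum_comm (s := (Finset.univ : Finset κ)), Finset.mul_sum,
        ← Finset.sum_add_distrib]
      refine Finset.sum_congr rfl fun k _ => ?_
      rw [← appell_slice (fun i => B (k, i)) (fun s => PF W θ x k s z) l, hU]
      simp only
      rw [Finset.mul_sum, Finset.mul_sum, ← Finset.sum_add_distrib]
      exact Finset.sum_congr rfl fun i _ => by rw [appell_dd_PF hW hδ hθ0]; ring
    have hP := poincare hW hθ0 x (f := fun z => ∑ j, B j * PF W θ x j.1 (msf j.2) z)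
      (ContDiff.sum fun i _ => contDiff_const.mul (appell_PF_c1 hW hδ hθ0 x _ _))
      (PG.sum _ fun i _ => (hpf _ _).const_mul _) (fun l => by
        rw [show dd (ee l) (fun z => ∑ j, B j * PF W θ x j.1 (msf j.2) z) = _ from funext (hdd l)]
        exact (hTpg l).add ((PG.sum _ fun m _ => hFpg m l).const_mul θ))
    have hmean : ∫ z, ∑ j, B j * PF W θ x j.1 (msf j.2) z ∂(mu W θ x) = 0 := by
      rw [integral_finsetSum _ fun i _ => ((hpf _ _).const_mul _).integrable_mu hW hθ0 x]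
      refine Finset.sum_eq_zero fun i _ => ?_
      rw [integral_const_mul, mean_PF hW hδ hθ0 x, mul_zero]
    have hb := appell_int_sq hW hθ0 x hFpg (b := (C * δ) ^ 2 * ∑ j, B j ^ 2) (fun m => by
      have e : ∑ j, B j ^ 2 = ∑ l, ∑ j : Fin d × ({m' // m' ≠ m} → Fin d),
          B (j.1, appell_ext m l j.2) ^ 2 := by
        simp only [Fintype.sum_prod_type]
        rw [Finset.sum_comm (s := (Finset.univ : Finset (Fin d)))
          (t := (Finset.univ : Finset (Fin d)))]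
        exact Finset.sum_congr rfl fun k _ => (appell_sum_ext m (fun i => B (k, i) ^ 2)).symm
      rw [e, Finset.mul_sum, hF]
      exact Finset.sum_le_sum fun l _ => ih d δ W hW hδ θ hθ x _
        (lt_of_lt_of_le (appell_card m) (Nat.lt_succ_iff.1 hκ))
        (fun j => B (j.1, appell_ext m l j.2)))
    have hUi : ∀ k, Integrable (fun z => U k z ^ 2) (mu W θ x) := fun k =>
      ((hUpg k).pow 2).integrable_mu hW hθ0 x
    have hi1 : Integrable (fun z => ∑ k, U k z ^ 2) (mu W θ x) :=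
      integrable_finsetSum _ fun k _ => hUi k
    have hi2 : Integrable (fun z => ∑ l, (∑ m, F m l z) ^ 2) (mu W θ x) :=
      (PG.sum _ fun l _ => (PG.sum _ fun m _ => hFpg m l).pow 2).integrable_mu hW hθ0 x
    have hU2 : ∫ z, ∑ k, U k z ^ 2 ∂(mu W θ x) ≤ CP ^ 2 * ∑ j, B j ^ 2 := by
      rw [integral_finsetSum _ fun k _ => hUi k, Fintype.sum_prod_type, Finset.mul_sum, hU]
      exact Finset.sum_le_sum fun k _ => hPP d δ W hW θ hθ x κ hκ fun i => B (k, i)
    have hmono : ∫ z, ∑ l, (T l z + θ * ∑ m, F m l z) ^ 2 ∂(mu W θ x) ≤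
        ∫ z, (2 * δ ^ 2 * ∑ k, U k z ^ 2 + 2 * θ ^ 2 * ∑ l, (∑ m, F m l z) ^ 2) ∂(mu W θ x) := by
      refine integral_mono ((PG.sum _ fun l _ => ((hTpg l).add
        ((PG.sum _ fun m _ => hFpg m l).const_mul θ)).pow 2).integrable_mu hW hθ0 x)
        ((hi1.const_mul _).add (hi2.const_mul _)) fun z => ?_
      have h1 : ∑ l, T l z ^ 2 ≤ δ ^ 2 * ∑ k, U k z ^ 2 := by
        rw [hT]
        exact ((opBd_clm (fderiv ℝ (gradient W) z)).mono (hW.hess_norm hδ z)).transpose.apply_le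
          hδ fun k => U k z
      have h2 : ∑ l, (T l z + θ * ∑ m, F m l z) ^ 2 ≤
          2 * ∑ l, T l z ^ 2 + 2 * θ ^ 2 * ∑ l, (∑ m, F m l z) ^ 2 := by
        rw [Finset.mul_sum, Finset.mul_sum (a := 2 * θ ^ 2), ← Finset.sum_add_distrib]
        exact Finset.sum_le_sum fun l _ => by nlinarith [sq_nonneg (T l z - θ * ∑ m, F m l z)]
      simp only
      linarith
    rw [integral_add (hi1.const_mul _) (hi2.const_mul _), integral_const_mul,
      integral_const_mul] at hmono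
    simp only [hdd] at hP
    rw [hmean] at hP
    have hcard : (Fintype.card κ : ℝ) ^ 2 ≤ (n : ℝ) ^ 2 :=
      pow_le_pow_left₀ (Nat.cast_nonneg _) (by exact_mod_cast Nat.lt_succ_iff.1 hκ) 2
    have hb0 : 0 ≤ (C * δ) ^ 2 * ∑ j, B j ^ 2 := by positivity
    have hb' := hb.trans (mul_le_mul_of_nonneg_right hcard hb0)
    have h1 := mul_le_mul_of_nonneg_left hU2 (show 0 ≤ 2 * δ ^ 2 by positivity)
    have h2 := mul_le_mul_of_nonneg_left hb' (show 0 ≤ 2 * θ ^ 2 by positivity)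
    have h3 := mul_le_mul_of_nonneg_left (hmono.trans (add_le_add h1 h2)) (inv_pos.2 hθ0).le
    have h4 : θ⁻¹ * (2 * δ ^ 2 * (CP ^ 2 * ∑ j, B j ^ 2) +
        2 * θ ^ 2 * ((n : ℝ) ^ 2 * ((C * δ) ^ 2 * ∑ j, B j ^ 2))) =
        (θ⁻¹ * (2 * CP ^ 2) + θ * (2 * (n * C) ^ 2)) * (δ ^ 2 * ∑ j, B j ^ 2) := by
      field_simp
    have h5 : θ⁻¹ * (2 * CP ^ 2) + θ * (2 * (n * C) ^ 2) ≤ (2 * CP + 3 * n * C) ^ 2 := by
      have a1 : θ⁻¹ ≤ 1 := inv_le_one_of_one_le₀ hθ.1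
      have a2 := mul_le_mul_of_nonneg_right a1 (show 0 ≤ 2 * CP ^ 2 by positivity)
      have a3 := mul_le_mul_of_nonneg_right hθ.2 (show 0 ≤ 2 * (n * C) ^ 2 by positivity)
      have a4 : 0 ≤ CP * (n * C) := by positivity
      nlinarith [sq_nonneg CP, sq_nonneg ((n : ℝ) * C)]
    have h6 := mul_le_mul_of_nonneg_right h5 (show 0 ≤ δ ^ 2 * ∑ j, B j ^ 2 by positivity)
    rw [mul_pow, mul_assoc]
    linarith

/-- Induction on `n`.  If `ι` is empty the sum has one term and `PP 0 = 1`.  Otherwise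
`Φ_A = ∑ i, A i PP (msf i)` has mean zero (`mean_PP`), and by `dd_Ap`
`∂_j Φ_A = θ ∑_{m : ι} Φ_{A(m := j)}`, where `A(m := j)` is the slice on `{m' // m' ≠ m} → Fin d`
(`Equiv.piSplitAt`/`Equiv.funSplitAt`, `msf` of the restriction is `(univ.erase m).val.map i`).
`poincare` gives `E Φ_A² ≤ θ⁻¹ θ² |ι| ∑_m ∑_j E Φ_{A(m:=j)}² ≤ 3 n² C² ‖A‖²`. -/
theorem var_PP (n : ℕ) : ∃ C : ℝ, 0 ≤ C ∧ ∀ (d : ℕ) (δ : ℝ) (W : E d → ℝ), Pot d δ W →
    ∀ θ ∈ Icc (1 : ℝ) 3, ∀ (x : E d) (ι : Type) [Fintype ι] [DecidableEq ι], Fintype.card ι ≤ n →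
    ∀ A : (ι → Fin d) → ℝ,
      ∫ z, (∑ i, A i * PP W θ x (msf i) z) ^ 2 ∂(mu W θ x) ≤ C ^ 2 * ∑ i, A i ^ 2 := by
  obtain ⟨C, hC, h⟩ := appell_PP (n + 1)
  exact ⟨C, hC, fun d δ W hW θ hθ x ι _ _ hι => h d δ W hW θ hθ x ι (Nat.lt_succ_of_le hι)⟩

/-- Same induction; `Φ_B = ∑ B (k,j) PF k (msf j)` always has mean zero (`mean_PF`), is `C¹`, and
`∂_l Φ_B = ∑_k H_{lk}(z) Φ^P_{B(k,·)}(z) + θ ∑_m Φ_{B(m:=l)}` with `H = ∇²W(z)` of operator norm
`≤ δ` (`Pot.hess_norm`, `opBd_clm`, `OpBd.apply_le`), `Φ^P` as in `var_PP`. -/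
theorem var_PF (n : ℕ) : ∃ C : ℝ, 0 ≤ C ∧ ∀ (d : ℕ) (δ : ℝ) (W : E d → ℝ), Pot d δ W → 0 ≤ δ →
    ∀ θ ∈ Icc (1 : ℝ) 3, ∀ (x : E d) (κ : Type) [Fintype κ] [DecidableEq κ], Fintype.card κ ≤ n →
    ∀ B : Fin d × (κ → Fin d) → ℝ,
      ∫ z, (∑ j, B j * PF W θ x j.1 (msf j.2) z) ^ 2 ∂(mu W θ x) ≤ (C * δ) ^ 2 * ∑ j, B j ^ 2 := by
  obtain ⟨C, hC, h⟩ := appell_PF (n + 1)
  exact ⟨C, hC, fun d δ W hW hδ θ hθ x κ _ _ hκ => h d δ W hW hδ θ hθ x κ (Nat.lt_succ_of_le hκ)⟩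

/-- `opBd_gram` with `var_PP`. -/
theorem opBd_Xi (n : ℕ) : ∃ C : ℝ, 0 ≤ C ∧ ∀ (d : ℕ) (δ : ℝ) (W : E d → ℝ), Pot d δ W →
    ∀ θ ∈ Icc (1 : ℝ) 3, ∀ (x : E d) (ι κ : Type) [Fintype ι] [DecidableEq ι] [Fintype κ]
    [DecidableEq κ], Fintype.card ι ≤ n → Fintype.card κ ≤ n →
    OpBd (fun (j : κ → Fin d) (i : ι → Fin d) => Xi W θ x (msf j) (msf i)) C := by
  obtain ⟨C, hC, h⟩ := var_PP n
  refine ⟨C * C, by positivity, fun d δ W hW θ hθ x ι κ _ _ _ _ hι hκ => ?_⟩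
  have hθ0 : 0 < θ := by linarith [hθ.1]
  exact opBd_gram (φ := fun j : κ → Fin d => PP W θ x (msf j))
    (ψ := fun i : ι → Fin d => PP W θ x (msf i))
    (fun j => (PP_pg hW hθ0 x _).memLp_mu hW hθ0 x) (fun j => (PP_pg hW hθ0 x _).memLp_mu hW hθ0 x)
    hC hC (h d δ W hW θ hθ x κ hκ) (h d δ W hW θ hθ x ι hι)

theorem opBd_PFPP (n : ℕ) : ∃ C : ℝ, 0 ≤ C ∧ ∀ (d : ℕ) (δ : ℝ) (W : E d → ℝ), Pot d δ W → 0 ≤ δ →
    ∀ θ ∈ Icc (1 : ℝ) 3, ∀ (x : E d) (ι κ : Type) [Fintype ι] [DecidableEq ι] [Fintype κ]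
    [DecidableEq κ], Fintype.card ι ≤ n → Fintype.card κ ≤ n →
    OpBd (fun (j : Fin d × (κ → Fin d)) (i : ι → Fin d) =>
      ∫ z, PF W θ x j.1 (msf j.2) z * PP W θ x (msf i) z ∂(mu W θ x)) (C * δ) := by
  obtain ⟨C, hC, h⟩ := var_PP n
  obtain ⟨C', hC', h'⟩ := var_PF n
  refine ⟨C' * C, by positivity, fun d δ W hW hδ θ hθ x ι κ _ _ _ _ hι hκ => ?_⟩
  have hθ0 : 0 < θ := by linarith [hθ.1]
  rw [mul_right_comm]
  exact opBd_gram (φ := fun j : Fin d × (κ → Fin d) => PF W θ x j.1 (msf j.2))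
    (ψ := fun i : ι → Fin d => PP W θ x (msf i))
    (fun j => (PF_pg hW hδ hθ0 x _ _).memLp_mu hW hθ0 x)
    (fun j => (PP_pg hW hθ0 x _).memLp_mu hW hθ0 x)
    (by positivity) hC (h' d δ W hW hδ θ hθ x κ hκ) (h d δ W hW θ hθ x ι hι)

end

end Crest.Agent.R285
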