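import Crest.Agent.R285.ApInt

/-!
# R285/Bilin: the bilinear identity

Fix `x`, write `F = (GG W θ ·) k`, `R = RR W θ`, `I = II W θ` and on `E d × E d`
`Ξ(p) = I x · R p.1 · R p.2 · I(p.1+p.2-x)`, `Δ(p) = F(p.1+p.2-x) - F(p.1)`.  Then
`Ξ Δ = I x · (R p.1 R p.2 KK(∂_kW)(p.1+p.2-x) - (F R) p.1 · R p.2 · I(p.1+p.2-x))` (`GG_apply`), so by
`star2` and `integral_mu`: `∂^{a}_{1} ∂^{b}_{2} (ΞΔ)(x,x) = ∫ PF k a · PP b dμ` and
`∂^a_1 ∂^b_2 Ξ (x,x) = Xi a b`.  Expand the left side by Leibniz (`pd_add`, `pd_mul` twice).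
-/

set_option autoImplicit false

namespace Crest.Agent.R285

open MeasureTheory ProbabilityTheory Crest.OracleSampling Set
open scoped RealInnerProductSpace ContDiff

noncomputable section

variable {d : ℕ} {δ : ℝ} {W : E d → ℝ}

theorem bilin_pd_sum {X α κ : Type} [NormedAddCommGroup X] [NormedSpace ℝ X] (e : α → X)
    (s : Multiset α) (S : Finset κ) {φ : κ → X → ℝ} (h : ∀ i ∈ S, ContDiff ℝ ∞ (φ i)) :
    pd e s (fun y => ∑ i ∈ S, φ i y) = fun y => ∑ i ∈ S, pd e s (φ i) y := by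
  induction s using Multiset.induction_on with
  | empty => simp only [pd_zero]
  | cons k s ih =>
    rw [pd_cons e k s (ContDiff.sum h), ih, dd_sum S fun i hi => pd_smooth e s (h i hi)]
    funext y
    exact Finset.sum_congr rfl fun i hi => by rw [pd_cons e k s (h i hi)]

theorem bilin_leibniz {X α ι κ : Type} [NormedAddCommGroup X] [NormedSpace ℝ X] (e : α → X)
    [Fintype ι] [DecidableEq ι] [Fintype κ] [DecidableEq κ] (j : κ → α) (i : ι → α)
    {φ ψ : X → ℝ} (h : ContDiff ℝ ∞ φ) (h' : ContDiff ℝ ∞ ψ) (y : X) :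
    pd e (msf j + msf i) (fun y => φ y * ψ y) y = ∑ S : Finset κ, ∑ T : Finset ι,
      pd e (S.val.map j + T.val.map i) φ y * pd e (Sᶜ.val.map j + Tᶜ.val.map i) ψ y := by
  rw [pd_add e _ _ (h.mul h'), msf, msf, pd_mul e i _ h h', bilin_pd_sum e _ _
    fun T _ => (pd_smooth e _ h).mul (pd_smooth e _ h'), Finset.powerset_univ, Finset.sum_comm]
  refine Finset.sum_congr rfl fun T _ => ?_
  rw [pd_mul e j _ (pd_smooth e _ h) (pd_smooth e _ h'), Finset.powerset_univ]
  refine Finset.sum_congr rfl fun S _ => ?_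
  rw [pd_add e _ _ h, pd_add e _ _ h', Finset.compl_eq_univ_sdiff, Finset.compl_eq_univ_sdiff]

theorem bilin_smooth {g₁ g₂ g₃ : E d → ℝ} (h₁ : ContDiff ℝ ∞ g₁) (h₂ : ContDiff ℝ ∞ g₂)
    (h₃ : ContDiff ℝ ∞ g₃) (x : E d) :
    ContDiff ℝ ∞ fun p : E d × E d => g₁ p.1 * g₂ p.2 * g₃ (p.1 + p.2 - x) :=
  ((h₁.comp contDiff_fst).mul (h₂.comp contDiff_snd)).mul
    (h₃.comp ((contDiff_fst.add contDiff_snd).sub contDiff_const))

theorem bilin_Xi (hW : Pot d δ W) {θ : ℝ} (hθ : 0 < θ) (x : E d) (a b : Multiset (Fin d)) :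
    pd e2 (a.map Sum.inl + b.map Sum.inr) (fun p : E d × E d =>
      II W θ x * (RR W θ p.1 * RR W θ p.2 * KK W θ (fun _ => 1) (p.1 + p.2 - x))) (x, x) =
      Xi W θ x a b := by
  have hR := RR_smooth hW hθ
  have hI := (II_pos hW hθ x).ne'
  rw [pd_const_mul _ _ (bilin_smooth hR hR (KK_smooth hW hθ (pg_const 1)) x)]
  simp only
  rw [star2 hW hθ x a b hR hR (pg_const 1), Xi, integral_mu hW hθ]
  have e : (fun z => PP W θ x a z * PP W θ x b z) = fun z => (II W θ x * II W θ x) *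
      (1 * Ap θ x a (RR W θ) z * Ap θ x b (RR W θ) z) := by
    funext z
    simp only [PP]
    ring
  rw [e, KK_const_mul]
  field_simp

theorem bilin_main (hW : Pot d δ W) (hδ : 0 ≤ δ) {θ : ℝ} (hθ : 0 < θ) (x : E d) (k : Fin d)
    (a b : Multiset (Fin d)) :
    pd e2 (a.map Sum.inl + b.map Sum.inr) (fun p : E d × E d =>
      II W θ x * (RR W θ p.1 * RR W θ p.2 * KK W θ (fun _ => 1) (p.1 + p.2 - x)) *
        (GG W θ (p.1 + p.2 - x) k - GG W θ p.1 k)) (x, x) =
      ∫ z, PF W θ x k a z * PP W θ x b z ∂(mu W θ x) := by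
  have hR := RR_smooth hW hθ
  have hGR := GR_smooth hW hδ hθ k
  have hI := (II_pos hW hθ x).ne'
  have hg := hW.pg_grad hδ k
  have e1 : (fun p : E d × E d =>
      II W θ x * (RR W θ p.1 * RR W θ p.2 * KK W θ (fun _ => 1) (p.1 + p.2 - x)) *
        (GG W θ (p.1 + p.2 - x) k - GG W θ p.1 k)) = fun p : E d × E d => II W θ x *
      (RR W θ p.1 * RR W θ p.2 * KK W θ (fun z => gradient W z k) (p.1 + p.2 - x) -
        (fun y => GG W θ y k * RR W θ y) p.1 * RR W θ p.2 *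
          KK W θ (fun _ => 1) (p.1 + p.2 - x)) := by
    funext p
    have h1 : KK W θ (fun z => gradient W z k) (p.1 + p.2 - x) =
        GG W θ (p.1 + p.2 - x) k * KK W θ (fun _ => 1) (p.1 + p.2 - x) := by
      rw [GG_apply hW hδ hθ]
      exact (div_mul_cancel₀ _ (II_pos hW hθ _).ne').symm
    rw [h1]
    ring
  have s1 := bilin_smooth hR hR (KK_smooth hW hθ hg) x
  have s2 := bilin_smooth hGR hR (KK_smooth hW hθ (pg_const 1)) x
  rw [e1, pd_const_mul _ _ (s1.sub s2), pd_fun_sub _ _ s1 s2]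
  simp only
  rw [star2 hW hθ x a b hR hR hg, star2 hW hθ x a b hGR hR (pg_const 1), integral_mu hW hθ]
  have e : (fun z => PF W θ x k a z * PP W θ x b z) = fun z => (II W θ x * II W θ x) *
      (gradient W z k * Ap θ x a (RR W θ) z * Ap θ x b (RR W θ) z + (-1) *
        (1 * Ap θ x a (fun y => GG W θ y k * RR W θ y) z * Ap θ x b (RR W θ) z)) := by
    funext z
    simp only [PP, PF]
    ring
  rw [e, KK_const_mul, KK_add hW hθ ((hg.mul (Ap_pg θ x a hR)).mul (Ap_pg θ x b hR))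
    ((((pg_const 1).mul (Ap_pg θ x a hGR)).mul (Ap_pg θ x b hR)).const_mul (-1)), KK_const_mul]
  field_simp
  ring

theorem bilin_Delta {F : E d → ℝ} (hF : ContDiff ℝ ∞ F) (x : E d) (a b : Multiset (Fin d)) :
    pd e2 (a.map Sum.inl + b.map Sum.inr) (fun p : E d × E d => F (p.1 + p.2 - x) - F p.1) (x, x) =
      if b = 0 then 0 else pd ee (a + b) F x := by
  have s1 : ContDiff ℝ ∞ fun p : E d × E d => F (p.1 + p.2 - x) :=
    hF.comp ((contDiff_fst.add contDiff_snd).sub contDiff_const)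
  have s2 : ContDiff ℝ ∞ fun p : E d × E d => F p.1 := hF.comp contDiff_fst
  have h1 : pd e2 (a.map Sum.inl + b.map Sum.inr) (fun p : E d × E d => F (p.1 + p.2 - x)) (x, x) =
      pd ee (a + b) F x := by
    have := pd_comp_affine e2 (a.map Sum.inl + b.map Sum.inr) hF
      (ContinuousLinearMap.fst ℝ (E d) (E d) + ContinuousLinearMap.snd ℝ (E d) (E d)) (-x)
    simp only [add_apply, ContinuousLinearMap.coe_fst', ContinuousLinearMap.coe_snd',
      ← sub_eq_add_neg] at this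
    rw [this]
    have e : (fun k : Fin d ⊕ Fin d => (e2 k : E d × E d).1 + (e2 k).2) =
        fun k => ee (Sum.elim id id k) := by
      funext k
      cases k <;> simp [e2]
    simp only [add_sub_cancel_right]
    rw [e, ← pd_map ee _ _ hF]
    simp [Multiset.map_map]
  rw [pd_fun_sub _ _ s1 s2]
  simp only
  rw [h1]
  split_ifs with hb
  · have := pd_comp_affine (fun k => e2 (Sum.inl k)) a hF (ContinuousLinearMap.fst ℝ (E d) (E d)) 0
    simp only [ContinuousLinearMap.coe_fst', add_zero] at this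
    rw [hb, Multiset.map_zero, add_zero, add_zero, pd_map e2 _ _ s2, this]
    exact sub_self _
  · obtain ⟨k, hk⟩ := Multiset.exists_mem_of_ne_zero hb
    have h0 : dd (e2 (Sum.inr k)) (fun p : E d × E d => F p.1) = fun _ => 0 := by
      have := dd_comp_affine hF (ContinuousLinearMap.fst ℝ (E d) (E d)) 0 (e2 (Sum.inr k))
      simp only [ContinuousLinearMap.coe_fst', add_zero] at this
      rw [this]
      simp [e2, dd_dir_zero]
    rw [pd_eq_zero_of_mem e2 (Multiset.mem_add.2 (Or.inr (Multiset.mem_map_of_mem _ hk))) s2 h0,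
      sub_zero]

theorem Xi_zero_zero (hW : Pot d δ W) {θ : ℝ} (hθ : 0 < θ) (x : E d) : Xi W θ x 0 0 = 1 := by
  have := mu_prob hW hθ x
  simp [Xi, PP_zero hW hθ]

theorem Xi_zero_left (hW : Pot d δ W) {θ : ℝ} (hθ : 0 < θ) (x : E d) {b : Multiset (Fin d)}
    (hb : b ≠ 0) : Xi W θ x 0 b = 0 := by
  simp only [Xi, PP_zero hW hθ, one_mul]
  exact mean_PP hW hθ x hb

theorem Xi_zero_right (hW : Pot d δ W) {θ : ℝ} (hθ : 0 < θ) (x : E d) {a : Multiset (Fin d)}
    (ha : a ≠ 0) : Xi W θ x a 0 = 0 := by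
  simp only [Xi, PP_zero hW hθ, mul_one]
  exact mean_PP hW hθ x ha

/-- For the factor `∂^{a'}_1 ∂^{b'}_2 Δ (x,x)`: by `pd_comp_affine` the first summand gives
`pd ee (a'+b') F x`; the second gives `pd ee a' F x` if `b' = 0` (so the difference vanishes) and `0`
otherwise (`pd_eq_zero_of_mem`). -/
theorem bilin (hW : Pot d δ W) (hδ : 0 ≤ δ) {θ : ℝ} (hθ : 0 < θ) (x : E d) {ι κ : Type}
    [Fintype ι] [DecidableEq ι] [Fintype κ] [DecidableEq κ] (k : Fin d) (j : κ → Fin d)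
    (i : ι → Fin d) :
    ∫ z, PF W θ x k (msf j) z * PP W θ x (msf i) z ∂(mu W θ x) =
      ∑ S : Finset κ, ∑ T : Finset ι, if T = Finset.univ then 0 else
        Xi W θ x (S.val.map j) (T.val.map i) *
          pd ee (Sᶜ.val.map j + Tᶜ.val.map i) (fun y => GG W θ y k) x := by
  have hR := RR_smooth hW hθ
  have hF : ContDiff ℝ ∞ fun y => GG W θ y k :=
    (EuclideanSpace.proj k : E d →L[ℝ] ℝ).contDiff.comp (GG_smooth hW hδ hθ)
  have s1 : ContDiff ℝ ∞ fun p : E d × E d =>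
      II W θ x * (RR W θ p.1 * RR W θ p.2 * KK W θ (fun _ => 1) (p.1 + p.2 - x)) :=
    contDiff_const.mul (bilin_smooth hR hR (KK_smooth hW hθ (pg_const 1)) x)
  have s2 : ContDiff ℝ ∞ fun p : E d × E d => GG W θ (p.1 + p.2 - x) k - GG W θ p.1 k :=
    (hF.comp ((contDiff_fst.add contDiff_snd).sub contDiff_const)).sub (hF.comp contDiff_fst)
  have h1 := bilin_leibniz e2 (fun m => (Sum.inl (j m) : Fin d ⊕ Fin d))
    (fun m => Sum.inr (i m)) s1 s2 (x, x)
  have e1 : ∀ S : Finset κ, S.val.map (fun m => (Sum.inl (j m) : Fin d ⊕ Fin d)) =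
      (S.val.map j).map Sum.inl := fun S => by rw [Multiset.map_map]; rfl
  have e2' : ∀ T : Finset ι, T.val.map (fun m => (Sum.inr (i m) : Fin d ⊕ Fin d)) =
      (T.val.map i).map Sum.inr := fun S => by rw [Multiset.map_map]; rfl
  rw [msf, msf, e1, e2', bilin_main hW hδ hθ] at h1
  refine h1.trans (Finset.sum_congr rfl fun S _ => Finset.sum_congr rfl fun T _ => ?_)
  rw [e1, e1, e2', e2', bilin_Xi hW hθ, bilin_Delta hF]
  by_cases hT : T = Finset.univ
  · simp [hT]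
  · rw [if_neg hT, if_neg]
    rw [Multiset.map_eq_zero, Finset.val_eq_zero, Finset.compl_eq_empty_iff]
    exact hT

end

end Crest.Agent.R285
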