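import Crest.Agent.R285.DefsA

/-!
# R285/Gauss: facts on the standard Gaussian `gam d = stdGaussian (E d)`

Tools: `map_pi_eq_stdGaussian`, `charFun_stdGaussian`, `Measure.ext_of_charFun`,
`PiLp.volume_preserving_toLp`, `gaussianReal_of_var_ne_zero`; `Crest/Agent/R322/Gauss.lean` has
proofs of the norm moments that may be copied (do not import it).  Also the elementary calculus of
`Dom` and `Test`.
-/

set_option autoImplicit false

namespace Crest.Agent.R285

open MeasureTheory ProbabilityTheory Crest.OracleSampling Set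
open scoped RealInnerProductSpace ContDiff

noncomputable section

variable {d : ℕ}

theorem gauss_int {t : ℝ} (ht : 0 < t) :
    ∫ z : E d, Real.exp (-(t / 2) * ‖z‖ ^ 2) = √(2 * Real.pi / t) ^ d := by
  have hpi := Real.pi_pos
  rw [GaussianFourier.integral_rexp_neg_mul_sq_norm (by positivity), Real.sqrt_eq_rpow,
    ← Real.rpow_natCast, ← Real.rpow_mul (by positivity), finrank_euclideanSpace_fin]
  congr 1
  · field_simp
  · ring

theorem gauss_key {t : ℝ} (ht : 0 < t) (c : E d) :
    (volume : Measure (E d)).withDensity (fun z => ENNReal.ofReal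
      (Real.exp (-(t / 2) * ‖z - c‖ ^ 2) / √(2 * Real.pi / t) ^ d)) =
      (gam d).map (fun z => c + (√t)⁻¹ • z) := by
  have hpi := Real.pi_pos
  have hb : 0 < ((t / 2 : ℝ) : ℂ).re := by rw [Complex.ofReal_re]; positivity
  have hi : Integrable (fun x : E d => Real.exp (-(t / 2) * ‖x‖ ^ 2)) := by
    have := (GaussianFourier.integrable_cexp_neg_mul_sq_norm_add hb 0 (0 : E d)).norm
    refine this.congr (ae_of_all _ fun x => ?_)
    simp only [zero_mul, add_zero, Complex.norm_exp]
    congr 1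
    rw [← Complex.ofReal_pow, ← Complex.ofReal_neg, ← Complex.ofReal_mul, Complex.ofReal_re]
  obtain ⟨Z, hZ⟩ : ∃ Z : ℝ, Z = √(2 * Real.pi / t) ^ d := ⟨_, rfl⟩
  have hZ0 : 0 < Z := by rw [hZ]; positivity
  rw [← hZ]
  have hZc : (Real.pi / ((t / 2 : ℝ) : ℂ)) ^ (Module.finrank ℝ (E d) / 2 : ℂ) = (Z : ℂ) := by
    rw [← GaussianFourier.integral_cexp_neg_mul_sq_norm hb, hZ, ← gauss_int ht,
      ← integral_complex_ofReal]
    congr 1; ext x; push_cast; rfl
  let g : E d → NNReal := fun x => Real.toNNReal (Real.exp (-(t / 2) * ‖x - c‖ ^ 2) / Z)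
  have hg : Measurable g := by fun_prop
  have hgv : ∀ x, (g x : ℝ) = Real.exp (-(t / 2) * ‖x - c‖ ^ 2) / Z := fun x =>
    Real.coe_toNNReal _ (by positivity)
  have hfin : IsFiniteMeasure ((volume : Measure (E d)).withDensity fun x => g x) :=
    isFiniteMeasure_withDensity_ofReal ((hi.comp_sub_right c).div_const Z).2
  change (volume : Measure (E d)).withDensity (fun x => g x) = _
  have hmap : (gam d).map (fun z => c + (√t)⁻¹ • z) =
      ((gam d).map (fun z => (√t)⁻¹ • z)).map (fun z => c + z) := by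
    rw [Measure.map_map (by fun_prop) (by fun_prop)]; rfl
  rw [hmap]
  apply Measure.ext_of_charFun
  ext w
  rw [charFun_map_const_add, charFun_map_smul, charFun_stdGaussian, charFun_apply,
    integral_withDensity_eq_integral_smul hg, ← integral_add_left_eq_self _ c]
  have h1 : ∀ x : E d, g (c + x) • Complex.exp ((⟪c + x, w⟫ : ℝ) * Complex.I) =
      ((Z : ℂ)⁻¹ * Complex.exp ((⟪c, w⟫ : ℝ) * Complex.I)) *
        Complex.exp (-((t / 2 : ℝ) : ℂ) * ‖x‖ ^ 2 + Complex.I * (⟪w, x⟫ : ℝ)) := by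
    intro x
    rw [NNReal.smul_def, hgv, Complex.real_smul, add_sub_cancel_left, inner_add_left,
      real_inner_comm x w, Complex.ofReal_add, add_mul, Complex.exp_add, Complex.exp_add,
      mul_comm Complex.I]
    push_cast
    ring
  simp_rw [h1]
  rw [integral_const_mul, GaussianFourier.integral_cexp_neg_mul_sq_norm_add hb, hZc]
  have hZ' : (Z : ℂ) ≠ 0 := by exact_mod_cast hZ0.ne'
  have e : Complex.I ^ 2 * (‖w‖ : ℂ) ^ 2 / (4 * ((t / 2 : ℝ) : ℂ)) =
      -((‖(√t)⁻¹ • w‖ : ℝ) : ℂ) ^ 2 / 2 := by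
    rw [Complex.I_sq, norm_smul, norm_inv, Real.norm_of_nonneg (Real.sqrt_nonneg _),
      ← Complex.ofReal_pow, ← Complex.ofReal_pow, mul_pow, inv_pow, Real.sq_sqrt ht.le]
    have : (t : ℂ) ≠ 0 := by exact_mod_cast ht.ne'
    push_cast
    field_simp
    ring
  rw [e]
  field_simp

theorem gauss_lin (P Q R : E d →L[ℝ] E d)
    (h : ∀ w, ‖ContinuousLinearMap.adjoint P w‖ ^ 2 + ‖ContinuousLinearMap.adjoint Q w‖ ^ 2 =
      ‖ContinuousLinearMap.adjoint R w‖ ^ 2) :
    ((gam d).prod (gam d)).map (fun z => P z.1 + Q z.2) = (gam d).map R := by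
  have hc : ∀ (L : E d →L[ℝ] E d) (w : E d), ∫ z, Complex.exp ((⟪L z, w⟫ : ℝ) * Complex.I) ∂gam d =
      Complex.exp (-((‖ContinuousLinearMap.adjoint L w‖ ^ 2 : ℝ) : ℂ) / 2) := by
    intro L w
    rw [Complex.ofReal_pow, ← charFun_stdGaussian, charFun_apply]
    simp only [ContinuousLinearMap.adjoint_inner_right]
  apply Measure.ext_of_charFun
  ext w
  rw [charFun_apply, charFun_apply, integral_map (by fun_prop) (by fun_prop),
    integral_map (by fun_prop) (by fun_prop)]
  simp_rw [inner_add_left, Complex.ofReal_add, add_mul, Complex.exp_add]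
  rw [integral_prod_mul (fun z => Complex.exp ((⟪P z, w⟫ : ℝ) * Complex.I))
    (fun z => Complex.exp ((⟪Q z, w⟫ : ℝ) * Complex.I)), hc, hc, hc, ← Complex.exp_add, ← h w]
  congr 1
  push_cast
  ring

theorem gdens_pos (z : E d) : 0 < gdens z := by
  have := Real.pi_pos
  unfold gdens
  positivity

theorem continuous_gdens : Continuous (gdens : E d → ℝ) := by
  unfold gdens
  fun_prop

theorem gam_eq (d : ℕ) : gam d = volume.withDensity fun z => ENNReal.ofReal (gdens z) := by
  have h := gauss_key (d := d) one_pos 0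
  simp only [Real.sqrt_one, inv_one, one_smul, zero_add, Measure.map_id', sub_zero, div_one] at h
  rw [← h]
  congr 1
  funext z
  congr 1
  unfold gdens
  rw [inv_pow, div_eq_inv_mul]
  congr 2
  ring

theorem integrable_norm_pow_gam (k : ℕ) : Integrable (fun z : E d => ‖z‖ ^ k) (gam d) := by
  have h : MemLp id (k : ENNReal) (gam d) := IsGaussian.memLp_id _ _ (ENNReal.natCast_ne_top k)
  exact h.integrable_norm_pow'

theorem integrable_norm_gam : Integrable (fun z : E d => ‖z‖) (gam d) := by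
  exact (IsGaussian.integrable_id (μ := gam d)).norm

theorem integral_norm_sq_gam : ∫ z, ‖z‖ ^ 2 ∂(gam d) = d := by
  set b := stdOrthonormalBasis ℝ (E d)
  have h1 : ∀ x : E d, ‖x‖ ^ 2 = ∑ i, ⟪b i, x⟫ ^ 2 := fun x => (b.sum_sq_inner_right x).symm
  have h2 : ∀ i, MemLp (fun x : E d => ⟪b i, x⟫) 2 (gam d) := fun i =>
    (innerSL ℝ (b i)).comp_memLp' IsGaussian.memLp_two_id
  simp_rw [h1]
  rw [integral_finsetSum _ fun i _ => (h2 i).integrable_sq]
  have h3 : ∀ i, ∫ x, ⟪b i, x⟫ ^ 2 ∂(gam d) = 1 := by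
    intro i
    have h4 := variance_dual_stdGaussian (E := E d) (innerSL ℝ (b i))
    rw [variance_of_integral_eq_zero (innerSL ℝ (b i)).continuous.aemeasurable
      (integral_strongDual_stdGaussian _)] at h4
    simpa [b.orthonormal.1 i] using h4
  simp [h3]

theorem integral_norm_gam_le : ∫ z, ‖z‖ ∂(gam d) ≤ √d := by
  have hm : MemLp (fun x : E d => ‖x‖) 2 (gam d) := IsGaussian.memLp_two_id.norm
  apply Real.le_sqrt_of_sq_le
  rw [← integral_norm_sq_gam]
  have := variance_nonneg (fun x : E d => ‖x‖) (gam d)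
  rw [variance_eq_sub hm] at this
  simpa using this

theorem gam_map_neg : (gam d).map (fun z => -z) = gam d := by
  exact stdGaussian_map (LinearIsometryEquiv.neg ℝ (E := E d))

/-- If `|P* w|² + |Q* w|² = |w|²` then `P Z + Q Z'` is standard Gaussian (characteristic functions). -/
theorem gam_lin (P Q : E d →L[ℝ] E d)
    (h : ∀ w, ‖ContinuousLinearMap.adjoint P w‖ ^ 2 + ‖ContinuousLinearMap.adjoint Q w‖ ^ 2 = ‖w‖ ^ 2) :
    ((gam d).prod (gam d)).map (fun z => P z.1 + Q z.2) = gam d := by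
  have := gauss_lin P Q (ContinuousLinearMap.id ℝ _) fun w => by
    rw [h w, ContinuousLinearMap.adjoint_id, ContinuousLinearMap.id_apply]
  rw [this]
  exact Measure.map_id

theorem gam_add {a b ν : ℝ} (h : ν ^ 2 = a ^ 2 + b ^ 2) :
    ((gam d).prod (gam d)).map (fun z => a • z.1 + b • z.2) = (gam d).map (fun z => ν • z) := by
  have e : ∀ (r : ℝ) (w : E d),
      ‖ContinuousLinearMap.adjoint (r • ContinuousLinearMap.id ℝ (E d)) w‖ ^ 2 = r ^ 2 * ‖w‖ ^ 2 := by
    intro r w
    rw [map_smulₛₗ, ContinuousLinearMap.adjoint_id]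
    simp [norm_smul, mul_pow]
  exact gauss_lin (a • ContinuousLinearMap.id ℝ _) (b • ContinuousLinearMap.id ℝ _)
    (ν • ContinuousLinearMap.id ℝ _) fun w => by rw [e, e, e, h]; ring

theorem integral_gam_add {f : E d → ℝ} (hf : Measurable f) {M : ℝ} (hM : ∀ x, |f x| ≤ M)
    (y : E d) {a b ν : ℝ} (h : ν ^ 2 = a ^ 2 + b ^ 2) :
    ∫ z, ∫ z', f (y + a • z + b • z') ∂(gam d) ∂(gam d) = ∫ z, f (y + ν • z) ∂(gam d) := by
  have hF : Measurable fun u : E d => f (y + u) := by fun_prop
  have h1 : ∫ z, f (y + ν • z) ∂(gam d) = ∫ u, f (y + u) ∂((gam d).map fun z => ν • z) :=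
    (integral_map (by fun_prop) hF.aestronglyMeasurable).symm
  rw [h1, ← gam_add h, integral_map (by fun_prop) hF.aestronglyMeasurable, integral_prod]
  · simp only [add_assoc]
  · refine Integrable.of_bound (Measurable.aestronglyMeasurable (by fun_prop)) M ?_
    exact ae_of_all _ fun z => hM _

theorem integral_gam_abs {f : E d → ℝ} (hf : Measurable f) (y : E d) (a : ℝ) :
    ∫ z, f (y + |a| • z) ∂(gam d) = ∫ z, f (y + a • z) ∂(gam d) := by
  rcases le_total 0 a with h | h
  · rw [abs_of_nonneg h]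
  · have hF : Measurable fun z : E d => f (y + a • z) := by fun_prop
    conv_rhs => rw [← gam_map_neg, integral_map (by fun_prop) hF.aestronglyMeasurable]
    simp only [abs_of_nonpos h, neg_smul, smul_neg]

theorem Zc_zero {t : ℝ} (ht : 0 < t) (c : E d) :
    Zc (fun _ => 0) t c = √(2 * Real.pi / t) ^ d := by
  rw [← gauss_int ht, Zc,
    ← integral_sub_right_eq_self (fun z : E d => Real.exp (-(t / 2) * ‖z‖ ^ 2)) c]
  refine integral_congr_ae (ae_of_all _ fun z => ?_)
  simp only [dens]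
  congr 1
  ring

theorem mu_zero {t : ℝ} (ht : 0 < t) (c : E d) :
    mu (fun _ => 0) t c = (gam d).map (fun z => c + (√t)⁻¹ • z) := by
  rw [← gauss_key ht, mu, Zc_zero ht]
  congr 1
  funext z
  simp only [dens]
  congr 3
  ring

/-! ### `Test` -/

theorem Test.measurable {f : E d → ℝ} (hf : Test f) : Measurable f := by
  exact hf.1.continuous.measurable

/-- Gaussian smoothing and translation preserve test functions. -/
theorem Test.smooth {f : E d → ℝ} (hf : Test f) (y : E d) (ν : ℝ) :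
    Test (fun x => ∫ z, f (x + y + ν • z) ∂(gam d)) := by
  obtain ⟨h1, M, hM⟩ := hf
  have hc := h1.continuous
  have hi : ∀ x : E d, Integrable (fun z => f (x + y + ν • z)) (gam d) := fun x =>
    Integrable.of_bound (Continuous.aestronglyMeasurable (by fun_prop)) M
      (ae_of_all _ fun z => hM _)
  refine ⟨LipschitzWith.of_dist_le_mul fun x x' => ?_, M, fun x => ?_⟩
  · rw [Real.dist_eq, ← integral_sub (hi x) (hi x'), ← Real.norm_eq_abs]
    refine (norm_integral_le_of_norm_le_const (C := dist x x') (ae_of_all _ fun z => ?_)).trans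
      (by simp)
    have := h1.dist_le_mul (x + y + ν • z) (x' + y + ν • z)
    rw [dist_add_right, dist_add_right] at this
    simpa [Real.dist_eq] using this
  · rw [← Real.norm_eq_abs]
    exact (norm_integral_le_of_norm_le_const (C := M) (ae_of_all _ fun z => hM _)).trans (by simp)

/-- A bounded `L`-Lipschitz function is `L` times a test function. -/
theorem test_div {X : Type} [PseudoMetricSpace X] {f : X → ℝ} {L M : ℝ} (hL : 0 < L)
    (h1 : ∀ x y, |f x - f y| ≤ L * dist x y) (h2 : ∀ x, |f x| ≤ M) : Test (fun x => f x / L) := by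
  refine ⟨LipschitzWith.of_dist_le_mul fun x y => ?_, M / L, fun x => ?_⟩
  · rw [Real.dist_eq, ← sub_div, abs_div, abs_of_pos hL, div_le_iff₀ hL]
    have := h1 x y
    simp only [NNReal.coe_one, one_mul]
    linarith
  · rw [abs_div, abs_of_pos hL]
    exact div_le_div_of_nonneg_right (h2 x) hL.le

/-! ### `Dom` -/

section dom

variable {α β : Type} [MeasurableSpace α] [MeasurableSpace β] {μ : Measure α}

theorem Dom.mono {f f' : α → ℝ} {B B' : ℝ} (h : Dom μ f B) (hf : ∀ z, f' z ≤ f z) (hB : B ≤ B') :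
    Dom μ f' B' := by
  obtain ⟨g, h1, h2, h3⟩ := h
  exact ⟨g, h1, fun z => (hf z).trans (h2 z), h3.trans hB⟩

theorem Dom.add {f f' : α → ℝ} {B B' : ℝ} (h : Dom μ f B) (h' : Dom μ f' B') :
    Dom μ (fun z => f z + f' z) (B + B') := by
  obtain ⟨g, h1, h2, h3⟩ := h
  obtain ⟨g', h1', h2', h3'⟩ := h'
  refine ⟨fun z => g z + g' z, h1.add h1', fun z => add_le_add (h2 z) (h2' z), ?_⟩
  rw [integral_add h1 h1']
  exact add_le_add h3 h3'

theorem Dom.const_mul {f : α → ℝ} {B c : ℝ} (h : Dom μ f B) (hc : 0 ≤ c) :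
    Dom μ (fun z => c * f z) (c * B) := by
  obtain ⟨g, h1, h2, h3⟩ := h
  refine ⟨fun z => c * g z, h1.const_mul c, fun z => mul_le_mul_of_nonneg_left (h2 z) hc, ?_⟩
  rw [integral_const_mul]
  exact mul_le_mul_of_nonneg_left h3 hc

theorem Dom.sum {ι : Type} (s : Finset ι) {f : ι → α → ℝ} {B : ι → ℝ}
    (h : ∀ i ∈ s, Dom μ (f i) (B i)) : Dom μ (fun z => ∑ i ∈ s, f i z) (∑ i ∈ s, B i) := by
  classical
  induction s using Finset.induction_on with
  | empty => exact ⟨fun _ => 0, integrable_zero _ _ _, fun z => by simp, by simp⟩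
  | insert i s hi ih =>
    simp only [Finset.sum_insert hi]
    exact (h i (Finset.mem_insert_self _ _)).add
      (ih fun j hj => h j (Finset.mem_insert_of_mem hj))

theorem dom_const [IsProbabilityMeasure μ] (c : ℝ) : Dom μ (fun _ => c) c := by
  exact ⟨fun _ => c, integrable_const c, fun _ => le_rfl, by simp⟩

theorem dom_of_integrable {f : α → ℝ} {B : ℝ} (h : Integrable f μ) (hB : ∫ z, f z ∂μ ≤ B) :
    Dom μ f B := by
  exact ⟨f, h, fun _ => le_rfl, hB⟩

theorem Dom.comp {ν : Measure β} {Φ : α → β} (hΦ : Measurable Φ) (hν : μ.map Φ = ν) {f : β → ℝ}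
    {B : ℝ} (h : Dom ν f B) : Dom μ (fun z => f (Φ z)) B := by
  obtain ⟨g, h1, h2, h3⟩ := h
  subst hν
  refine ⟨fun z => g (Φ z), h1.comp_measurable hΦ, fun z => h2 _, ?_⟩
  rwa [integral_map hΦ.aemeasurable h1.1] at h3

theorem Dom.integrable {f : α → ℝ} {B : ℝ} (h : Dom μ f B) (hf : AEStronglyMeasurable f μ)
    (h0 : ∀ z, 0 ≤ f z) : Integrable f μ ∧ ∫ z, f z ∂μ ≤ B := by
  obtain ⟨g, h1, h2, h3⟩ := h
  have hi : Integrable f μ := h1.mono' hf (ae_of_all _ fun z => by
    rw [Real.norm_of_nonneg (h0 z)]; exact h2 z)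
  exact ⟨hi, (integral_mono hi h1 h2).trans h3⟩

/-- Tonelli. -/
theorem Dom.prod [SFinite μ] {ν : Measure β} [SFinite ν] {f : α × β → ℝ} (hf : Measurable f)
    (h0 : ∀ z, 0 ≤ f z) {b : α → ℝ} {B : ℝ} (h1 : ∀ x, Dom ν (fun y => f (x, y)) (b x))
    (h2 : Dom μ b B) : Dom (μ.prod ν) f B := by
  have k1 : ∀ x, Integrable (fun y => f (x, y)) ν ∧ ∫ y, f (x, y) ∂ν ≤ b x := fun x =>
    (h1 x).integrable (Measurable.aestronglyMeasurable (by fun_prop)) fun y => h0 _
  have k2 := (h2.mono (fun x => (k1 x).2) le_rfl).integrable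
    hf.aestronglyMeasurable.integral_prod_right' fun x => integral_nonneg fun y => h0 _
  have k3 : Integrable f (μ.prod ν) := by
    rw [integrable_prod_iff hf.aestronglyMeasurable]
    refine ⟨ae_of_all _ fun x => (k1 x).1, ?_⟩
    simpa only [Real.norm_of_nonneg (h0 _)] using k2.1
  refine dom_of_integrable k3 ?_
  rw [integral_prod _ k3]
  exact k2.2

theorem Dom.fst {ν : Measure β} [IsProbabilityMeasure ν] [SFinite μ] {f : α → ℝ} {B : ℝ}
    (h : Dom μ f B) : Dom (μ.prod ν) (fun z => f z.1) B := by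
  exact h.comp measurable_fst (by simp)

theorem Dom.snd {ν : Measure β} [SFinite ν] [IsProbabilityMeasure μ] {f : β → ℝ} {B : ℝ}
    (h : Dom ν f B) : Dom (μ.prod ν) (fun z => f z.2) B := by
  exact h.comp measurable_snd (by simp)

/-- Comparing two integrals through a dominated pointwise difference. -/
theorem Dom.abs_integral_sub {f g e : α → ℝ} {B : ℝ} (hf : Integrable f μ) (hg : Integrable g μ)
    (h : ∀ z, |f z - g z| ≤ e z) (he : Dom μ e B) : |∫ z, f z ∂μ - ∫ z, g z ∂μ| ≤ B := by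
  have k := (he.mono h le_rfl).integrable (hf.sub hg).abs.1 fun z => abs_nonneg _
  rw [← integral_sub hf hg]
  exact abs_integral_le_integral_abs.trans k.2

end dom

theorem dom_norm_gam : Dom (gam d) (fun z => ‖z‖) √d := by
  exact dom_of_integrable integrable_norm_gam integral_norm_gam_le

end

end Crest.Agent.R285
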