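import Crest.Agent.R285.Poinc
import Crest.Agent.R285.Gauss

/-!
# R285/Gibbs: dependence of `mu W t c` on the centre, moments, comparison with a Gaussian
-/

set_option autoImplicit false

namespace Crest.Agent.R285

open MeasureTheory ProbabilityTheory Crest.OracleSampling Set
open scoped RealInnerProductSpace ContDiff

noncomputable section

variable {d : ℕ} {δ : ℝ} {W : E d → ℝ}

theorem gibbs_var_nonneg {α : Type} [MeasurableSpace α] {μ : Measure α} [IsProbabilityMeasure μ]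
    {f : α → ℝ} (h1 : Integrable f μ) (h2 : Integrable (fun z => f z ^ 2) μ) :
    (∫ z, f z ∂μ) ^ 2 ≤ ∫ z, f z ^ 2 ∂μ := by
  obtain ⟨a, ha⟩ : ∃ a, a = ∫ z, f z ∂μ := ⟨_, rfl⟩
  have h3 : 0 ≤ ∫ z, (f z ^ 2 - 2 * a * f z + a ^ 2) ∂μ :=
    integral_nonneg fun z => by
      have := sq_nonneg (f z - a)
      simp only [Pi.zero_apply]
      linarith
  have h4 : Integrable (fun z => f z ^ 2 - 2 * a * f z) μ := h2.sub (h1.const_mul _)
  rw [integral_add h4 (integrable_const _),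
    integral_sub h2 (h1.const_mul _), integral_const_mul, integral_const, ← ha] at h3
  simp only [probReal_univ, smul_eq_mul, one_mul] at h3
  rw [← ha]
  linarith

theorem gibbs_cov {α : Type} [MeasurableSpace α] {μ : Measure α} [IsProbabilityMeasure μ]
    {f g : α → ℝ} (hf : Integrable f μ) (hg : Integrable g μ)
    (hf2 : Integrable (fun z => f z ^ 2) μ) (hg2 : Integrable (fun z => g z ^ 2) μ)
    (hfg : Integrable (fun z => f z * g z) μ) {a b : ℝ}
    (ha : ∫ z, f z ^ 2 ∂μ - (∫ z, f z ∂μ) ^ 2 ≤ a) (hb : ∫ z, g z ^ 2 ∂μ - (∫ z, g z ∂μ) ^ 2 ≤ b) :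
    |∫ z, f z * g z ∂μ - (∫ z, f z ∂μ) * ∫ z, g z ∂μ| ≤ √a * √b := by
  have ha0 : 0 ≤ a := le_trans (sub_nonneg.2 (gibbs_var_nonneg hf hf2)) ha
  have hb0 : 0 ≤ b := le_trans (sub_nonneg.2 (gibbs_var_nonneg hg hg2)) hb
  have key : ∀ x : ℝ, 0 ≤ a * (x * x) +
      2 * (∫ z, f z * g z ∂μ - (∫ z, f z ∂μ) * ∫ z, g z ∂μ) * x + b := by
    intro x
    have e : (fun z => (x * f z + g z) ^ 2) =
        fun z => x ^ 2 * f z ^ 2 + 2 * x * (f z * g z) + g z ^ 2 := by
      funext z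
      ring
    have h1 := gibbs_var_nonneg (f := fun z => x * f z + g z) ((hf.const_mul x).add hg)
      (by rw [e]; exact ((hf2.const_mul _).add (hfg.const_mul _)).add hg2)
    have h0 : Integrable (fun z => x ^ 2 * f z ^ 2 + 2 * x * (f z * g z)) μ :=
      (hf2.const_mul _).add (hfg.const_mul _)
    rw [e, integral_add h0 hg2,
      integral_add (hf2.const_mul _) (hfg.const_mul _), integral_add (hf.const_mul _) hg,
      integral_const_mul, integral_const_mul, integral_const_mul] at h1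
    have h2 := mul_le_mul_of_nonneg_left ha (sq_nonneg x)
    nlinarith
  have h3 := discrim_le_zero key
  rw [discrim] at h3
  rw [← Real.sqrt_mul ha0]
  exact Real.abs_le_sqrt (by nlinarith)

theorem gibbs_inner_ee (z : E d) (k : Fin d) : ⟪z, ee k⟫ = z k := by
  simp [ee, EuclideanSpace.inner_single_right]

theorem gibbs_inner_eq_sum (z w : E d) : ⟪z, w⟫ = ∑ k, z k * w k := by
  simp [PiLp.inner_apply, mul_comm]

theorem gibbs_lip_inner (v : E d) : LipschitzWith ‖v‖₊ (fun z : E d => ⟪z, v⟫) := by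
  refine LipschitzWith.of_dist_le_mul fun x y => ?_
  rw [Real.dist_eq, ← inner_sub_left, dist_eq_norm, coe_nnnorm, mul_comm]
  exact abs_real_inner_le_norm _ _

theorem gibbs_lip_grad (hW : Pot d δ W) (hδ : 0 ≤ δ) (v : E d) :
    LipschitzWith ⟨δ * ‖v‖, by positivity⟩ (fun z : E d => ⟪gradient W z, v⟫) := by
  refine LipschitzWith.of_dist_le_mul fun x y => ?_
  rw [Real.dist_eq, ← inner_sub_left, dist_eq_norm]
  calc _ ≤ ‖gradient W x - gradient W y‖ * ‖v‖ := abs_real_inner_le_norm _ _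
    _ ≤ δ * ‖x - y‖ * ‖v‖ := mul_le_mul_of_nonneg_right (hW.grad_lip hδ x y) (norm_nonneg _)
    _ = δ * ‖v‖ * ‖x - y‖ := by ring

theorem gibbs_int_id (hW : Pot d δ W) {t : ℝ} (ht : 0 < t) (c : E d) :
    Integrable (fun z : E d => z) (mu W t c) :=
  integrable_mu_of_norm hW ht c continuous_id (L := 1) fun z => by
    rw [one_mul]
    exact le_add_of_nonneg_left zero_le_one

theorem gibbs_int_grad (hW : Pot d δ W) (hδ : 0 ≤ δ) {t : ℝ} (ht : 0 < t) (c : E d) :
    Integrable (gradient W) (mu W t c) :=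
  integrable_mu_of_norm hW ht c hW.grad_c1.continuous (L := δ) fun z =>
    (hW.grad_le hδ z).trans (mul_le_mul_of_nonneg_left (le_add_of_nonneg_left zero_le_one) hδ)

theorem gibbs_integral_inner {μ : Measure (E d)} {g : E d → E d} (hg : Integrable g μ) (v : E d) :
    ∫ z, ⟪g z, v⟫ ∂μ = ⟪∫ z, g z ∂μ, v⟫ := by
  rw [real_inner_comm, ← integral_inner hg]
  simp only [real_inner_comm]

theorem gibbs_dens_deriv (hW : Pot d δ W) (t : ℝ) (c z : E d) :
    DifferentiableAt ℝ (dens W t c) z ∧ ∀ v, fderiv ℝ (dens W t c) z v =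
      -((t * ⟪z - c, v⟫ + ⟪gradient W z, v⟫) * dens W t c z) := by
  have h1 : HasFDerivAt (fun z : E d => z - c) (ContinuousLinearMap.id ℝ (E d)) z :=
    (hasFDerivAt_id z).sub_const c
  have h2 := ((h1.norm_sq.const_mul (-(t / 2))).sub (hW.hasGradientAt z).hasFDerivAt).exp
  have e : dens W t c = fun z => Real.exp (-(t / 2) * ‖z - c‖ ^ 2 - W z) := by
    funext y
    unfold dens
    congr 1
    ring
  rw [e]
  refine ⟨h2.differentiableAt, fun v => ?_⟩
  have h3 := h2.fderiv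
  simp only [Pi.sub_apply] at h3
  rw [h3]
  simp [inner_sub_left]
  ring

/-- integration by parts -/
theorem gibbs_ibp (hW : Pot d δ W) (hδ : 0 ≤ δ) {t : ℝ} (ht : 0 < t) (c v : E d) {h : E d → ℝ}
    (hd : Differentiable ℝ h) (h0 : PG h) (h1 : PG (dd v h)) :
    ∫ z, h z * (t * ⟪z - c, v⟫ + ⟪gradient W z, v⟫) ∂(mu W t c) = ∫ z, dd v h z ∂(mu W t c) := by
  have hp : PG fun z => h z * (t * ⟪z - c, v⟫ + ⟪gradient W z, v⟫) := by
    simp only [inner_sub_left]
    exact h0.mul ((((pg_inner v).sub (pg_const _)).const_mul t).add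
      (pg_of_lip (gibbs_lip_grad hW hδ v)))
  have e : (fun z => h z * fderiv ℝ (dens W t c) z v) =
      fun z => -(h z * (t * ⟪z - c, v⟫ + ⟪gradient W z, v⟫) * dens W t c z) := by
    funext z
    rw [(gibbs_dens_deriv hW t c z).2]
    ring
  have h2 := integral_mul_fderiv_eq_neg_fderiv_mul_of_integrable (μ := volume) (f := h)
    (g := dens W t c) (v := v) (integrable_dens hW ht h1 c)
    (by rw [e]; exact (integrable_dens hW ht hp c).neg) (integrable_dens hW ht h0 c)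
    (fun z _ => hd z) (fun z _ => (gibbs_dens_deriv hW t c z).1)
  rw [e, integral_neg, neg_inj] at h2
  rw [integral_mu_dens hW ht, integral_mu_dens hW ht, h2]
  rfl

/-- Integration by parts: `∫ ∂_k (dens) = 0` (`integral_mul_fderiv_eq_neg_fderiv_mul_of_integrable`
with one factor `1`, or `integral_fderiv_eq_zero`-type lemma), `∂_k dens = -(t(z-c)_k + ∂_k W) dens`. -/
theorem GG_eq (hW : Pot d δ W) (hδ : 0 ≤ δ) {t : ℝ} (ht : 0 < t) (c : E d) :
    GG W t c = t • (c - ∫ z, z ∂(mu W t c)) := by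
  have := mu_prob hW ht c
  refine ext_inner_right ℝ fun v => ?_
  have e : dd v (fun _ : E d => (1 : ℝ)) = fun _ => 0 := by
    funext z
    simp [dd]
  have h1 := gibbs_ibp hW hδ ht c v (h := fun _ => 1) (differentiable_const _) (pg_const 1)
    (by rw [e]; exact pg_const 0)
  have i1 := (pg_inner v).integrable_mu hW ht c
  have i2 := (pg_of_lip (gibbs_lip_grad hW hδ v)).integrable_mu hW ht c
  simp only [e, one_mul, inner_sub_left, integral_zero] at h1
  have i3 : Integrable (fun z => t * (⟪z, v⟫ - ⟪c, v⟫)) (mu W t c) :=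
    (i1.sub (integrable_const _)).const_mul t
  rw [integral_add i3 i2, integral_const_mul,
    integral_sub i1 (integrable_const _), integral_const,
    gibbs_integral_inner (gibbs_int_grad hW hδ ht c), gibbs_integral_inner (gibbs_int_id hW ht c)]
    at h1
  simp only [probReal_univ, smul_eq_mul, one_mul] at h1
  rw [real_inner_smul_left, inner_sub_left, GG]
  linarith

/-- Derivative in the centre is a covariance: from `integral_mu`, `dd_KK` and the quotient rule. -/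
theorem dd_integral_mu (hW : Pot d δ W) {t : ℝ} (ht : 0 < t) {f : E d → ℝ} (hf : PG f) (v c : E d) :
    dd v (fun c => ∫ z, f z ∂(mu W t c)) c =
      t * (∫ z, f z * ⟪z, v⟫ ∂(mu W t c) - (∫ z, f z ∂(mu W t c)) * ∫ z, ⟪z, v⟫ ∂(mu W t c)) := by
  have hF : DifferentiableAt ℝ (fun c => ∫ z, f z ∂(mu W t c)) c :=
    (smooth_integral_mu hW ht hf).differentiable (by simp) c
  have hI : DifferentiableAt ℝ (KK W t fun _ => 1) c :=
    (KK_smooth hW ht (pg_const 1)).differentiable (by simp) c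
  have e : KK W t f = fun c => (∫ z, f z ∂(mu W t c)) * KK W t (fun _ => 1) c := by
    funext y
    rw [integral_mu hW ht]
    exact (div_mul_cancel₀ _ (II_pos hW ht y).ne').symm
  have h1 : dd v (KK W t f) c = (∫ z, f z ∂(mu W t c)) * dd v (KK W t fun _ => 1) c +
      II W t c * dd v (fun c => ∫ z, f z ∂(mu W t c)) c := by
    unfold dd
    conv_lhs => rw [e, fderiv_fun_mul hF hI]
    rfl
  rw [dd_KK hW ht hf, dd_KK hW ht (pg_const 1)] at h1
  have h2 := integral_mu hW ht (fun z => t * ⟪z, v⟫ * f z) c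
  have h3 := integral_mu hW ht (fun z => t * ⟪z, v⟫ * 1) c
  have h0 := II_pos hW ht c
  rw [eq_div_iff h0.ne'] at h2 h3
  rw [← h2, ← h3] at h1
  have e2 : ∫ z, t * ⟪z, v⟫ * f z ∂(mu W t c) = t * ∫ z, f z * ⟪z, v⟫ ∂(mu W t c) := by
    rw [← integral_const_mul]
    congr 1
    funext z
    ring
  have e3 : ∫ z, t * ⟪z, v⟫ * 1 ∂(mu W t c) = t * ∫ z, ⟪z, v⟫ ∂(mu W t c) := by
    rw [← integral_const_mul]
    simp only [mul_one]
  rw [e2, e3] at h1
  refine mul_left_cancel₀ h0.ne' ?_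
  linarith

/-- Cauchy–Schwarz for the covariance, `Var ⟨z,v⟩ ≤ |v|²/t` (`poincare_lip`), mean value theorem. -/
theorem mu_lip_of_var (hW : Pot d δ W) {t : ℝ} (ht : 0 < t) {f : E d → ℝ} (hf : PG f) {v : ℝ}
    (hv : ∀ c, ∫ z, f z ^ 2 ∂(mu W t c) - (∫ z, f z ∂(mu W t c)) ^ 2 ≤ v) (c c' : E d) :
    |∫ z, f z ∂(mu W t c) - ∫ z, f z ∂(mu W t c')| ≤ √(t * v) * ‖c - c'‖ := by
  have hF : Differentiable ℝ (fun c => ∫ z, f z ∂(mu W t c)) :=
    (smooth_integral_mu hW ht hf).differentiable (by simp)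
  have h1 : ∀ x, ‖fderiv ℝ (fun c => ∫ z, f z ∂(mu W t c)) x‖ ≤ √(t * v) := by
    intro x
    have := mu_prob hW ht x
    refine ContinuousLinearMap.opNorm_le_bound _ (Real.sqrt_nonneg _) fun w => ?_
    have h2 := gibbs_cov (hf.integrable_mu hW ht x) ((pg_inner w).integrable_mu hW ht x)
      ((hf.pow 2).integrable_mu hW ht x) (((pg_inner w).pow 2).integrable_mu hW ht x)
      ((hf.mul (pg_inner w)).integrable_mu hW ht x) (hv x)
      (poincare_lip hW ht x (gibbs_lip_inner w))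
    have h3 := dd_integral_mu hW ht hf w x
    unfold dd at h3
    rw [h3, Real.norm_eq_abs, abs_mul, abs_of_pos ht]
    refine (mul_le_mul_of_nonneg_left h2 ht.le).trans (le_of_eq ?_)
    have h4 := Real.sqrt_pos.2 ht
    rw [coe_nnnorm, Real.sqrt_div (sq_nonneg _), Real.sqrt_sq (norm_nonneg _),
      Real.sqrt_mul ht.le]
    nth_rewrite 1 [← Real.mul_self_sqrt ht.le]
    field_simp
  exact convex_univ.norm_image_sub_le_of_norm_fderiv_le (fun x _ => hF x) (fun x _ => h1 x)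
    (mem_univ c') (mem_univ c)

theorem mu_lip (hW : Pot d δ W) {t : ℝ} (ht : 0 < t) {f : E d → ℝ} {L : NNReal}
    (hf : LipschitzWith L f) (c c' : E d) :
    |∫ z, f z ∂(mu W t c) - ∫ z, f z ∂(mu W t c')| ≤ L * ‖c - c'‖ := by
  have h := mu_lip_of_var hW ht (pg_of_lip hf) (fun c => poincare_lip hW ht c hf) c c'
  rwa [mul_div_cancel₀ _ ht.ne', Real.sqrt_sq L.coe_nonneg] at h

theorem gibbs_var_bdd {μ : Measure (E d)} [IsProbabilityMeasure μ] {f : E d → ℝ}
    (h1 : ∀ z, |f z| ≤ 1) : ∫ z, f z ^ 2 ∂μ - (∫ z, f z ∂μ) ^ 2 ≤ 1 := by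
  have h2 : ∫ z, f z ^ 2 ∂μ ≤ ∫ _, (1 : ℝ) ∂μ :=
    integral_mono_of_nonneg (Filter.Eventually.of_forall fun z => sq_nonneg _)
      (integrable_const _)
      (Filter.Eventually.of_forall fun z => (sq_le_one_iff_abs_le_one _).2 (h1 z))
  simp only [integral_const, probReal_univ, smul_eq_mul, one_mul] at h2
  linarith [sq_nonneg (∫ z, f z ∂μ)]

theorem mu_bdd (hW : Pot d δ W) {t : ℝ} (ht : 0 < t) {f : E d → ℝ} (hf : Measurable f)
    (h1 : ∀ z, |f z| ≤ 1) (c c' : E d) :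
    |∫ z, f z ∂(mu W t c) - ∫ z, f z ∂(mu W t c')| ≤ √t * ‖c - c'‖ := by
  have h := mu_lip_of_var hW ht (pg_of_bdd hf h1) (v := 1) (fun c => by
    have := mu_prob hW ht c
    exact gibbs_var_bdd h1) c c'
  rwa [mul_one] at h

theorem gibbs_integral_zero {f : E d → ℝ} (hf : Measurable f) {t : ℝ} (ht : 0 < t) (c : E d) :
    ∫ z, f z ∂(mu (fun _ => 0) t c) = ∫ z, f (c + (√t)⁻¹ • z) ∂(gam d) := by
  rw [mu_zero ht, integral_map (by fun_prop) hf.aestronglyMeasurable]

/-- Gaussian smoothing of a function bounded by `1` is `1/ν`-Lipschitz (`mu_bdd` with `W = 0`,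
`t = 1/ν²`, `mu_zero`). -/
theorem smooth_bdd_lip {f : E d → ℝ} (hf : Measurable f) (h1 : ∀ z, |f z| ≤ 1) {ν : ℝ} (hν : 0 < ν)
    (x x' : E d) :
    |∫ z, f (x + ν • z) ∂(gam d) - ∫ z, f (x' + ν • z) ∂(gam d)| ≤ ν⁻¹ * ‖x - x'‖ := by
  have ht : 0 < ν⁻¹ ^ 2 := by positivity
  have h := mu_bdd (pot_zero d) ht hf h1 x x'
  rwa [gibbs_integral_zero hf ht, gibbs_integral_zero hf ht, Real.sqrt_sq (by positivity),
    inv_inv] at h

/-- Test against a unit vector `w`: `z ↦ ⟨∇W z, w⟩` is `δ`-Lipschitz. -/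
theorem GG_lip (hW : Pot d δ W) (hδ : 0 ≤ δ) {t : ℝ} (ht : 0 < t) (c c' : E d) :
    ‖GG W t c - GG W t c'‖ ≤ δ * ‖c - c'‖ := by
  obtain ⟨w, hw⟩ : ∃ w, w = GG W t c - GG W t c' := ⟨_, rfl⟩
  have h1 := mu_lip hW ht (gibbs_lip_grad hW hδ w) c c'
  rw [gibbs_integral_inner (gibbs_int_grad hW hδ ht c),
    gibbs_integral_inner (gibbs_int_grad hW hδ ht c'), ← inner_sub_left] at h1
  change |⟪GG W t c - GG W t c', w⟫| ≤ δ * ‖w‖ * ‖c - c'‖ at h1
  rw [← hw, real_inner_self_eq_norm_mul_norm, abs_of_nonneg (by positivity)] at h1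
  rw [← hw]
  rcases (norm_nonneg w).eq_or_lt with h | h
  · rw [← h]
    positivity
  · refine le_of_mul_le_mul_right ?_ h
    linarith

theorem AA_norm (hW : Pot d δ W) (hδ : 0 ≤ δ) {t : ℝ} (ht : 0 < t) (c : E d) : ‖AA W t c‖ ≤ δ := by
  exact norm_fderiv_le_of_lip' ℝ hδ (Filter.Eventually.of_forall fun x => GG_lip hW hδ ht x c)

/-- `⟨AA v, w⟩ = t⟨v,w⟩ - t² Cov(⟨z,v⟩,⟨z,w⟩)` by `GG_eq` and `dd_integral_mu`. -/
theorem AA_symm (hW : Pot d δ W) (hδ : 0 ≤ δ) {t : ℝ} (ht : 0 < t) (c v w : E d) :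
    ⟪AA W t c v, w⟫ = ⟪v, AA W t c w⟫ := by
  have key : ∀ v w : E d, ⟪AA W t c v, w⟫ = t * (⟪v, w⟫ - t * (∫ z, ⟪z, w⟫ * ⟪z, v⟫ ∂(mu W t c) -
      (∫ z, ⟪z, w⟫ ∂(mu W t c)) * ∫ z, ⟪z, v⟫ ∂(mu W t c))) := by
    intro v w
    have hG : HasFDerivAt (GG W t) (AA W t c) c :=
      ((GG_smooth hW hδ ht).differentiable (by simp) c).hasFDerivAt
    have h1 := hG.inner ℝ (hasFDerivAt_const w c)
    have hF := ((smooth_integral_mu hW ht (pg_inner w)).differentiable (by simp) c).hasFDerivAt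
    have h2 := (((hasFDerivAt_id c).inner ℝ (hasFDerivAt_const w c)).sub hF).const_mul t
    have e : (fun y => ⟪GG W t y, w⟫) =
        fun y => t * (⟪id y, w⟫ - ∫ z, ⟪z, w⟫ ∂(mu W t y)) := by
      funext y
      rw [GG_eq hW hδ ht, real_inner_smul_left, inner_sub_left,
        gibbs_integral_inner (gibbs_int_id hW ht y)]
      rfl
    rw [e] at h1
    have h3 := congrArg (fun L => L v) (h1.unique h2)
    have h4 := dd_integral_mu hW ht (pg_inner w) v c
    unfold dd at h4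
    rw [← h4]
    simpa using h3
  rw [real_inner_comm (AA W t c w), key, key, real_inner_comm w v]
  simp only [mul_comm]

theorem continuous_AA (hW : Pot d δ W) (hδ : 0 ≤ δ) {t : ℝ} (ht : 0 < t) :
    Continuous (AA W t) := by
  exact (GG_smooth hW hδ ht).continuous_fderiv (by simp)

theorem gibbs_sq_zero (hW : Pot d δ W) (hδ : 0 ≤ δ) {t : ℝ} (ht : 0 < t) :
    ∫ z, ‖z‖ ^ 2 ∂(mu W t 0) ≤ d / t := by
  have := mu_prob hW ht 0
  have h1 : ∀ k : Fin d, ∫ z, z k * (t * z k + gradient W z k) ∂(mu W t 0) = 1 := by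
    intro k
    have hk : ∀ z : E d, HasFDerivAt (fun z : E d => z k) (EuclideanSpace.proj k : E d →L[ℝ] ℝ) z :=
      fun z => (EuclideanSpace.proj k : E d →L[ℝ] ℝ).hasFDerivAt
    have e : dd (ee k) (fun z : E d => z k) = fun _ => 1 := by
      funext z
      rw [dd, (hk z).fderiv]
      simp [ee]
    have h2 := gibbs_ibp hW hδ ht 0 (ee k) (h := fun z => z k) (fun z => (hk z).differentiableAt)
      (pg_coord k) (by rw [e]; exact pg_const 1)
    simp only [e, gibbs_inner_ee, sub_zero] at h2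
    simpa using h2
  have hp : ∀ k : Fin d, PG fun z : E d => z k * (t * z k + gradient W z k) := fun k =>
    (pg_coord k).mul (((pg_coord k).const_mul t).add (hW.pg_grad hδ k))
  have h2 : ∫ z, ∑ k, z k * (t * z k + gradient W z k) ∂(mu W t 0) = d := by
    rw [integral_finsetSum _ fun k _ => (hp k).integrable_mu hW ht 0]
    simp [h1]
  have h3 : ∫ z, t * ‖z‖ ^ 2 ∂(mu W t 0) ≤
      ∫ z, ∑ k, z k * (t * z k + gradient W z k) ∂(mu W t 0) := by
    refine integral_mono (((pg_norm.pow 2).const_mul t).integrable_mu hW ht 0)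
      ((PG.sum _ fun k _ => hp k).integrable_mu hW ht 0) fun z => ?_
    have h4 := hW.inner_grad_nonneg z
    rw [gibbs_inner_eq_sum] at h4
    have h5 : ∑ k, z k * (t * z k + gradient W z k) =
        t * ∑ k, z k ^ 2 + ∑ k, gradient W z k * z k := by
      rw [Finset.mul_sum, ← Finset.sum_add_distrib]
      exact Finset.sum_congr rfl fun k _ => by ring
    dsimp only
    rw [h5, EuclideanSpace.real_norm_sq_eq]
    linarith
  rw [h2, integral_const_mul] at h3
  rw [le_div_iff₀ ht]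
  linarith

/-- At `c = 0`: integration by parts gives `E⟨z, t z + ∇W z⟩ = d`, so `t E|z|² ≤ d`
(`Pot.inner_grad_nonneg`); general `c` by `mu_lip` for `f = ‖·‖`. -/
theorem mu_norm_le (hW : Pot d δ W) (hδ : 0 ≤ δ) {t : ℝ} (ht : 0 < t) (c : E d) :
    ∫ z, ‖z‖ ∂(mu W t c) ≤ ‖c‖ + √d / √t := by
  have := mu_prob hW ht 0
  have h1 := mu_lip hW ht lipschitzWith_one_norm c 0
  rw [NNReal.coe_one, one_mul, sub_zero] at h1
  have h2 := (gibbs_var_nonneg (pg_norm.integrable_mu hW ht 0)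
    ((pg_norm.pow 2).integrable_mu hW ht 0)).trans (gibbs_sq_zero hW hδ ht)
  have h3 := Real.le_sqrt_of_sq_le h2
  rw [Real.sqrt_div (Nat.cast_nonneg _)] at h3
  linarith [(abs_le.1 h1).2]

theorem GG_norm (hW : Pot d δ W) (hδ : 0 ≤ δ) {t : ℝ} (ht : 0 < t) (c : E d) :
    ‖GG W t c‖ ≤ δ * (‖c‖ + √d / √t) := by
  have h1 : ‖GG W t c‖ ≤ ∫ z, δ * ‖z‖ ∂(mu W t c) :=
    norm_integral_le_of_norm_le ((pg_norm.const_mul δ).integrable_mu hW ht c)
      (Filter.Eventually.of_forall fun z => hW.grad_le hδ z)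
  rw [integral_const_mul] at h1
  exact h1.trans (mul_le_mul_of_nonneg_left (mu_norm_le hW hδ ht c) hδ)

theorem gibbs_one_le_sqrt {t : ℝ} (ht : 1 ≤ t) : 1 ≤ √t := Real.one_le_sqrt.2 ht

theorem GG_norm' (hW : Pot d 1 W) {t : ℝ} (ht : 1 ≤ t) (c : E d) : ‖GG W t c‖ ≤ √d + ‖c‖ := by
  have h1 := GG_norm hW zero_le_one (by linarith : 0 < t) c
  have h2 : √(d : ℝ) / √t ≤ √d := div_le_self (Real.sqrt_nonneg _) (gibbs_one_le_sqrt ht)
  linarith

theorem gibbs_lip_sub (a : E d) : LipschitzWith 1 (fun z : E d => ‖z - a‖) := by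
  refine LipschitzWith.of_dist_le_mul fun x y => ?_
  rw [NNReal.coe_one, one_mul, ← dist_sub_right x y a]
  exact dist_norm_norm_le _ _ |>.trans (dist_eq_norm _ _).ge

theorem gibbs_sq_sub (hW : Pot d δ W) {t : ℝ} (ht : 0 < t) (c a : E d) :
    ∫ z, ‖z - a‖ ^ 2 ∂(mu W t c) ≤ ‖(∫ z, z ∂(mu W t c)) - a‖ ^ 2 + d / t := by
  have := mu_prob hW ht c
  have hl : ∀ k : Fin d, LipschitzWith 1 fun z : E d => (z - a) k := by
    intro k
    refine LipschitzWith.of_dist_le_mul fun x y => ?_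
    rw [NNReal.coe_one, one_mul, ← dist_sub_right x y a]
    exact PiLp.dist_apply_le _ _ k
  have h1 : ∀ k : Fin d, ∫ z, (z - a) k ^ 2 ∂(mu W t c) ≤
      ((∫ z, z ∂(mu W t c)) - a) k ^ 2 + 1 / t := by
    intro k
    have h2 := poincare_lip hW ht c (hl k)
    have h3 : ∫ z, (z - a) k ∂(mu W t c) = ((∫ z, z ∂(mu W t c)) - a) k := by
      have h4 := gibbs_integral_inner ((gibbs_int_id hW ht c).sub (integrable_const a)) (ee k)
      simp only [gibbs_inner_ee, Pi.sub_apply] at h4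
      rw [h4, integral_sub (gibbs_int_id hW ht c) (integrable_const a)]
      simp
    rw [h3, NNReal.coe_one, one_pow] at h2
    linarith
  simp only [EuclideanSpace.real_norm_sq_eq]
  rw [integral_finsetSum _ fun k _ => ((pg_of_lip (hl k)).pow 2).integrable_mu hW ht c]
  refine (Finset.sum_le_sum fun k _ => h1 k).trans (le_of_eq ?_)
  rw [Finset.sum_add_distrib, Finset.sum_const, Finset.card_univ, Fintype.card_fin, nsmul_eq_mul,
    mul_one_div]

/-- `E|z|² = |m|² + ∑ Var z_k ≤ (‖c‖ + √d/√t)² + d/t`. -/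
theorem mu_norm_sq_le (hW : Pot d δ W) (hδ : 0 ≤ δ) {t : ℝ} (ht : 0 < t) (c : E d) :
    ∫ z, ‖z‖ ^ 2 ∂(mu W t c) ≤ (‖c‖ + 2 * (√d / √t)) ^ 2 := by
  have h1 := gibbs_sq_sub hW ht c 0
  simp only [sub_zero] at h1
  have h2 : ‖∫ z, z ∂(mu W t c)‖ ≤ ‖c‖ + √d / √t :=
    (norm_integral_le_integral_norm _).trans (mu_norm_le hW hδ ht c)
  have h3 := pow_le_pow_left₀ (norm_nonneg _) h2 2
  have h4 : (√(d : ℝ) / √t) ^ 2 = d / t := by
    rw [div_pow, Real.sq_sqrt (Nat.cast_nonneg _), Real.sq_sqrt ht.le]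
  have h5 : 0 ≤ √(d : ℝ) / √t := by positivity
  rw [← h4] at h1
  nlinarith [norm_nonneg c]

/-- `E|z - m| ≤ √(d/t)` and `m - c = -GG/t`. -/
theorem mu_dist_le (hW : Pot d 1 W) {t : ℝ} (ht : 1 ≤ t) (c : E d) :
    ∫ z, ‖z - c‖ ∂(mu W t c) ≤ 2 * (√d + ‖c‖) / √t := by
  have ht0 : 0 < t := by linarith
  have := mu_prob hW ht0 c
  have hs := gibbs_one_le_sqrt ht
  have hp := pg_of_lip (gibbs_lip_sub c)
  have h1 := (gibbs_var_nonneg (hp.integrable_mu hW ht0 c)
    ((hp.pow 2).integrable_mu hW ht0 c)).trans (gibbs_sq_sub hW ht0 c c)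
  have h2 := GG_norm' hW ht c
  rw [GG_eq hW zero_le_one ht0, norm_smul, Real.norm_eq_abs, abs_of_pos ht0, norm_sub_rev] at h2
  have h3 : ‖(∫ z, z ∂(mu W t c)) - c‖ ≤ (√d + ‖c‖) / √t := by
    rw [le_div_iff₀ (by linarith)]
    refine le_trans ?_ h2
    rw [mul_comm]
    refine mul_le_mul_of_nonneg_right ?_ (norm_nonneg _)
    nlinarith [Real.mul_self_sqrt ht0.le]
  have h4 : √(d : ℝ) / √t ≤ (√d + ‖c‖) / √t :=
    div_le_div_of_nonneg_right (le_add_of_nonneg_right (norm_nonneg _)) (by linarith)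
  have h5 : (√(d : ℝ) / √t) ^ 2 = d / t := by
    rw [div_pow, Real.sq_sqrt (Nat.cast_nonneg _), Real.sq_sqrt ht0.le]
  have h6 := pow_le_pow_left₀ (norm_nonneg _) h3 2
  have h7 := pow_le_pow_left₀ (by positivity) h4 2
  have h8 : 0 ≤ (√(d : ℝ) + ‖c‖) / √t := by positivity
  rw [mul_div_assoc]
  refine (abs_le_of_sq_le_sq' ?_ (by positivity)).2
  nlinarith [sq_nonneg ((√(d : ℝ) + ‖c‖) / √t)]

theorem GG_sub_grad (hW : Pot d 1 W) {t : ℝ} (ht : 1 ≤ t) (c x : E d) :
    ‖GG W t c - gradient W x‖ ≤ ‖x - c‖ + 2 * (√d + ‖c‖) / √t := by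
  have ht0 : 0 < t := by linarith
  have := mu_prob hW ht0 c
  have hp := (pg_of_lip (gibbs_lip_sub c)).integrable_mu hW ht0 c
  have h1 : GG W t c - gradient W x = ∫ z, (gradient W z - gradient W x) ∂(mu W t c) := by
    rw [integral_sub (gibbs_int_grad hW zero_le_one ht0 c) (integrable_const _)]
    simp [GG]
  have h2 : ‖∫ z, (gradient W z - gradient W x) ∂(mu W t c)‖ ≤
      ∫ z, (‖x - c‖ + ‖z - c‖) ∂(mu W t c) := by
    refine norm_integral_le_of_norm_le ((integrable_const _).add hp)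
      (Filter.Eventually.of_forall fun z => ?_)
    refine (hW.grad_lip zero_le_one z x).trans ?_
    rw [one_mul, add_comm, norm_sub_rev x c]
    exact norm_sub_le_norm_sub_add_norm_sub z c x
  rw [integral_add (integrable_const _) hp, integral_const] at h2
  simp only [probReal_univ, smul_eq_mul, one_mul] at h2
  rw [h1]
  linarith [mu_dist_le hW ht c]

theorem gibbs_hasDerivAt (hW : Pot d δ W) (hδ : 0 ≤ δ) {t : ℝ} (ht : 0 < t) (c : E d) {h : E d → ℝ}
    (hh : PG h) (s : ℝ) :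
    HasDerivAt (fun s : ℝ => ∫ z, h z * dens (fun z => s ^ 2 * W z) t c z)
      (-(2 * s) * ∫ z, h z * W z * dens (fun z => s ^ 2 * W z) t c z) s := by
  have hi : ∀ s : ℝ, ∀ g, PG g → Integrable fun z => g z * dens (fun z => s ^ 2 * W z) t c z :=
    fun s g hg => integrable_dens (hW.const_mul (sq_nonneg s)) ht hg c
  have hp := hh.mul (hW.pg hδ)
  rw [← integral_const_mul]
  refine (hasDerivAt_integral_of_dominated_loc_of_deriv_le (μ := volume)
    (F := fun s z => h z * dens (fun z => s ^ 2 * W z) t c z)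
    (F' := fun s z => -(2 * s) * (h z * W z * dens (fun z => s ^ 2 * W z) t c z))
    (bound := fun z => 2 * (|s| + 1) * ‖h z * W z * dens (fun _ => 0) t c z‖)
    (Metric.ball_mem_nhds s one_pos)
    (Filter.Eventually.of_forall fun x => (hi x h hh).aestronglyMeasurable) (hi s h hh)
    ((hi s _ hp).const_mul _).aestronglyMeasurable
    (Filter.Eventually.of_forall fun z x hx => ?_)
    ((integrable_dens (pot_zero d) ht hp c).norm.const_mul _)
    (Filter.Eventually.of_forall fun z x _ => ?_)).2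
  · have h1 : |x| ≤ |s| + 1 := by
      have h2 : |x - s| < 1 := hx
      have h3 := abs_sub_abs_le_abs_sub x s
      linarith
    have h2 : dens (fun z => x ^ 2 * W z) t c z ≤ dens (fun _ => 0) t c z := by
      unfold dens
      have := mul_nonneg (sq_nonneg x) (hW.nonneg z)
      exact Real.exp_le_exp.2 (by linarith)
    have h3 : 0 < dens (fun z => x ^ 2 * W z) t c z := Real.exp_pos _
    rw [norm_mul, norm_neg, norm_mul, norm_mul (h z * W z), norm_mul (h z * W z),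
      Real.norm_eq_abs x, Real.norm_of_nonneg h3.le, Real.norm_of_nonneg (h3.le.trans h2),
      Real.norm_ofNat]
    gcongr
  · have h1 : HasDerivAt (fun x : ℝ => -(t * ‖z - c‖ ^ 2 / 2) - x ^ 2 * W z) (-(2 * x * W z)) x := by
      simpa using ((hasDerivAt_pow 2 x).mul_const (W z)).const_sub (-(t * ‖z - c‖ ^ 2 / 2))
    refine (h1.exp.const_mul (h z)).congr_deriv ?_
    unfold dens
    ring

theorem gibbs_hasDerivAt_mu (hW : Pot d δ W) (hδ : 0 ≤ δ) {t : ℝ} (ht : 0 < t) (c : E d)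
    {f : E d → ℝ} (hf : PG f) (s : ℝ) :
    HasDerivAt (fun s : ℝ => ∫ z, f z ∂(mu (fun z => s ^ 2 * W z) t c))
      (-(2 * s) * (∫ z, f z * W z ∂(mu (fun z => s ^ 2 * W z) t c) -
        (∫ z, f z ∂(mu (fun z => s ^ 2 * W z) t c)) *
          ∫ z, W z ∂(mu (fun z => s ^ 2 * W z) t c))) s := by
  have h1 := gibbs_hasDerivAt hW hδ ht c hf s
  have h2 := gibbs_hasDerivAt hW hδ ht c (pg_const 1) s
  simp only [one_mul] at h2
  have h0 := Zc_pos (hW.const_mul (sq_nonneg s)) ht c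
  have h3 := h1.div h2 h0.ne'
  simp only [integral_mu_dens (hW.const_mul (sq_nonneg _)) ht]
  refine h3.congr_deriv ?_
  change (_ * Zc (fun z => s ^ 2 * W z) t c - _) / Zc (fun z => s ^ 2 * W z) t c ^ 2 = _
  field_simp
  ring

/-- Total variation comparison with `N(c, 1/t)`.  Interpolate `μ_l = mu (l W) t c`, `l ∈ [0,1]`
(`Pot.const_mul`): `d/dl E_l f = -Cov_l(f, W)`, `|Cov| ≤ √Var_l W ≤ √(E_l|∇W|²/t) ≤ √(E_l|z|²/t)`
(`poincare`, `mu_norm_sq_le`); `mu_zero` at `l = 0`. -/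
theorem mu_tv_gauss (hW : Pot d 1 W) {t : ℝ} (ht : 1 ≤ t) (c : E d) {f : E d → ℝ}
    (hf : Measurable f) (h1 : ∀ z, |f z| ≤ 1) :
    |∫ z, f z ∂(mu W t c) - ∫ z, f (c + (√t)⁻¹ • z) ∂(gam d)| ≤ 4 * (√d + ‖c‖) / √t := by
  have ht0 : 0 < t := by linarith
  have hs := gibbs_one_le_sqrt ht
  have hpf := pg_of_bdd hf h1
  have hpW := hW.pg zero_le_one
  have h2 := norm_image_sub_le_of_norm_deriv_le_segment_01' (C := 4 * (√d + ‖c‖) / √t)
    (fun s _ => (gibbs_hasDerivAt_mu hW zero_le_one ht0 c hpf s).hasDerivWithinAt) (by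
      intro s hs01
      have hV := hW.const_mul (sq_nonneg s)
      have := mu_prob hV ht0 c
      have e : ∀ k, dd (ee k) W = fun z => gradient W z k := fun k => funext (hW.dd_ee k)
      have h3 := poincare hV ht0 c (hW.smooth.of_le (by norm_num)) hpW
        (fun k => by rw [e]; exact hW.pg_grad zero_le_one k)
      have h4 : ∫ z, ∑ k, dd (ee k) W z ^ 2 ∂(mu (fun z => s ^ 2 * W z) t c) ≤
          ∫ z, ‖z‖ ^ 2 ∂(mu (fun z => s ^ 2 * W z) t c) := by
        refine integral_mono_of_nonneg (Filter.Eventually.of_forall fun z => by positivity)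
          ((pg_norm.pow 2).integrable_mu hV ht0 c) (Filter.Eventually.of_forall fun z => ?_)
        simp only [e]
        rw [← EuclideanSpace.real_norm_sq_eq]
        refine pow_le_pow_left₀ (norm_nonneg _) ?_ 2
        simpa using hW.grad_le zero_le_one z
      have h5 := h3.trans (mul_le_mul_of_nonneg_left
        (h4.trans (mu_norm_sq_le hV (by positivity) ht0 c)) (by positivity))
      have h6 := gibbs_cov (hpf.integrable_mu hV ht0 c) (hpW.integrable_mu hV ht0 c)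
        ((hpf.pow 2).integrable_mu hV ht0 c) ((hpW.pow 2).integrable_mu hV ht0 c)
        ((hpf.mul hpW).integrable_mu hV ht0 c) (gibbs_var_bdd h1) h5
      rw [Real.sqrt_one, one_mul, Real.sqrt_mul (by positivity), Real.sqrt_sq (by positivity),
        Real.sqrt_inv] at h6
      have h7 : √(d : ℝ) / √t ≤ √d := div_le_self (Real.sqrt_nonneg _) hs
      rw [norm_mul, norm_neg, Real.norm_of_nonneg (by linarith [hs01.1]), Real.norm_eq_abs]
      calc _ ≤ 2 * ((√t)⁻¹ * (2 * (√d + ‖c‖))) := by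
            refine mul_le_mul (by linarith [hs01.2]) (h6.trans ?_) (abs_nonneg _) (by norm_num)
            exact mul_le_mul_of_nonneg_left (by linarith [norm_nonneg c]) (by positivity)
        _ = _ := by ring)
  simp only [one_pow, one_mul, ne_eq, OfNat.ofNat_ne_zero, not_false_eq_true, zero_pow,
    zero_mul] at h2
  rwa [gibbs_integral_zero hf ht0] at h2

/-- Both sides are within `E|X - c|` of `f c`. -/
theorem mu_w1_gauss (hW : Pot d 1 W) {t : ℝ} (ht : 1 ≤ t) (c : E d) {f : E d → ℝ} (hf : Test f) :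
    |∫ z, f z ∂(mu W t c) - ∫ z, f (c + (√t)⁻¹ • z) ∂(gam d)| ≤ 4 * (√d + ‖c‖) / √t := by
  have ht0 : 0 < t := by linarith
  have := mu_prob hW ht0 c
  have hs := gibbs_one_le_sqrt ht
  obtain ⟨M, hM⟩ := hf.2
  have hl : ∀ x, |f x - f c| ≤ ‖x - c‖ := fun x => by
    simpa [Real.dist_eq, dist_eq_norm] using hf.1.dist_le_mul x c
  have h1 := Dom.abs_integral_sub ((pg_of_lip hf.1).integrable_mu hW ht0 c)
    (integrable_const (f c)) hl
    (dom_of_integrable ((pg_of_lip (gibbs_lip_sub c)).integrable_mu hW ht0 c) (mu_dist_le hW ht c))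
  have hi : Integrable (fun z => f (c + (√t)⁻¹ • z)) (gam d) :=
    Integrable.of_bound (hf.1.continuous.comp (by fun_prop)).aestronglyMeasurable M
      (Filter.Eventually.of_forall fun z => hM _)
  have h2 := Dom.abs_integral_sub hi (integrable_const (f c)) (e := fun z => (√t)⁻¹ * ‖z‖)
    (fun z => by
      refine (hl _).trans (le_of_eq ?_)
      rw [add_sub_cancel_left, norm_smul, Real.norm_of_nonneg (by positivity)])
    (dom_norm_gam.const_mul (by positivity))
  simp only [integral_const, probReal_univ, smul_eq_mul, one_mul] at h1 h2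
  have h3 : (√t)⁻¹ * √(d : ℝ) ≤ 2 * (√d + ‖c‖) / √t := by
    rw [div_eq_inv_mul]
    exact mul_le_mul_of_nonneg_left (by linarith [norm_nonneg c, Real.sqrt_nonneg (d : ℝ)])
      (by positivity)
  have h4 : 4 * (√(d : ℝ) + ‖c‖) / √t = 2 * (√d + ‖c‖) / √t + 2 * (√d + ‖c‖) / √t := by ring
  rw [abs_le] at h1 h2 ⊢
  constructor <;> linarith [h1.1, h1.2, h2.1, h2.2]

end

end Crest.Agent.R285
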