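import Crest.Agent.R285.Orc
import Crest.Agent.R285.Gibbs

/-!
# R285/Cls: calculus of graded classes `Cls`, `Pure`, `TU`, `Ctr`; the node lemma
-/

set_option autoImplicit false

namespace Crest.Agent.R285

open MeasureTheory ProbabilityTheory Crest.OracleSampling Set
open scoped RealInnerProductSpace ContDiff

noncomputable section

variable {d : ℕ} {A A' : Type} [MeasurableSpace A] [MeasurableSpace A'] {P : Par} {L : ℕ} {t : ℝ}
  {b bb ρ : VV d → A → ℝ} {y y' : VV d → A → E d} {n n' e e' : ℝ} {s s' : ℕ}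

theorem ParOK.ς_mono (hP : ParOK P) : Monotone P.ς := by
  refine monotone_nat_of_le_succ fun j => ?_
  have h1 := hP.ς0 (j + 1)
  have h2 := hP.γ1
  rw [hP.ςγ j]
  nlinarith

theorem ParOK.ς_shift (hP : ParOK P) (j R : ℕ) : P.ς j = P.γ ^ R * P.ς (j + R) := by
  induction R with
  | zero => simp
  | succ R ih => rw [ih, hP.ςγ (j + R), pow_succ, mul_assoc, add_assoc]

theorem ParOK.B_anti (hP : ParOK P) {i j : ℕ} (hij : i ≤ j) (hj : j ≤ P.r0) : P.B j ≤ P.B i := by
  induction j, hij using Nat.le_induction with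
  | base => exact le_rfl
  | succ j _ ih =>
    have h1 := hP.Bdec j hj
    have h2 := hP.B0 (j + 1)
    have h3 := ih (by omega)
    linarith

theorem ParOK.B_le (hP : ParOK P) {j : ℕ} (hj : j ≤ P.r0) : P.B j ≤ 1 / 16 := by
  exact (hP.B_anti (Nat.zero_le j) hj).trans hP.B16

theorem ParOK.Sq_anti (hP : ParOK P) {i j : ℕ} (hij : i ≤ j) (hj : j ≤ P.r0) :
    P.Sq j ≤ P.Sq i := by
  induction j, hij using Nat.le_induction with
  | base => exact le_rfl
  | succ j _ ih =>
    have h1 := hP.Sdec j hj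
    have h3 := ih (by omega)
    omega

theorem ParOK.h_pos (hP : ParOK P) : 0 < P.h ∧ P.h ≤ 1 / 2 := by
  have h := hP.step 0 hP.r0pos
  exact ⟨h.h0, h.hq.trans h.q1⟩

theorem cls_cast {ν ν' : ℝ} {ε ε' : VV d → A → ℝ} {q q' : ℕ} (h : Orc y ν ε q) (h1 : ν = ν')
    (h2 : ∀ V a, ε V a = ε' V a) (h3 : q = q') : Orc y ν' ε' q' :=
  h.mono (by rw [h1]) (fun V a => (h2 V a).le) h3.le

theorem cls_noise_nonneg (hP : ParOK P) (hn : 0 ≤ n) (j : ℕ) : 0 ≤ n * P.ς j / √t :=
  div_nonneg (mul_nonneg hn (hP.ς0 j).le) (Real.sqrt_nonneg _)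

theorem cls_unit_nonneg (hP : ParOK P) : 0 ≤ P.h / P.ς (L - 1) :=
  div_nonneg hP.h_pos.1.le (hP.ς0 _).le

theorem cls_eq (h : Cls P L t b y n e s) (h1 : n = n') (h2 : e = e') (h3 : s = s') :
    Cls P L t b y n' e' s' := by
  subst h1 h2 h3
  exact h

theorem cls_size_nonneg (hP : ParOK P) {x z : ℝ} (hx : 0 ≤ x) (hz : 0 ≤ z) :
    0 ≤ x + P.B L * z := add_nonneg hx (mul_nonneg (hP.B0 L).le hz)

theorem Cls.congr (h : Cls P L t b y n e s) (H : ∀ V a, y' V a = y V a) : Cls P L t b y' n e s := by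
  exact fun j hj => (h j hj).congr H

theorem Cls.mono (hP : ParOK P) (h : Cls P L t b y n e s) (hb : ∀ V a, 0 ≤ b V a)
    (hbb : ∀ V a, b V a ≤ bb V a) (hn0 : 0 ≤ n) (hn : n ≤ n') (he0 : 0 ≤ e') (he : e ≤ e')
    (hs : s ≤ s') : Cls P L t bb y n' e' s' := by
  intro j hj
  refine (h j hj).mono ?_ (fun V a => ?_) (Nat.mul_le_mul_right _ hs)
  · refine pow_le_pow_left₀ (cls_noise_nonneg hP hn0 j) ?_ 2
    exact div_le_div_of_nonneg_right (mul_le_mul_of_nonneg_right hn (hP.ς0 j).le)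
      (Real.sqrt_nonneg _)
  · have h1 : 0 ≤ P.θ ^ j := (pow_pos hP.θ0 j).le
    exact mul_le_mul (mul_le_mul_of_nonneg_right he h1) (hbb V a) (hb V a) (mul_nonneg he0 h1)

theorem Cls.add (hP : ParOK P) (h : Cls P L t b y n e s) (h' : Cls P L t b y' n' e' s')
    (hn : 0 ≤ n) (hn' : 0 ≤ n') :
    Cls P L t b (fun V a => y V a + y' V a) (n + n') (e + e') (s + s') := by
  intro j hj
  exact cls_cast ((h j hj).add (h' j hj) (cls_noise_nonneg hP hn j) (cls_noise_nonneg hP hn' j))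
    (by ring) (fun V a => by ring) (by ring)

theorem Cls.smul (h : Cls P L t b y n e s) (κ : ℝ) :
    Cls P L t b (fun V a => κ • y V a) (|κ| * n) (|κ| * e) s := by
  intro j hj
  exact cls_cast ((h j hj).smul κ) (by ring) (fun V a => by ring) rfl

theorem cls_known {x : A → E d} (hx : Measurable x) :
    Cls P L t b (fun _ a => x a) 0 0 0 := by
  intro j _
  exact cls_cast (orc_known hx _) rfl (fun V a => by ring) (by ring)

theorem Cls.comap (h : Cls P L t b y n e s) {g : A' → A} (hg : Measurable g) :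
    Cls P L t (fun V a => b V (g a)) (fun V a => y V (g a)) n e s := by
  exact fun j hj => (h j hj).comap hg

/-- Change of the reference time: `n/√t ≤ 2n/√t'` if `t' ≤ 4t`. -/
theorem Cls.time (hP : ParOK P) (h : Cls P L t b y n e s) {t' : ℝ} (ht : 0 < t') (ht' : t' ≤ 4 * t)
    (hn : 0 ≤ n) : Cls P L t' b y (2 * n) e s := by
  intro j hj
  refine (h j hj).mono (pow_le_pow_left₀ (cls_noise_nonneg hP hn j) ?_ 2) (fun _ _ => le_rfl) le_rfl
  have h1 : 0 < √t' := Real.sqrt_pos.2 ht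
  have h2 : 0 < √t := Real.sqrt_pos.2 (by linarith)
  have h3 : √t' ≤ 2 * √t := by
    rw [Real.sqrt_le_left (by positivity), mul_pow, Real.sq_sqrt (by linarith)]
    linarith
  have h4 : 0 ≤ n * P.ς j := mul_nonneg hn (hP.ς0 j).le
  rw [div_le_div_iff₀ h2 h1]
  nlinarith

theorem Arg.comap {c : VV d → A → E d} (h : Arg P L t c b) {g : A' → A} (hg : Measurable g) :
    Arg P L t (fun V a => c V (g a)) (fun V a => b V (g a)) := by
  exact ⟨h.1.comap hg, fun V a => h.2 V (g a)⟩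

theorem arg_known (hP : ParOK P) {x : A → E d} (hx : Measurable x) :
    Arg P L t (fun (_ : VV d) a => x a) (fun _ a => √d + ‖x a‖) := by
  exact ⟨(cls_known hx).mono hP (fun _ _ => by positivity) (fun _ _ => le_rfl) le_rfl
    (cls_unit_nonneg hP) (hP.B0 L).le (hP.B0 L).le (Nat.zero_le _), fun _ _ => le_rfl⟩

theorem Pure.congr (h : Pure P L t b y n e s) (H : ∀ V a, y' V a = y V a) :
    Pure P L t b y' n e s := by
  exact ⟨h.1.congr H, fun V a => by rw [H]; exact h.2 V a⟩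

theorem pure_zero : Pure P L t b (fun _ _ => (0 : E d)) 0 0 0 := by
  exact ⟨cls_known (x := fun _ => 0) measurable_const, fun V a => by simp⟩

theorem Pure.mono (hP : ParOK P) (h : Pure P L t b y n e s) (hb : ∀ V a, 0 ≤ b V a) (hn0 : 0 ≤ n)
    (hn : n ≤ n') (he0 : 0 ≤ e') (he : e ≤ e') (hs : s ≤ s') : Pure P L t b y n' e' s' := by
  exact ⟨h.1.mono hP hb (fun _ _ => le_rfl) hn0 hn he0 he hs,
    fun V a => (h.2 V a).trans (mul_le_mul_of_nonneg_right he (hb V a))⟩

theorem Pure.add (hP : ParOK P) (h : Pure P L t b y n e s) (h' : Pure P L t b y' n' e' s')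
    (hn : 0 ≤ n) (hn' : 0 ≤ n') :
    Pure P L t b (fun V a => y V a + y' V a) (n + n') (e + e') (s + s') := by
  refine ⟨h.1.add hP h'.1 hn hn', fun V a => (norm_add_le _ _).trans ?_⟩
  rw [add_mul]
  exact add_le_add (h.2 V a) (h'.2 V a)

theorem Pure.smul (h : Pure P L t b y n e s) (κ : ℝ) :
    Pure P L t b (fun V a => κ • y V a) (|κ| * n) (|κ| * e) s := by
  refine ⟨h.1.smul κ, fun V a => ?_⟩
  rw [norm_smul, Real.norm_eq_abs, mul_assoc]
  exact mul_le_mul_of_nonneg_left (h.2 V a) (abs_nonneg _)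

/-- Weighted sums. -/
theorem Pure.sum (hP : ParOK P) {m : ℕ} {z : Fin m → VV d → A → E d} (w : Fin m → ℝ) {W : ℝ}
    (h : ∀ l, Pure P L t b (z l) n e s) (hb : ∀ V a, 0 ≤ b V a) (hn : 0 ≤ n) (he : 0 ≤ e)
    (hW : ∑ l, |w l| ≤ W) :
    Pure P L t b (fun V a => ∑ l, w l • z l V a) (W * n) (W * e) (m * s) := by
  have key : ∀ S : Finset (Fin m), Pure P L t b (fun V a => ∑ l ∈ S, w l • z l V a)
      ((∑ l ∈ S, |w l|) * n) ((∑ l ∈ S, |w l|) * e) (S.card * s) := by
    intro S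
    induction S using Finset.induction_on with
    | empty => simpa using pure_zero
    | insert l S hl ih =>
      simp only [Finset.sum_insert hl, Finset.card_insert_of_notMem hl, add_mul, one_mul]
      rw [add_comm (S.card * s)]
      exact ((h l).smul (w l)).add hP ih (mul_nonneg (abs_nonneg _) hn)
        (mul_nonneg (Finset.sum_nonneg fun _ _ => abs_nonneg _) hn)
  have h0 : 0 ≤ ∑ l, |w l| := Finset.sum_nonneg fun _ _ => abs_nonneg _
  exact (key Finset.univ).mono hP hb (mul_nonneg h0 hn) (mul_le_mul_of_nonneg_right hW hn)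
    (mul_nonneg (h0.trans hW) he) (mul_le_mul_of_nonneg_right hW he) (by simp)

/-- Shift by `R` levels: at level `j ≥ R` use the oracle of level `j - R` (`ς_shift`, `Qmono`); at
level `j < R` output pure noise (`orc_crude`, `θ^j/θ^R ≥ 1`). -/
theorem Pure.shift (hP : ParOK P) (h : Pure P L t b y n e s) (hb : ∀ V a, 0 ≤ b V a) (he : 0 ≤ e)
    (R : ℕ) : Pure P L t b y (n * P.γ ^ R) (e / P.θ ^ R) s := by
  have hθ : ∀ j, 0 < P.θ ^ j := fun j => pow_pos hP.θ0 j
  have key : ∀ j ≤ R, ∀ V a, ‖y V a‖ ≤ e / P.θ ^ R * P.θ ^ j * b V a := by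
    intro j hj V a
    refine (h.2 V a).trans (mul_le_mul_of_nonneg_right ?_ (hb V a))
    rw [div_mul_eq_mul_div, le_div_iff₀ (hθ R)]
    exact mul_le_mul_of_nonneg_left (pow_le_pow_of_le_one hP.θ0.le hP.θ1 hj) he
  refine ⟨fun j hj => ?_, fun V a => by simpa using key 0 (Nat.zero_le R) V a⟩
  rcases le_total R j with hR | hR
  · obtain ⟨i, rfl⟩ := Nat.exists_eq_add_of_le' hR
    refine (h.1 i (by omega)).mono (le_of_eq ?_) (fun V a => le_of_eq ?_)
      (Nat.mul_le_mul_left _ (hP.Qmono (Nat.le_add_right i R)))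
    · rw [hP.ς_shift i R, mul_assoc]
    · have := (hθ R).ne'
      rw [pow_add]
      field_simp
  · exact (orc_crude _ (key j hR)).mono le_rfl (fun _ _ => le_rfl) (Nat.zero_le _)

theorem TU.congr {k : ℕ} (h : TU P L t bb ρ k y) (H : ∀ V a, y' V a = y V a) :
    TU P L t bb ρ k y' := by
  exact ⟨h.1.congr H, fun V a => by rw [H]; exact h.2 V a⟩

theorem TU.mono (hP : ParOK P) {k k' : ℕ} (h : TU P L t bb ρ k y) (hk : k ≤ k')
    (hb : ∀ V a, 0 ≤ bb V a) (hρ : ∀ V a, 0 ≤ ρ V a) : TU P L t bb ρ k' y := by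
  have hk' : (k : ℝ) ≤ k' := by exact_mod_cast hk
  have hu := cls_unit_nonneg (L := L) hP
  have hB := (hP.B0 L).le
  exact ⟨h.1.mono hP hb (fun _ _ => le_rfl) (by positivity) (mul_le_mul_of_nonneg_right hk' hu)
    (by positivity) (mul_le_mul_of_nonneg_right hk' hB) (Nat.mul_le_mul_right _ hk),
    fun V a => (h.2 V a).trans
      (mul_le_mul_of_nonneg_right hk' (cls_size_nonneg hP (hρ V a) (hb V a)))⟩

theorem TU.add (hP : ParOK P) {k k' : ℕ} (h : TU P L t bb ρ k y) (h' : TU P L t bb ρ k' y') :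
    TU P L t bb ρ (k + k') (fun V a => y V a + y' V a) := by
  have hu := cls_unit_nonneg (L := L) hP
  refine ⟨cls_eq (h.1.add hP h'.1 (by positivity) (by positivity)) (by push_cast; ring)
    (by push_cast; ring) (by ring), fun V a => (norm_add_le _ _).trans ?_⟩
  rw [Nat.cast_add, add_mul]
  exact add_le_add (h.2 V a) (h'.2 V a)

theorem TU.smul (hP : ParOK P) {k : ℕ} (h : TU P L t bb ρ k y) {κ : ℝ} (hκ : |κ| ≤ 1)
    (hb : ∀ V a, 0 ≤ bb V a) (hρ : ∀ V a, 0 ≤ ρ V a) :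
    TU P L t bb ρ k (fun V a => κ • y V a) := by
  have hu := cls_unit_nonneg (L := L) hP
  have hB := (hP.B0 L).le
  refine ⟨(h.1.smul κ).mono hP hb (fun _ _ => le_rfl) (by positivity)
    (mul_le_of_le_one_left (by positivity) hκ) (by positivity)
    (mul_le_of_le_one_left (by positivity) hκ) le_rfl, fun V a => le_trans ?_ (h.2 V a)⟩
  rw [norm_smul, Real.norm_eq_abs]
  exact mul_le_of_le_one_left (norm_nonneg _) hκ

theorem tu_known (hP : ParOK P) {x : A → E d} (hx : Measurable x) (hb : ∀ V a, 0 ≤ bb V a)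
    (hρ : ∀ V a, ‖x a‖ ≤ ρ V a) : TU P L t bb ρ 1 (fun _ a => x a) := by
  have hu := cls_unit_nonneg (L := L) hP
  have hB := (hP.B0 L).le
  refine ⟨(cls_known hx).mono hP hb (fun _ _ => le_rfl) le_rfl (by positivity) (by positivity)
    (by positivity) (Nat.zero_le _), fun V a => (hρ V a).trans ?_⟩
  have := mul_nonneg hB (hb V a)
  rw [Nat.cast_one, one_mul]
  linarith

theorem Pure.tu (hP : ParOK P) (h : Pure P L t bb y n e s) (hb : ∀ V a, 0 ≤ bb V a)
    (hρ : ∀ V a, 0 ≤ ρ V a) (hn0 : 0 ≤ n) (hn : n ≤ P.h / P.ς (L - 1)) (he : e ≤ P.B L)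
    (hs : s ≤ P.Sq L) : TU P L t bb ρ 1 y := by
  have hB := (hP.B0 L).le
  refine ⟨h.1.mono hP hb (fun _ _ => le_rfl) hn0 (by rwa [Nat.cast_one, one_mul]) (by positivity)
    (by rwa [Nat.cast_one, one_mul]) (by rwa [one_mul]), fun V a => (h.2 V a).trans ?_⟩
  have h1 := mul_le_mul_of_nonneg_right he (hb V a)
  have h2 := hρ V a
  rw [Nat.cast_one, one_mul]
  linarith

theorem Arg.ctr (hP : ParOK P) {c : VV d → A → E d} (h : Arg P L t c b)
    (hbb : ∀ V a, b V a ≤ bb V a) (hρ : ∀ V a, 0 ≤ ρ V a) : Ctr P L t b bb ρ 1 c := by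
  have hB := (hP.B0 L).le
  have hb : ∀ V a, 0 ≤ b V a := fun V a => le_trans (by positivity) (h.2 V a)
  refine ⟨h.1.mono hP hb hbb (cls_unit_nonneg hP) (by rw [Nat.cast_one, one_mul]) (by positivity)
    (by rw [Nat.cast_one, one_mul]) (by rw [one_mul]), fun V a => (h.2 V a).trans ?_⟩
  have := cls_size_nonneg (L := L) hP (hρ V a) ((hb V a).trans (hbb V a))
  rw [Nat.cast_one, one_mul]
  linarith

/-- `x - c` for a known `x` close to the virtual centre `c`. -/
theorem Arg.tu_sub (hP : ParOK P) {c : VV d → A → E d} (h : Arg P L t c b)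
    (hbb : ∀ V a, b V a ≤ bb V a) {x : A → E d} (hx : Measurable x)
    (hρ : ∀ V a, ‖x a - c V a‖ ≤ ρ V a) : TU P L t bb ρ 1 (fun V a => x a - c V a) := by
  have hB := (hP.B0 L).le
  have hu := cls_unit_nonneg (L := L) hP
  have hb : ∀ V a, 0 ≤ b V a := fun V a => le_trans (by positivity) (h.2 V a)
  have h1 := ((cls_known hx).add hP (h.1.smul (-1)) le_rfl (by positivity)).congr
    (y' := fun V a => x a - c V a) fun V a => by rw [neg_one_smul, sub_eq_add_neg]
  refine ⟨h1.mono hP hb hbb (by positivity) (by simp) (by positivity) (by simp) (by simp),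
    fun V a => (hρ V a).trans ?_⟩
  have := mul_nonneg hB ((hb V a).trans (hbb V a))
  rw [Nat.cast_one, one_mul]
  linarith

theorem Ctr.add (hP : ParOK P) {k k' : ℕ} {p : VV d → A → E d} (h : Ctr P L t b bb ρ k p)
    (h' : TU P L t bb ρ k' y) : Ctr P L t b bb ρ (k + k') (fun V a => p V a + y V a) := by
  have hu := cls_unit_nonneg (L := L) hP
  refine ⟨cls_eq (h.1.add hP h'.1 (by positivity) (by positivity)) (by push_cast; ring)
    (by push_cast; ring) (by ring), fun V a => ?_⟩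
  have h1 := norm_add_le (p V a) (y V a)
  have h2 := h.2 V a
  have h3 := h'.2 V a
  rw [Nat.cast_add, add_mul]
  linarith

theorem Ctr.mono (hP : ParOK P) {k k' : ℕ} {p : VV d → A → E d} (h : Ctr P L t b bb ρ k p)
    (hk : k ≤ k') (hb : ∀ V a, 0 ≤ bb V a) (hρ : ∀ V a, 0 ≤ ρ V a) : Ctr P L t b bb ρ k' p := by
  have hk' : (k : ℝ) ≤ k' := by exact_mod_cast hk
  have hu := cls_unit_nonneg (L := L) hP
  have hB := (hP.B0 L).le
  refine ⟨h.1.mono hP hb (fun _ _ => le_rfl) (by positivity) (mul_le_mul_of_nonneg_right hk' hu)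
    (by positivity) (mul_le_mul_of_nonneg_right hk' hB) (Nat.mul_le_mul_right _ hk),
    fun V a => (h.2 V a).trans ?_⟩
  have := mul_le_mul_of_nonneg_right hk' (cls_size_nonneg (L := L) hP (hρ V a) (hb V a))
  linarith

/-- Node lemma.  For `j ≤ r`, `Arg P j t' p bb` holds: at levels `i < j` the noise
`8 (h/ς r) ς i/√t ≤ (h/ς (j-1)) ς i/√t'` since `16 ς (j-1) ≤ 16 γ ς r ≤ ς r` and `√t' ≤ 2√t`; errors
and sizes by `Bdec`, `B_anti`, `Sdec`, `Sq_anti`.  Apply `CallOK j` and pad the noise from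
`ς j/√t'` to `ς j/√t`.  The size is `GG_norm'` (`pot_Uof`). -/
theorem pure_node {r : ℕ} (H : Ctx P d r t) {p : VV d → A → E d} {t' : ℝ} (h1 : t ≤ t')
    (h2 : t' ≤ 4 * t) (hp : Ctr P (r + 1) t b bb ρ 8 p)
    (hb : ∀ V a, b V a + 8 * (ρ V a + P.B (r + 1) * bb V a) ≤ bb V a) :
    Pure P (r + 1) t bb (fun V a => GG (Uof V.1) t' (p V a)) 1 1 1 := by
  have hP := H.ok
  have ht : 2 ≤ t := hP.T2.trans H.ht
  have hr := H.lt
  have hsz : ∀ V a, √d + ‖p V a‖ ≤ bb V a := fun V a => by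
    have h3 := hp.2 V a
    have h4 := hb V a
    push_cast at h3
    linarith
  have hbb : ∀ V a, 0 ≤ bb V a := fun V a => le_trans (by positivity) (hsz V a)
  have hu := cls_unit_nonneg (L := r + 1) hP
  have hc := hp.1.time hP (t' := t') (by linarith) h2 (by positivity)
  have harg : ∀ j ≤ r, Arg P j t' p bb := by
    intro j hj
    refine ⟨fun i hi => ?_, hsz⟩
    obtain ⟨j, rfl⟩ : ∃ j', j = j' + 1 := ⟨j - 1, by omega⟩
    refine hc.mono hP hbb (fun _ _ => le_rfl) (by positivity) ?_ (hP.B0 _).le ?_ ?_ i (by omega)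
    · have h3 := hP.ς0 r
      have h4 := hP.ς0 j
      have h5 := hP.h_pos.1
      have h6 : 16 * P.ς j ≤ P.ς r := by
        have h7 := hP.ς_mono hj
        have h8 := hP.ς0 (j + 1)
        have h9 := hP.γ1
        rw [hP.ςγ j]
        nlinarith
      rw [Nat.add_sub_cancel, Nat.add_sub_cancel, ← mul_div_assoc, ← mul_div_assoc,
        div_le_div_iff₀ h3 h4]
      push_cast
      nlinarith
    · have h3 := hP.Bdec r hr
      have h4 := hP.B_anti hj hr.le
      push_cast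
      linarith
    · exact (hP.Sdec r hr).trans (hP.Sq_anti hj hr.le)
  refine ⟨fun j hj => ?_, fun V a => ?_⟩
  · have hj' : j ≤ r := by omega
    refine (H.call j hj' A t' p bb (H.ht.trans h1) (harg j hj')).mono ?_
      (fun V a => by rw [one_mul]) (by rw [one_mul])
    have h3 := (hP.ς0 j).le
    refine pow_le_pow_left₀ (by positivity) ?_ 2
    rw [one_mul]
    exact div_le_div_of_nonneg_left h3 (Real.sqrt_pos.2 (by linarith)) (Real.sqrt_le_sqrt h1)
  · rw [one_mul]
    exact (GG_norm' (pot_Uof V.2) (by linarith) _).trans (hsz V a)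

end

end Crest.Agent.R285
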