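import Crest.Agent.R285.DefsA

/-!
# R285/Pot: elementary facts on potentials (`Pot`)
-/

set_option autoImplicit false

namespace Crest.Agent.R285

open MeasureTheory ProbabilityTheory Crest.OracleSampling Set
open scoped RealInnerProductSpace ContDiff

noncomputable section

variable {d : ℕ} {δ : ℝ} {W : E d → ℝ}

theorem pot_coord (W : E d → ℝ) (x : E d) (k : Fin d) :
    gradient W x k = fderiv ℝ W x (ee k) := by
  rw [← inner_gradient_left, ee, EuclideanSpace.inner_single_right]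
  simp

theorem pot_c1 (h : ContDiff ℝ 2 W) : ContDiff ℝ 1 (gradient W) := by
  rw [contDiff_euclidean]
  intro k
  have e : (fun x => gradient W x k) = fun x => fderiv ℝ W x (ee k) :=
    funext fun x => pot_coord W x k
  rw [e]
  exact (h.fderiv_right (m := 1) (by norm_num)).clm_apply contDiff_const

theorem pot_hess (h : ContDiff ℝ 2 W) (x v w : E d) :
    ⟪fderiv ℝ (gradient W) x v, w⟫ = fderiv ℝ (fderiv ℝ W) x v w := by
  have h1 : HasFDerivAt (gradient W) (fderiv ℝ (gradient W) x) x :=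
    ((pot_c1 h).differentiable (by norm_num) x).hasFDerivAt
  have h2 : HasFDerivAt (fderiv ℝ W) (fderiv ℝ (fderiv ℝ W) x) x :=
    ((h.fderiv_right (m := 1) (by norm_num)).differentiable (by norm_num) x).hasFDerivAt
  have h3 := ((innerSL ℝ w).hasFDerivAt (x := gradient W x)).comp x h1
  have h4 := ((ContinuousLinearMap.apply ℝ ℝ w).hasFDerivAt (x := fderiv ℝ W x)).comp x h2
  have e : (innerSL ℝ w) ∘ gradient W = (ContinuousLinearMap.apply ℝ ℝ w) ∘ fderiv ℝ W := by
    funext y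
    simp only [Function.comp, innerSL_apply_apply, ContinuousLinearMap.apply_apply]
    rw [real_inner_comm, inner_gradient_left]
  rw [e] at h3
  have h5 := congrArg (fun L => L v) (h3.unique h4)
  simp only [ContinuousLinearMap.comp_apply, innerSL_apply_apply,
    ContinuousLinearMap.apply_apply] at h5
  rw [real_inner_comm]
  exact h5

theorem pot_line_deriv (h : ContDiff ℝ 2 W) (x v : E d) (r : ℝ) :
    HasDerivAt (fun r : ℝ => W (x + r • v)) ⟪gradient W (x + r • v), v⟫ r := by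
  have h1 : HasDerivAt (fun r : ℝ => x + r • v) v r := by
    simpa using ((hasDerivAt_id r).smul_const v).const_add x
  have h2 := (h.differentiable (by norm_num) (x + r • v)).hasFDerivAt.comp_hasDerivAt r h1
  rw [inner_gradient_left]
  exact h2

theorem pot_line_deriv2 (h : ContDiff ℝ 2 W) (x v : E d) (r : ℝ) :
    HasDerivAt (fun r : ℝ => ⟪gradient W (x + r • v), v⟫)
      ⟪fderiv ℝ (gradient W) (x + r • v) v, v⟫ r := by
  have h1 : HasDerivAt (fun r : ℝ => x + r • v) v r := by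
    simpa using ((hasDerivAt_id r).smul_const v).const_add x
  have h2 := ((pot_c1 h).differentiable (by norm_num) (x + r • v)).hasFDerivAt.comp_hasDerivAt r h1
  simpa using h2.inner ℝ (hasDerivAt_const r v)

theorem pot_grad_const_mul (h : ContDiff ℝ 2 W) (l : ℝ) (x : E d) :
    gradient (fun z => l * W z) x = l • gradient W x := by
  refine ext_inner_right ℝ fun v => ?_
  rw [inner_gradient_left, real_inner_smul_left, inner_gradient_left,
    fderiv_const_mul (h.differentiable (by norm_num) x)]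
  simp

theorem Pot.mono (h : Pot d δ W) {δ' : ℝ} (hδ : δ ≤ δ') : Pot d δ' W := by
  refine ⟨h.smooth, h.zero, h.grad0, h.lo, fun x v => (h.hi x v).trans ?_⟩
  exact mul_le_mul_of_nonneg_right hδ (sq_nonneg _)

theorem Pot.const_mul (h : Pot d δ W) {l : ℝ} (hl : 0 ≤ l) : Pot d (l * δ) (fun z => l * W z) := by
  have e : gradient (fun z => l * W z) = fun x => l • gradient W x :=
    funext fun x => pot_grad_const_mul h.smooth l x
  have e2 : ∀ x v, fderiv ℝ (gradient (fun z => l * W z)) x v =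
      l • fderiv ℝ (gradient W) x v := by
    intro x v
    rw [e, fderiv_fun_const_smul ((pot_c1 h.smooth).differentiable (by norm_num) x)]
    simp
  refine ⟨contDiff_const.mul h.smooth, by simp [h.zero], by rw [e]; simp [h.grad0],
    fun x v => ?_, fun x v => ?_⟩
  · rw [e2, real_inner_smul_left]; exact mul_nonneg hl (h.lo x v)
  · rw [e2, real_inner_smul_left, mul_assoc]; exact mul_le_mul_of_nonneg_left (h.hi x v) hl

theorem pot_zero (d : ℕ) : Pot d 0 (fun _ => 0) := by
  refine ⟨contDiff_const, rfl, gradient_fun_const _ _, fun x v => ?_, fun x v => ?_⟩ <;>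
    simp [gradient_fun_const']

theorem Pot.hasGradientAt (h : Pot d δ W) (x : E d) : HasGradientAt W (gradient W x) x := by
  exact (h.smooth.differentiable (by norm_num) x).hasGradientAt

theorem Pot.grad_c1 (h : Pot d δ W) : ContDiff ℝ 1 (gradient W) := by
  exact pot_c1 h.smooth

/-- `dd (ee k) W = (∇W)_k`. -/
theorem Pot.dd_ee (h : Pot d δ W) (k : Fin d) (x : E d) : dd (ee k) W x = gradient W x k := by
  rw [pot_coord]; rfl

/-- Symmetry of the Hessian (`ContDiffAt.isSymmSndFDerivAt`). -/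
theorem Pot.symm (h : Pot d δ W) (x v w : E d) :
    ⟪fderiv ℝ (gradient W) x v, w⟫ = ⟪v, fderiv ℝ (gradient W) x w⟫ := by
  rw [real_inner_comm _ v, pot_hess h.smooth, pot_hess h.smooth]
  exact (h.smooth.contDiffAt.isSymmSndFDerivAt (by simp)) v w

/-- A symmetric operator with `0 ≤ ⟨Hv,v⟩ ≤ δ|v|²` has norm `≤ δ` (polarisation). -/
theorem norm_le_of_symm_psd (H : E d →L[ℝ] E d) (hδ : 0 ≤ δ)
    (hs : ∀ v w, ⟪H v, w⟫ = ⟪v, H w⟫) (h0 : ∀ v, 0 ≤ ⟪H v, v⟫) (h1 : ∀ v, ⟪H v, v⟫ ≤ δ * ‖v‖ ^ 2) :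
    ‖H‖ ≤ δ := by
  have key : ∀ v w, 4 * ⟪H v, w⟫ ≤ δ * (‖v‖ + ‖w‖) ^ 2 := by
    intro v w
    have a1 := h1 (v + w)
    have a2 := h0 (v - w)
    simp only [map_add, map_sub, inner_add_left, inner_add_right, inner_sub_left,
      inner_sub_right] at a1 a2
    have a3 : ⟪H w, v⟫ = ⟪H v, w⟫ := by rw [hs w v, real_inner_comm]
    have a4 : ‖v + w‖ ^ 2 ≤ (‖v‖ + ‖w‖) ^ 2 :=
      pow_le_pow_left₀ (norm_nonneg _) (norm_add_le v w) 2
    have a5 := mul_le_mul_of_nonneg_left a4 hδ
    linarith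
  refine ContinuousLinearMap.opNorm_le_bound _ hδ fun v => ?_
  by_cases h2 : ‖H v‖ = 0
  · rw [h2]; positivity
  have h3 : 0 < ‖H v‖ := lt_of_le_of_ne (norm_nonneg _) (Ne.symm h2)
  by_cases h4 : v = 0
  · simp [h4]
  have h5 : 0 < ‖v‖ := norm_pos_iff.2 h4
  have h6 := key v ((‖v‖ / ‖H v‖) • H v)
  rw [real_inner_smul_right, real_inner_self_eq_norm_sq, norm_smul, Real.norm_eq_abs,
    abs_of_nonneg (by positivity)] at h6
  have e1 : ‖v‖ / ‖H v‖ * ‖H v‖ = ‖v‖ := by field_simp
  have e2 : ‖v‖ / ‖H v‖ * ‖H v‖ ^ 2 = ‖v‖ * ‖H v‖ := by field_simp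
  rw [e1, e2] at h6
  have h7 : ‖v‖ * ‖H v‖ ≤ ‖v‖ * (δ * ‖v‖) := by nlinarith
  exact le_of_mul_le_mul_left h7 h5

theorem Pot.hess_norm (h : Pot d δ W) (hδ : 0 ≤ δ) (x : E d) :
    ‖fderiv ℝ (gradient W) x‖ ≤ δ := by
  exact norm_le_of_symm_psd _ hδ (h.symm x) (h.lo x) (h.hi x)

theorem Pot.grad_lip (h : Pot d δ W) (hδ : 0 ≤ δ) (x y : E d) :
    ‖gradient W x - gradient W y‖ ≤ δ * ‖x - y‖ := by
  exact Convex.norm_image_sub_le_of_norm_fderiv_le (𝕜 := ℝ) (s := univ)
    (fun z _ => h.grad_c1.differentiable (by norm_num) z) (fun z _ => h.hess_norm hδ z)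
    convex_univ (mem_univ y) (mem_univ x)

theorem Pot.grad_le (h : Pot d δ W) (hδ : 0 ≤ δ) (x : E d) : ‖gradient W x‖ ≤ δ * ‖x‖ := by
  simpa [h.grad0] using h.grad_lip hδ x 0

/-- Monotonicity of `r ↦ ⟨∇W(r x), x⟩`. -/
theorem Pot.inner_grad_nonneg (h : Pot d δ W) (x : E d) : 0 ≤ ⟪gradient W x, x⟫ := by
  have hm : Monotone fun r : ℝ => ⟪gradient W (0 + r • x), x⟫ :=
    monotone_of_deriv_nonneg (fun r => (pot_line_deriv2 h.smooth 0 x r).differentiableAt)
      fun r => by rw [(pot_line_deriv2 h.smooth 0 x r).deriv]; exact h.lo _ _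
  have := hm (show (0 : ℝ) ≤ 1 by norm_num)
  simpa [h.grad0] using this

theorem Pot.nonneg (h : Pot d δ W) (x : E d) : 0 ≤ W x := by
  have hm : MonotoneOn (fun r : ℝ => W (0 + r • x)) (Ici 0) := by
    refine monotoneOn_of_deriv_nonneg (convex_Ici 0)
      (fun r _ => (pot_line_deriv h.smooth 0 x r).continuousAt.continuousWithinAt)
      (fun r _ => (pot_line_deriv h.smooth 0 x r).differentiableAt.differentiableWithinAt) ?_
    intro r hr
    rw [interior_Ici] at hr
    rw [(pot_line_deriv h.smooth 0 x r).deriv, zero_add]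
    have h1 := h.inner_grad_nonneg (r • x)
    rw [real_inner_smul_right] at h1
    by_contra hc
    push Not at hc
    nlinarith [mem_Ioi.1 hr]
  have := hm (mem_Ici.2 le_rfl) (mem_Ici.2 zero_le_one) zero_le_one
  simpa [h.zero] using this

theorem Pot.le_sq (h : Pot d δ W) (hδ : 0 ≤ δ) (x : E d) : W x ≤ δ * ‖x‖ ^ 2 / 2 := by
  have hd : ∀ r : ℝ, HasDerivAt (fun r : ℝ => δ * ‖x‖ ^ 2 * r ^ 2 / 2 - W (0 + r • x))
      (δ * ‖x‖ ^ 2 * r - ⟪gradient W (0 + r • x), x⟫) r := by
    intro r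
    have h1 : HasDerivAt (fun r : ℝ => δ * ‖x‖ ^ 2 * r ^ 2 / 2) (δ * ‖x‖ ^ 2 * r) r := by
      have := ((hasDerivAt_pow 2 r).const_mul (δ * ‖x‖ ^ 2)).div_const 2
      refine this.congr_deriv ?_
      norm_num; ring
    exact h1.sub (pot_line_deriv h.smooth 0 x r)
  have hm : MonotoneOn (fun r : ℝ => δ * ‖x‖ ^ 2 * r ^ 2 / 2 - W (0 + r • x)) (Ici 0) := by
    refine monotoneOn_of_deriv_nonneg (convex_Ici 0)
      (fun r _ => (hd r).continuousAt.continuousWithinAt)
      (fun r _ => (hd r).differentiableAt.differentiableWithinAt) ?_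
    intro r hr
    rw [interior_Ici] at hr
    have hr' : 0 < r := hr
    rw [(hd r).deriv, zero_add]
    have h1 := h.grad_le hδ (r • x)
    rw [norm_smul, Real.norm_eq_abs, abs_of_pos hr'] at h1
    have h2 := real_inner_le_norm (gradient W (r • x)) x
    have h3 := mul_le_mul_of_nonneg_right h1 (norm_nonneg x)
    nlinarith
  have := hm (mem_Ici.2 le_rfl) (mem_Ici.2 zero_le_one) zero_le_one
  simp only [zero_smul, add_zero, h.zero, one_smul, zero_add] at this
  linarith

/-- Convexity (restrict to a line; second derivative `≥ 0`). -/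
theorem Pot.convexOn (h : Pot d δ W) : ConvexOn ℝ univ W := by
  refine ⟨convex_univ, fun x _ y _ a b ha hb hab => ?_⟩
  have e : deriv (fun r : ℝ => W (x + r • (y - x))) =
      fun r => ⟪gradient W (x + r • (y - x)), y - x⟫ :=
    funext fun r => (pot_line_deriv h.smooth x (y - x) r).deriv
  have hc : ConvexOn ℝ univ (fun r : ℝ => W (x + r • (y - x))) := by
    refine convexOn_univ_of_deriv2_nonneg
      (fun r => (pot_line_deriv h.smooth x (y - x) r).differentiableAt) ?_ ?_
    · rw [e]; exact fun r => (pot_line_deriv2 h.smooth x (y - x) r).differentiableAt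
    · intro r
      show 0 ≤ deriv (deriv fun r : ℝ => W (x + r • (y - x))) r
      rw [e, (pot_line_deriv2 h.smooth x (y - x) r).deriv]
      exact h.lo _ _
  have h1 := hc.2 (mem_univ 0) (mem_univ 1) ha hb hab
  have e2 : x + b • (y - x) = a • x + b • y := by
    have : a = 1 - b := by linarith
    rw [this, smul_sub, sub_smul, one_smul]; abel
  simpa [e2] using h1

theorem Pot.midpoint (h : Pot d δ W) (x y : E d) :
    W ((1 / 2 : ℝ) • x + (1 / 2 : ℝ) • y) ≤ (W x + W y) / 2 := by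
  have := h.convexOn.2 (mem_univ x) (mem_univ y) (show (0 : ℝ) ≤ 1 / 2 by norm_num)
    (show (0 : ℝ) ≤ 1 / 2 by norm_num) (by norm_num)
  simp only [smul_eq_mul] at this
  linarith

theorem Pot.gradient_resc (h : Pot d δ W) {t : ℝ} (ht : 0 < t) (z : E d) :
    gradient (resc W t) z = (√t)⁻¹ • gradient W ((√t)⁻¹ • z) := by
  refine ext_inner_right ℝ fun v => ?_
  have h1 : HasFDerivAt (fun z : E d => (√t)⁻¹ • z) ((√t)⁻¹ • ContinuousLinearMap.id ℝ (E d)) z :=
    ((√t)⁻¹ • ContinuousLinearMap.id ℝ (E d)).hasFDerivAt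
  have h2 := (h.smooth.differentiable (by norm_num) ((√t)⁻¹ • z)).hasFDerivAt.comp z h1
  have h3 : fderiv ℝ (resc W t) z = _ := h2.fderiv
  rw [inner_gradient_left, real_inner_smul_left, inner_gradient_left, h3]
  simp

theorem Pot.rescale (h : Pot d δ W) {t : ℝ} (ht : 0 < t) : Pot d (δ / t) (resc W t) := by
  have e : gradient (resc W t) = fun z => (√t)⁻¹ • gradient W ((√t)⁻¹ • z) :=
    funext fun z => h.gradient_resc ht z
  have e2 : ∀ x v, ⟪fderiv ℝ (gradient (resc W t)) x v, v⟫ =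
      t⁻¹ * ⟪fderiv ℝ (gradient W) ((√t)⁻¹ • x) v, v⟫ := by
    intro x v
    have h1 : HasFDerivAt (fun z : E d => (√t)⁻¹ • z)
        ((√t)⁻¹ • ContinuousLinearMap.id ℝ (E d)) x := ((√t)⁻¹ • ContinuousLinearMap.id ℝ (E d)).hasFDerivAt
    have h2 := ((h.grad_c1.differentiable (by norm_num) ((√t)⁻¹ • x)).hasFDerivAt.comp x
      h1).const_smul (√t)⁻¹
    have h3 : fderiv ℝ (fun z => (√t)⁻¹ • gradient W ((√t)⁻¹ • z)) x = _ := h2.fderiv
    rw [e, h3]
    simp only [ContinuousLinearMap.smul_apply, ContinuousLinearMap.comp_apply,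
      ContinuousLinearMap.id_apply, map_smul, real_inner_smul_left]
    rw [← mul_assoc, ← mul_inv, Real.mul_self_sqrt ht.le]
  refine ⟨h.smooth.comp (contDiff_id.const_smul _), by simp [resc, h.zero],
    by rw [e]; simp [h.grad0], fun x v => ?_, fun x v => ?_⟩
  · rw [e2]; exact mul_nonneg (inv_nonneg.2 ht.le) (h.lo _ _)
  · rw [e2]
    calc _ ≤ t⁻¹ * (δ * ‖v‖ ^ 2) := mul_le_mul_of_nonneg_left (h.hi _ _) (inv_nonneg.2 ht.le)
      _ = _ := by ring

theorem gradient_Uof {V : E d → ℝ} (hV : Admissible d V) (x : E d) :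
    gradient (Uof V) x = gradient V x - x := by
  refine ext_inner_right ℝ fun v => ?_
  have h1 := (hV.1.differentiable (by norm_num) x).hasFDerivAt
  have h2 := (hasStrictFDerivAt_norm_sq x).hasFDerivAt.mul_const (1 / 2 : ℝ)
  have e : Uof V = fun x => V x - ‖x‖ ^ 2 * (1 / 2) := by
    funext y; simp only [Uof]; ring
  rw [inner_gradient_left, inner_sub_left, inner_gradient_left, e, (h1.fun_sub h2).fderiv]
  simp

/-- `iteratedFDeriv ℝ 2 V x ![v,v] = ⟨D(∇V) x v, v⟩` (`iteratedFDeriv_two_apply`). -/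
theorem pot_Uof {V : E d → ℝ} (hV : Admissible d V) : Pot d 1 (Uof V) := by
  have e : gradient (Uof V) = fun x => gradient V x - x := funext fun x => gradient_Uof hV x
  have e2 : ∀ x v, ⟪fderiv ℝ (gradient (Uof V)) x v, v⟫ =
      iteratedFDeriv ℝ 2 V x ![v, v] - ‖v‖ ^ 2 := by
    intro x v
    have h1 := ((pot_c1 hV.1).differentiable (by norm_num) x).hasFDerivAt.fun_sub
      (hasFDerivAt_id x)
    have h2 : fderiv ℝ (fun x => gradient V x - x) x = _ := h1.fderiv
    rw [e, h2, iteratedFDeriv_two_apply]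
    simp only [_root_.sub_apply, ContinuousLinearMap.id_apply, inner_sub_left,
      real_inner_self_eq_norm_sq, pot_hess hV.1]
    simp
  refine ⟨hV.1.sub ((contDiff_norm_sq ℝ).div_const 2), by simp [Uof, hV.2.1],
    by rw [e]; simp [hV.2.2.1], fun x v => ?_, fun x v => ?_⟩
  · rw [e2]; linarith [(hV.2.2.2 x v).1]
  · rw [e2]; linarith [(hV.2.2.2 x v).2]

theorem continuous_oracle {V : E d → ℝ} (hV : Admissible d V) : Continuous (oracle V) := by
  exact hV.1.continuous.prodMk (pot_c1 hV.1).continuous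

end

end Crest.Agent.R285
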