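import Crest.Agent.R285.DefsO
import Crest.Agent.R285.Pot

/-!
# R285/Comp: deterministic oracle computations and implementable kernels
-/

set_option autoImplicit false

namespace Crest.Agent.R285

open MeasureTheory ProbabilityTheory Crest.OracleSampling Set
open scoped RealInnerProductSpace ContDiff

noncomputable section

variable {d : ℕ} {A A' B C : Type} [MeasurableSpace A] [MeasurableSpace A'] [MeasurableSpace B]
  [MeasurableSpace C]

/-- Induction on `q` (generalising `A`), `continuous_oracle`. -/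
theorem Comp.measurable {q : ℕ} {F : VV d → A → B} (h : Comp q A B F) (V : VV d) :
    Measurable (F V) := by
  induction q generalizing A with
  | zero =>
    obtain ⟨f, hf, e⟩ := h
    have : F V = f := funext (e V)
    rw [this]; exact hf
  | succ q ih =>
    obtain ⟨x, hx, F', h', e⟩ := h
    have : F V = fun a => F' V (a, oracle V.1 (x a)) := funext (e V)
    rw [this]
    exact (ih h').comp (measurable_id.prodMk ((continuous_oracle V.2).measurable.comp hx))

theorem Comp.pre {q : ℕ} {F : VV d → A → B} (h : Comp q A B F) {g : A' → A} (hg : Measurable g) :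
    Comp q A' B (fun V a => F V (g a)) := by
  induction q generalizing A A' with
  | zero =>
    obtain ⟨f, hf, e⟩ := h
    exact ⟨fun a => f (g a), hf.comp hg, fun V a => e V (g a)⟩
  | succ q ih =>
    obtain ⟨x, hx, F', h', e⟩ := h
    refine ⟨fun a => x (g a), hx.comp hg, fun V p => F' V (g p.1, p.2), ?_, fun V a => e V (g a)⟩
    exact ih h' (g := fun p : A' × Answer d => (g p.1, p.2))
      ((hg.comp measurable_fst).prodMk measurable_snd)

theorem Comp.post {q : ℕ} {F : VV d → A → B} (h : Comp q A B F) {g : A × B → C}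
    (hg : Measurable g) : Comp q A C (fun V a => g (a, F V a)) := by
  induction q generalizing A with
  | zero =>
    obtain ⟨f, hf, e⟩ := h
    exact ⟨fun a => g (a, f a), hg.comp (measurable_id.prodMk hf),
      fun V a => by simp only [e]⟩
  | succ q ih =>
    obtain ⟨x, hx, F', h', e⟩ := h
    refine ⟨x, hx, fun V p => g (p.1, F' V p), ?_, fun V a => by simp only [e]⟩
    exact ih h' (g := fun z : (A × Answer d) × B => g (z.1.1, z.2))
      (hg.comp ((measurable_fst.comp measurable_fst).prodMk measurable_snd))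

theorem comp_succ {q : ℕ} {F : VV d → A → B} (h : Comp q A B F) : Comp (q + 1) A B F :=
  ⟨fun _ => 0, measurable_const, fun V p => F V p.1, h.pre measurable_fst, fun _ _ => rfl⟩


theorem Comp.mono {q q' : ℕ} {F : VV d → A → B} (h : Comp q A B F) (hq : q ≤ q') :
    Comp q' A B F := by
  induction hq with
  | refl => exact h
  | step _ ih => exact comp_succ ih

theorem Comp.bind {q₁ q₂ : ℕ} {F₁ : VV d → A → B} {F₂ : VV d → A × B → C} (h₁ : Comp q₁ A B F₁)
    (h₂ : Comp q₂ (A × B) C F₂) : Comp (q₁ + q₂) A C (fun V a => F₂ V (a, F₁ V a)) := by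
  induction q₁ generalizing A with
  | zero =>
    obtain ⟨f, hf, e⟩ := h₁
    rw [Nat.zero_add]
    have : (fun V a => F₂ V (a, F₁ V a)) = fun V a => F₂ V (a, f a) := by
      funext V a; rw [e]
    rw [this]
    exact h₂.pre (g := fun a => (a, f a)) (measurable_id.prodMk hf)
  | succ q ih =>
    obtain ⟨x, hx, F', h', e⟩ := h₁
    rw [Nat.add_right_comm]
    refine ⟨x, hx, fun V p => F₂ V (p.1, F' V p), ?_, fun V a => by simp only [e]⟩
    exact ih h' (F₂ := fun V (z : (A × Answer d) × B) => F₂ V (z.1.1, z.2))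
      (h₂.pre (g := fun z : (A × Answer d) × B => (z.1.1, z.2))
        ((measurable_fst.comp measurable_fst).prodMk measurable_snd))

/-- The transcript of a family of query maps. -/
def comp_tr {Ω : Type} (query : (i : ℕ) → Ω → (Fin i → Answer d) → E d) (V : E d → ℝ) (w : Ω) :
    (i : ℕ) → (Fin i → Answer d)
  | 0 => Fin.elim0
  | i + 1 => Fin.snoc (comp_tr query V w i) (oracle V (query i w (comp_tr query V w i)))

theorem comp_tr_eq {q : ℕ} (Alg : QueryAlg d q) (V : E d → ℝ) (w : Alg.Ω) (i : ℕ) :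
    transcript Alg V w i = comp_tr Alg.query V w i := by
  induction i with
  | zero => rfl
  | succ i ih => simp only [transcript, comp_tr, ih]

/-- Query maps after prefixing one query. -/
def comp_q {Ω : Type} (x : Ω → E d)
    (query : (i : ℕ) → Ω × Answer d → (Fin i → Answer d) → E d) :
    (i : ℕ) → Ω → (Fin i → Answer d) → E d
  | 0 => fun w _ => x w
  | i + 1 => fun w ans => query i (w, ans 0) (Fin.tail ans)

theorem comp_tr_cons {Ω : Type} (x : Ω → E d)
    (query : (i : ℕ) → Ω × Answer d → (Fin i → Answer d) → E d) (V : E d → ℝ) (w : Ω) (i : ℕ) :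
    comp_tr (comp_q x query) V w (i + 1) =
      Fin.cons (oracle V (x w)) (comp_tr query V (w, oracle V (x w)) i) := by
  induction i with
  | zero =>
    funext j
    have : j = 0 := Subsingleton.elim (α := Fin 1) _ _
    subst this
    rfl
  | succ i ih =>
    rw [comp_tr, ih, comp_tr, Fin.cons_snoc_eq_snoc_cons]
    simp only [comp_q, Fin.cons_zero, Fin.tail_cons]

theorem comp_meas_shift {Ω : Type} [MeasurableSpace Ω] (i : ℕ) :
    Measurable fun p : Ω × (Fin (i + 1) → Answer d) =>
      (((p.1, p.2 0), Fin.tail p.2) : (Ω × Answer d) × (Fin i → Answer d)) := by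
  refine (measurable_fst.prodMk ((measurable_pi_apply 0).comp measurable_snd)).prodMk ?_
  exact measurable_pi_lambda _ fun j => (measurable_pi_apply j.succ).comp measurable_snd

theorem comp_aux {q : ℕ} {Ω : Type} [MeasurableSpace Ω] {F : VV d → Ω → E d}
    (h : Comp q Ω (E d) F) :
    ∃ (query : (i : ℕ) → Ω → (Fin i → Answer d) → E d) (output : Ω → (Fin q → Answer d) → E d),
      (∀ i, Measurable (Function.uncurry (query i))) ∧ Measurable (Function.uncurry output) ∧
      ∀ (V : VV d) w, output w (comp_tr query V.1 w q) = F V w := by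
  induction q generalizing Ω with
  | zero =>
    obtain ⟨f, hf, e⟩ := h
    exact ⟨fun _ _ _ => 0, fun w _ => f w, fun _ => measurable_const, hf.comp measurable_fst,
      fun V w => (e V w).symm⟩
  | succ q ih =>
    obtain ⟨x, hx, F', h', e⟩ := h
    obtain ⟨query, output, hq, ho, e'⟩ := ih h'
    refine ⟨comp_q x query, fun w ans => output (w, ans 0) (Fin.tail ans), fun i => ?_,
      ho.comp (comp_meas_shift q), fun V w => ?_⟩
    · cases i with
      | zero => exact hx.comp measurable_fst
      | succ i => exact (hq i).comp (comp_meas_shift i)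
    · rw [comp_tr_cons]
      simp only [Fin.cons_zero, Fin.tail_cons]
      rw [e', e]


/-- Translation to the frozen model.  Prove by induction on `q` (generalising `Ω`), without the
measure: there are jointly measurable `query`, `output` such that the transcript defined from them
by `Fin.snoc` yields `F V w`.  Step: `query 0 w _ = x w`,
`query (i+1) w ans = query' i (w, ans 0) (Fin.tail ans)`, and the transcript of length `i+1` is
`Fin.cons (oracle V (x w)) (transcript' i)` (`Fin.cons_snoc_eq_snoc_cons`). -/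
theorem Comp.toAlg {q : ℕ} {Ω : Type} [MeasurableSpace Ω] (P : Measure Ω) [IsProbabilityMeasure P]
    {F : VV d → Ω → E d} (h : Comp q Ω (E d) F) :
    ∃ Alg : QueryAlg d q, ∀ V : VV d, outputLaw Alg V.1 = P.map (F V) := by
  obtain ⟨query, output, hq, ho, e⟩ := comp_aux h
  refine ⟨⟨Ω, inferInstance, P, inferInstance, query, output, hq, ho⟩, fun V => ?_⟩
  unfold outputLaw
  congr 1
  funext w
  rw [run, comp_tr_eq]
  exact e V w

theorem comp_meas_sec {q : ℕ} {Ω : Type} [MeasurableSpace Ω] {F : VV d → A × Ω → B}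
    (h : Comp q (A × Ω) B F) (V : VV d) (a : A) : Measurable fun w => F V (a, w) :=
  (h.measurable V).comp measurable_prodMk_left


theorem Impl.markov {q : ℕ} {k : VV d → Kernel A B} (h : Impl q k) (V : VV d) :
    IsMarkovKernel (k V) := by
  obtain ⟨Ω, _, P, _, F, hF, e⟩ := h
  refine ⟨fun a => ?_⟩
  rw [e]
  exact Measure.isProbabilityMeasure_map (comp_meas_sec hF V a).aemeasurable

theorem Impl.mono {q q' : ℕ} {k : VV d → Kernel A B} (h : Impl q k) (hq : q ≤ q') :
    Impl q' k := by
  obtain ⟨Ω, _, P, _, F, hF, e⟩ := h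
  exact ⟨Ω, _, P, inferInstance, F, hF.mono hq, e⟩

theorem Impl.comap {q : ℕ} {k : VV d → Kernel A B} (h : Impl q k) {g : A' → A}
    (hg : Measurable g) : Impl q (fun V => (k V).comap g hg) := by
  obtain ⟨Ω, _, P, _, F, hF, e⟩ := h
  refine ⟨Ω, _, P, inferInstance, fun V p => F V (g p.1, p.2),
    hF.pre (g := fun p : A' × Ω => (g p.1, p.2))
      ((hg.comp measurable_fst).prodMk measurable_snd), fun V a => ?_⟩
  rw [Kernel.comap_apply, e]

theorem impl_const (ν : Measure B) [IsProbabilityMeasure ν] :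
    Impl 0 (fun _ : VV d => Kernel.const A ν) := by
  refine ⟨B, _, ν, inferInstance, fun _ p => p.2, ⟨Prod.snd, measurable_snd, fun _ _ => rfl⟩,
    fun V a => ?_⟩
  rw [Kernel.const_apply]
  exact Measure.map_id.symm

/-- Seed space `Ω₁ × Ω₂`, `Comp.bind`; compare measures with `Measure.ext_of_lintegral`,
`Kernel.lintegral_compProd`, `lintegral_prod`. -/
theorem Impl.compProd {q₁ q₂ : ℕ} {k₁ : VV d → Kernel A B} {k₂ : VV d → Kernel (A × B) C}
    (h₁ : Impl q₁ k₁) (h₂ : Impl q₂ k₂) : Impl (q₁ + q₂) (fun V => k₁ V ⊗ₖ k₂ V) := by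
  have m₁ := h₁.markov
  have m₂ := h₂.markov
  obtain ⟨Ω₁, _, P₁, _, F₁, hF₁, e₁⟩ := h₁
  obtain ⟨Ω₂, _, P₂, _, F₂, hF₂, e₂⟩ := h₂
  have c₁ : Comp q₁ (A × (Ω₁ × Ω₂)) B (fun V p => F₁ V (p.1, p.2.1)) :=
    hF₁.pre (g := fun p : A × (Ω₁ × Ω₂) => (p.1, p.2.1))
      (measurable_fst.prodMk (measurable_fst.comp measurable_snd))
  have c₂ : Comp q₂ ((A × (Ω₁ × Ω₂)) × B) C (fun V z => F₂ V ((z.1.1, z.2), z.1.2.2)) :=
    hF₂.pre (g := fun z : (A × (Ω₁ × Ω₂)) × B => ((z.1.1, z.2), z.1.2.2)) (by fun_prop)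
  have c₃ : Comp q₂ ((A × (Ω₁ × Ω₂)) × B) (B × C)
      (fun V z => (z.2, F₂ V ((z.1.1, z.2), z.1.2.2))) :=
    c₂.post (g := fun y : ((A × (Ω₁ × Ω₂)) × B) × C => (y.1.2, y.2)) (by fun_prop)
  have c := c₁.bind c₃
  refine ⟨Ω₁ × Ω₂, _, P₁.prod P₂, inferInstance, _, c, fun V a => ?_⟩
  have := m₁ V
  have := m₂ V
  refine Measure.ext_of_lintegral _ fun f hf => ?_
  have hm : Measurable fun w : Ω₁ × Ω₂ => (F₁ V (a, w.1), F₂ V ((a, F₁ V (a, w.1)), w.2)) :=
    comp_meas_sec c V a
  have hm' : Measurable fun w : Ω₁ × Ω₂ => f (F₁ V (a, w.1), F₂ V ((a, F₁ V (a, w.1)), w.2)) :=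
    hf.comp hm
  change _ = ∫⁻ z, f z ∂((P₁.prod P₂).map
    fun w : Ω₁ × Ω₂ => (F₁ V (a, w.1), F₂ V ((a, F₁ V (a, w.1)), w.2)))
  rw [Kernel.lintegral_compProd _ _ _ hf, lintegral_map hf hm, lintegral_prod _ hm'.aemeasurable,
    e₁, lintegral_map _ (comp_meas_sec hF₁ V a)]
  · refine lintegral_congr fun w₁ => ?_
    have hf' : Measurable fun c : C => f (F₁ V (a, w₁), c) := hf.comp measurable_prodMk_left
    rw [e₂, lintegral_map hf' (comp_meas_sec hF₂ V _)]
  · exact Measurable.lintegral_kernel_prod_right'' (η := k₂ V) (a := a) hf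

/-- Post-processing that may use the input. -/
theorem Impl.mapA {q : ℕ} {k : VV d → Kernel A B} (h : Impl q k) {g : A × B → C}
    (hg : Measurable g) : ∃ k' : VV d → Kernel A C, Impl q k' ∧
      ∀ V a, k' V a = (k V a).map fun b => g (a, b) := by
  obtain ⟨Ω, _, P, _, F, hF, e⟩ := h
  have c : Comp q (A × Ω) C (fun V p => g (p.1, F V p)) :=
    hF.post (g := fun z : (A × Ω) × B => g (z.1.1, z.2))
      (hg.comp ((measurable_fst.comp measurable_fst).prodMk measurable_snd))
  have key : ∀ V a, ((Kernel.id ×ₖ Kernel.const A P).map fun p => g (p.1, F V p)) a =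
      P.map fun w => g (a, F V (a, w)) := by
    intro V a
    rw [Kernel.map_apply _ (c.measurable V), Kernel.prod_apply, Kernel.id_apply,
      Kernel.const_apply, Measure.dirac_prod,
      Measure.map_map (c.measurable V) measurable_prodMk_left]
    rfl
  refine ⟨fun V => (Kernel.id ×ₖ Kernel.const A P).map fun p => g (p.1, F V p),
    ⟨Ω, _, P, inferInstance, _, c, key⟩, fun V a => ?_⟩
  have hg' : Measurable fun b : B => g (a, b) := hg.comp measurable_prodMk_left
  rw [key, e, Measure.map_map hg' (comp_meas_sec hF V a)]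
  rfl

/-- Sequential composition, forgetting the intermediate value. -/
theorem Impl.bind {q₁ q₂ : ℕ} {k₁ : VV d → Kernel A B} {k₂ : VV d → Kernel (A × B) C}
    (h₁ : Impl q₁ k₁) (h₂ : Impl q₂ k₂) : ∃ k : VV d → Kernel A C, Impl (q₁ + q₂) k ∧
      ∀ V a (f : C → ℝ), Measurable f → (∃ M, ∀ x, |f x| ≤ M) →
        ∫ x, f x ∂(k V a) = ∫ b, ∫ x, f x ∂(k₂ V (a, b)) ∂(k₁ V a) := by
  have m₁ := h₁.markov
  have m₂ := h₂.markov
  obtain ⟨k, hk, e⟩ := (h₁.compProd h₂).mapA (g := fun z : A × (B × C) => z.2.2) (by fun_prop)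
  refine ⟨k, hk, fun V a f hf ⟨M, hM⟩ => ?_⟩
  have := m₁ V
  have := m₂ V
  rw [e, integral_map measurable_snd.aemeasurable hf.aestronglyMeasurable]
  refine integral_compProd (f := fun z : B × C => f z.2) ?_
  exact Integrable.of_bound (hf.comp measurable_snd).aestronglyMeasurable M
    (Filter.Eventually.of_forall fun z => hM _)

/-- One gradient query (`gradient_Uof`). -/
theorem impl_grad {x : A → E d} (hx : Measurable x) : ∃ k : VV d → Kernel A (E d), Impl 1 k ∧
    ∀ V a, k V a = Measure.dirac (gradient (Uof V.1) (x a)) := by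
  have hm : ∀ V : VV d, Measurable fun a => gradient (Uof V.1) (x a) := fun V =>
    (pot_Uof V.2).grad_c1.continuous.measurable.comp hx
  refine ⟨fun V => Kernel.deterministic _ (hm V), ⟨Unit, _, Measure.dirac (), inferInstance,
    fun V p => gradient (Uof V.1) (x p.1), ⟨fun p => x p.1, hx.comp measurable_fst,
      fun _ z => z.2.2 - x z.1.1, ⟨fun z => z.2.2 - x z.1.1, by fun_prop, fun _ _ => rfl⟩,
      fun V p => gradient_Uof V.2 _⟩, fun V a => ?_⟩, fun V a => Kernel.deterministic_apply _ _⟩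
  rw [Kernel.deterministic_apply]
  simp

theorem Impl.toAlg {q : ℕ} {k : VV d → Kernel Unit (E d)} (h : Impl q k) :
    ∃ Alg : QueryAlg d q, ∀ V : VV d, outputLaw Alg V.1 = k V () := by
  obtain ⟨Ω, _, P, _, F, hF, e⟩ := h
  obtain ⟨Alg, hA⟩ := (hF.pre (g := fun w : Ω => ((), w)) measurable_prodMk_left).toAlg P
  exact ⟨Alg, fun V => by rw [hA, e]⟩

/-- Measurability and boundedness of `b ↦ ∫ f d(k V (a, b))`. -/
theorem Impl.measurable_integral {q : ℕ} {k : VV d → Kernel A B} (h : Impl q k) (V : VV d)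
    {f : B → ℝ} (hf : Measurable f) : Measurable fun a => ∫ x, f x ∂(k V a) := by
  exact (StronglyMeasurable.integral_kernel (κ := k V) hf.stronglyMeasurable).measurable

theorem Impl.abs_integral_le {q : ℕ} {k : VV d → Kernel A B} (h : Impl q k) (V : VV d)
    {f : B → ℝ} {M : ℝ} (hM : ∀ x, |f x| ≤ M) (a : A) : |∫ x, f x ∂(k V a)| ≤ M := by
  have := h.markov V
  have := norm_integral_le_of_norm_le_const (μ := k V a) (f := f) (C := M)
    (Filter.Eventually.of_forall fun x => hM x)
  simpa using this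

end

end Crest.Agent.R285
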