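import Crest.Agent.R285.Flow

/-!
# R285/Transport: solutions of the continuity equation are transported by the flow

Let `Φ r s` be the flow of `exists_flow`, fix `T ∈ (0,1]` and a Lipschitz compactly supported `φ`.
`ψ(s, y) = φ(Φ (clamp s) T y)` (clamp to `[0,1]`) is Lipschitz on `ℝ × X` with support in
`ℝ × ball`, and constant along trajectories, so at every point of differentiability with
`s ∈ (0,1)`, `Dψ (1, b) = 0` (a trajectory through the point has derivative `(1,b)`).  By Rademacher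
(`LipschitzWith.ae_differentiableAt`) this holds a.e. on `(0,1) × X`.  For a `C¹` (or Lipschitz)
`χ : ℝ → ℝ` with compact support in `(0,1)` and a cutoff `κ(y)` equal to `1` near the support,
apply `LipschitzWith.integral_lineDeriv_mul_eq` on `ℝ × X` in the directions `(1,0)`, `(0, e i)` to
`ψ` and the compactly supported `C¹` functions `χ κ ρ`, `χ κ ρ f_i(b)`; summing and using the
continuity equation gives `∫ χ'(s) m(s) ds = 0` for the continuous `m(s) = ∫ ψ(s,y) ρ(s,y) dy`.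
Hence `m` is constant on `[0,1]` (take `χ` a trapezoid / mollified indicator of `[s₁,s₂]`), so
`∫ φ∘Φ 0 T ρ_0 = ∫ φ ρ_T`.  Finite measures agreeing on such `φ` agree on compact sets
(`φ_n = max 0 (1 - n infDist y K)`), hence are equal.
Any other proof is welcome (e.g. direct time-differencing of `m`).
-/

set_option autoImplicit false

namespace Crest.Agent.R285

open MeasureTheory ProbabilityTheory Crest.OracleSampling Set
open scoped RealInnerProductSpace ContDiff

noncomputable section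

section aux

open Filter Metric
open scoped NNReal Topology

variable {X : Type} [NormedAddCommGroup X] [NormedSpace ℝ X]

/-- Integration by parts: Lipschitz compactly supported against `C¹`. -/
theorem transport_ibp [FiniteDimensional ℝ X] [MeasurableSpace X] [BorelSpace X] (μ : Measure X)
    [μ.IsAddHaarMeasure] {g u : X → ℝ} {C : ℝ≥0} (hg : LipschitzWith C g)
    (hc : HasCompactSupport g) (hu : ContDiff ℝ 1 u) (v : X) :
    Integrable (fun y => fderiv ℝ g y v * u y) μ ∧ Integrable (fun y => g y * fderiv ℝ u y v) μ ∧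
      ∫ y, fderiv ℝ g y v * u y ∂μ = -∫ y, g y * fderiv ℝ u y v ∂μ := by
  obtain ⟨R, hR0, hR⟩ := hc.isCompact.isBounded.subset_ball_lt 0 (0 : X)
  let κ : ContDiffBump (0 : X) := ⟨R, R + 1, hR0, by linarith⟩
  let u' : X → ℝ := fun y => κ y * u y
  have hu'c : HasCompactSupport u' := κ.hasCompactSupport.mul_right
  have hu'd : ContDiff ℝ 1 u' := κ.contDiff.mul hu
  obtain ⟨D, hD⟩ := ContDiff.lipschitzWith_of_hasCompactSupport hu'c hu'd one_ne_zero
  have hev : ∀ y ∈ tsupport g, u' =ᶠ[𝓝 y] u := fun y hy => by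
    filter_upwards [κ.eventuallyEq_one_of_mem_ball (hR hy)] with z hz
    simp only [u', hz, Pi.one_apply, one_mul]
  have e1 : ∀ y, fderiv ℝ g y v * u y = fderiv ℝ g y v * u' y := fun y => by
    by_cases hy : y ∈ tsupport g
    · rw [(hev y hy).eq_of_nhds]
    · rw [fderiv_of_notMem_tsupport ℝ hy]; simp
  have e2 : ∀ y, g y * fderiv ℝ u y v = lineDeriv ℝ u' y v * g y := fun y => by
    by_cases hy : y ∈ tsupport g
    · rw [(hu'd.differentiable one_ne_zero y).lineDeriv_eq_fderiv, (hev y hy).fderiv_eq, mul_comm]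
    · rw [image_eq_zero_of_notMem_tsupport hy]; simp
  refine ⟨?_, ?_, ?_⟩
  · simp_rw [e1]
    refine Integrable.bdd_mul (c := C * ‖v‖)
      (hu'd.continuous.integrable_of_hasCompactSupport hu'c)
      (measurable_fderiv_apply_const ℝ g v).aestronglyMeasurable (ae_of_all _ fun y => ?_)
    exact ((fderiv ℝ g y).le_opNorm v).trans
      (mul_le_mul_of_nonneg_right (norm_fderiv_le_of_lipschitz ℝ hg) (norm_nonneg _))
  · exact (hg.continuous.mul ((hu.continuous_fderiv one_ne_zero).clm_apply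
      continuous_const)).integrable_of_hasCompactSupport hc.mul_right
  · simp_rw [e2, e1]
    rw [hD.integral_lineDeriv_mul_eq hg hc v, ← integral_neg]
    refine integral_congr_ae ?_
    filter_upwards [hg.ae_differentiableAt (μ := μ)] with y hy
    rw [hy.lineDeriv_eq_fderiv, map_neg]
    ring

/-- Divergence theorem for a Lipschitz compactly supported function times a `C¹` field. -/
theorem transport_div [FiniteDimensional ℝ X] [MeasurableSpace X] [BorelSpace X] (μ : Measure X)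
    [μ.IsAddHaarMeasure] {ι : Type} [Fintype ι] (e : ι → X) (f : ι → X →L[ℝ] ℝ)
    (hef : ∀ y, ∑ i, f i y • e i = y) {g : X → ℝ} {C : ℝ≥0} (hg : LipschitzWith C g)
    (hc : HasCompactSupport g) {w : X → X} (hw : ContDiff ℝ 1 w) :
    ∫ y, (fderiv ℝ g y (w y) + g y * ∑ i, f i (fderiv ℝ w y (e i))) ∂μ = 0 := by
  have hu : ∀ i, ContDiff ℝ 1 fun y => f i (w y) := fun i => (f i).contDiff.comp hw
  have H := fun i => transport_ibp μ hg hc (hu i) (e i)
  have e1 : ∀ y, fderiv ℝ g y (w y) + g y * ∑ i, f i (fderiv ℝ w y (e i)) =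
      ∑ i, (fderiv ℝ g y (e i) * f i (w y) + g y * fderiv ℝ (fun y => f i (w y)) y (e i)) := by
    intro y
    rw [Finset.sum_add_distrib, Finset.mul_sum]
    congr 1
    · conv_lhs => rw [← hef (w y)]
      rw [map_sum]
      exact Finset.sum_congr rfl fun i _ => by rw [map_smul, smul_eq_mul, mul_comm]
    · refine Finset.sum_congr rfl fun i _ => ?_
      have := ((f i).hasFDerivAt.comp y (hw.differentiable one_ne_zero y).hasFDerivAt).fderiv
      rw [show (fun y => f i (w y)) = (f i) ∘ w from rfl, this]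
      rfl
  simp_rw [e1]
  rw [integral_finsetSum (f := fun i y => fderiv ℝ g y (e i) * f i (w y) +
    g y * fderiv ℝ (fun y => f i (w y)) y (e i)) _ fun i _ => (H i).1.add (H i).2.1]
  refine Finset.sum_eq_zero fun i _ => ?_
  rw [integral_add (H i).1 (H i).2.1, (H i).2.2, neg_add_cancel]

/-- Derivative of the flow in the initial time. -/
theorem transport_deriv_init {b : ℝ × X → X} (hb : Continuous b) {Φ : ℝ → ℝ → X → X}
    (h1 : ∀ r ∈ Icc (0 : ℝ) 1, ∀ z, Φ r r z = z)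
    (h2 : ∀ r ∈ Icc (0 : ℝ) 1, ∀ z, ∀ s ∈ Icc (0 : ℝ) 1,
      HasDerivWithinAt (fun s => Φ r s z) (b (s, Φ r s z)) (Icc 0 1) s)
    (h5 : ∀ R : ℝ, ∃ K : ℝ, ∀ r ∈ Icc (0 : ℝ) 1, ∀ r' ∈ Icc (0 : ℝ) 1, ∀ s ∈ Icc (0 : ℝ) 1, ∀ z z',
      ‖z‖ ≤ R → ‖z'‖ ≤ R → ‖Φ r s z - Φ r' s z'‖ ≤ K * (|r - r'| + ‖z - z'‖))
    {s : ℝ} (hs : s ∈ Icc (0 : ℝ) 1) (y : X) :
    HasDerivWithinAt (fun r => Φ r s y) (-b (s, y)) (Icc 0 1) s := by
  obtain ⟨K, hK⟩ := h5 ‖y‖
  rw [hasDerivWithinAt_iff_isLittleO, Asymptotics.isLittleO_iff]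
  intro ε hε
  obtain ⟨δ, hδ, hbδ⟩ := Metric.continuousAt_iff.1 (hb.continuousAt (x := (s, y))) ε hε
  have hK1 : 0 < |K| + 1 := by positivity
  filter_upwards [inter_mem_nhdsWithin _ (ball_mem_nhds s (div_pos hδ hK1))] with r hr
  obtain ⟨hr, hrs⟩ := hr
  rw [mem_ball, Real.dist_eq, lt_div_iff₀ hK1] at hrs
  have hsub : uIcc r s ⊆ Icc 0 1 := uIcc_subset_Icc hr hs
  have hd : ∀ t ∈ uIcc r s, HasDerivWithinAt (fun t => Φ r t y - t • b (s, y))
      (b (t, Φ r t y) - b (s, y)) (uIcc r s) t := fun t ht => by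
    have := ((h2 r hr y t (hsub ht)).mono hsub).sub
      ((hasDerivWithinAt_id t (uIcc r s)).smul_const (b (s, y)))
    rw [one_smul] at this
    exact this
  have hbd : ∀ t ∈ uIcc r s, ‖b (t, Φ r t y) - b (s, y)‖ ≤ ε := fun t ht => by
    rw [← dist_eq_norm]
    refine (hbδ ?_).le
    have a1 : |t - s| ≤ |r - s| := by
      rw [abs_sub_comm t s, abs_sub_comm r s]; exact abs_sub_right_of_mem_uIcc ht
    have a2 : |r - t| ≤ |r - s| := by
      rw [abs_sub_comm r t, abs_sub_comm r s]; exact abs_sub_left_of_mem_uIcc ht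
    have a3 := hK r hr t (hsub ht) t (hsub ht) y y le_rfl le_rfl
    rw [h1 t (hsub ht), sub_self, norm_zero, add_zero] at a3
    have a4 : K * |r - t| ≤ |K| * |r - s| :=
      mul_le_mul (le_abs_self K) a2 (abs_nonneg _) (abs_nonneg _)
    have a5 : 0 ≤ |K| * |r - s| := by positivity
    rw [Prod.dist_eq, max_lt_iff, Real.dist_eq, dist_eq_norm]
    constructor
    · nlinarith
    · nlinarith [abs_nonneg (r - s)]
  have := (convex_uIcc r s).norm_image_sub_le_of_norm_hasDerivWithin_le hd hbd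
    left_mem_uIcc right_mem_uIcc
  rw [h1 r hr] at this
  rw [h1 s hs, norm_sub_rev r s]
  convert this using 2
  simp only [sub_smul, smul_neg]
  abel

/-- Differentiation under the integral sign, within a set. -/
theorem transport_hasDerivWithinAt_integral {α : Type} [MeasurableSpace α] {μ : Measure α}
    {F : ℝ → α → ℝ} {F' bound : α → ℝ} {S : Set ℝ} {s : ℝ} (hs : s ∈ S)
    (hint : ∀ r ∈ S, Integrable (F r) μ) (hb : ∀ r ∈ S, ∀ a, |F r a - F s a| ≤ bound a * |r - s|)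
    (hbi : Integrable bound μ) (hd : ∀ᵐ a ∂μ, HasDerivWithinAt (fun r => F r a) (F' a) S s) :
    HasDerivWithinAt (fun r => ∫ a, F r a ∂μ) (∫ a, F' a ∂μ) S s := by
  rw [hasDerivWithinAt_iff_tendsto_slope]
  have key : Tendsto (fun r => ∫ a, slope (fun r => F r a) s r ∂μ) (𝓝[S \ {s}] s)
      (𝓝 (∫ a, F' a ∂μ)) := by
    refine tendsto_integral_filter_of_dominated_convergence bound ?_ ?_ hbi ?_
    · filter_upwards [self_mem_nhdsWithin] with r hr
      simp only [slope_def_field]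
      exact (((hint r hr.1).sub (hint s hs)).div_const (r - s)).aestronglyMeasurable
    · filter_upwards [self_mem_nhdsWithin] with r hr
      refine ae_of_all _ fun a => ?_
      have hrs : 0 < |r - s| := abs_pos.2 (sub_ne_zero.2 hr.2)
      rw [slope_def_field, Real.norm_eq_abs, abs_div, div_le_iff₀ hrs]
      exact hb r hr.1 a
    · filter_upwards [hd] with a ha
      exact hasDerivWithinAt_iff_tendsto_slope.1 ha
  refine key.congr' ?_
  filter_upwards [self_mem_nhdsWithin] with r hr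
  simp only [slope_def_field]
  rw [integral_div, integral_sub (hint r hr.1) (hint s hs)]

omit [NormedSpace ℝ X] in
theorem transport_lip {g : X → ℝ} {R K B : ℝ} (h0 : ∀ y, R < ‖y‖ → g y = 0)
    (hB : ∀ y, |g y| ≤ B)
    (hK : ∀ y y', ‖y‖ ≤ R + 1 → ‖y'‖ ≤ R + 1 → |g y - g y'| ≤ K * ‖y - y'‖) :
    ∃ C : ℝ≥0, LipschitzWith C g := by
  have hB0 : 0 ≤ B := (abs_nonneg _).trans (hB 0)
  have far : ∀ y y', R + 1 < ‖y'‖ → |g y - g y'| ≤ B * ‖y - y'‖ := fun y y' hy' => by
    rw [h0 y' (by linarith), sub_zero]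
    by_cases hy : R < ‖y‖
    · rw [h0 y hy, abs_zero]; positivity
    · have h1 : ‖y'‖ - ‖y‖ ≤ ‖y - y'‖ := by rw [norm_sub_rev]; exact norm_sub_norm_le _ _
      have h2 : 1 ≤ ‖y - y'‖ := by linarith [not_lt.1 hy]
      exact (hB y).trans (le_mul_of_one_le_right hB0 h2)
  refine ⟨⟨max K B, le_max_of_le_right hB0⟩, LipschitzWith.of_dist_le_mul fun y y' => ?_⟩
  rw [Real.dist_eq, dist_eq_norm]
  change _ ≤ max K B * _
  by_cases hy' : R + 1 < ‖y'‖
  · exact (far y y' hy').trans (mul_le_mul_of_nonneg_right (le_max_right _ _) (norm_nonneg _))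
  by_cases hy : R + 1 < ‖y‖
  · rw [abs_sub_comm, norm_sub_rev]
    exact (far y' y hy).trans (mul_le_mul_of_nonneg_right (le_max_right _ _) (norm_nonneg _))
  exact (hK y y' (not_lt.1 hy) (not_lt.1 hy')).trans
    (mul_le_mul_of_nonneg_right (le_max_left _ _) (norm_nonneg _))

omit [NormedSpace ℝ X] in
/-- Finite measures that agree on Lipschitz functions of bounded support are equal. -/
theorem transport_ext [ProperSpace X] [MeasurableSpace X] [BorelSpace X] (ν ν' : Measure X)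
    [IsFiniteMeasure ν] [IsFiniteMeasure ν']
    (h : ∀ (φ : X → ℝ) (C : ℝ≥0) (R : ℝ), LipschitzWith C φ → (∀ y, |φ y| ≤ 1) →
      (∀ y, R < ‖y‖ → φ y = 0) → ∫ y, φ y ∂ν = ∫ y, φ y ∂ν') : ν = ν' := by
  have hK : ∀ K : Set X, IsCompact K → ν K = ν' K := fun K hK => by
    obtain ⟨R, hR⟩ := hK.isBounded.subset_closedBall (0 : X)
    have hpos : ∀ n : ℕ, (0 : ℝ) < 1 / (n + 1) := fun n => by positivity
    have t1 := tendsto_integral_thickenedIndicator_of_isClosed ν hK.isClosed hpos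
      tendsto_one_div_add_atTop_nhds_zero_nat
    have t2 := tendsto_integral_thickenedIndicator_of_isClosed ν' hK.isClosed hpos
      tendsto_one_div_add_atTop_nhds_zero_nat
    have e : ∀ n : ℕ, ∫ y, (thickenedIndicator (hpos n) K y : ℝ) ∂ν =
        ∫ y, (thickenedIndicator (hpos n) K y : ℝ) ∂ν' := fun n => by
      refine h _ _ (R + 1) (NNReal.isometry_coe.lipschitz.comp
        (lipschitzWith_thickenedIndicator (hpos n) K)) (fun y => ?_) (fun y hy => ?_)
      · rw [abs_of_nonneg (NNReal.coe_nonneg _)]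
        exact_mod_cast thickenedIndicator_le_one (hpos n) K y
      · rw [thickenedIndicator_zero (hpos n) K, NNReal.coe_zero]
        intro hmem
        obtain ⟨z, hz, hyz⟩ := mem_thickening_iff.1 hmem
        have h1 := mem_closedBall_zero_iff.1 (hR hz)
        have h2 : ‖y‖ - ‖z‖ ≤ dist y z := by rw [dist_eq_norm]; exact norm_sub_norm_le _ _
        have h3 : (1 : ℝ) / (n + 1) ≤ 1 := by
          rw [div_le_one (by positivity)]; linarith [n.cast_nonneg (α := ℝ)]
        linarith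
    simp_rw [e] at t1
    exact (measureReal_eq_measureReal_iff).1 (tendsto_nhds_unique t1 t2)
  refine Measure.OuterRegular.ext_isOpen fun U hU => ?_
  rw [hU.measure_eq_iSup_isCompact, hU.measure_eq_iSup_isCompact]
  exact iSup_congr fun K => iSup_congr fun _ => iSup_congr fun h => hK K h

/-- The pairing of a transported test function with the density is constant in time. -/
theorem transport_const [FiniteDimensional ℝ X] [MeasurableSpace X] [BorelSpace X] (μ : Measure X)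
    [μ.IsAddHaarMeasure] {ι : Type} [Fintype ι] (e : ι → X) (f : ι → X →L[ℝ] ℝ)
    (hef : ∀ y, ∑ i, f i y • e i = y) {b : ℝ × X → X} (hb : ContDiff ℝ 1 b)
    {ρ : ℝ × X → ℝ} (hρ : ContDiff ℝ 1 ρ)
    (hc : ∀ y : ℝ × X, y.1 ∈ Icc (0 : ℝ) 1 →
      fderiv ℝ ρ y (1, b y) + ρ y * ∑ i, f i (fderiv ℝ b y (0, e i)) = 0)
    {Φ : ℝ → ℝ → X → X} (h1 : ∀ r ∈ Icc (0 : ℝ) 1, ∀ z, Φ r r z = z)
    (h2 : ∀ r ∈ Icc (0 : ℝ) 1, ∀ z, ∀ s ∈ Icc (0 : ℝ) 1,
      HasDerivWithinAt (fun s => Φ r s z) (b (s, Φ r s z)) (Icc 0 1) s)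
    (h3 : ∀ r ∈ Icc (0 : ℝ) 1, ∀ s ∈ Icc (0 : ℝ) 1, ∀ t ∈ Icc (0 : ℝ) 1, ∀ z,
      Φ s t (Φ r s z) = Φ r t z)
    {M : ℝ} (h4 : ∀ r ∈ Icc (0 : ℝ) 1, ∀ s ∈ Icc (0 : ℝ) 1, ∀ z, ‖Φ r s z‖ ≤ M * (1 + ‖z‖))
    (h5 : ∀ R : ℝ, ∃ K : ℝ, ∀ r ∈ Icc (0 : ℝ) 1, ∀ r' ∈ Icc (0 : ℝ) 1, ∀ s ∈ Icc (0 : ℝ) 1, ∀ z z',
      ‖z‖ ≤ R → ‖z'‖ ≤ R → ‖Φ r s z - Φ r' s z'‖ ≤ K * (|r - r'| + ‖z - z'‖))
    {T : ℝ} (hT : T ∈ Icc (0 : ℝ) 1) {φ : X → ℝ} {C : ℝ≥0} {R : ℝ} (hφ : LipschitzWith C φ)
    (hφ1 : ∀ y, |φ y| ≤ 1) (hφ0 : ∀ y, R < ‖y‖ → φ y = 0) :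
    ∫ y, φ (Φ 0 T y) * ρ (0, y) ∂μ = ∫ y, φ y * ρ (T, y) ∂μ := by
  set R₁ : ℝ := |M| * (1 + |R|) with hR₁
  -- support
  have hsupp : ∀ r ∈ Icc (0 : ℝ) 1, ∀ y, R₁ < ‖y‖ → φ (Φ r T y) = 0 := fun r hr y hy => by
    refine hφ0 _ (lt_of_not_ge fun h => ?_)
    have a1 := h4 T hT r hr (Φ r T y)
    rw [h3 r hr T hT r hr, h1 r hr] at a1
    have a2 : M * (1 + ‖Φ r T y‖) ≤ R₁ :=
      mul_le_mul (le_abs_self M) (by linarith [le_abs_self R]) (by positivity) (abs_nonneg _)
    linarith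
  obtain ⟨K, hK⟩ := h5 (R₁ + 1)
  have hφd : ∀ y y', |φ y - φ y'| ≤ C * ‖y - y'‖ := fun y y' => by
    have := hφ.dist_le_mul y y'
    rwa [Real.dist_eq, dist_eq_norm] at this
  have hlip : ∀ r ∈ Icc (0 : ℝ) 1, ∃ D : ℝ≥0, LipschitzWith D fun y => φ (Φ r T y) := fun r hr => by
    refine transport_lip (K := C * K) (hsupp r hr) (fun y => hφ1 _) fun y y' hy hy' => ?_
    have a1 := hK r hr r hr T hT y y' hy hy'
    rw [sub_self, abs_zero, zero_add] at a1
    rw [mul_assoc]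
    exact (hφd _ _).trans (mul_le_mul_of_nonneg_left a1 C.coe_nonneg)
  have hcs : ∀ r ∈ Icc (0 : ℝ) 1, HasCompactSupport fun y => φ (Φ r T y) := fun r hr =>
    HasCompactSupport.intro (isCompact_closedBall (0 : X) R₁) fun y hy =>
      hsupp r hr y (by rwa [mem_closedBall_zero_iff, not_le] at hy)
  have hint : ∀ r ∈ Icc (0 : ℝ) 1, Integrable (fun y => φ (Φ r T y) * ρ (r, y)) μ := fun r hr => by
    obtain ⟨D, hD⟩ := hlip r hr
    exact (hD.continuous.mul (hρ.continuous.comp (Continuous.prodMk_right r))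
      ).integrable_of_hasCompactSupport (hcs r hr).mul_right
  -- bounds for `ρ` on the compact cylinder
  have hQ : IsCompact (Icc (0 : ℝ) 1 ×ˢ closedBall (0 : X) R₁) :=
    isCompact_Icc.prod (isCompact_closedBall _ _)
  obtain ⟨B, hB⟩ := hQ.exists_bound_of_continuousOn hρ.continuous.continuousOn
  obtain ⟨Lρ, hLρ⟩ := hρ.contDiffOn.exists_lipschitzOnWith one_ne_zero
    ((convex_Icc (0 : ℝ) 1).prod (convex_closedBall (0 : X) R₁)) hQ
  have hbound : ∀ s ∈ Icc (0 : ℝ) 1, ∀ r ∈ Icc (0 : ℝ) 1, ∀ y,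
      |φ (Φ r T y) * ρ (r, y) - φ (Φ s T y) * ρ (s, y)| ≤
        (closedBall (0 : X) R₁).indicator (fun _ => C * |K| * B + Lρ) y * |r - s| := by
    intro s hs r hr y
    by_cases hy : y ∈ closedBall (0 : X) R₁
    · rw [indicator_of_mem hy]
      have hy' : ‖y‖ ≤ R₁ + 1 := by linarith [mem_closedBall_zero_iff.1 hy]
      have a1 := hK r hr s hs T hT y y hy' hy'
      rw [sub_self, norm_zero, add_zero] at a1
      have a2 : |φ (Φ r T y) - φ (Φ s T y)| ≤ C * (|K| * |r - s|) :=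
        (hφd _ _).trans (mul_le_mul_of_nonneg_left
          (a1.trans (mul_le_mul_of_nonneg_right (le_abs_self K) (abs_nonneg _))) C.coe_nonneg)
      have a3 : |ρ (r, y)| ≤ B := hB (r, y) ⟨hr, hy⟩
      have a4 : |ρ (r, y) - ρ (s, y)| ≤ Lρ * |r - s| := by
        have := hLρ.dist_le_mul (r, y) ⟨hr, hy⟩ (s, y) ⟨hs, hy⟩
        rwa [Real.dist_eq, Prod.dist_eq, dist_self, Real.dist_eq,
          max_eq_left (abs_nonneg _)] at this
      calc |φ (Φ r T y) * ρ (r, y) - φ (Φ s T y) * ρ (s, y)|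
          = |(φ (Φ r T y) - φ (Φ s T y)) * ρ (r, y) + φ (Φ s T y) * (ρ (r, y) - ρ (s, y))| := by
            congr 1; ring
        _ ≤ |φ (Φ r T y) - φ (Φ s T y)| * |ρ (r, y)| + |φ (Φ s T y)| * |ρ (r, y) - ρ (s, y)| := by
            rw [← abs_mul, ← abs_mul]; exact abs_add_le _ _
        _ ≤ C * (|K| * |r - s|) * B + 1 * (Lρ * |r - s|) :=
            add_le_add (mul_le_mul a2 a3 (abs_nonneg _) (by positivity))
              (mul_le_mul (hφ1 _) a4 (abs_nonneg _) zero_le_one)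
        _ = _ := by ring
    · rw [indicator_of_notMem hy]
      rw [mem_closedBall_zero_iff, not_le] at hy
      rw [hsupp r hr y hy, hsupp s hs y hy]
      simp
  have hbi : Integrable ((closedBall (0 : X) R₁).indicator fun _ => C * |K| * B + Lρ) μ :=
    (integrable_indicator_iff measurableSet_closedBall).2
      (integrableOn_const (isCompact_closedBall _ _).measure_lt_top.ne)
  have hder : ∀ s ∈ Icc (0 : ℝ) 1,
      HasDerivWithinAt (fun r => ∫ y, φ (Φ r T y) * ρ (r, y) ∂μ) 0 (Icc 0 1) s := by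
    intro s hs
    obtain ⟨D, hD⟩ := hlip s hs
    set g : X → ℝ := fun y => φ (Φ s T y) with hg
    have hw : ContDiff ℝ 1 fun y : X => ρ (s, y) • b (s, y) :=
      (hρ.comp (contDiff_prodMk_right s)).smul (hb.comp (contDiff_prodMk_right s))
    have hdiv := transport_div μ e f hef hD (hcs s hs) hw
    have hwd : ∀ y, ∑ i, f i (fderiv ℝ (fun y : X => ρ (s, y) • b (s, y)) y (e i)) =
        -fderiv ℝ ρ (s, y) (1, 0) := fun y => by
      have d1 : HasFDerivAt (fun y : X => ρ (s, y))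
          ((fderiv ℝ ρ (s, y)).comp (ContinuousLinearMap.inr ℝ ℝ X)) y :=
        (hρ.differentiable one_ne_zero (s, y)).hasFDerivAt.comp y (hasFDerivAt_prodMk_right s y)
      have d2 : HasFDerivAt (fun y : X => b (s, y))
          ((fderiv ℝ b (s, y)).comp (ContinuousLinearMap.inr ℝ ℝ X)) y :=
        (hb.differentiable one_ne_zero (s, y)).hasFDerivAt.comp y (hasFDerivAt_prodMk_right s y)
      rw [(d1.fun_smul d2).fderiv]
      have a1 := hc (s, y) hs
      have a2 : ((1 : ℝ), b (s, y)) = ((1 : ℝ), (0 : X)) + ∑ i, f i (b (s, y)) • ((0 : ℝ), e i) := by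
        ext
        · simp [Prod.fst_sum]
        · simp [Prod.snd_sum, hef]
      rw [a2, map_add, map_sum] at a1
      simp only [map_smul, smul_eq_mul] at a1
      simp only [add_apply, smul_apply,
        ContinuousLinearMap.comp_apply, ContinuousLinearMap.inr_apply,
        ContinuousLinearMap.smulRight_apply, map_add, map_smul, smul_eq_mul,
        Finset.sum_add_distrib, ← Finset.mul_sum]
      have a3 : ∑ i, fderiv ℝ ρ (s, y) (0, e i) * f i (b (s, y)) =
          ∑ i, f i (b (s, y)) * fderiv ℝ ρ (s, y) (0, e i) :=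
        Finset.sum_congr rfl fun i _ => mul_comm _ _
      rw [a3]
      linarith
    have key := transport_hasDerivWithinAt_integral (μ := μ)
      (F := fun r y => φ (Φ r T y) * ρ (r, y))
      (F' := fun y => -(fderiv ℝ g y (ρ (s, y) • b (s, y)) +
        g y * ∑ i, f i (fderiv ℝ (fun y : X => ρ (s, y) • b (s, y)) y (e i))))
      hs hint (hbound s hs) hbi ?_
    · rwa [integral_neg, hdiv, neg_zero] at key
    filter_upwards [hD.ae_differentiableAt (μ := μ)] with y hy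
    have d1 := transport_deriv_init hb.continuous h1 h2 h5 hs y
    have d2 : HasFDerivAt g (fderiv ℝ g y) (Φ s s y) := by rw [h1 s hs]; exact hy.hasFDerivAt
    have d3 : HasDerivWithinAt (fun r => φ (Φ r T y)) (fderiv ℝ g y (-b (s, y))) (Icc 0 1) s :=
      (d2.comp_hasDerivWithinAt s d1).congr
        (fun r hr => by simp only [hg, Function.comp_apply, h3 r hr s hs T hT])
        (by simp only [hg, Function.comp_apply, h3 s hs s hs T hT])
    have d4 : HasDerivAt (fun r : ℝ => ρ (r, y)) (fderiv ℝ ρ (s, y) (1, 0)) s :=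
      (hρ.differentiable one_ne_zero (s, y)).hasFDerivAt.comp_hasDerivAt s
        ((hasDerivAt_id s).prodMk (hasDerivAt_const s y))
    refine (d3.fun_mul d4.hasDerivWithinAt).congr_deriv ?_
    rw [hwd, map_smul, map_neg, smul_eq_mul]
    ring
  have h0 : (0 : ℝ) ∈ Icc (0 : ℝ) 1 := left_mem_Icc.2 zero_le_one
  have := (convex_Icc (0 : ℝ) 1).norm_image_sub_le_of_norm_hasDerivWithin_le (C := 0) hder
    (fun _ _ => by simp) hT h0
  rw [zero_mul, norm_le_zero_iff, sub_eq_zero] at this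
  simpa only [h1 T hT] using this

end aux

theorem transport {X : Type} [NormedAddCommGroup X] [NormedSpace ℝ X] [FiniteDimensional ℝ X]
    [MeasurableSpace X] [BorelSpace X] (μ : Measure X) [μ.IsAddHaarMeasure]
    {ι : Type} [Fintype ι] (e : ι → X) (f : ι → X →L[ℝ] ℝ) (hef : ∀ y, ∑ i, f i y • e i = y)
    (b : ℝ × X → X) (hb : ContDiff ℝ 1 b) (L : ℝ)
    (hL : ∀ y : ℝ × X, y.1 ∈ Icc (0 : ℝ) 1 → ‖b y‖ ≤ L * (1 + ‖y.2‖))
    (ρ : ℝ × X → ℝ) (hρ : ContDiff ℝ 1 ρ) (h0 : ∀ y, 0 ≤ ρ y)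
    (hint : ∀ s ∈ Icc (0 : ℝ) 1, Integrable (fun z => ρ (s, z)) μ)
    (hc : ∀ y : ℝ × X, y.1 ∈ Icc (0 : ℝ) 1 →
      fderiv ℝ ρ y (1, b y) + ρ y * ∑ i, f i (fderiv ℝ b y (0, e i)) = 0) :
    ∃ Φ : ℝ → X → X, (∀ s ∈ Icc (0 : ℝ) 1, Continuous (Φ s)) ∧ (∀ z, Φ 0 z = z) ∧
      (∀ z, ∀ s ∈ Icc (0 : ℝ) 1,
        HasDerivWithinAt (fun s => Φ s z) (b (s, Φ s z)) (Icc 0 1) s) ∧
      ∀ s ∈ Icc (0 : ℝ) 1, (μ.withDensity fun z => ENNReal.ofReal (ρ (0, z))).map (Φ s) =
        μ.withDensity fun z => ENNReal.ofReal (ρ (s, z)) := by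
  obtain ⟨Φ, h1, h2, h3, ⟨M, h4⟩, h5⟩ := exists_flow b hb L hL
  have hz : (0 : ℝ) ∈ Icc (0 : ℝ) 1 := left_mem_Icc.2 zero_le_one
  have hcont : ∀ s ∈ Icc (0 : ℝ) 1, Continuous (Φ 0 s) := fun s hs => by
    refine continuous_iff_continuousAt.2 fun y => ?_
    obtain ⟨K, hK⟩ := h5 (‖y‖ + 1)
    have : LipschitzOnWith (Real.nnabs K) (Φ 0 s) (Metric.ball 0 (‖y‖ + 1)) :=
      LipschitzOnWith.of_dist_le_mul fun z hz1 z' hz' => by
        have a := hK 0 hz 0 hz s hs z z' (mem_ball_zero_iff.1 hz1).le (mem_ball_zero_iff.1 hz').le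
        rw [sub_self, abs_zero, zero_add] at a
        rw [dist_eq_norm, dist_eq_norm, Real.coe_nnabs]
        exact a.trans (mul_le_mul_of_nonneg_right (le_abs_self K) (norm_nonneg _))
    exact this.continuousOn.continuousAt
      (Metric.isOpen_ball.mem_nhds (mem_ball_zero_iff.2 (lt_add_one _)))
  refine ⟨Φ 0, hcont, h1 0 hz, h2 0 hz, fun s hs => ?_⟩
  have := isFiniteMeasure_withDensity_ofReal (hint 0 hz).2
  have := isFiniteMeasure_withDensity_ofReal (hint s hs).2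
  have hI : ∀ (t : ℝ) (ψ : X → ℝ), ∫ y, ψ y ∂(μ.withDensity fun z => ENNReal.ofReal (ρ (t, z))) =
      ∫ y, ψ y * ρ (t, y) ∂μ := fun t ψ => by
    rw [integral_withDensity_eq_integral_toReal_smul (f := fun z => ENNReal.ofReal (ρ (t, z)))
      (hρ.continuous.comp (Continuous.prodMk_right t)).measurable.ennreal_ofReal
      (ae_of_all _ fun _ => ENNReal.ofReal_lt_top)]
    refine integral_congr_ae (ae_of_all _ fun y => ?_)
    simp only [ENNReal.toReal_ofReal (h0 _), smul_eq_mul, mul_comm]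
  refine transport_ext _ _ fun φ C R hφ hφ1 hφ0 => ?_
  rw [integral_map (hcont s hs).aemeasurable hφ.continuous.aestronglyMeasurable, hI, hI]
  exact transport_const μ e f hef hb hρ hc h1 h2 h3 h4 h5 hs hφ hφ1 hφ0

end

end Crest.Agent.R285
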