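import Crest.Agent.R285.Tame
import Crest.Agent.R285.Transport

/-!
# R285/Cont: `ρ` solves the continuity equation of the field `fld`; the normalised flow
-/

set_option autoImplicit false

namespace Crest.Agent.R285

open MeasureTheory ProbabilityTheory Crest.OracleSampling Set
open scoped RealInnerProductSpace ContDiff

noncomputable section

theorem cont_A_smooth (I : Inst) (k l : Fin I.d) :
    ContDiff ℝ ∞ fun y : I.Y => Ah I k l (I.pt y) :=
  I.comp_pt_smooth (mul_Ah.smooth I k l)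

theorem cont_G_smooth (I : Inst) (k : Fin I.d) :
    ContDiff ℝ ∞ fun y : I.Y => dd (ex k) I.Ψ (I.pt y) :=
  I.comp_pt_smooth (dd_smooth I.Ψ_smooth _)

theorem cont_AX_smooth (I : Inst) (k : Fin I.d) : ContDiff ℝ ∞ (AX I k) :=
  ContDiff.sum fun l _ => (cont_A_smooth I k l).mul (coordX_smooth l)

theorem cont_delA_smooth (I : Inst) (k : Fin I.d) : ContDiff ℝ ∞ (delA I k) :=
  ContDiff.sum fun l _ => ((I.gW_smooth false l).mul (cont_A_smooth I k l)).sub
    (dd_smooth (cont_A_smooth I k l) _)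

theorem bU_smooth (I : Inst) (k : Fin I.d) : ContDiff ℝ ∞ (bU I k) := by
  exact (cont_G_smooth I k).neg.sub (contDiff_const.mul (cont_AX_smooth I k))

theorem bX_smooth (I : Inst) (k : Fin I.d) : ContDiff ℝ ∞ (bX I k) := by
  exact contDiff_const.mul (cont_delA_smooth I k)

theorem Inst.fld_smooth (I : Inst) : ContDiff ℝ ∞ I.fld := by
  refine (time_smooth inv_th_smooth).smul (ContDiff.prodMk ?_ ?_)
  · exact contDiff_euclidean.2 fun k => bU_smooth I k
  · exact contDiff_euclidean.2 fun k => bX_smooth I k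

/-- bounded for `s ∈ [0,1]` -/
def cont_BD (I : Inst) (φ : I.Y → ℝ) : Prop := ∃ C, ∀ y : I.Y, y.1 ∈ Icc (0 : ℝ) 1 → |φ y| ≤ C

/-- linear growth for `s ∈ [0,1]` -/
def cont_LG (I : Inst) (φ : I.Y → ℝ) : Prop :=
  ∃ L, ∀ y : I.Y, y.1 ∈ Icc (0 : ℝ) 1 → |φ y| ≤ L * (1 + ‖y.2‖)

section growth
variable {I : Inst} {φ ψ : I.Y → ℝ}

theorem cont_BD.lg (h : cont_BD I φ) : cont_LG I φ := by
  obtain ⟨C, hC⟩ := h
  refine ⟨C, fun y hy => (hC y hy).trans ?_⟩
  have := (abs_nonneg _).trans (hC y hy)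
  nlinarith [norm_nonneg y.2]

theorem cont_LG.abs (h : cont_LG I φ) : cont_LG I fun y => |φ y| := by
  obtain ⟨L, hL⟩ := h
  exact ⟨L, fun y hy => by rw [abs_abs]; exact hL y hy⟩

theorem cont_LG.neg (h : cont_LG I φ) : cont_LG I fun y => -φ y := by
  obtain ⟨L, hL⟩ := h
  exact ⟨L, fun y hy => by rw [abs_neg]; exact hL y hy⟩

theorem cont_LG.add (h : cont_LG I φ) (h' : cont_LG I ψ) : cont_LG I fun y => φ y + ψ y := by
  obtain ⟨L, hL⟩ := h
  obtain ⟨L', hL'⟩ := h'
  refine ⟨L + L', fun y hy => (abs_add_le _ _).trans ?_⟩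
  linarith [hL y hy, hL' y hy]

theorem cont_LG.sub (h : cont_LG I φ) (h' : cont_LG I ψ) : cont_LG I fun y => φ y - ψ y := by
  simpa only [sub_eq_add_neg] using h.add h'.neg

theorem cont_LG.bd_mul (h : cont_LG I φ) (h' : cont_BD I ψ) : cont_LG I fun y => ψ y * φ y := by
  obtain ⟨L, hL⟩ := h
  obtain ⟨C, hC⟩ := h'
  refine ⟨C * L, fun y hy => ?_⟩
  rw [abs_mul, mul_assoc]
  exact mul_le_mul (hC y hy) (hL y hy) (abs_nonneg _) ((abs_nonneg _).trans (hC y hy))

theorem cont_LG.mul_bd (h : cont_LG I φ) (h' : cont_BD I ψ) : cont_LG I fun y => φ y * ψ y := by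
  simpa only [mul_comm] using h.bd_mul h'

theorem cont_LG.sum {ι : Type} (s : Finset ι) {φ : ι → I.Y → ℝ} (h : ∀ i ∈ s, cont_LG I (φ i)) :
    cont_LG I fun y => ∑ i ∈ s, φ i y := by
  classical
  induction s using Finset.induction_on with
  | empty => exact ⟨0, fun y _ => by simp⟩
  | insert i s hi ih =>
    simp only [Finset.sum_insert hi]
    exact (h i (Finset.mem_insert_self _ _)).add
      (ih fun j hj => h j (Finset.mem_insert_of_mem hj))

end growth

theorem cont_LG_G (I : Inst) (k : Fin I.d) : cont_LG I fun y => dd (ex k) I.Ψ (I.pt y) := by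
  obtain ⟨L, hL⟩ := dPsi_pt_le I
  exact ⟨L, fun y _ => hL y k⟩

theorem cont_LG_U (I : Inst) (k : Fin I.d) : cont_LG I fun y => y.2.1 k := by
  refine ⟨1, fun y _ => ?_⟩
  have h1 : ‖y.2.1 k‖ ≤ ‖y.2.1‖ := PiLp.norm_apply_le _ _
  have h2 := norm_fst_le y.2
  rw [Real.norm_eq_abs] at h1
  linarith

theorem cont_LG_X (I : Inst) (k : Fin I.d) : cont_LG I fun y => y.2.2 k := by
  refine ⟨1, fun y _ => ?_⟩
  have h1 : ‖y.2.2 k‖ ≤ ‖y.2.2‖ := PiLp.norm_apply_le _ _
  have h2 := norm_snd_le y.2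
  rw [Real.norm_eq_abs] at h1
  linarith

theorem cont_LG_gW (I : Inst) (k : Fin I.d) : cont_LG I (I.gW false k) :=
  (cont_LG_U I k).add ((cont_LG_G I k).bd_mul ⟨1, fun y _ => (abs_aa_lt_one y.1).le⟩)

theorem cont_BD_A (I : Inst) (k l : Fin I.d) : cont_BD I fun y => Ah I k l (I.pt y) :=
  ⟨1, fun y _ => (opBd_Ah I (I.pt y)).entry_le k l⟩

theorem cont_BD_dA (I : Inst) (k l m : Fin I.d) :
    cont_BD I (dd (ey false m) fun y => Ah I k l (I.pt y)) := by
  obtain ⟨C, -, hC⟩ := mul_Ah.dOut.bound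
  refine ⟨C, fun y hy => ?_⟩
  rw [dd_pt_u I (mul_Ah.smooth I k l), abs_mul]
  have h1 : |dd (ex m) (Ah I k l) (I.pt y)| ≤ C := (hC I (I.pt y) hy).entry_le (k, m) l
  exact (mul_le_of_le_one_left (abs_nonneg _) (abs_aa_lt_one y.1).le).trans h1

theorem cont_norm_vec {d : ℕ} (f : Fin d → ℝ) : ‖vec f‖ ≤ ∑ k, |f k| := by
  rw [pd_basis (vec f)]
  refine (norm_sum_le _ _).trans (Finset.sum_le_sum fun k _ => ?_)
  rw [norm_smul, ee, PiLp.norm_single, norm_one, mul_one]
  rfl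

/-- Entries of `Â` and of `dOut Â` are bounded on `s ∈ [0,1]` (`Mul.bound`), `dPsi_pt_le`;
the constant may depend on the instance. -/
theorem Inst.fld_growth (I : Inst) :
    ∃ L, ∀ y : I.Y, y.1 ∈ Icc (0 : ℝ) 1 → ‖I.fld y‖ ≤ L * (1 + ‖y.2‖) := by
  have hU : ∀ k, cont_LG I (bU I k) := fun k =>
    (cont_LG_G I k).neg.sub ((cont_LG.sum _ fun l _ =>
      (cont_LG_X I l).bd_mul (cont_BD_A I k l)).bd_mul ⟨|I.β|, fun _ _ => le_rfl⟩)
  have hX : ∀ k, cont_LG I (bX I k) := fun k =>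
    (cont_LG.sum _ fun l _ => ((cont_LG_gW I l).mul_bd (cont_BD_A I k l)).sub
      (cont_BD_dA I k l l).lg).bd_mul ⟨|I.β|, fun _ _ => le_rfl⟩
  obtain ⟨L, hL⟩ := (cont_LG.sum Finset.univ fun k _ => (hU k).abs).add
    (cont_LG.sum Finset.univ fun k _ => (hX k).abs)
  refine ⟨L, fun y hy => le_trans ?_ ((le_abs_self _).trans (hL y hy))⟩
  have h1 : ‖(th y.1)⁻¹‖ ≤ 1 := by
    rw [Real.norm_of_nonneg (inv_nonneg.2 (th_pos _).le)]
    exact inv_le_one_of_one_le₀ (one_le_th _)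
  rw [Inst.fld, norm_smul]
  refine (mul_le_of_le_one_left (norm_nonneg _) h1).trans ?_
  have h2 := cont_norm_vec fun k => bU I k y
  have h3 := cont_norm_vec fun k => bX I k y
  rw [Prod.norm_mk]
  exact max_le (by linarith [norm_nonneg (vec fun k => bX I k y)])
    (by linarith [norm_nonneg (vec fun k => bU I k y)])

theorem cont_dd_bU (I : Inst) (k : Fin I.d) (y : I.Y) : dd (ey false k) (bU I k) y =
    -(aa y.1 * dd (ex k) (dd (ex k) I.Ψ) (I.pt y)) -
      I.β * ∑ l, dd (ey false k) (fun y => Ah I k l (I.pt y)) y * y.2.2 l := by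
  have e : bU I k = fun y => (-1) * dd (ex k) I.Ψ (I.pt y) -
      I.β * ∑ l, Ah I k l (I.pt y) * y.2.2 l := by
    funext y
    rw [bU, AX, neg_one_mul]
  rw [e, dd_sub (contDiff_const.mul (cont_G_smooth I k)) (contDiff_const.mul
      (ContDiff.sum fun l _ => (cont_A_smooth I k l).mul (coordX_smooth l))),
    dd_const_mul (cont_G_smooth I k), dd_pt_u I (dd_smooth I.Ψ_smooth _),
    dd_const_mul (ContDiff.sum fun l _ => (cont_A_smooth I k l).mul (coordX_smooth l)),
    dd_sum _ fun l _ => (cont_A_smooth I k l).mul (coordX_smooth l)]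
  simp only [fun l => dd_mul (cont_A_smooth I k l) (coordX_smooth l), dd_ey_coordX]
  simp

theorem cont_dd_bX (I : Inst) (k : Fin I.d) (y : I.Y) : dd (ey true k) (bX I k) y = 0 := by
  have hs : ∀ l, ContDiff ℝ ∞ fun y : I.Y => I.gW false l y * Ah I k l (I.pt y) -
      dd (ey false l) (fun y => Ah I k l (I.pt y)) y := fun l =>
    ((I.gW_smooth false l).mul (cont_A_smooth I k l)).sub (dd_smooth (cont_A_smooth I k l) _)
  have e : bX I k = fun y => I.β * ∑ l, (I.gW false l y * Ah I k l (I.pt y) -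
      dd (ey false l) (fun y => Ah I k l (I.pt y)) y) := rfl
  rw [e, dd_const_mul (ContDiff.sum fun l _ => hs l), dd_sum _ fun l _ => hs l]
  refine mul_eq_zero_of_right _ (Finset.sum_eq_zero fun l _ => ?_)
  rw [dd_sub ((I.gW_smooth false l).mul (cont_A_smooth I k l)) (dd_smooth (cont_A_smooth I k l) _),
    dd_mul (I.gW_smooth false l) (cont_A_smooth I k l),
    dd_comm (cont_A_smooth I k l) (ey true k) (ey false l), dd_pt_x I (mul_Ah.smooth I k l),
    dd_const, dd_gW]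
  simp [HessM]

/-- The continuity equation multiplied by `θ`:
`θ∂_sρ + ∑ b_k ∂_kρ + ρ ∑ ∂_k b_k = 0`.  With `dd_rho`, `dd_eT_rho`, `dd_pt_u`: the `-∇Ψ` part cancels
the time derivative; the rotation part gives
`β ρ (gW_u·Âξ - ∑_{k,l} ∂_{u_k}Â_{kl} ξ_l) - β ρ ξ·δ_u(Â) = 0` by symmetry of `Â`
(`bX` does not depend on `ξ`). -/
theorem cont_eq (I : Inst) (y : I.Y) :
    DD I I.rho y + I.rho y *
      (∑ k, dd (ey false k) (bU I k) y + ∑ k, dd (ey true k) (bX I k) y) = 0 := by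
  have s1 : ∑ k, AX I k y * I.gW false k y =
      ∑ k, ∑ l, y.2.2 k * (I.gW false l y * Ah I k l (I.pt y)) := by
    rw [Finset.sum_comm]
    refine Finset.sum_congr rfl fun k _ => ?_
    rw [AX, Finset.sum_mul]
    refine Finset.sum_congr rfl fun l _ => ?_
    rw [Ah_symm I l k]
    ring
  have s2 : ∑ k, ∑ l, dd (ey false k) (fun y => Ah I k l (I.pt y)) y * y.2.2 l =
      ∑ k, ∑ l, y.2.2 k * dd (ey false l) (fun y => Ah I k l (I.pt y)) y := by
    rw [Finset.sum_comm]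
    refine Finset.sum_congr rfl fun k _ => Finset.sum_congr rfl fun l _ => ?_
    simp only [Ah_symm I l k]
    ring
  have s3 : ∑ k, bX I k y * dd (ey true k) I.rho y = -(I.rho y * I.β *
      (∑ k, ∑ l, y.2.2 k * (I.gW false l y * Ah I k l (I.pt y)) -
        ∑ k, ∑ l, y.2.2 k * dd (ey false l) (fun y => Ah I k l (I.pt y)) y)) := by
    rw [← Finset.sum_sub_distrib, Finset.mul_sum, ← Finset.sum_neg_distrib]
    refine Finset.sum_congr rfl fun k _ => ?_
    rw [← Finset.sum_sub_distrib]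
    simp only [← mul_sub, ← Finset.mul_sum]
    rw [dd_rho, bX, delA]
    simp only [Inst.gW]
    ring
  have s4 : ∑ k, bU I k y * dd (ey false k) I.rho y = I.rho y *
      (∑ k, y.2.1 k * dd (ex k) I.Ψ (I.pt y) + aa y.1 * ∑ k, dd (ex k) I.Ψ (I.pt y) ^ 2 +
        I.β * ∑ k, AX I k y * I.gW false k y) := by
    simp only [Finset.mul_sum, ← Finset.sum_add_distrib]
    refine Finset.sum_congr rfl fun k _ => ?_
    rw [dd_rho, bU]
    simp only [Inst.gW]
    ring
  have s5 : ∑ k, dd (ey false k) (bU I k) y =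
      -(aa y.1 * ∑ k, dd (ex k) (dd (ex k) I.Ψ) (I.pt y)) -
        I.β * ∑ k, ∑ l, dd (ey false k) (fun y => Ah I k l (I.pt y)) y * y.2.2 l := by
    simp only [cont_dd_bU]
    rw [Finset.sum_sub_distrib, Finset.sum_neg_distrib, ← Finset.mul_sum, ← Finset.mul_sum]
  rw [DD, dd_eT_rho, s3, s4, s5, s1, s2]
  simp only [cont_dd_bX, Finset.sum_const_zero]
  ring

/-- coordinate functionals on `E d × E d` -/
def cont_f (d : ℕ) : Bool × Fin d → E d × E d →L[ℝ] ℝ
  | (false, k) => (EuclideanSpace.proj k).comp (ContinuousLinearMap.fst ℝ (E d) (E d))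
  | (true, k) => (EuclideanSpace.proj k).comp (ContinuousLinearMap.snd ℝ (E d) (E d))

theorem cont_f_sum (d : ℕ) (z : E d × E d) :
    ∑ i : Bool × Fin d, cont_f d i z • (ey i.1 i.2).2 = z := by
  rw [Fintype.sum_prod_type, Fintype.sum_bool]
  refine Prod.ext ?_ ?_
  · simpa [cont_f, ey, Prod.fst_sum] using (pd_basis z.1).symm
  · simpa [cont_f, ey, Prod.snd_sum] using (pd_basis z.2).symm

/-- `transport` with `ι = Bool × Fin d`, `e (b,k) = (ey b k).2`, `DD_eq`, `rho_zero_withDensity`. -/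
theorem exists_normalised_flow (I : Inst) : ∃ Φ : ℝ → E I.d × E I.d → E I.d × E I.d,
    (∀ s ∈ Icc (0 : ℝ) 1, Continuous (Φ s)) ∧ (∀ z, Φ 0 z = z) ∧
    (∀ z, ∀ s ∈ Icc (0 : ℝ) 1,
      HasDerivWithinAt (fun s => Φ s z) (I.fld (s, Φ s z)) (Icc 0 1) s) ∧
    ∀ s ∈ Icc (0 : ℝ) 1, ((gam I.d).prod (gam I.d)).map (Φ s) =
      (volume : Measure (E I.d × E I.d)).withDensity fun z => ENNReal.ofReal (I.rho (s, z)) := by
  obtain ⟨L, hL⟩ := I.fld_growth
  have : (volume : Measure (E I.d × E I.d)).IsAddHaarMeasure :=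
    Measure.prod.instIsAddHaarMeasure _ _
  have h := transport (volume : Measure (E I.d × E I.d)) (ι := Bool × Fin I.d)
    (fun i => (ey i.1 i.2).2) (cont_f I.d) (cont_f_sum I.d) I.fld (I.fld_smooth.of_le (by simp)) L
    hL I.rho (I.rho_smooth.of_le (by simp)) (fun y => (I.rho_pos y).le)
    (fun s hs => (integral_rho I hs).1) (fun y _ => by
      have h1 := cont_eq I y
      have h2 : ∀ (i : Bool × Fin I.d) (φ : I.Y → ℝ), ContDiff ℝ ∞ φ →
          (∀ y, cont_f I.d i (I.fld y) = (th y.1)⁻¹ * φ y) →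
          cont_f I.d i (fderiv ℝ I.fld y (0, (ey i.1 i.2).2)) =
            (th y.1)⁻¹ * dd (ey i.1 i.2) φ y := by
        intro i φ hφ he
        have e1 : ((0 : ℝ), (ey i.1 i.2).2) = ey i.1 i.2 := by
          obtain ⟨b, k⟩ := i
          cases b <;> rfl
        have e2 := ((cont_f I.d i).hasFDerivAt.comp y
          (I.fld_smooth.differentiable (by simp) y).hasFDerivAt).fderiv
        have e3 : (cont_f I.d i) ∘ I.fld = fun y => (th y.1)⁻¹ * φ y := funext he
        have e4 := congrFun (dd_mul (time_smooth inv_th_smooth) hφ (ey i.1 i.2)) y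
        rw [dd_ey_time inv_th_smooth, zero_mul, zero_add, dd, ← e3, e2] at e4
        rw [e1, ← e4]
        rfl
      rw [Fintype.sum_prod_type, Fintype.sum_bool]
      simp only [fun k => h2 (true, k) (bX I k) (bX_smooth I k) fun _ => rfl,
        fun k => h2 (false, k) (bU I k) (bU_smooth I k) fun _ => rfl, ← Finset.mul_sum]
      rw [DD_eq] at h1
      have h3 := (th_pos y.1).ne'
      field_simp
      linear_combination h1)
  rwa [rho_zero_withDensity] at h

end

end Crest.Agent.R285
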