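import Crest.Agent.R285.Mul

/-!
# R285/MulH: the class of multipliers is closed under the parabolic operator `Hs`
-/

set_option autoImplicit false

namespace Crest.Agent.R285

open MeasureTheory ProbabilityTheory Crest.OracleSampling Set
open scoped RealInnerProductSpace ContDiff

noncomputable section

variable {O J : Fam}

theorem mulh_c_smooth : ContDiff ℝ ∞ (fun s => 2 * (aa s / th s)) :=
  contDiff_const.mul (aa_smooth.div th_smooth fun s => (th_pos s).ne')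

theorem mulh_dd_fst {d : ℕ} {g : ℝ → ℝ} (hg : ContDiff ℝ ∞ g) (v : ℝ × E d) :
    dd v (fun y : ℝ × E d => g y.1) = fun y => deriv g y.1 * v.1 := by
  funext y
  have h := ((hg.differentiable (by simp) y.1).hasDerivAt.comp_hasFDerivAt y
    (hasFDerivAt_fst (𝕜 := ℝ) (p := y))).fderiv
  have h2 := congrArg (fun L : ℝ × E d →L[ℝ] ℝ => L v) h
  simpa [dd, Function.comp_def] using h2

theorem mulh_dd_ex {d : ℕ} {g : ℝ → ℝ} (hg : ContDiff ℝ ∞ g) (k : Fin d) :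
    dd (ex k) (fun y : ℝ × E d => g y.1) = fun _ => 0 := by
  rw [mulh_dd_fst hg]
  simp [ex]

theorem mulh_dd_et {d : ℕ} {g : ℝ → ℝ} (hg : ContDiff ℝ ∞ g) :
    dd et (fun y : ℝ × E d => g y.1) = fun y => deriv g y.1 := by
  rw [mulh_dd_fst hg]
  simp [et]

theorem mulh_dd_tmul {d : ℕ} {g : ℝ → ℝ} (hg : ContDiff ℝ ∞ g) {φ : ℝ × E d → ℝ}
    (hφ : ContDiff ℝ ∞ φ) (k : Fin d) :
    dd (ex k) (fun y : ℝ × E d => g y.1 * φ y) = fun y => g y.1 * dd (ex k) φ y := by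
  rw [dd_mul (φ := fun y : ℝ × E d => g y.1) (hg.comp contDiff_fst) hφ, mulh_dd_ex hg]
  simp

theorem mulh_Hs_dd (I : Inst) {φ : I.X → ℝ} (hφ : ContDiff ℝ ∞ φ) (k : Fin I.d) (y : I.X) :
    Hs I (dd (ex k) φ) y = dd (ex k) (Hs I φ) y +
      2 * (aa y.1 / th y.1) * ∑ l, dd (ex k) (dd (ex l) I.Ψ) y * dd (ex l) φ y := by
  have hΨ := I.Ψ_smooth
  have s1 : ∀ l : Fin I.d, ContDiff ℝ ∞ fun y => dd (ex l) I.Ψ y * dd (ex l) φ y := fun l =>
    (dd_smooth hΨ _).mul (dd_smooth hφ _)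
  have s2 : ∀ l : Fin I.d, ContDiff ℝ ∞ (dd (ex l) (dd (ex l) φ)) := fun l =>
    dd_smooth (dd_smooth hφ _) _
  have s3 : ContDiff ℝ ∞ fun y => ∑ l : Fin I.d, dd (ex l) I.Ψ y * dd (ex l) φ y :=
    ContDiff.sum fun l _ => s1 l
  have s4 : ContDiff ℝ ∞ fun y => ∑ l : Fin I.d, dd (ex l) (dd (ex l) φ) y :=
    ContDiff.sum fun l _ => s2 l
  have e : Hs I φ = fun y => dd et φ y - (fun s => 2 * (aa s / th s)) y.1 *
      (∑ l, dd (ex l) I.Ψ y * dd (ex l) φ y - (∑ l, dd (ex l) (dd (ex l) φ) y) / 2) := rfl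
  have s5 : ContDiff ℝ ∞ fun y : I.X => (fun s => 2 * (aa s / th s)) y.1 :=
    mulh_c_smooth.comp contDiff_fst
  rw [e, dd_sub (dd_smooth hφ _) (s5.mul (s3.sub (s4.div_const 2))), mulh_dd_tmul mulh_c_smooth (s3.sub (s4.div_const 2)),
    dd_sub s3 (s4.div_const 2), dd_div_const s4, dd_sum _ fun l _ => s1 l,
    dd_sum _ fun l _ => s2 l]
  have e1 : ∀ l : Fin I.d, dd (ex k) (fun y => dd (ex l) I.Ψ y * dd (ex l) φ y) y =
      dd (ex k) (dd (ex l) I.Ψ) y * dd (ex l) φ y +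
        dd (ex l) I.Ψ y * dd (ex l) (dd (ex k) φ) y := fun l => by
    rw [dd_mul (dd_smooth hΨ _) (dd_smooth hφ _), dd_comm hφ (ex k) (ex l)]
  have e2 : ∀ l : Fin I.d, dd (ex k) (dd (ex l) (dd (ex l) φ)) =
      dd (ex l) (dd (ex l) (dd (ex k) φ)) := fun l => by
    rw [dd_comm (dd_smooth hφ _) (ex k) (ex l), dd_comm hφ (ex k) (ex l)]
  simp only [Hs, e1, e2, Finset.sum_add_distrib, dd_comm hφ et (ex k)]
  ring

theorem mulh_Hs_div (I : Inst) {φ : I.X → ℝ} (hφ : ContDiff ℝ ∞ φ) (c : ℝ) (y : I.X) :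
    Hs I (fun y => φ y / c) y = Hs I φ y / c := by
  simp only [Hs, dd_div_const hφ, dd_div_const (dd_smooth hφ _), ← mul_div_assoc,
    ← Finset.sum_div]
  ring

theorem mulh_Hs_add (I : Inst) {φ ψ : I.X → ℝ} (hφ : ContDiff ℝ ∞ φ) (hψ : ContDiff ℝ ∞ ψ)
    (y : I.X) : Hs I (fun y => φ y + ψ y) y = Hs I φ y + Hs I ψ y := by
  simp only [Hs, dd_add hφ hψ, dd_add (dd_smooth hφ _) (dd_smooth hψ _), mul_add,
    Finset.sum_add_distrib]
  ring

theorem mulh_Hs_const (I : Inst) (c : ℝ) (y : I.X) : Hs I (fun _ => c) y = 0 := by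
  simp [Hs, dd_const]

theorem mulh_Hs_sum (I : Inst) {κ : Type} (S : Finset κ) {φ : κ → I.X → ℝ}
    (hφ : ∀ i, ContDiff ℝ ∞ (φ i)) (y : I.X) :
    Hs I (fun y => ∑ i ∈ S, φ i y) y = ∑ i ∈ S, Hs I (φ i) y := by
  classical
  induction S using Finset.induction_on with
  | empty => simpa using mulh_Hs_const I 0 y
  | insert i S hi ih =>
    simp only [Finset.sum_insert hi]
    rw [mulh_Hs_add I (hφ i) (ContDiff.sum fun i _ => hφ i), ih]

theorem mulh_Hs_fst (I : Inst) {g : ℝ → ℝ} (hg : ContDiff ℝ ∞ g) (y : I.X) :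
    Hs I (fun y => g y.1) y = deriv g y.1 := by
  simp [Hs, mulh_dd_ex hg, mulh_dd_et hg, dd_const]

/-- Differentiate `Psi_pde`. -/
theorem Hs_Fh (I : Inst) (k : Fin I.d) (y : I.X) : Hs I (Fh I k) y = 0 := by
  have hΨ := I.Ψ_smooth
  have e : Hs I I.Ψ = fun y => (fun s => 2 * (aa s / th s)) y.1 *
      ((∑ l, dd (ex l) I.Ψ y * dd (ex l) I.Ψ y) / (-2)) := by
    funext y
    have := Psi_pde I.pot y
    simp only [Hs, Inst.Ψ, this, sq]
    ring
  have s1 : ∀ l : Fin I.d, ContDiff ℝ ∞ fun y => dd (ex l) I.Ψ y * dd (ex l) I.Ψ y := fun l =>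
    (dd_smooth hΨ _).mul (dd_smooth hΨ _)
  have s3 : ContDiff ℝ ∞ fun y => ∑ l : Fin I.d, dd (ex l) I.Ψ y * dd (ex l) I.Ψ y :=
    ContDiff.sum fun l _ => s1 l
  have e1 : ∀ l : Fin I.d, dd (ex k) (fun y => dd (ex l) I.Ψ y * dd (ex l) I.Ψ y) y =
      2 * (dd (ex k) (dd (ex l) I.Ψ) y * dd (ex l) I.Ψ y) := fun l => by
    rw [dd_mul (dd_smooth hΨ _) (dd_smooth hΨ _)]
    ring
  change Hs I (fun y => dd (ex k) I.Ψ y / I.δ) y = 0
  rw [mulh_Hs_div I (dd_smooth hΨ _), mulh_Hs_dd I hΨ, e,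
    mulh_dd_tmul mulh_c_smooth (s3.div_const _), dd_div_const s3, dd_sum _ fun l _ => s1 l]
  simp only [e1, ← Finset.mul_sum]
  ring

/-- Commutator: `H̃ ∂_k φ = ∂_k H̃ φ + 2aθ⁻¹ δ ∑_l Â_{kl} ∂_l φ`. -/
theorem Hs_dd (I : Inst) {φ : I.X → ℝ} (hφ : ContDiff ℝ ∞ φ) (k : Fin I.d) (y : I.X) :
    Hs I (dd (ex k) φ) y = dd (ex k) (Hs I φ) y +
      I.δ * (2 * (aa y.1 / th y.1)) * ∑ l, Ah I k l y * dd (ex l) φ y := by
  rw [mulh_Hs_dd I hφ]
  have hδ := I.δ0.ne'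
  simp only [Ah, div_mul_eq_mul_div, ← Finset.sum_div]
  field_simp

theorem Hs_mul (I : Inst) {φ ψ : I.X → ℝ} (hφ : ContDiff ℝ ∞ φ) (hψ : ContDiff ℝ ∞ ψ) (y : I.X) :
    Hs I (fun y => φ y * ψ y) y = Hs I φ y * ψ y + φ y * Hs I ψ y +
      2 * (aa y.1 / th y.1) * ∑ k, dd (ex k) φ y * dd (ex k) ψ y := by
  have e : ∀ k : Fin I.d, dd (ex k) (dd (ex k) fun y => φ y * ψ y) y =
      dd (ex k) (dd (ex k) φ) y * ψ y + 2 * (dd (ex k) φ y * dd (ex k) ψ y) +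
        φ y * dd (ex k) (dd (ex k) ψ) y := fun k => by
    rw [dd_mul hφ hψ, dd_add ((dd_smooth hφ _).mul hψ) (hφ.mul (dd_smooth hψ _)),
      dd_mul (dd_smooth hφ _) hψ, dd_mul hφ (dd_smooth hψ _)]
    ring
  have e2 : ∀ k : Fin I.d, dd (ex k) I.Ψ y * dd (ex k) (fun y => φ y * ψ y) y =
      dd (ex k) I.Ψ y * dd (ex k) φ y * ψ y + φ y * (dd (ex k) I.Ψ y * dd (ex k) ψ y) :=
    fun k => by
      rw [dd_mul hφ hψ]
      ring
  simp only [Hs, e, e2, Finset.sum_add_distrib, ← Finset.mul_sum, ← Finset.sum_mul]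
  rw [dd_mul hφ hψ]
  ring

theorem mulh_δ (I : Inst) : |I.δ| ≤ 1 := by
  rw [abs_of_pos I.δ0]
  exact I.δ1

theorem mulh_dOut {M : MF O J} (h : Mul O J M) (h' : Mul O J (fun I o j => Hs I (M I o j))) :
    Mul (O.prod Fam.leg) J (fun I o j => Hs I (dOut M I o j)) := by
  refine (h'.dOut.add (((mul_Ah.idL O).comp h.dOut).smul (fun I => I.δ) mulh_δ _
    mulh_c_smooth)).congr fun I o j y => ?_
  simp only [dOut]
  rw [Hs_dd I (h.smooth I _ _), Fintype.sum_prod_type]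
  simp

theorem mulh_dIn {M : MF O J} (h : Mul O J M) (h' : Mul O J (fun I o j => Hs I (M I o j))) :
    Mul O (J.prod Fam.leg) (fun I o j => Hs I (dIn M I o j)) := by
  refine (h'.dIn.add ((h.dIn.comp (mul_Ah.idL J)).smul (fun I => I.δ) mulh_δ _
    mulh_c_smooth)).congr fun I o j y => ?_
  simp only [dIn]
  rw [Hs_dd I (h.smooth I _ _), Fintype.sum_prod_type, Finset.sum_comm]
  congr 2
  refine Finset.sum_congr rfl fun l _ => ?_
  rw [Ah_symm I j.2 l, mul_comm]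
  simp

theorem mulh_Ah : Mul Fam.leg Fam.leg (fun I k l => Hs I (Ah I k l)) := by
  refine ((mul_Ah.comp mul_Ah).smul (fun I => I.δ) mulh_δ _ mulh_c_smooth).congr
    fun I k l y => ?_
  have e : Hs I (Fh I k) = fun _ => 0 := funext (Hs_Fh I k)
  rw [← dd_Fh, Hs_dd I (Fh_smooth I k), e, dd_const, zero_add]
  congr 1
  refine Finset.sum_congr rfl fun m _ => ?_
  rw [dd_Fh, Ah_symm I l m, mul_comm]

theorem mulh_base (p q : ℕ) : Mul (Fam.idx (q + 1)) (Fam.idx (p + 1))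
    (fun I j i => Hs I fun y => pd ex (ms (q + 1) j + ms (p + 1) i) I.Ψ y / I.δ) := by
  induction p with
  | zero =>
    induction q with
    | zero =>
      refine (mulh_Ah.reidx (O' := Fam.idx 1) (J' := Fam.idx 1)
        (fun d => Equiv.uniqueProd (Fin d) Unit) (fun d => Equiv.uniqueProd (Fin d) Unit)).congr
        fun I j i y => ?_
      congr 1
      funext y
      change pd ex ((j.2 ::ₘ 0) + (i.2 ::ₘ 0)) I.Ψ y / I.δ = Ah I j.2 i.2 y
      rw [Multiset.cons_add, zero_add, pd_cons _ _ _ I.Ψ_smooth, pd_cons _ _ _ I.Ψ_smooth, pd_zero]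
      rfl
    | succ q ih =>
      refine (mulh_dOut (Mul.base 0 q) ih).congr fun I j i y => ?_
      congr 1
      change (fun y => pd ex ((j.2 ::ₘ ms (q + 1) j.1) + ms (0 + 1) i) I.Ψ y / I.δ) = _
      rw [Multiset.cons_add, pd_cons _ _ _ I.Ψ_smooth,
        ← dd_div_const (pd_smooth _ _ I.Ψ_smooth)]
      rfl
  | succ p ih =>
    refine (mulh_dIn (Mul.base p q) ih).congr fun I j i y => ?_
    congr 1
    change (fun y => pd ex (ms (q + 1) j + (i.2 ::ₘ ms (p + 1) i.1)) I.Ψ y / I.δ) = _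
    rw [Multiset.add_cons, pd_cons _ _ _ I.Ψ_smooth, ← dd_div_const (pd_smooth _ _ I.Ψ_smooth)]
    rfl

/-- Induction on the derivation.  Auxiliary: if `Mul M` and `Mul (H̃ M)` then the same for `dOut M`
and `dIn M` (`Hs_dd`: the extra term is `δ 2aθ⁻¹ (id ⊗ Â)(dOut M)` resp. `(dIn M)(id ⊗ Â)`);
`base 0 0` is `Â = ∂F` up to reindexing with `H̃ Â = 2aθ⁻¹δ Â²` (`Hs_dd`, `Hs_Fh`), and
`base p (q+1) = dOut (base p q)`, `base (p+1) q = dIn (base p q)`.  For `comp` use `Hs_mul`: the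
extra term is `2aθ⁻¹ (dIn M₂)(dOut M₁)`.  For `smul`: `H̃(g M) = g' M + g H̃ M`. -/
theorem Mul.Hs {M : MF O J} (h : Mul O J M) : Mul O J (fun I o j => Hs I (M I o j)) := by
  induction h with
  | base p q => exact mulh_base p q
  | const c _ => exact (mul_zero' _ _).congr fun I o j y => mulh_Hs_const I _ y
  | comp h₂ h₁ ih₂ ih₁ =>
    refine (((ih₂.comp h₁).add (h₂.comp ih₁)).add
      ((h₂.dIn.comp h₁.dOut).tmul mulh_c_smooth)).congr fun I o j y => ?_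
    rw [mulh_Hs_sum I _ fun k => (h₂.smooth I o k).mul (h₁.smooth I k j), Fintype.sum_prod_type,
      Finset.mul_sum, ← Finset.sum_add_distrib, ← Finset.sum_add_distrib]
    refine Finset.sum_congr rfl fun k _ => ?_
    rw [Hs_mul I (h₂.smooth I o k) (h₁.smooth I k j)]
    rfl
  | add h h' ih ih' =>
    exact (ih.add ih').congr fun I o j y => mulh_Hs_add I (h.smooth I o j) (h'.smooth I o j) y
  | idL T h ih =>
    refine (ih.idL T).congr fun I o j y => ?_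
    by_cases hoj : o.1 = j.1
    · simp only [hoj, if_true]
    · simp only [hoj, if_false]
      exact mulh_Hs_const I 0 y
  | smul c hc g hg h ih =>
    refine ((h.smul c hc (deriv g) (contDiff_infty_iff_deriv.1 hg).2).add
      (ih.smul c hc g hg)).congr fun I o j y => ?_
    have hg' : ContDiff ℝ ∞ fun s => c I * g s := contDiff_const.mul hg
    rw [Hs_mul I (φ := fun y => c I * g y.1) (hg'.comp contDiff_fst) (h.smooth I o j),
      mulh_Hs_fst I hg', deriv_const_mul _ (hg.differentiable (by simp) _)]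
    simp [mulh_dd_ex hg']
  | reidx eO eJ _ ih => exact ih.reidx eO eJ

end

end Crest.Agent.R285
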