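import Crest.Agent.R285.Tame
import Crest.Agent.R285.MulH

/-!
# R285/DZero: pointwise commutation identities for `D0 = θ∂_s - ∇Ψ·∇_u` and `DD`
-/

set_option autoImplicit false

namespace Crest.Agent.R285

open MeasureTheory ProbabilityTheory Crest.OracleSampling Set
open scoped RealInnerProductSpace ContDiff

noncomputable section

/-- The part of `DD` without rotation. -/
def D0 (I : Inst) (φ : I.Y → ℝ) (y : I.Y) : ℝ :=
  th y.1 * dd eT φ y - ∑ k, dd (ex k) I.Ψ (I.pt y) * dd (ey false k) φ y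

variable (I : Inst)

theorem dzero_P_smooth (k : Fin I.d) : ContDiff ℝ ∞ (fun y : I.Y => dd (ex k) I.Ψ (I.pt y)) :=
  I.comp_pt_smooth (dd_smooth I.Ψ_smooth _)

theorem dzero_Ah_smooth (k l : Fin I.d) : ContDiff ℝ ∞ (Ah I k l) := mul_Ah.smooth I k l

theorem dzero_A_smooth (k l : Fin I.d) : ContDiff ℝ ∞ (fun y : I.Y => Ah I k l (I.pt y)) :=
  I.comp_pt_smooth (dzero_Ah_smooth I k l)

theorem dzero_th_smooth : ContDiff ℝ ∞ (fun y : I.Y => th y.1) := time_smooth th_smooth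

theorem dzero_aa_smooth : ContDiff ℝ ∞ (fun y : I.Y => aa y.1) := time_smooth aa_smooth

theorem dzero_hess (k l : Fin I.d) (y : I.X) :
    dd (ex k) (dd (ex l) I.Ψ) y = I.δ * Ah I k l y := by
  have := I.δ0.ne'
  unfold Ah
  field_simp

theorem dzero_dP_u (k l : Fin I.d) (y : I.Y) :
    dd (ey false k) (fun y : I.Y => dd (ex l) I.Ψ (I.pt y)) y =
      aa y.1 * (I.δ * Ah I k l (I.pt y)) := by
  rw [dd_pt_u I (dd_smooth I.Ψ_smooth _), ← dzero_hess]

theorem dzero_dP_x (k l : Fin I.d) (y : I.Y) :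
    dd (ey true k) (fun y : I.Y => dd (ex l) I.Ψ (I.pt y)) y = 0 := by
  rw [dd_pt_x I (dd_smooth I.Ψ_smooth _)]

theorem dzero_AX_smooth (k : Fin I.d) : ContDiff ℝ ∞ (AX I k) :=
  ContDiff.sum fun l _ => (dzero_A_smooth I k l).mul (coordX_smooth l)

theorem dzero_delA_smooth (k : Fin I.d) : ContDiff ℝ ∞ (delA I k) :=
  ContDiff.sum fun l _ => ((I.gW_smooth false l).mul (dzero_A_smooth I k l)).sub
    (dd_smooth (dzero_A_smooth I k l) _)

theorem dzero_DD (φ : I.Y → ℝ) (y : I.Y) :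
    DD I φ y = D0 I φ y + I.β * (∑ k, delA I k y * dd (ey true k) φ y -
      ∑ k, AX I k y * dd (ey false k) φ y) := by
  simp only [DD, D0, bU, bX, sub_mul, neg_mul, Finset.sum_sub_distrib, Finset.sum_neg_distrib,
    mul_assoc, ← Finset.mul_sum]
  ring

theorem dzero_dd_D0 {φ : I.Y → ℝ} (hφ : ContDiff ℝ ∞ φ) (b : Bool) (k : Fin I.d) (y : I.Y) :
    dd (ey b k) (D0 I φ) y = D0 I (dd (ey b k) φ) y -
      ∑ l, dd (ey b k) (fun y : I.Y => dd (ex l) I.Ψ (I.pt y)) y * dd (ey false l) φ y := by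
  have h1 : ContDiff ℝ ∞ fun y : I.Y => th y.1 * dd eT φ y :=
    (dzero_th_smooth I).mul (dd_smooth hφ _)
  have h2 : ∀ l ∈ (Finset.univ : Finset (Fin I.d)),
      ContDiff ℝ ∞ fun y : I.Y => dd (ex l) I.Ψ (I.pt y) * dd (ey false l) φ y :=
    fun l _ => (dzero_P_smooth I l).mul (dd_smooth hφ _)
  have e : D0 I φ = fun y => th y.1 * dd eT φ y -
      ∑ k, dd (ex k) I.Ψ (I.pt y) * dd (ey false k) φ y := rfl
  rw [e, dd_sub h1 (ContDiff.sum h2), dd_sum _ h2, dd_mul (dzero_th_smooth I) (dd_smooth hφ _),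
    dd_ey_time th_smooth]
  simp only [fun l => dd_mul (dzero_P_smooth I l) (dd_smooth hφ (ey false l)) (ey b k)]
  simp only [D0, dd_comm hφ (ey b k), Finset.sum_add_distrib]
  ring

theorem D0_smooth {φ : I.Y → ℝ} (hφ : ContDiff ℝ ∞ φ) : ContDiff ℝ ∞ (D0 I φ) := by
  exact ((dzero_th_smooth I).mul (dd_smooth hφ _)).sub
    (ContDiff.sum fun l _ => (dzero_P_smooth I l).mul (dd_smooth hφ _))

theorem DD_smooth {φ : I.Y → ℝ} (hφ : ContDiff ℝ ∞ φ) : ContDiff ℝ ∞ (DD I φ) := by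
  have e : DD I φ = fun y => D0 I φ y + I.β * (∑ k, delA I k y * dd (ey true k) φ y -
      ∑ k, AX I k y * dd (ey false k) φ y) := funext (dzero_DD I φ)
  rw [e]
  exact (D0_smooth I hφ).add (contDiff_const.mul
    ((ContDiff.sum fun k _ => (dzero_delA_smooth I k).mul (dd_smooth hφ _)).sub
      (ContDiff.sum fun k _ => (dzero_AX_smooth I k).mul (dd_smooth hφ _))))

theorem D0_const (c : ℝ) (y : I.Y) : D0 I (fun _ => c) y = 0 := by
  simp [D0, dd_const]

theorem D0_add {φ ψ : I.Y → ℝ} (hφ : ContDiff ℝ ∞ φ) (hψ : ContDiff ℝ ∞ ψ) (y : I.Y) :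
    D0 I (fun y => φ y + ψ y) y = D0 I φ y + D0 I ψ y := by
  simp only [D0, dd_add hφ hψ, mul_add, Finset.sum_add_distrib]
  ring

theorem D0_sub {φ ψ : I.Y → ℝ} (hφ : ContDiff ℝ ∞ φ) (hψ : ContDiff ℝ ∞ ψ) (y : I.Y) :
    D0 I (fun y => φ y - ψ y) y = D0 I φ y - D0 I ψ y := by
  simp only [D0, dd_sub hφ hψ, mul_sub, Finset.sum_sub_distrib]
  ring

theorem D0_mul {φ ψ : I.Y → ℝ} (hφ : ContDiff ℝ ∞ φ) (hψ : ContDiff ℝ ∞ ψ) (y : I.Y) :
    D0 I (fun y => φ y * ψ y) y = D0 I φ y * ψ y + φ y * D0 I ψ y := by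
  simp only [D0, dd_mul hφ hψ, mul_add, Finset.sum_add_distrib, sub_mul, mul_sub, Finset.sum_mul,
    Finset.mul_sum]
  have e1 : ∑ k, dd (ex k) I.Ψ (I.pt y) * (dd (ey false k) φ y * ψ y) =
      ∑ k, dd (ex k) I.Ψ (I.pt y) * dd (ey false k) φ y * ψ y :=
    Finset.sum_congr rfl fun k _ => by ring
  have e2 : ∑ k, dd (ex k) I.Ψ (I.pt y) * (φ y * dd (ey false k) ψ y) =
      ∑ k, φ y * (dd (ex k) I.Ψ (I.pt y) * dd (ey false k) ψ y) :=
    Finset.sum_congr rfl fun k _ => by ring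
  rw [e1, e2]
  ring

theorem D0_sum {ι : Type} (s : Finset ι) {φ : ι → I.Y → ℝ} (hφ : ∀ i ∈ s, ContDiff ℝ ∞ (φ i))
    (y : I.Y) : D0 I (fun y => ∑ i ∈ s, φ i y) y = ∑ i ∈ s, D0 I (φ i) y := by
  simp only [D0, dd_sum s hφ, Finset.mul_sum, Finset.sum_sub_distrib]
  rw [Finset.sum_comm]

/-- `D0 (M∘pt) = δ_u(∇M∘pt) + θ H̃M`: both sides equal `θ∂_sM + (u - a∇Ψ)·∇M`. -/
theorem D0_pt {M : I.X → ℝ} (hM : ContDiff ℝ ∞ M) (y : I.Y) :
    D0 I (fun y => M (I.pt y)) y =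
      ∑ k, (I.gW false k y * dd (ex k) M (I.pt y) -
        dd (ey false k) (fun y => dd (ex k) M (I.pt y)) y) + th y.1 * Hs I M (I.pt y) := by
  have hθ := (th_pos y.1).ne'
  simp only [D0, dd_pt_t I hM, dd_pt_u I hM, fun k => dd_pt_u I (dd_smooth hM (ex k)) k, Hs,
    Inst.gW, add_mul, Finset.sum_sub_distrib, Finset.sum_add_distrib]
  have e0 : (I.pt y).1 = y.1 := rfl
  have e1 : ∑ k, dd (ex k) I.Ψ (I.pt y) * (aa y.1 * dd (ex k) M (I.pt y)) =
      aa y.1 * ∑ k, dd (ex k) I.Ψ (I.pt y) * dd (ex k) M (I.pt y) := by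
    rw [Finset.mul_sum]
    exact Finset.sum_congr rfl fun k _ => by ring
  have e2 : ∑ k, aa y.1 * dd (ex k) I.Ψ (I.pt y) * dd (ex k) M (I.pt y) =
      aa y.1 * ∑ k, dd (ex k) I.Ψ (I.pt y) * dd (ex k) M (I.pt y) := by
    rw [Finset.mul_sum]
    exact Finset.sum_congr rfl fun k _ => by ring
  rw [e0, e1, e2, ← Finset.mul_sum]
  field_simp
  ring

theorem D0_FY (k : Fin I.d) (y : I.Y) : D0 I (FY I k) y = delA I k y := by
  have h := D0_pt I (Fh_smooth I k) y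
  rw [Hs_Fh, mul_zero, add_zero] at h
  simp only [dd_Fh] at h
  exact h

theorem D0_dd_u {φ : I.Y → ℝ} (hφ : ContDiff ℝ ∞ φ) (k : Fin I.d) (y : I.Y) :
    D0 I (dd (ey false k) φ) y = dd (ey false k) (D0 I φ) y +
      I.δ * aa y.1 * ∑ l, Ah I k l (I.pt y) * dd (ey false l) φ y := by
  rw [dzero_dd_D0 I hφ, Finset.mul_sum]
  simp only [dzero_dP_u]
  rw [sub_add, ← Finset.sum_sub_distrib, Finset.sum_eq_zero fun l _ => by ring, sub_zero]

theorem D0_dd_x {φ : I.Y → ℝ} (hφ : ContDiff ℝ ∞ φ) (k : Fin I.d) (y : I.Y) :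
    D0 I (dd (ey true k) φ) y = dd (ey true k) (D0 I φ) y := by
  rw [dzero_dd_D0 I hφ]
  simp only [dzero_dP_x, zero_mul, Finset.sum_const_zero, sub_zero]

/-- `D0 (u_k + a ∂_kΨ∘pt) = -∂_kΨ + θ a' ∂_kΨ + a δ D0 F_k`, `θ a' = 1`. -/
theorem D0_gW_u (k : Fin I.d) (y : I.Y) : D0 I (I.gW false k) y = I.δ * aa y.1 * delA I k y := by
  have hθ := (th_pos y.1).ne'
  have hδ := I.δ0.ne'
  have hF : ContDiff ℝ ∞ (FY I k) := I.comp_pt_smooth (Fh_smooth I k)
  have e : I.gW false k = fun y => y.2.1 k + aa y.1 * (I.δ * FY I k y) := by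
    funext y
    simp only [Inst.gW, FY, Fh]
    field_simp
  have e1 : D0 I (fun y => y.2.1 k) y = -dd (ex k) I.Ψ (I.pt y) := by
    simp [D0, dd_eT_coordU, dd_ey_coordU]
  have e2 : D0 I (fun y => aa y.1) y = 1 := by
    simp only [D0, dd_eT_time aa_smooth, dd_ey_time aa_smooth, (hasDerivAt_aa _).deriv, mul_zero,
      Finset.sum_const_zero, sub_zero]
    exact mul_inv_cancel₀ hθ
  have e3 : I.δ * FY I k y = dd (ex k) I.Ψ (I.pt y) := by
    simp only [FY, Fh]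
    field_simp
  rw [e, D0_add I (coordU_smooth k) ((dzero_aa_smooth I).mul (contDiff_const.mul hF)),
    D0_mul I (dzero_aa_smooth I) (contDiff_const.mul hF), D0_mul I contDiff_const hF, D0_const,
    D0_FY, e1, e2, e3]
  ring

theorem D0_gW_x (k : Fin I.d) (y : I.Y) : D0 I (I.gW true k) y = 0 := by
  have e : I.gW true k = fun y => y.2.2 k := rfl
  rw [e]
  simp [D0, dd_eT_coordX, dd_ey_coordX]

/-- `D0 δ_u φ = δ_u D0 φ + aδ · δ_u(Â φ)`. -/
theorem D0_div_u {φ : Fin I.d → I.Y → ℝ} (hφ : ∀ k, ContDiff ℝ ∞ (φ k)) (y : I.Y) :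
    D0 I (fun y => ∑ k, (I.gW false k y * φ k y - dd (ey false k) (φ k) y)) y =
      ∑ k, (I.gW false k y * D0 I (φ k) y - dd (ey false k) (D0 I (φ k)) y) +
      ∑ l, (I.gW false l y * (I.δ * aa y.1 * ∑ k, Ah I l k (I.pt y) * φ k y) -
        dd (ey false l) (fun y => I.δ * aa y.1 * ∑ k, Ah I l k (I.pt y) * φ k y) y) := by
  have hc : ContDiff ℝ ∞ fun y : I.Y => I.δ * aa y.1 := contDiff_const.mul (dzero_aa_smooth I)
  have hc0 : ∀ l, dd (ey false l) (fun y : I.Y => I.δ * aa y.1) = fun _ => 0 := fun l =>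
    dd_ey_time (g := fun s => I.δ * aa s) (contDiff_const.mul aa_smooth) false l
  have h1 : ∀ l, dd (ey false l) (fun y => I.δ * aa y.1 * ∑ k, Ah I l k (I.pt y) * φ k y) y =
      I.δ * aa y.1 * ∑ k, (dd (ey false l) (fun y => Ah I k l (I.pt y)) y * φ k y +
        Ah I k l (I.pt y) * dd (ey false l) (φ k) y) := by
    intro l
    rw [dd_mul hc (ContDiff.sum fun k _ => (dzero_A_smooth I l k).mul (hφ k)), hc0,
      dd_sum _ fun k _ => (dzero_A_smooth I l k).mul (hφ k)]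
    simp only [fun k => dd_mul (dzero_A_smooth I l k) (hφ k) (ey false l), zero_mul, zero_add]
    simp only [Ah_symm I l]
  rw [D0_sum I _ fun k _ => ((I.gW_smooth false k).mul (hφ k)).sub (dd_smooth (hφ k) _)]
  simp only [fun k => D0_sub I ((I.gW_smooth false k).mul (hφ k)) (dd_smooth (hφ k) (ey false k)) y,
    fun k => D0_mul I (I.gW_smooth false k) (hφ k) y, fun k => D0_dd_u I (hφ k) k y, D0_gW_u, h1]
  have e : ∑ l, (I.gW false l y * (I.δ * aa y.1 * ∑ k, Ah I l k (I.pt y) * φ k y) -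
      I.δ * aa y.1 * ∑ k, (dd (ey false l) (fun y => Ah I k l (I.pt y)) y * φ k y +
        Ah I k l (I.pt y) * dd (ey false l) (φ k) y)) =
      ∑ k, (I.δ * aa y.1 * delA I k y * φ k y -
        I.δ * aa y.1 * ∑ l, Ah I k l (I.pt y) * dd (ey false l) (φ k) y) := by
    simp only [delA, Finset.mul_sum, Finset.sum_mul, ← Finset.sum_sub_distrib]
    rw [Finset.sum_comm]
    refine Finset.sum_congr rfl fun k _ => Finset.sum_congr rfl fun l _ => ?_
    rw [Ah_symm I l k]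
    ring
  rw [e, ← Finset.sum_add_distrib]
  exact Finset.sum_congr rfl fun k _ => by ring

theorem D0_div_x {φ : Fin I.d → I.Y → ℝ} (hφ : ∀ k, ContDiff ℝ ∞ (φ k)) (y : I.Y) :
    D0 I (fun y => ∑ k, (I.gW true k y * φ k y - dd (ey true k) (φ k) y)) y =
      ∑ k, (I.gW true k y * D0 I (φ k) y - dd (ey true k) (D0 I (φ k)) y) := by
  rw [D0_sum I _ fun k _ => ((I.gW_smooth true k).mul (hφ k)).sub (dd_smooth (hφ k) _)]
  simp only [fun k => D0_sub I ((I.gW_smooth true k).mul (hφ k)) (dd_smooth (hφ k) (ey true k)) y,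
    fun k => D0_mul I (I.gW_smooth true k) (hφ k) y, fun k => D0_dd_x I (hφ k) k y, D0_gW_x,
    zero_mul, zero_add]

/-- `DD = D0 + β 𝒱`, `𝒱 φ = δ_u(Â ∇_ξ φ) - δ_ξ(Â ∇_u φ)` (symmetry of `Â`, `dd_comm`). -/
theorem DD_eq_D0 {φ : I.Y → ℝ} (hφ : ContDiff ℝ ∞ φ) (y : I.Y) :
    DD I φ y = D0 I φ y + I.β *
      (∑ k, (I.gW false k y * (∑ l, Ah I k l (I.pt y) * dd (ey true l) φ y) -
          dd (ey false k) (fun y => ∑ l, Ah I k l (I.pt y) * dd (ey true l) φ y) y) -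
       ∑ k, (I.gW true k y * (∑ l, Ah I k l (I.pt y) * dd (ey false l) φ y) -
          dd (ey true k) (fun y => ∑ l, Ah I k l (I.pt y) * dd (ey false l) φ y) y)) := by
  have h1 : ∀ k, dd (ey false k) (fun y => ∑ l, Ah I k l (I.pt y) * dd (ey true l) φ y) y =
      ∑ l, (dd (ey false k) (fun y => Ah I l k (I.pt y)) y * dd (ey true l) φ y +
        Ah I l k (I.pt y) * dd (ey true l) (dd (ey false k) φ) y) := by
    intro k
    rw [dd_sum _ fun l _ => (dzero_A_smooth I k l).mul (dd_smooth hφ _)]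
    simp only [fun l => dd_mul (dzero_A_smooth I k l) (dd_smooth hφ (ey true l)) (ey false k),
      dd_comm hφ (ey false k)]
    simp only [Ah_symm I k]
  have h2 : ∀ k, dd (ey true k) (fun y => ∑ l, Ah I k l (I.pt y) * dd (ey false l) φ y) y =
      ∑ l, Ah I k l (I.pt y) * dd (ey true k) (dd (ey false l) φ) y := by
    intro k
    rw [dd_sum _ fun l _ => (dzero_A_smooth I k l).mul (dd_smooth hφ _)]
    simp only [fun l => dd_mul (dzero_A_smooth I k l) (dd_smooth hφ (ey false l)) (ey true k),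
      fun l => dd_pt_x I (dzero_Ah_smooth I k l) k, zero_mul, zero_add]
  rw [dzero_DD]
  simp only [h1, h2]
  congr 2
  have e1 : ∑ k, (I.gW false k y * (∑ l, Ah I k l (I.pt y) * dd (ey true l) φ y) -
      ∑ l, (dd (ey false k) (fun y => Ah I l k (I.pt y)) y * dd (ey true l) φ y +
        Ah I l k (I.pt y) * dd (ey true l) (dd (ey false k) φ) y)) =
      ∑ k, delA I k y * dd (ey true k) φ y -
        ∑ k, ∑ l, Ah I k l (I.pt y) * dd (ey true k) (dd (ey false l) φ) y := by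
    simp only [delA, Finset.mul_sum, Finset.sum_mul, ← Finset.sum_sub_distrib]
    rw [Finset.sum_comm]
    refine Finset.sum_congr rfl fun k _ => Finset.sum_congr rfl fun l _ => ?_
    rw [Ah_symm I l k]
    ring
  have e2 : ∑ k, I.gW true k y * (∑ l, Ah I k l (I.pt y) * dd (ey false l) φ y) =
      ∑ k, AX I k y * dd (ey false k) φ y := by
    simp only [AX, Inst.gW, Finset.mul_sum, Finset.sum_mul]
    rw [Finset.sum_comm]
    refine Finset.sum_congr rfl fun k _ => Finset.sum_congr rfl fun l _ => ?_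
    rw [Ah_symm I l k]
    ring
  rw [e1, Finset.sum_sub_distrib, e2]
  ring

/-- `DD F = δ_u(Â) - β a Â² ξ`. -/
theorem DD_FY (k : Fin I.d) (y : I.Y) : DD I (FY I k) y = delA I k y - I.β * SX I k y := by
  have e : FY I k = fun y => Fh I k (I.pt y) := rfl
  rw [dzero_DD, D0_FY, e]
  simp only [dd_pt_x I (Fh_smooth I k), dd_pt_u I (Fh_smooth I k), dd_Fh, mul_zero,
    Finset.sum_const_zero, SX, Finset.mul_sum]
  rw [zero_sub, mul_neg, Finset.mul_sum, ← sub_eq_add_neg]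
  congr 1
  exact Finset.sum_congr rfl fun l _ => by ring

end

end Crest.Agent.R285
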