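import Crest.Prelude.Def_OracleSampling

/-!
# R285 (S0430): basic definitions (potentials, Gibbs measures, directional derivatives)

Overall notation.  `V = |x|²/2 + U`.  For a potential `W` (e.g. `U`), `t > 0` and a centre `c`,
`mu W t c` is the probability measure with density proportional to `exp(-t|z-c|²/2 - W z)`,
`GG W t c = E_{mu W t c} ∇W` and `AA W t c` is the derivative of `GG W t` at `c`.
-/

set_option autoImplicit false

namespace Crest.Agent.R285

open MeasureTheory ProbabilityTheory Crest.OracleSampling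
open scoped RealInnerProductSpace ContDiff

noncomputable section

/-- The standard Gaussian measure on `E d`. -/
abbrev gam (d : ℕ) : Measure (E d) := stdGaussian (E d)

/-- The standard Gaussian density. -/
def gdens {d : ℕ} (z : E d) : ℝ := (√(2 * Real.pi))⁻¹ ^ d * Real.exp (-‖z‖ ^ 2 / 2)

/-- `k`-th standard basis vector. -/
def ee {d : ℕ} (k : Fin d) : E d := EuclideanSpace.single k 1

/-- `C²` potentials with `W 0 = 0`, `∇W 0 = 0`, `0 ≤ ∇²W ≤ δ`. -/
structure Pot (d : ℕ) (δ : ℝ) (W : E d → ℝ) : Prop where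
  smooth : ContDiff ℝ 2 W
  zero : W 0 = 0
  grad0 : gradient W 0 = 0
  lo : ∀ x v, 0 ≤ ⟪fderiv ℝ (gradient W) x v, v⟫
  hi : ∀ x v, ⟪fderiv ℝ (gradient W) x v, v⟫ ≤ δ * ‖v‖ ^ 2

variable {d : ℕ}

/-- The non-Gaussian part `U = V - |x|²/2` of a potential. -/
def Uof (V : E d → ℝ) : E d → ℝ := fun x => V x - ‖x‖ ^ 2 / 2

/-- Rescaled potential `z ↦ W (z/√t)`. -/
def resc (W : E d → ℝ) (t : ℝ) : E d → ℝ := fun z => W ((√t)⁻¹ • z)

/-- Unnormalised density. -/
def dens (W : E d → ℝ) (t : ℝ) (c z : E d) : ℝ := Real.exp (-(t * ‖z - c‖ ^ 2 / 2) - W z)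

/-- Partition function. -/
def Zc (W : E d → ℝ) (t : ℝ) (c : E d) : ℝ := ∫ z, dens W t c z

/-- Gibbs measure. -/
def mu (W : E d → ℝ) (t : ℝ) (c : E d) : Measure (E d) :=
  volume.withDensity fun z => ENNReal.ofReal (dens W t c z / Zc W t c)

/-- Mean of the gradient. -/
def GG (W : E d → ℝ) (t : ℝ) (c : E d) : E d := ∫ z, gradient W z ∂(mu W t c)

/-- Derivative of `GG W t` in the centre. -/
def AA (W : E d → ℝ) (t : ℝ) (c : E d) : E d →L[ℝ] E d := fderiv ℝ (GG W t) c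

/-- Law of the localised centre `p = c + a²(X-c) + a√(1-a²)/√t · Z`, `X ~ mu W t c`, `Z ~ gam`. -/
def qq (W : E d → ℝ) (t : ℝ) (c : E d) (a : ℝ) : Measure (E d) :=
  ((mu W t c).prod (gam d)).map
    fun w => c + a ^ 2 • (w.1 - c) + (a * √(1 - a ^ 2) / √t) • w.2

/-- Density (for `t = 1`) of `u = (p - x)/a`, `p ~ qq W 1 x a`. -/
def rhoU (W : E d → ℝ) (x : E d) (a : ℝ) (u : E d) : ℝ :=
  gdens u * (Zc W (1 / (1 - a ^ 2)) (x + a • u) / (Zc W 1 x * √(1 - a ^ 2) ^ d))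

/-- Measurable functions of polynomial growth. -/
def PG (h : E d → ℝ) : Prop := Measurable h ∧ ∃ (C : ℝ) (k : ℕ), ∀ z, |h z| ≤ C * (1 + ‖z‖) ^ k

/-- Laplace-type integral `∫ h z · exp(θ⟨z,y⟩ - θ|z|²/2 - W z) dz`. -/
def KK (W : E d → ℝ) (θ : ℝ) (h : E d → ℝ) (y : E d) : ℝ :=
  ∫ z, h z * Real.exp (θ * ⟪z, y⟫ - θ * ‖z‖ ^ 2 / 2 - W z)

/-- `II = KK` with `h = 1`; `Zc W θ y = exp(-θ|y|²/2) · II W θ y`. -/
def II (W : E d → ℝ) (θ : ℝ) (y : E d) : ℝ := KK W θ (fun _ => 1) y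

/-- Bounded 1-Lipschitz test functions. -/
def Test {X : Type} [PseudoMetricSpace X] (f : X → ℝ) : Prop :=
  LipschitzWith 1 f ∧ ∃ M : ℝ, ∀ x, |f x| ≤ M

/-- `Dom μ f B`: `f` is dominated by an integrable function of integral at most `B`
(no measurability of `f` needed). -/
def Dom {α : Type} [MeasurableSpace α] (μ : Measure α) (f : α → ℝ) (B : ℝ) : Prop :=
  ∃ g : α → ℝ, Integrable g μ ∧ (∀ z, f z ≤ g z) ∧ ∫ z, g z ∂μ ≤ B

section deriv

variable {X : Type} [NormedAddCommGroup X] [NormedSpace ℝ X] {ι : Type}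

/-- Directional derivative. -/
def dd (v : X) (φ : X → ℝ) : X → ℝ := fun y => fderiv ℝ φ y v

/-- Iterated directional derivative along a list of directions (head = outermost). -/
def pdl (e : ι → X) : List ι → (X → ℝ) → X → ℝ
  | [], φ => φ
  | k :: l, φ => dd (e k) (pdl e l φ)

/-- Iterated directional derivative along a multiset of directions. -/
def pd (e : ι → X) (s : Multiset ι) (φ : X → ℝ) : X → ℝ := pdl e s.toList φ

end deriv

/-- The multiset of values of an index tuple. -/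
def msf {ι α : Type} [Fintype ι] (i : ι → α) : Multiset α := (Finset.univ : Finset ι).val.map i

/-- Operator-norm bound (`ℓ² → ℓ²`) for a real matrix `M : O → J → ℝ`. -/
def OpBd {O J : Type} [Fintype O] [Fintype J] (M : O → J → ℝ) (C : ℝ) : Prop :=
  ∀ (A : J → ℝ) (B : O → ℝ),
    |∑ o, ∑ j, B o * M o j * A j| ≤ C * √(∑ j, A j ^ 2) * √(∑ o, B o ^ 2)

/-- `a = tanh s`. -/
def aa (s : ℝ) : ℝ := Real.tanh s
/-- `θ = cosh² s = 1/(1-a²)`. -/
def th (s : ℝ) : ℝ := Real.cosh s ^ 2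

/-- `Ψ(s,x) = -log E exp(-W(x + Z/cosh s))` up to an additive constant. -/
def Psi (W : E d → ℝ) (y : ℝ × E d) : ℝ :=
  -Real.log (Zc W (th y.1) y.2) - d * Real.log (Real.cosh y.1)

/-- Space directions in `ℝ × E d`. -/
def ex (k : Fin d) : ℝ × E d := (0, ee k)

/-- Time direction in `ℝ × E d`. -/
def et : ℝ × E d := (1, 0)

end

end Crest.Agent.R285
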