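import Crest.Agent.R285.DefsA

/-!
# R285/DefsN: the numerical scheme (collocation nodes, Picard iteration, one step)

`U` is a potential with `Pot d 1 U`, `t ≥ 1`, `c` a centre.  The *true flow* is
`u' = -G_a/t - β Â ξ`, `η' = β² a Â² ξ`, where `G_a = GG U (t/(1-a²)) (c + a u)`,
`Â = AA U (t/(1-a²)) (c + a u)`, `ξ = η + β (G_a - G_0)`.  Started from independent
`N(0, 1/t)` vectors, `(c + a u, √t ξ)` has law `qq U t c a ⊗ gam`.  The scheme replaces `Â v` by a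
finite-difference `HVP` along the flow with `β = 0`, and `Â² v` by a finite difference `SQ` along the
rotation `y₁' = -Â y₂, y₂' = Â y₁`; all ODEs are solved by `K` Picard iterations of collocation.
-/

set_option autoImplicit false

namespace Crest.Agent.R285

open MeasureTheory ProbabilityTheory Crest.OracleSampling Set
open scoped RealInnerProductSpace ContDiff

noncomputable section

/-- Collocation nodes `(l+1)/(K+1) ∈ (0,1]`. -/
def sg (K : ℕ) (l : Fin (K + 1)) : ℝ := ((l : ℝ) + 1) / ((K : ℝ) + 1)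

/-- Quadrature weights for `∫_0^{σ_m}`. -/
def iw (K : ℕ) (m l : Fin (K + 1)) : ℝ :=
  ∫ x in (0 : ℝ)..sg K m, (Lagrange.basis Finset.univ (sg K) l).eval x

/-- Weights for the derivative at `0`. -/
def dw (K : ℕ) (l : Fin (K + 1)) : ℝ :=
  (Polynomial.derivative (Lagrange.basis Finset.univ (sg K) l)).eval 0

/-- A bound for all sums of absolute values of weights. -/
def WW (K : ℕ) : ℝ := 1 + ∑ l, |dw K l| + ∑ m, ∑ l, |iw K m l|

section gen

variable {X : Type} [NormedAddCommGroup X] [NormedSpace ℝ X]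

/-- `g (k+1)` is the derivative of `g k` on `[0,T]`. -/
def Chain (T : ℝ) (g : ℕ → ℝ → X) : Prop :=
  ∀ k, ∀ a ∈ Icc (0 : ℝ) T, HasDerivWithinAt (g k) (g (k + 1) a) (Icc 0 T) a

/-- Picard iteration of collocation for `y' = f a y`, `y 0 = y0` on `[0,h]`. -/
def picard (K : ℕ) (h : ℝ) (f : ℝ → X → X) (y0 : X) : ℕ → Fin (K + 1) → X
  | 0 => fun _ => y0
  | n + 1 => fun m => y0 + ∑ l, (h * iw K m l) • f (sg K l * h) (picard K h f y0 n l)

end gen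

variable {d : ℕ}

/-- `t/(1-a²)`. -/
def ta (t a : ℝ) : ℝ := t / (1 - a ^ 2)

def node (U : E d → ℝ) (t : ℝ) (c : E d) (a : ℝ) (u : E d) : E d := GG U (ta t a) (c + a • u)

/-- Approximation of `AA U t c v`. -/
def HVP (K : ℕ) (h : ℝ) (U : E d → ℝ) (t : ℝ) (c v : E d) : E d :=
  ∑ l, (h⁻¹ * dw K l) • node U t c (sg K l * h)
    (picard K h (fun a u => (-t⁻¹) • node U t c a u) v K l)

/-- Approximation of `AA U t c (AA U t c v)`. -/
def SQ (K : ℕ) (h lam : ℝ) (U : E d → ℝ) (t : ℝ) (c v ζ : E d) : E d :=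
  ∑ l, (lam⁻¹ * dw K l) • HVP K h U t c
    (picard K lam (fun _ (y : E d × E d) => (-HVP K h U t c y.2, HVP K h U t c y.1)) (v, ζ) K l).2

/-- `ξ = η + β (G_a - G_0)` for the state `Y = (u, η)`. -/
def xih (U : E d → ℝ) (t : ℝ) (c : E d) (β a : ℝ) (Y : E d × E d) : E d :=
  Y.2 + β • (node U t c a Y.1 - GG U t c)

/-- The computable field. -/
def fldN (K : ℕ) (h β lam : ℝ) (U : E d → ℝ) (t : ℝ) (c ζ : E d) (a : ℝ) (Y : E d × E d) :
    E d × E d :=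
  ((-t⁻¹) • node U t c a Y.1 - (β / √(1 - a ^ 2)) •
      HVP K h U (ta t a) (c + a • Y.1) (√(1 - a ^ 2) • xih U t c β a Y),
    (β ^ 2 * a / √(1 - a ^ 2)) •
      SQ K h lam U (ta t a) (c + a • Y.1) (√(1 - a ^ 2) • xih U t c β a Y) (√(1 - a ^ 2) • ζ))

/-- One step; `w = (ĉ, ξ, ζ)` with `ĉ ≈ c + (h/√t) Z`. -/
def stepY (K : ℕ) (h β lam : ℝ) (U : E d → ℝ) (t : ℝ) (c : E d) (w : E d × E d × E d) :
    E d × E d :=
  picard K h (fldN K h β lam U t c ((√t)⁻¹ • w.2.2)) (h⁻¹ • (w.1 - c), (√t)⁻¹ • w.2.1) K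
    (Fin.last K)

/-- The new centre. -/
def newC (K : ℕ) (h β lam : ℝ) (U : E d → ℝ) (t : ℝ) (c : E d) (w : E d × E d × E d) : E d :=
  c + h • (stepY K h β lam U t c w).1

/-- The correction, `≈ G(t,c) - G(t',c') + ξ'/(β√t)`. -/
def corr (K : ℕ) (h β lam : ℝ) (U : E d → ℝ) (t : ℝ) (c : E d) (w : E d × E d × E d) : E d :=
  β⁻¹ • (stepY K h β lam U t c w).2

/-- The true flow with its chains of derivatives and their `L¹` bounds. -/
structure TrueFlow (U : E d → ℝ) (t : ℝ) (c : E d) (β : ℝ) (n : ℕ) (C : ℝ) where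
  y : E d × E d → ℝ → E d × E d
  gG : E d × E d → ℕ → ℝ → E d
  gA : E d × E d → ℕ → ℝ → E d
  gS : E d × E d → ℕ → ℝ → E d
  y0 : ∀ z, y z 0 = (√t)⁻¹ • z
  dy : ∀ z, ∀ a ∈ Icc (0 : ℝ) (1 / 2), HasDerivWithinAt (y z)
    ((-t⁻¹) • gG z 0 a - β • gA z 0 a, β ^ 2 • gS z 0 a) (Icc 0 (1 / 2)) a
  cG : ∀ z, Chain (1 / 2) (gG z)
  cA : ∀ z, Chain (1 / 2) (gA z)
  cS : ∀ z, Chain (1 / 2) (gS z)
  eG : ∀ z, ∀ a ∈ Icc (0 : ℝ) (1 / 2), gG z 0 a = node U t c a (y z a).1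
  eA : ∀ z, ∀ a ∈ Icc (0 : ℝ) (1 / 2),
    gA z 0 a = AA U (ta t a) (c + a • (y z a).1) (xih U t c β a (y z a))
  eS : ∀ z, ∀ a ∈ Icc (0 : ℝ) (1 / 2), gS z 0 a = a • AA U (ta t a) (c + a • (y z a).1)
    (AA U (ta t a) (c + a • (y z a).1) (xih U t c β a (y z a)))
  d1 : ∀ z, gG z 1 0 = AA U t c ((√t)⁻¹ • z.1)
  meas : ∀ a ∈ Icc (0 : ℝ) (1 / 2), Measurable fun z => y z a
  law : ∀ a ∈ Icc (0 : ℝ) (1 / 2), ((gam d).prod (gam d)).map
    (fun z => (c + a • (y z a).1, √t • xih U t c β a (y z a))) = (qq U t c a).prod (gam d)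
  bd : ∀ k ≤ n, ∀ h ∈ Icc (0 : ℝ) (1 / 2), Dom ((gam d).prod (gam d))
    (fun z => ∫ a in (0 : ℝ)..h, (‖gG z k a‖ + ‖gA z k a‖ + ‖gS z k a‖)) (C * h * (√d + ‖c‖))

/-- Smallness conditions for one step. -/
structure StepOK (K : ℕ) (h β lam q : ℝ) : Prop where
  K1 : 1 ≤ K
  h0 : 0 < h
  hq : h ≤ q
  q1 : q ≤ 1 / 2
  hW : 2 * WW K * h ≤ 1
  β0 : 0 < β
  lam0 : 0 < lam
  lamq : 2 * lam * WW K ^ 2 ≤ q
  βq : 100 * WW K ^ 3 * β ≤ lam * q

/-- Consistency of one step with constant `C`. -/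
def StepErr (K : ℕ) (C : ℝ) : Prop :=
  ∀ (d : ℕ) (U : E d → ℝ), Pot d 1 U → ∀ (t : ℝ) (c : E d) (h β lam q : ℝ), 1 ≤ t →
    StepOK K h β lam q → ∃ pT ξT : E d × E d → E d, Measurable pT ∧ Measurable ξT ∧
      ((gam d).prod (gam d)).map (fun z => (pT z, ξT z)) = (qq U t c h).prod (gam d) ∧
      Dom (((gam d).prod (gam d)).prod (gam d))
        (fun w => ‖newC K h β lam U t c (c + (h / √t) • w.1.1, w.1.2, w.2) - pT w.1‖ +
          ‖corr K h β lam U t c (c + (h / √t) • w.1.1, w.1.2, w.2) -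
            (GG U t c - GG U (ta t h) (pT w.1) + (β * √t)⁻¹ • ξT w.1)‖)
        (C * q ^ K / β * (√d + ‖c‖))

end

end Crest.Agent.R285
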