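import Crest.Agent.R285.DefsN

/-!
# R285/DefsO: oracle algorithms, noisy oracles, levels and parameters

`Comp q F`: `F V a` is computed from `a` with `q` queries to `V`.  `Impl q k`: the Markov kernels
`k V` are implemented by one randomised algorithm with `q` queries.  `Orc y ν e q`: a `q`-query
algorithm outputs `y V a + ν Z` up to error `e V a` on bounded 1-Lipschitz tests (the vector
`y V a` is *virtual*: it is not known to the algorithm).  Level `j` oracles have noise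
`ς j/√t`, error `θ^j`, cost `Q j`.
-/

set_option autoImplicit false

namespace Crest.Agent.R285

open MeasureTheory ProbabilityTheory Crest.OracleSampling Set
open scoped RealInnerProductSpace ContDiff

noncomputable section

/-- Admissible potentials. -/
abbrev VV (d : ℕ) : Type := {V : E d → ℝ // Admissible d V}

variable {d : ℕ}

def Comp : ℕ → (A : Type) → [MeasurableSpace A] → (B : Type) → [MeasurableSpace B] →
    (VV d → A → B) → Prop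
  | 0, A, _, B, _, F => ∃ f : A → B, Measurable f ∧ ∀ V a, F V a = f a
  | q + 1, A, _, B, _, F => ∃ x : A → E d, Measurable x ∧ ∃ F' : VV d → A × Answer d → B,
      Comp q (A × Answer d) B F' ∧ ∀ V a, F V a = F' V (a, oracle V.1 (x a))

section

variable {A B : Type} [MeasurableSpace A] [MeasurableSpace B]

def Impl (q : ℕ) (k : VV d → Kernel A B) : Prop :=
  ∃ (Ω : Type) (_ : MeasurableSpace Ω) (P : Measure Ω) (_ : IsProbabilityMeasure P)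
    (F : VV d → A × Ω → B), Comp q (A × Ω) B F ∧ ∀ V a, k V a = P.map fun w => F V (a, w)

def Orc (y : VV d → A → E d) (ν : ℝ) (e : VV d → A → ℝ) (q : ℕ) : Prop :=
  ∃ k : VV d → Kernel A (E d), Impl q k ∧ ∀ V a (f : E d → ℝ), Test f →
    |∫ x, f x ∂(k V a) - ∫ z, f (y V a + ν • z) ∂(gam d)| ≤ e V a

end

/-- Parameters. -/
structure Par where
  K : ℕ
  r0 : ℕ
  N : ℕ
  R : ℕ
  NX : ℕ
  MO : ℕ
  h : ℝ
  q : ℝ
  θ : ℝ
  γ : ℝ
  T0 : ℝ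
  Cs : ℝ
  ς : ℕ → ℝ
  β : ℕ → ℝ
  lam : ℕ → ℝ
  B : ℕ → ℝ
  Sq : ℕ → ℕ
  Q : ℕ → ℕ

/-- Error coefficient of the correction. -/
def Par.kc (P : Par) (L : ℕ) : ℝ := 2 * P.β L * P.h * WW P.K ^ 3 / P.lam L

/-- Local error of a step at level `r+1`. -/
def Par.loc (P : Par) (r : ℕ) : ℝ :=
  3 * P.B (r + 1) * P.θ ^ r + P.Cs * P.q ^ P.K / P.β (r + 1) + P.kc (r + 1) * P.θ ^ r

/-- Coefficient of the virtual part of the new centre. -/
def Par.u1 (P : Par) (L : ℕ) : ℝ := P.h ^ 2 * WW P.K / P.T0 + 2 * P.β L * P.h * WW P.K ^ 2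

/-- Coefficient of the virtual part of `h ξ`. -/
def Par.u3 (P : Par) (L : ℕ) : ℝ :=
  2 * P.β L ^ 2 * P.h ^ 2 * WW P.K ^ 3 / P.lam L + 2 * P.β L * P.h

structure ParOK (P : Par) : Prop where
  r0pos : 1 ≤ P.r0
  step : ∀ r < P.r0, StepOK P.K P.h (P.β (r + 1)) (P.lam (r + 1)) P.q
  Cs0 : 0 ≤ P.Cs
  θ0 : 0 < P.θ
  θ1 : P.θ ≤ 1
  γ0 : 0 < P.γ
  γ1 : 16 * P.γ ≤ 1
  T2 : 2 ≤ P.T0
  ς0 : ∀ j, 0 < P.ς j
  ςγ : ∀ j, P.ς j = P.γ * P.ς (j + 1)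
  B0 : ∀ j, 0 < P.B j
  B16 : P.B 0 ≤ 1 / 16
  Bdec : ∀ r < P.r0, 8 * P.B (r + 1) ≤ P.B r
  Sdec : ∀ r < P.r0, 8 * P.Sq (r + 1) ≤ P.Sq r
  Sbig : ∀ r < P.r0, (P.K + 2) ^ 3 ≤ P.Sq (r + 1)
  Qmono : Monotone P.Q
  Qrec : ∀ r < P.r0, (2 * P.N + 1) * P.Sq (r + 1) * P.Q r + 1 ≤ P.Q (r + 1)
  u1n : ∀ r < P.r0, P.u1 (r + 1) ≤ P.h / P.ς r / 2
  u1e : ∀ r < P.r0, P.u1 (r + 1) ≤ P.B (r + 1)
  u2n : ∀ r < P.r0, P.lam (r + 1) * WW P.K ^ 2 * P.γ ^ P.R ≤ P.h / P.ς r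
  u2e : ∀ r < P.r0, P.lam (r + 1) * WW P.K ^ 2 / P.θ ^ P.R ≤ P.B (r + 1)
  u3n : ∀ r < P.r0, P.u3 (r + 1) ≤ P.h / P.ς r
  u3e : ∀ r < P.r0, P.u3 (r + 1) ≤ P.B (r + 1)
  u4 : ∀ r < P.r0, P.kc (r + 1) * P.ς r ≤ (P.β (r + 1))⁻¹
  noise : ∀ r < P.r0, 2 * P.N / P.β (r + 1) ^ 2 ≤ P.ς (r + 1) ^ 2
  budget : ∀ r < P.r0,
    (P.B (r + 1) * P.θ ^ r + 3 * √((1 - P.h ^ 2) ^ P.N) + P.N * P.loc r) *
      (1 + 32 * P.B (r + 1)) ^ P.N * (1 + 24 * P.N) ≤ P.θ ^ (r + 1)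

/-- `√` of the terminal precision of the sampling path. -/
def Par.Λ (P : Par) : ℝ := √(P.T0 / (1 - P.h ^ 2) ^ P.NX)

/-- Relative error of the sampler for `mu U T0 c`. -/
def Par.η (P : Par) : ℝ :=
  (4 / P.Λ + 2 * P.Λ * P.B P.r0 * P.θ ^ (P.r0 - 1) + P.NX * P.Λ * P.loc (P.r0 - 1)) *
    (1 + 32 * P.B P.r0) ^ P.NX * (1 + 24 * P.NX)

/-- Final accuracy in dimension `d`. -/
def FinalOK (P : Par) (d : ℕ) : Prop :=
  1 ≤ P.MO ∧
    √P.T0 * (2 * P.η * P.MO ^ 2 * (1 + P.η) ^ P.MO + (1 - 1 / P.T0) ^ P.MO) * √d ≤ 1 / 10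

/-- Total number of queries. -/
def Par.cost (P : Par) : ℕ := P.MO * ((2 * P.NX + 1) * P.Sq P.r0 * P.Q (P.r0 - 1))

section

variable {A : Type} [MeasurableSpace A]

/-- `y` has oracles at all levels `j < L` with relative noise `n`, error `e`, cost `s`. -/
def Cls (P : Par) (L : ℕ) (t : ℝ) (b : VV d → A → ℝ) (y : VV d → A → E d) (n e : ℝ) (s : ℕ) :
    Prop :=
  ∀ j < L, Orc y (n * P.ς j / √t) (fun V a => e * P.θ ^ j * b V a) (s * P.Q j)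

/-- The same, for vectors that are themselves small. -/
def Pure (P : Par) (L : ℕ) (t : ℝ) (b : VV d → A → ℝ) (y : VV d → A → E d) (n e : ℝ) (s : ℕ) :
    Prop :=
  Cls P L t b y n e s ∧ ∀ V a, ‖y V a‖ ≤ e * b V a

/-- Admissible (virtual) centres for a call at level `L`. -/
def Arg (P : Par) (L : ℕ) (t : ℝ) (c : VV d → A → E d) (b : VV d → A → ℝ) : Prop :=
  Cls P L t b c (P.h / P.ς (L - 1)) (P.B L) (P.Sq L) ∧ ∀ V a, √d + ‖c V a‖ ≤ b V a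

/-- Sums of `k` unit increments. -/
def TU (P : Par) (L : ℕ) (t : ℝ) (bb ρ : VV d → A → ℝ) (k : ℕ) (y : VV d → A → E d) : Prop :=
  Cls P L t bb y (k * (P.h / P.ς (L - 1))) (k * P.B L) (k * P.Sq L) ∧
    ∀ V a, ‖y V a‖ ≤ k * (ρ V a + P.B L * bb V a)

/-- Centres made of `k` units. -/
def Ctr (P : Par) (L : ℕ) (t : ℝ) (b bb ρ : VV d → A → ℝ) (k : ℕ) (p : VV d → A → E d) : Prop :=
  Cls P L t bb p (k * (P.h / P.ς (L - 1))) (k * P.B L) (k * P.Sq L) ∧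
    ∀ V a, √d + ‖p V a‖ ≤ b V a + k * (ρ V a + P.B L * bb V a)

end

/-- The level-`r` oracle for `GG` is available. -/
def CallOK (P : Par) (d : ℕ) (r : ℕ) : Prop :=
  ∀ (A : Type) [MeasurableSpace A] (t : ℝ) (c : VV d → A → E d) (b : VV d → A → ℝ), P.T0 ≤ t →
    Arg P r t c b →
    Orc (fun V a => GG (Uof V.1) t (c V a)) (P.ς r / √t) (fun V a => P.θ ^ r * b V a) (P.Q r)

/-- Standing assumptions inside one step at level `r + 1`. -/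
structure Ctx (P : Par) (d r : ℕ) (t : ℝ) : Prop where
  ok : ParOK P
  lt : r < P.r0
  call : ∀ j ≤ r, CallOK P d j
  ht : P.T0 ≤ t

/-- Size of the randomness `w = (ĉ, ξ, ζ)` of a step. -/
def rsz (c : E d) (w : E d × E d × E d) : ℝ := ‖w.1 - c‖ + ‖w.2.1‖ + ‖w.2.2‖

/-- Size bound after one step. -/
def b1 (B b : ℝ) (c : E d) (w : E d × E d × E d) : ℝ := (1 + 16 * B) * (b + 8 * rsz c w)

/-- Test functions for the sampler. -/
def XT (f : E d → ℝ) : Prop := Measurable f ∧ ((∀ x, |f x| ≤ 1) ∨ Test f)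

end

end Crest.Agent.R285
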