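import Crest.Agent.R285.DefsO

/-!
# R285/DefsP: explicit parameters

Base `e` (small).  `h = q = e`, `γ = e³`, `θ = e^D`, `R = D+9`, `a = D(D+9)+D+8`, `Pp = a+D+9`,
`ς j = e^{-(Pp+3j)}`, `β L = e^{Pp+3L-2}`, `λ L = e^{a+3L}` (so `β/λ = e^{D+7}`,
`β (r+1) ς r = e`, `β L ς L = e^{-2}`), `B j = e^{D+7}/8^j`, `T0 = e^{-p}`, `p = Pp+3r0+1`,
`N = ⌈e^{-3}⌉`, `MO = ⌈e^{-(p+1)}⌉`.
-/

set_option autoImplicit false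

namespace Crest.Agent.R285

open MeasureTheory ProbabilityTheory Crest.OracleSampling Set
open scoped RealInnerProductSpace ContDiff

noncomputable section

def pa (D : ℕ) : ℕ := D * (D + 9) + D + 8
def pP (D : ℕ) : ℕ := pa D + D + 9
def pp (D r0 : ℕ) : ℕ := pP D + 3 * r0 + 1
def pK (D r0 : ℕ) : ℕ := pP D + 3 * r0 + D * r0 + D + 9
def pSq (K r0 j : ℕ) : ℕ := 8 ^ (r0 - j) * (K + 2) ^ 3

def pQ (N K r0 : ℕ) : ℕ → ℕ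
  | 0 => 0
  | r + 1 => (2 * N + 1) * pSq K r0 (r + 1) * pQ N K r0 r + 1

def mkPar (D r0 NX : ℕ) (Cs e : ℝ) : Par where
  K := pK D r0
  r0 := r0
  N := ⌈e⁻¹ ^ 3⌉₊
  R := D + 9
  NX := NX
  MO := ⌈e⁻¹ ^ (pp D r0 + 1)⌉₊
  h := e
  q := e
  θ := e ^ D
  γ := e ^ 3
  T0 := e⁻¹ ^ pp D r0
  Cs := Cs
  ς := fun j => e⁻¹ ^ (pP D + 3 * j)
  β := fun L => e ^ (pa D + D + 7 + 3 * L)
  lam := fun L => e ^ (pa D + 3 * L)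
  B := fun j => e ^ (D + 7) / 8 ^ j
  Sq := pSq (pK D r0) r0
  Q := pQ ⌈e⁻¹ ^ 3⌉₊ (pK D r0) r0

/-- Smallness of the base: `e Z ≤ 1` for an explicit constant `Z`, and `exp(-1/(2e)) ≤ e^J`. -/
structure Small (D r0 J : ℕ) (Cs e : ℝ) : Prop where
  pos : 0 < e
  Cs0 : 0 ≤ Cs
  le : e * (10 ^ 4 * WW (pK D r0) ^ 3 * 8 ^ r0 * ((pK D r0 : ℝ) + 2) ^ 3 * (1 + Cs)) ≤ 1
  exp : Real.exp (-(1 / (2 * e))) ≤ e ^ J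

end

end Crest.Agent.R285
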