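import Crest.Agent.R285.DefsA

/-!
# R285/DefsW: Appell functions; uniform families of multipliers and words

A *normalised instance* `I` is a potential `W` with `0 ≤ ∇²W ≤ δ ≤ 1`, a centre `x` and a
rotation strength `β ∈ [0,1]`.  `Ψ = Psi W` lives on `ℝ × E d ∋ (s, p)`; words live on
`ℝ × E d × E d ∋ (s, u, ξ)`, with `p = x + a u`, `a = tanh s`.  `ρ_s(u, ξ)` is the law of
`(u, ξ)` at time `s` along the flow of the vector field `(bU, bX)/θ`;
`DD` is the derivative `d/da` along this flow.  All bounds are uniform in the instance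
(in particular in the dimension `d`).
-/

set_option autoImplicit false

namespace Crest.Agent.R285

open MeasureTheory ProbabilityTheory Crest.OracleSampling Set
open scoped RealInnerProductSpace ContDiff

noncomputable section

section appell

variable {d : ℕ}

/-- `1 / II`. -/
def RR (W : E d → ℝ) (θ : ℝ) (y : E d) : ℝ := (II W θ y)⁻¹

/-- `e^{-θ⟨z,x⟩} ∂^s_y (e^{θ⟨z,y⟩} g(y))|_{y=x}`: a polynomial in `z`. -/
def Ap (θ : ℝ) (x : E d) (s : Multiset (Fin d)) (g : E d → ℝ) (z : E d) : ℝ :=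
  Real.exp (-(θ * ⟪z, x⟫)) * pd ee s (fun y => Real.exp (θ * ⟪z, y⟫) * g y) x

/-- Appell polynomials of `mu W θ x`. -/
def PP (W : E d → ℝ) (θ : ℝ) (x : E d) (s : Multiset (Fin d)) (z : E d) : ℝ :=
  II W θ x * Ap θ x s (RR W θ) z

/-- Appell functions attached to `∂_k W`. -/
def PF (W : E d → ℝ) (θ : ℝ) (x : E d) (k : Fin d) (s : Multiset (Fin d)) (z : E d) : ℝ :=
  II W θ x * (gradient W z k * Ap θ x s (RR W θ) z -
    Ap θ x s (fun y => GG W θ y k * RR W θ y) z)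

/-- Gram matrix of the Appell polynomials. -/
def Xi (W : E d → ℝ) (θ : ℝ) (x : E d) (a b : Multiset (Fin d)) : ℝ :=
  ∫ z, PP W θ x a z * PP W θ x b z ∂(mu W θ x)

/-- Coordinate directions on `E d × E d`. -/
def e2 : Fin d ⊕ Fin d → E d × E d := Sum.elim (fun k => (ee k, 0)) (fun k => (0, ee k))

end appell

/-- Families of finite index types depending on the dimension. -/
structure Fam where
  T : ℕ → Type
  fin : ∀ d, Fintype (T d)
  dec : ∀ d, DecidableEq (T d)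

instance (F : Fam) (d : ℕ) : Fintype (F.T d) := F.fin d
instance (F : Fam) (d : ℕ) : DecidableEq (F.T d) := F.dec d

@[reducible] def Fam.unit : Fam := ⟨fun _ => Unit, fun _ => inferInstance, fun _ => inferInstance⟩
@[reducible] def Fam.leg : Fam := ⟨Fin, fun _ => inferInstance, fun _ => inferInstance⟩
@[reducible] def Fam.prod (A B : Fam) : Fam :=
  ⟨fun d => A.T d × B.T d, fun _ => inferInstance, fun _ => inferInstance⟩

/-- `n`-fold nested products of `Fin d`. -/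
@[reducible] def Fam.idx : ℕ → Fam
  | 0 => Fam.unit
  | n + 1 => (Fam.idx n).prod Fam.leg

/-- The multiset of coordinates of a nested tuple. -/
def ms {d : ℕ} : (n : ℕ) → (Fam.idx n).T d → Multiset (Fin d)
  | 0, _ => 0
  | n + 1, i => i.2 ::ₘ ms n i.1

/-- Normalised instances. -/
structure Inst where
  d : ℕ
  δ : ℝ
  W : E d → ℝ
  x : E d
  β : ℝ
  pot : Pot d δ W
  δ0 : 0 < δ
  δ1 : δ ≤ 1
  β0 : 0 ≤ β
  β1 : β ≤ 1

abbrev Inst.X (I : Inst) : Type := ℝ × E I.d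
abbrev Inst.Y (I : Inst) : Type := ℝ × E I.d × E I.d

/-- Families of matrix-valued functions of `(s, p)`. -/
abbrev MF (O J : Fam) : Type := ∀ I : Inst, O.T I.d → J.T I.d → I.X → ℝ
/-- Families of tensor-valued functions of `(s, u, ξ)`. -/
abbrev WF (T : Fam) : Type := ∀ I : Inst, T.T I.d → I.Y → ℝ

def Inst.Ψ (I : Inst) : I.X → ℝ := Psi I.W

/-- `F = ∇Ψ/δ`. -/
def Fh (I : Inst) (k : Fin I.d) (y : I.X) : ℝ := dd (ex k) I.Ψ y / I.δ

/-- `Â = ∇²Ψ/δ` (symmetric, operator norm `≤ 1`). -/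
def Ah : MF Fam.leg Fam.leg := fun I k l y => dd (ex k) (dd (ex l) I.Ψ) y / I.δ

/-- The class of multipliers. -/
inductive Mul : (O J : Fam) → MF O J → Prop
  | base (p q : ℕ) : Mul (Fam.idx (q + 1)) (Fam.idx (p + 1))
      (fun I j i y => pd ex (ms (q + 1) j + ms (p + 1) i) I.Ψ y / I.δ)
  | const {O J : Fam} (c : ∀ d, O.T d → J.T d → ℝ) (h : ∀ d, OpBd (c d) 1) :
      Mul O J (fun I o j _ => c I.d o j)
  | comp {O K J : Fam} {M₂ : MF O K} {M₁ : MF K J} : Mul O K M₂ → Mul K J M₁ →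
      Mul O J (fun I o j y => ∑ k, M₂ I o k y * M₁ I k j y)
  | add {O J : Fam} {M M' : MF O J} : Mul O J M → Mul O J M' →
      Mul O J (fun I o j y => M I o j y + M' I o j y)
  | idL (T : Fam) {O J : Fam} {M : MF O J} : Mul O J M →
      Mul (T.prod O) (T.prod J) (fun I o j y => if o.1 = j.1 then M I o.2 j.2 y else 0)
  | smul {O J : Fam} {M : MF O J} (c : Inst → ℝ) (hc : ∀ I, |c I| ≤ 1) (g : ℝ → ℝ)
      (hg : ContDiff ℝ ∞ g) : Mul O J M → Mul O J (fun I o j y => c I * g y.1 * M I o j y)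
  | reidx {O J O' J' : Fam} {M : MF O J} (eO : ∀ d, O'.T d ≃ O.T d) (eJ : ∀ d, J'.T d ≃ J.T d) :
      Mul O J M → Mul O' J' (fun I o j => M I (eO I.d o) (eJ I.d j))

/-- Gradient of a multiplier, new index on the output side. -/
def dOut {O J : Fam} (M : MF O J) : MF (O.prod Fam.leg) J :=
  fun I o j => dd (ex o.2) (M I o.1 j)

/-- Gradient of a multiplier, new index on the input side. -/
def dIn {O J : Fam} (M : MF O J) : MF O (J.prod Fam.leg) :=
  fun I o j => dd (ex j.2) (M I o j.1)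

/-- The parabolic operator `H̃ = ∂_s - 2aθ⁻¹ (∇Ψ·∇ - Δ/2)`, which kills `F`. -/
def Hs (I : Inst) (φ : I.X → ℝ) (y : I.X) : ℝ :=
  dd et φ y - 2 * (aa y.1 / th y.1) *
    (∑ k, dd (ex k) I.Ψ y * dd (ex k) φ y - (∑ k, dd (ex k) (dd (ex k) φ) y) / 2)

/-- `(s, u, ξ) ↦ (s, x + a u)`. -/
def Inst.pt (I : Inst) (y : I.Y) : I.X := (y.1, I.x + aa y.1 • y.2.1)

/-- Directions in `u` (`false`) and in `ξ` (`true`). -/
def ey {d : ℕ} : Bool → Fin d → ℝ × E d × E d
  | false, k => (0, ee k, 0)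
  | true, k => (0, 0, ee k)

/-- Time direction. -/
def eT {d : ℕ} : ℝ × E d × E d := (1, 0, 0)

/-- `-∇ log ρ`. -/
def Inst.gW (I : Inst) : Bool → Fin I.d → I.Y → ℝ
  | false, k => fun y => y.2.1 k + aa y.1 * dd (ex k) I.Ψ (I.pt y)
  | true, k => fun y => y.2.2 k

/-- The density of `(u, ξ)` at time `s`. -/
def Inst.rho (I : Inst) (y : I.Y) : ℝ :=
  gdens y.2.1 * gdens y.2.2 * Real.exp (-I.Ψ (I.pt y) + I.Ψ (0, I.x))

def gradW {T : Fam} (b : Bool) (w : WF T) : WF (T.prod Fam.leg) :=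
  fun I o => dd (ey b o.2) (w I o.1)

/-- The adjoint of `gradW` with respect to `ρ_s`. -/
def divW {T : Fam} (b : Bool) (w : WF (T.prod Fam.leg)) : WF T :=
  fun I o y => ∑ k, (I.gW b k y * w I (o, k) y - dd (ey b k) (w I (o, k)) y)

def mulW {O J : Fam} (M : MF O J) (w : WF J) : WF O :=
  fun I o y => ∑ j, M I o j (I.pt y) * w I j y

/-- The class of words. -/
inductive Word : (T : Fam) → WF T → Prop
  | cst (T : Fam) (c : ∀ d, T.T d → ℝ) (h : ∀ d, ∑ o, c d o ^ 2 ≤ d) :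
      Word T (fun I o _ => c I.d o)
  | mul {O J : Fam} {M : MF O J} {w : WF J} : Mul O J M → Word J w → Word O (mulW M w)
  | grad {T : Fam} {w : WF T} (b : Bool) : Word T w → Word (T.prod Fam.leg) (gradW b w)
  | dive {T : Fam} {w : WF (T.prod Fam.leg)} (b : Bool) :
      Word (T.prod Fam.leg) w → Word T (divW b w)
  | add {T : Fam} {w w' : WF T} : Word T w → Word T w' →
      Word T (fun I o y => w I o y + w' I o y)
  | reidx {T T' : Fam} {w : WF T} (e : ∀ d, T'.T d ≃ T.T d) : Word T w →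
      Word T' (fun I o => w I (e I.d o))

/-- `F(pt)`. -/
def FY : WF Fam.leg := fun I k y => Fh I k (I.pt y)
/-- `Â ξ`. -/
def AX : WF Fam.leg := fun I k y => ∑ l, Ah I k l (I.pt y) * y.2.2 l
/-- `a Â² ξ`. -/
def SX : WF Fam.leg := fun I k y => aa y.1 * ∑ l, Ah I k l (I.pt y) * AX I l y
/-- `δ_u(Â)`. -/
def delA : WF Fam.leg := fun I k y =>
  ∑ l, (I.gW false l y * Ah I k l (I.pt y) - dd (ey false l) (fun y => Ah I k l (I.pt y)) y)
/-- `u`-component of the field (in `a`-time). -/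
def bU : WF Fam.leg := fun I k y => -dd (ex k) I.Ψ (I.pt y) - I.β * AX I k y
/-- `ξ`-component of the field (in `a`-time). -/
def bX : WF Fam.leg := fun I k y => I.β * delA I k y

/-- Derivative `d/da` along the flow. -/
def DD (I : Inst) (φ : I.Y → ℝ) (y : I.Y) : ℝ :=
  th y.1 * dd eT φ y + ∑ k, bU I k y * dd (ey false k) φ y + ∑ k, bX I k y * dd (ey true k) φ y

/-- The vector with given coordinates. -/
def vec {d : ℕ} (f : Fin d → ℝ) : E d := WithLp.toLp 2 f

/-- The field in `s`-time. -/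
def Inst.fld (I : Inst) (y : I.Y) : E I.d × E I.d :=
  (th y.1)⁻¹ • (vec fun k => bU I k y, vec fun k => bX I k y)

/-- Smooth functions all of whose space derivatives grow polynomially for `s ∈ [0,1]`. -/
def Tame {d : ℕ} (φ : ℝ × E d × E d → ℝ) : Prop :=
  ContDiff ℝ ∞ φ ∧ ∀ l : List (Bool × Fin d), ∃ (C : ℝ) (k : ℕ), ∀ y : ℝ × E d × E d,
    y.1 ∈ Icc (0 : ℝ) 1 → |pdl (fun j => ey j.1 j.2) l φ y| ≤ C * (1 + ‖y‖) ^ k

/-- Squared `L²(ρ_s)` norm. -/
def nrm (I : Inst) (s : ℝ) {T : Type} [Fintype T] (w : T → I.Y → ℝ) : ℝ :=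
  ∑ o, ∫ z : E I.d × E I.d, w o (s, z) ^ 2 * I.rho (s, z)

def Bd0 (T : Fam) (w : WF T) : Prop :=
  (∀ I o, Tame (w I o)) ∧ ∃ C : ℝ, ∀ I : Inst, ∀ s ∈ Icc (0 : ℝ) 1, nrm I s (w I) ≤ C * I.d

/-- `L²` bounds `C d` for all derivatives up to order `k`. -/
def Bd : ℕ → (T : Fam) → WF T → Prop
  | 0, T, w => Bd0 T w
  | k + 1, T, w => Bd0 T w ∧ ∀ b, Bd k (T.prod Fam.leg) (gradW b w)

end

end Crest.Agent.R285
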