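import Crest.Agent.R285.DefsA

/-!
# R285/Flow: global flow of a `C¹` vector field of linear growth on `[0,1]`

Existence from a starting point `(r, z)`: with `R = (1+‖z‖) e^{L}` cut the field off outside a large
ball (`ContDiffBump`), so that it is bounded and Lipschitz in space uniformly for `s ∈ [0,1]`;
`IsPicardLindelof` on `[0,1]` with a ball of radius `≥ sup ‖b‖` gives a solution on `[0,1]`; Grönwall
(`norm_le_gronwallBound_of_norm_deriv_right_le`, forward and, after time reversal, backward) keeps it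
where the cutoff is `1`.  Uniqueness / Lipschitz dependence: `dist_le_of_trajectories_ODE_of_mem`
(or Grönwall) on a ball containing all trajectories, where `b` is Lipschitz
(`Convex.lipschitzOnWith_of_nnnorm_fderiv_le`, compactness).  Dependence on the initial time:
`Φ r s z = Φ r' s (Φ r r' z)` and `‖Φ r r' z - z‖ ≤ sup‖b‖ |r - r'|`.
-/

set_option autoImplicit false

namespace Crest.Agent.R285

open MeasureTheory ProbabilityTheory Crest.OracleSampling Set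
open scoped RealInnerProductSpace ContDiff

noncomputable section

section aux

variable {X : Type} [NormedAddCommGroup X] [NormedSpace ℝ X]

/-- two-sided Grönwall inequality on `[0,1]` -/
theorem flow_gron {f f' : ℝ → X} {K ε : ℝ} (hK : 0 ≤ K) (hε : 0 ≤ ε)
    (hf : ∀ s ∈ Icc (0 : ℝ) 1, HasDerivWithinAt f (f' s) (Icc 0 1) s)
    (hb : ∀ s ∈ Icc (0 : ℝ) 1, ‖f' s‖ ≤ K * ‖f s‖ + ε) {r s : ℝ} (hr : r ∈ Icc (0 : ℝ) 1)
    (hs : s ∈ Icc (0 : ℝ) 1) : ‖f s‖ ≤ gronwallBound ‖f r‖ K ε 1 := by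
  have hc : ContinuousOn f (Icc 0 1) := fun t ht => (hf t ht).continuousWithinAt
  rcases le_total r s with hrs | hsr
  · have h := norm_le_gronwallBound_of_norm_deriv_right_le (f := f) (f' := f') (a := r) (b := 1)
      (δ := ‖f r‖) (K := K) (ε := ε) (hc.mono (Icc_subset_Icc_left hr.1))
      (fun t ht => (hf t ⟨hr.1.trans ht.1, ht.2.le⟩).mono_of_mem_nhdsWithin
        (Filter.mem_of_superset (Icc_mem_nhdsGE ht.2) (Icc_subset_Icc_left (hr.1.trans ht.1))))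
      le_rfl (fun t ht => hb t ⟨hr.1.trans ht.1, ht.2.le⟩) s ⟨hrs, hs.2⟩
    exact h.trans (gronwallBound_mono (norm_nonneg _) hε hK (by linarith [hr.1, hs.2]))
  · have hm : ∀ t ∈ Icc (-r) (0 : ℝ), -t ∈ Icc (0 : ℝ) 1 := fun t ht =>
      ⟨by linarith [ht.2], by linarith [ht.1, hr.2]⟩
    have hg : ∀ t ∈ Icc (-r) (0 : ℝ),
        HasDerivWithinAt (fun t => f (-t)) (-f' (-t)) (Icc (-r) 0) t := by
      intro t ht
      have := (hf (-t) (hm t ht)).scomp t (hasDerivAt_neg t).hasDerivWithinAt hm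
      simpa [Function.comp_def] using this
    have h := norm_le_gronwallBound_of_norm_deriv_right_le (f := fun t => f (-t))
      (f' := fun t => -f' (-t)) (a := -r) (b := 0) (δ := ‖f r‖) (K := K) (ε := ε)
      (fun t ht => (hg t ht).continuousWithinAt)
      (fun t ht => (hg t (Ico_subset_Icc_self ht)).mono_of_mem_nhdsWithin
        (Filter.mem_of_superset (Icc_mem_nhdsGE ht.2) (Icc_subset_Icc_left ht.1)))
      (by simp) (fun t ht => by
        rw [norm_neg]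
        exact hb _ (hm t (Ico_subset_Icc_self ht))) (-s) ⟨by linarith, by linarith [hs.1]⟩
    simp only [neg_neg] at h
    exact h.trans (gronwallBound_mono (norm_nonneg _) hε hK (by linarith [hs.1, hr.2]))

theorem flow_growth {f f' : ℝ → X} {L : ℝ} (hL : 0 < L)
    (hf : ∀ s ∈ Icc (0 : ℝ) 1, HasDerivWithinAt f (f' s) (Icc 0 1) s)
    (hb : ∀ s ∈ Icc (0 : ℝ) 1, ‖f' s‖ ≤ L * (1 + ‖f s‖)) {r s : ℝ} (hr : r ∈ Icc (0 : ℝ) 1)
    (hs : s ∈ Icc (0 : ℝ) 1) : ‖f s‖ ≤ Real.exp L * (1 + ‖f r‖) := by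
  have h := flow_gron hL.le hL.le hf (fun s hs => (hb s hs).trans_eq (by ring)) hr hs
  rw [gronwallBound_of_K_ne_0 hL.ne'] at h
  simp only [mul_one, div_self hL.ne', one_mul] at h
  linarith

theorem flow_lip (b : ℝ × X → X) (hb : ContDiff ℝ 1 b) {S : Set X} (hS : IsCompact S) :
    ∃ K : NNReal, ∀ s ∈ Icc (0 : ℝ) 1, LipschitzOnWith K (fun x => b (s, x)) S := by
  obtain ⟨K, hK⟩ := (hb.locallyLipschitz.locallyLipschitzOn
    (s := Icc (0 : ℝ) 1 ×ˢ S)).exists_lipschitzOnWith_of_compact (isCompact_Icc.prod hS)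
  refine ⟨K, fun s hs => LipschitzOnWith.of_dist_le_mul fun x hx y hy => ?_⟩
  have := hK.dist_le_mul (s, x) ⟨hs, hx⟩ (s, y) ⟨hs, hy⟩
  simpa [Prod.dist_eq] using this

variable [FiniteDimensional ℝ X]

theorem flow_stab (b : ℝ × X → X) (hb : ContDiff ℝ 1 b) (R : ℝ) :
    ∃ K : ℝ, 0 ≤ K ∧ ∀ f g : ℝ → X,
      (∀ s ∈ Icc (0 : ℝ) 1, HasDerivWithinAt f (b (s, f s)) (Icc 0 1) s) →
      (∀ s ∈ Icc (0 : ℝ) 1, HasDerivWithinAt g (b (s, g s)) (Icc 0 1) s) →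
      (∀ s ∈ Icc (0 : ℝ) 1, ‖f s‖ ≤ R) → (∀ s ∈ Icc (0 : ℝ) 1, ‖g s‖ ≤ R) →
      ∀ r ∈ Icc (0 : ℝ) 1, ∀ s ∈ Icc (0 : ℝ) 1, ‖f s - g s‖ ≤ K * ‖f r - g r‖ := by
  obtain ⟨K, hK⟩ := flow_lip b hb (isCompact_closedBall (0 : X) R)
  refine ⟨Real.exp K, (Real.exp_pos _).le, fun f g hf hg hfR hgR r hr s hs => ?_⟩
  have h := flow_gron (f := fun s => f s - g s) (f' := fun s => b (s, f s) - b (s, g s))
    (K := K) (ε := 0) K.2 le_rfl (fun s hs => (hf s hs).sub (hg s hs)) (fun s hs => by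
      have := (hK s hs).dist_le_mul (f s) (mem_closedBall_zero_iff.2 (hfR s hs)) (g s)
        (mem_closedBall_zero_iff.2 (hgR s hs))
      simpa [dist_eq_norm] using this) hr hs
  rwa [gronwallBound_ε0, mul_one, mul_comm] at h

theorem flow_exists (b : ℝ × X → X) (hb : ContDiff ℝ 1 b) {L : ℝ} (hL0 : 0 < L)
    (hL : ∀ y : ℝ × X, y.1 ∈ Icc (0 : ℝ) 1 → ‖b y‖ ≤ L * (1 + ‖y.2‖)) (r : ℝ)
    (hr : r ∈ Icc (0 : ℝ) 1) (z : X) :
    ∃ f : ℝ → X, f r = z ∧ ∀ s ∈ Icc (0 : ℝ) 1, HasDerivWithinAt f (b (s, f s)) (Icc 0 1) s := by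
  have : CompleteSpace X := FiniteDimensional.complete ℝ X
  set R := Real.exp L * (1 + ‖z‖) with hR
  have hR0 : 0 < R := by positivity
  let c : ContDiffBump (0 : X) := ⟨R, R + 1, hR0, by linarith⟩
  let b' : ℝ × X → X := fun y => c y.2 • b y
  have hb' : ContDiff ℝ 1 b' := (c.contDiff.comp contDiff_snd).smul hb
  have hb'L : ∀ y : ℝ × X, y.1 ∈ Icc (0 : ℝ) 1 → ‖b' y‖ ≤ L * (1 + ‖y.2‖) := by
    intro y hy
    refine le_trans ?_ (hL y hy)
    simp only [b', norm_smul, Real.norm_eq_abs, abs_of_nonneg c.nonneg]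
    exact mul_le_of_le_one_left (norm_nonneg _) c.le_one
  let B : NNReal := ⟨L * (1 + (R + 1)), by positivity⟩
  have hB : ∀ y : ℝ × X, y.1 ∈ Icc (0 : ℝ) 1 → ‖b' y‖ ≤ B := by
    intro y hy
    by_cases h : ‖y.2‖ ≤ R + 1
    · refine (hb'L y hy).trans ?_
      change _ ≤ L * (1 + (R + 1))
      gcongr
    · have : c y.2 = 0 := c.zero_of_le_dist (by
        rw [dist_zero_right]
        exact (not_le.1 h).le)
      simp [b', this]
  obtain ⟨K, hK⟩ := flow_lip b' hb' (isCompact_closedBall z B)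
  have hPL : IsPicardLindelof (fun s x => b' (s, x)) (⟨r, hr⟩ : Icc (0 : ℝ) 1) z B 0 B K :=
    { lipschitzOnWith := hK
      continuousOn := fun x _ =>
        (hb'.continuous.comp (f := fun t : ℝ => (t, x)) (by fun_prop)).continuousOn
      norm_le := fun t ht x _ => hB (t, x) ht
      mul_max_le := by
        simp only [NNReal.coe_zero, sub_zero]
        exact mul_le_of_le_one_right B.2 (max_le (by linarith [hr.1]) hr.2) }
  obtain ⟨f, hf0, hf⟩ := hPL.exists_eq_forall_mem_Icc_hasDerivWithinAt₀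
  refine ⟨f, hf0, fun s hs => ?_⟩
  have h1 := flow_growth hL0 hf (fun s hs => hb'L (s, f s) hs) hr hs
  have h2 : f r = z := hf0
  rw [h2] at h1
  have h3 : c (f s) = 1 := c.one_of_mem_closedBall (mem_closedBall_zero_iff.2 h1)
  have h4 := hf s hs
  simp only [b', h3, one_smul] at h4
  exact h4

end aux

theorem exists_flow {X : Type} [NormedAddCommGroup X] [NormedSpace ℝ X] [FiniteDimensional ℝ X]
    (b : ℝ × X → X) (hb : ContDiff ℝ 1 b) (L : ℝ)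
    (hL : ∀ y : ℝ × X, y.1 ∈ Icc (0 : ℝ) 1 → ‖b y‖ ≤ L * (1 + ‖y.2‖)) :
    ∃ Φ : ℝ → ℝ → X → X,
      (∀ r ∈ Icc (0 : ℝ) 1, ∀ z, Φ r r z = z) ∧
      (∀ r ∈ Icc (0 : ℝ) 1, ∀ z, ∀ s ∈ Icc (0 : ℝ) 1,
        HasDerivWithinAt (fun s => Φ r s z) (b (s, Φ r s z)) (Icc 0 1) s) ∧
      (∀ r ∈ Icc (0 : ℝ) 1, ∀ s ∈ Icc (0 : ℝ) 1, ∀ t ∈ Icc (0 : ℝ) 1, ∀ z,
        Φ s t (Φ r s z) = Φ r t z) ∧
      (∃ M, ∀ r ∈ Icc (0 : ℝ) 1, ∀ s ∈ Icc (0 : ℝ) 1, ∀ z, ‖Φ r s z‖ ≤ M * (1 + ‖z‖)) ∧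
      (∀ R : ℝ, ∃ K : ℝ, ∀ r ∈ Icc (0 : ℝ) 1, ∀ r' ∈ Icc (0 : ℝ) 1, ∀ s ∈ Icc (0 : ℝ) 1, ∀ z z',
        ‖z‖ ≤ R → ‖z'‖ ≤ R → ‖Φ r s z - Φ r' s z'‖ ≤ K * (|r - r'| + ‖z - z'‖)) := by
  have hL0 : 0 < |L| + 1 := by positivity
  have hL' : ∀ y : ℝ × X, y.1 ∈ Icc (0 : ℝ) 1 → ‖b y‖ ≤ (|L| + 1) * (1 + ‖y.2‖) := by
    intro y hy
    refine (hL y hy).trans (mul_le_mul_of_nonneg_right ?_ (by positivity))
    linarith [le_abs_self L]
  generalize |L| + 1 = L' at hL0 hL'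
  choose! Φ h0 hd using flow_exists b hb hL0 hL'
  have hgr : ∀ r ∈ Icc (0 : ℝ) 1, ∀ s ∈ Icc (0 : ℝ) 1, ∀ z,
      ‖Φ r z s‖ ≤ Real.exp L' * (1 + ‖z‖) := by
    intro r hr s hs z
    have := flow_growth hL0 (hd r hr z) (fun s hs => hL' (s, Φ r z s) hs) hr hs
    rwa [h0 r hr z] at this
  refine ⟨fun r s z => Φ r z s, h0, fun r hr z s hs => hd r hr z s hs, ?_, ⟨_, hgr⟩, ?_⟩
  · intro r hr s hs t ht z
    obtain ⟨K, -, hK⟩ := flow_stab b hb
      (max (Real.exp L' * (1 + ‖Φ r z s‖)) (Real.exp L' * (1 + ‖z‖)))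
    have := hK _ _ (hd s hs (Φ r z s)) (hd r hr z)
      (fun u hu => (hgr s hs u hu _).trans (le_max_left _ _))
      (fun u hu => (hgr r hr u hu _).trans (le_max_right _ _)) s hs t ht
    rw [h0 s hs, sub_self, norm_zero, mul_zero] at this
    exact sub_eq_zero.1 (norm_le_zero_iff.1 this)
  · intro R
    set R' := Real.exp L' * (1 + |R|) with hR'
    have hR0 : 0 ≤ R' := by positivity
    obtain ⟨K, hK0, hK⟩ := flow_stab b hb R'
    refine ⟨K * (1 + L' * (1 + R')), fun r hr r' hr' s hs z z' hz hz' => ?_⟩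
    have hbd : ∀ r ∈ Icc (0 : ℝ) 1, ∀ z : X, ‖z‖ ≤ R → ∀ u ∈ Icc (0 : ℝ) 1, ‖Φ r z u‖ ≤ R' := by
      intro r hr z hz u hu
      refine (hgr r hr u hu z).trans ?_
      have := hz.trans (le_abs_self R)
      rw [hR']
      gcongr
    have h1 := hK _ _ (hd r hr z) (hd r' hr' z') (hbd r hr z hz) (hbd r' hr' z' hz') r hr s hs
    rw [h0 r hr] at h1
    have h2 : ‖Φ r' z' r - Φ r' z' r'‖ ≤ L' * (1 + R') * ‖r - r'‖ :=
      (convex_Icc (0 : ℝ) 1).norm_image_sub_le_of_norm_hasDerivWithin_le (hd r' hr' z')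
        (fun u hu => (hL' (u, Φ r' z' u) hu).trans (by
          have := hbd r' hr' z' hz' u hu
          gcongr)) hr' hr
    rw [h0 r' hr', Real.norm_eq_abs] at h2
    have h3 : ‖z - Φ r' z' r‖ ≤ ‖z - z'‖ + ‖Φ r' z' r - z'‖ := by
      rw [norm_sub_rev (Φ r' z' r)]
      exact norm_sub_le_norm_sub_add_norm_sub _ _ _
    have h4 : 0 ≤ L' * (1 + R') := by positivity
    refine h1.trans ?_
    rw [mul_assoc]
    refine mul_le_mul_of_nonneg_left ?_ hK0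
    nlinarith [norm_nonneg (z - z'), abs_nonneg (r - r')]

end

end Crest.Agent.R285
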