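import Crest.Agent.R285.GPathA

/-!
# R285/GPath: the oracle for `GG` at level `r+1`

Induction on the number `M` of remaining steps.  `M = 0`: draw `ĉ` (level `r`), query
`∇U(ĉ)` (`impl_grad`), output `acc + ∇U(ĉ) + νZ`; `GG_sub_grad`, `moment_of_test`
(`E‖ĉ - c‖ ≤ h√d/√t + Bθ^r b`).  Step: `k₁` from `one_step`; apply the induction hypothesis on
`A × ((E×E×E)×E)` at time `t' = ta t h` with centre `newC`, bound `b1` (`units`, `Arg.comap`),
accumulator `acc a + ŵ`, noise `ν' = √(ν² - 2κ²)`, `κ = (β√t)⁻¹`; `Impl.bind`.  For a test `f` put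
`Φ(p, w) = ∫ f(acc + w + GG t' p + ν' Z)` (`Λ = 1` by `GG_lip`); its ideal value is
`∫ f(acc + GG t c + νZ)` by `integral_gam_add` twice (`qq_prob`); `path_arith`;
`(1-h²)^M/t' = (1-h²)^(M+1)/t`.
-/

set_option autoImplicit false

namespace Crest.Agent.R285

open MeasureTheory ProbabilityTheory Crest.OracleSampling Set
open scoped RealInnerProductSpace ContDiff

noncomputable section

variable {d : ℕ} {P : Par} {r : ℕ}

theorem gpath_smooth {f : E d → ℝ} (hf : Test f) (ν : ℝ) (x x' : E d) :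
    |∫ z, f (x + ν • z) ∂(gam d) - ∫ z, f (x' + ν • z) ∂(gam d)| ≤ ‖x - x'‖ := by
  have := (hf.smooth 0 ν).1.dist_le_mul x x'
  simpa only [add_zero, NNReal.coe_one, one_mul, Real.norm_eq_abs, dist_eq_norm] using this

theorem gpath_zero {A : Type} [MeasurableSpace A] {t : ℝ} {c : VV d → A → E d} {b : VV d → A → ℝ}
    {acc : A → E d} (ν : ℝ) (H : Ctx P d r t) (hc : Arg P (r + 1) t c b) (hacc : Measurable acc) :
    Orc (fun V a => acc a + GG (Uof V.1) t (c V a)) ν
      (fun V a => (P.B (r + 1) * P.θ ^ r + 3 * √(1 / t)) * b V a) (P.Sq (r + 1) * P.Q r + 1) := by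
  obtain ⟨kc, hkc, hkc'⟩ := gpath_centre H hc
  obtain ⟨kg, hkg, hkg'⟩ := impl_grad (d := d) (A := A × E d) measurable_snd
  obtain ⟨kn, hkn, hkn'⟩ := gpath_noise (d := d) (A := (A × E d) × E d)
    (x := fun p => acc p.1.1 + p.2) (by fun_prop) ν
  obtain ⟨k₂, hk₂, hk₂'⟩ := hkg.bind hkn
  obtain ⟨k, hk, hk'⟩ := hkc.bind hk₂
  refine ⟨k, hk, fun V a f hf => ?_⟩
  have ht := gpath_one_le H
  have hs : 1 ≤ √t := gibbs_one_le_sqrt ht
  have hh := H.ok.h_pos
  have hU := pot_Uof V.2
  have := hkc.markov V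
  obtain ⟨M, hM⟩ := hf.2
  obtain ⟨m1, m2⟩ := moment_of_test (by have := hh.1; positivity) (hkc' V a)
  have hcont : Continuous fun x : E d => ∫ z, f (acc a + gradient (Uof V.1) x + ν • z) ∂(gam d) := by
    have := (hf.smooth 0 ν).1.continuous.comp
      ((continuous_const (y := acc a)).add hU.grad_c1.continuous)
    simp only [Function.comp_def, add_zero, Pi.add_apply] at this
    exact this
  have h1 := Dom.abs_integral_sub (μ := kc V a)
    (gpath_integrable hcont.measurable fun x => gpath_abs_integral_le _ fun z => hM _)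
    (integrable_const (∫ z, f (acc a + GG (Uof V.1) t (c V a) + ν • z) ∂(gam d)))
    (fun x => (gpath_smooth hf ν _ _).trans (by
      rw [add_sub_add_left_eq_sub, norm_sub_rev]
      exact GG_sub_grad hU ht (c V a) x))
    ((dom_of_integrable m1 m2).add (dom_const _))
  rw [hk' V a f hf.measurable hf.2]
  simp only [hk₂' V _ f hf.measurable hf.2, hkn' V _ f hf.measurable, hkg', integral_dirac]
  simp only [integral_const, probReal_univ, one_smul] at h1
  refine h1.trans ?_
  have hb := hc.2 V a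
  have hn := norm_nonneg (c V a)
  have hd : (0 : ℝ) ≤ √d := Real.sqrt_nonneg _
  have h2 : P.h / √t * √d + 2 * (√d + ‖c V a‖) / √t ≤ 3 * √(1 / t) * b V a := by
    rw [one_div, Real.sqrt_inv, div_mul_eq_mul_div, ← add_div, mul_right_comm, ← div_eq_mul_inv]
    refine div_le_div_of_nonneg_right ?_ (by positivity)
    nlinarith
  linarith

theorem gpath (hS : StepErr P.K P.Cs) (M : ℕ) : ∀ (A : Type) [MeasurableSpace A] (t : ℝ)
    (c : VV d → A → E d) (b : VV d → A → ℝ) (acc : A → E d) (ν : ℝ), Ctx P d r t →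
    Arg P (r + 1) t c b → Measurable acc → 2 * M / (P.β (r + 1) ^ 2 * t) ≤ ν ^ 2 →
    Orc (fun V a => acc a + GG (Uof V.1) t (c V a)) ν
      (fun V a => (P.B (r + 1) * P.θ ^ r + 3 * √((1 - P.h ^ 2) ^ M / t) + M * P.loc r) *
        (1 + 32 * P.B (r + 1)) ^ M * (b V a + 24 * M * √d))
      ((2 * M + 1) * P.Sq (r + 1) * P.Q r + 1) := by
  induction M with
  | zero =>
    intro A _ t c b acc ν H hc hacc _
    simpa only [Nat.cast_zero, mul_zero, zero_mul, add_zero, zero_add, pow_zero, mul_one, one_mul]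
      using gpath_zero ν H hc hacc
  | succ M ih =>
    intro A _ t c b acc ν H hc hacc hν
    have ht := gpath_one_le H
    have hh := H.ok.h_pos
    have hh1 : 0 < 1 - P.h ^ 2 := by nlinarith
    have hβ := (H.ok.step r H.lt).β0
    have htt : t ≤ ta t P.h := ta_ge (by linarith) hh.1.le hh.2
    obtain ⟨κ, hκ⟩ : ∃ κ, κ = (P.β (r + 1) * √t)⁻¹ := ⟨_, rfl⟩
    have hκ2 : κ ^ 2 = 1 / (P.β (r + 1) ^ 2 * t) := by
      rw [hκ, inv_pow, mul_pow, Real.sq_sqrt (by linarith), one_div]
    have hν1 : 2 * M / (P.β (r + 1) ^ 2 * t) ≤ ν ^ 2 - 2 * κ ^ 2 := by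
      rw [hκ2, le_sub_iff_add_le]
      refine le_of_eq_of_le ?_ hν
      push_cast
      ring
    have hν2 : 2 * M / (P.β (r + 1) ^ 2 * ta t P.h) ≤ ν ^ 2 - 2 * κ ^ 2 :=
      le_trans (div_le_div_of_nonneg_left (by positivity) (by positivity)
        (mul_le_mul_of_nonneg_left htt (by positivity))) hν1
    have hν3 : 0 ≤ ν ^ 2 - 2 * κ ^ 2 := le_trans (by positivity) hν1
    obtain ⟨k₂, h₂, h₂'⟩ := ih _ _ _ _
      (fun a : A × ((E d × E d × E d) × E d) => acc a.1 + a.2.2) √(ν ^ 2 - 2 * κ ^ 2) H.next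
      (gpath_arg H hc) (by fun_prop) (by rwa [Real.sq_sqrt hν3])
    obtain ⟨k, hk, hk'⟩ := gpath_step H hS hc h₂
    refine ⟨k, hk.mono (le_of_eq (by ring)), fun V a f hf => ?_⟩
    have hU := pot_Uof V.2
    have hB := H.ok.B0 (r + 1)
    have hθ := H.ok.θ0
    have hloc := Par.loc_nonneg H.ok H.lt
    have e : (1 - P.h ^ 2) ^ M / ta t P.h = (1 - P.h ^ 2) ^ (M + 1) / t := by
      rw [ta, div_div_eq_mul_div, pow_succ _ M]
    rw [e] at h₂'
    obtain ⟨M₀, hM⟩ := hf.2
    have h := hk' V a f (fun x => ∫ z, f (acc a + x.2 + GG (Uof V.1) (ta t P.h) x.1 +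
        √(ν ^ 2 - 2 * κ ^ 2) • z) ∂(gam d)) 1 M₀ _ _ hf.measurable hM one_pos
      (fun x x' => (gpath_smooth hf _ _ _).trans (by
        have h1 := GG_lip hU zero_le_one (t := ta t P.h) (by linarith) x.1 x'.1
        rw [add_sub_add_comm, add_sub_add_left_eq_sub]
        linarith [norm_add_le (x.2 - x'.2)
          (GG (Uof V.1) (ta t P.h) x.1 - GG (Uof V.1) (ta t P.h) x'.1)]))
      (fun x => gpath_abs_integral_le _ fun z => hM _)
      (by positivity) (fun w => h₂' V (a, w) f hf)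
    have e2 : ∀ p ξ z : E d, acc a + (GG (Uof V.1) t (c V a) - GG (Uof V.1) (ta t P.h) p +
        κ • ξ + κ • z) + GG (Uof V.1) (ta t P.h) p
        = acc a + GG (Uof V.1) t (c V a) + κ • ξ + κ • z := fun p ξ z => by abel
    have e3 : √(ν ^ 2 - κ ^ 2) ^ 2 = κ ^ 2 + √(ν ^ 2 - 2 * κ ^ 2) ^ 2 := by
      rw [Real.sq_sqrt hν3, Real.sq_sqrt (by nlinarith [sq_nonneg κ])]
      ring
    have e4 : ν ^ 2 = κ ^ 2 + √(ν ^ 2 - κ ^ 2) ^ 2 := by
      rw [Real.sq_sqrt (by nlinarith [sq_nonneg κ])]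
      ring
    have := qq_prob hU (t := t) (by linarith) (c V a) P.h
    simp only [← hκ, e2, integral_gam_add hf.measurable hM _ e3,
      integral_gam_add hf.measurable hM _ e4, integral_const, probReal_univ, one_smul,
      one_mul] at h
    have hb : 0 ≤ b V a := le_trans (by positivity) (hc.2 V a)
    exact h.trans (path_arith hB.le (by positivity) hloc hb (by positivity))

/-- Strong induction on `r`: level `0` is `orc_crude` (`GG_norm'`); level `r+1` is `gpath` with
`M = N`, `acc = 0`, using `noise`, `budget`, `Qrec`, `√d ≤ b`, `t ≥ 1`. -/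
theorem call_ok (hP : ParOK P) (hS : StepErr P.K P.Cs) (d : ℕ) : ∀ r ≤ P.r0, CallOK P d r := by
  intro r
  induction r using Nat.strong_induction_on with
  | h r ih =>
    intro hr A _ t c b ht hc
    have ht1 : 1 ≤ t := by linarith [hP.T2]
    rcases r with _ | r
    · refine (orc_crude _ fun V a => ?_).mono le_rfl (fun _ _ => le_rfl) (Nat.zero_le _)
      rw [pow_zero, one_mul]
      exact (GG_norm' (pot_Uof V.2) ht1 _).trans (hc.2 V a)
    · have H : Ctx P d r t := ⟨hP, hr, fun j hj => ih j (by omega) (by omega), ht⟩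
      have hβ := (hP.step r hr).β0
      have h := gpath hS P.N A t c b (fun _ => 0) (P.ς (r + 1) / √t) H hc measurable_const (by
        rw [div_pow, Real.sq_sqrt (by linarith), ← div_div]
        exact div_le_div_of_nonneg_right (hP.noise r hr) (by linarith))
      refine (h.congr fun V a => (zero_add _).symm).mono le_rfl (fun V a => ?_) (hP.Qrec r hr)
      have hh := hP.h_pos
      have hh1 : 0 < 1 - P.h ^ 2 := by nlinarith
      have hB := hP.B0 (r + 1)
      have hθ := hP.θ0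
      have hloc := Par.loc_nonneg hP (r := r) hr
      have hb := hc.2 V a
      have hn := norm_nonneg (c V a)
      have hd : (0 : ℝ) ≤ √d := Real.sqrt_nonneg _
      have hN : (0 : ℝ) ≤ P.N := Nat.cast_nonneg _
      have hb0 : 0 ≤ b V a := by linarith
      have h1 : √((1 - P.h ^ 2) ^ P.N / t) ≤ √((1 - P.h ^ 2) ^ P.N) :=
        Real.sqrt_le_sqrt (div_le_self (by positivity) ht1)
      have h2 : b V a + 24 * P.N * √d ≤ (1 + 24 * P.N) * b V a := by nlinarith
      calc _ ≤ (P.B (r + 1) * P.θ ^ r + 3 * √((1 - P.h ^ 2) ^ P.N) + P.N * P.loc r) *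
            (1 + 32 * P.B (r + 1)) ^ P.N * ((1 + 24 * P.N) * b V a) := by
            gcongr
        _ ≤ _ := by
            rw [← mul_assoc]
            exact mul_le_mul_of_nonneg_right (hP.budget r hr) (by linarith)

end

end Crest.Agent.R285
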