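import Crest.Agent.R285.OneStep

/-!
# R285/GPathA: common part of the path inductions (`gpath`, `xpath`)
-/

set_option autoImplicit false

namespace Crest.Agent.R285

open MeasureTheory ProbabilityTheory Crest.OracleSampling Set
open scoped RealInnerProductSpace ContDiff

noncomputable section

variable {d : ℕ} {P : Par} {r : ℕ}

theorem gpath_integrable {W : Type} [MeasurableSpace W] {μ : Measure W} [IsProbabilityMeasure μ]
    {F : W → ℝ} (hF : Measurable F) {M : ℝ} (hM : ∀ w, |F w| ≤ M) : Integrable F μ :=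
  Integrable.of_bound hF.aestronglyMeasurable M (Filter.Eventually.of_forall hM)

theorem gpath_abs_integral_le {W : Type} [MeasurableSpace W] (μ : Measure W)
    [IsProbabilityMeasure μ] {F : W → ℝ} {M : ℝ} (hM : ∀ w, |F w| ≤ M) : |∫ w, F w ∂μ| ≤ M := by
  simpa using norm_integral_le_of_norm_le_const (μ := μ) (f := F) (C := M)
    (Filter.Eventually.of_forall hM)

/-- adding Gaussian noise to a known vector -/
theorem gpath_noise {A : Type} [MeasurableSpace A] {x : A → E d} (hx : Measurable x) (ν : ℝ) :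
    ∃ k : VV d → Kernel A (E d), Impl 0 k ∧ ∀ V a (f : E d → ℝ), Measurable f →
      ∫ y, f y ∂(k V a) = ∫ z, f (x a + ν • z) ∂(gam d) := by
  obtain ⟨k, hk, hk'⟩ := (impl_const (d := d) (A := A) (gam d)).mapA
    (g := fun p : A × E d => x p.1 + ν • p.2) (by fun_prop)
  refine ⟨k, hk, fun V a f hf => ?_⟩
  rw [hk', Kernel.const_apply, integral_map (by fun_prop) hf.aestronglyMeasurable]

/-- the oracle of the centre at level `r` -/
theorem gpath_centre {A : Type} [MeasurableSpace A] {t : ℝ} (H : Ctx P d r t) {c : VV d → A → E d}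
    {b : VV d → A → ℝ} (hc : Arg P (r + 1) t c b) :
    Orc c (P.h / √t) (fun V a => P.B (r + 1) * P.θ ^ r * b V a) (P.Sq (r + 1) * P.Q r) := by
  have h := hc.1 r (Nat.lt_succ_self r)
  rwa [Nat.add_sub_cancel, div_mul_cancel₀ _ (H.ok.ς0 r).ne'] at h

theorem gpath_one_le {t : ℝ} (H : Ctx P d r t) : 1 ≤ t := by linarith [H.ok.T2, H.ht]

theorem gpath_arg {A : Type} [MeasurableSpace A] {t : ℝ} (H : Ctx P d r t) {c : VV d → A → E d}
    {b : VV d → A → ℝ} (hc : Arg P (r + 1) t c b) :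
    Arg P (r + 1) (ta t P.h)
      (fun V (a : A × ((E d × E d × E d) × E d)) =>
        newC P.K P.h (P.β (r + 1)) (P.lam (r + 1)) (Uof V.1) t (c V a.1) a.2.1)
      (fun V a => b1 (P.B (r + 1)) (b V a.1) (c V a.1) a.2.1) :=
  (units H hc).1.comap (g := fun a : A × ((E d × E d × E d) × E d) => (a.1, a.2.1)) (by fun_prop)

/-- One step followed by the rest of the path. -/
theorem gpath_step {A : Type} [MeasurableSpace A] {t : ℝ} (H : Ctx P d r t) (hS : StepErr P.K P.Cs)
    {c : VV d → A → E d} {b : VV d → A → ℝ} (hc : Arg P (r + 1) t c b) {q₂ : ℕ}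
    {k₂ : VV d → Kernel (A × ((E d × E d × E d) × E d)) (E d)} (h₂ : Impl q₂ k₂) :
    ∃ k : VV d → Kernel A (E d), Impl (2 * (P.Sq (r + 1) * P.Q r) + q₂) k ∧
      ∀ V a (f : E d → ℝ) (Φ : E d × E d → ℝ) (Λ M C s : ℝ), Measurable f → (∀ x, |f x| ≤ M) →
        0 < Λ → (∀ x x', |Φ x - Φ x'| ≤ Λ * (‖x.1 - x'.1‖ + ‖x.2 - x'.2‖)) → (∀ x, |Φ x| ≤ M) →
        0 ≤ C → (∀ w, |∫ x, f x ∂(k₂ V (a, w)) -
          Φ (newC P.K P.h (P.β (r + 1)) (P.lam (r + 1)) (Uof V.1) t (c V a) w.1, w.2)| ≤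
            C * (b1 (P.B (r + 1)) (b V a) (c V a) w.1 + s)) →
        |∫ x, f x ∂(k V a) -
          ∫ p, ∫ ξ, ∫ z, Φ (p, GG (Uof V.1) t (c V a) - GG (Uof V.1) (ta t P.h) p +
              (P.β (r + 1) * √t)⁻¹ • ξ + (P.β (r + 1) * √t)⁻¹ • z)
            ∂(gam d) ∂(gam d) ∂(qq (Uof V.1) t (c V a) P.h)| ≤
          C * ((1 + 32 * P.B (r + 1)) * (b V a + 24 * √d) + s) +
            Λ * P.loc r * ((1 + 32 * P.B (r + 1)) * (b V a + 24 * √d)) := by
  obtain ⟨k₁, h₁, hm, he⟩ := one_step H hS hc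
  obtain ⟨k, hk, hk'⟩ := h₁.bind h₂
  refine ⟨k, hk, fun V a f Φ Λ M C s hf hM hΛ hΦ hΦM hC hw => ?_⟩
  have := h₁.markov V
  have hΦc : Continuous Φ := by
    refine (LipschitzWith.of_dist_le_mul (K := ⟨2 * Λ, by positivity⟩) fun x x' => ?_).continuous
    refine (hΦ x x').trans ?_
    have e1 : ‖x.1 - x'.1‖ ≤ dist x x' := by rw [← dist_eq_norm]; exact le_max_left _ _
    have e2 : ‖x.2 - x'.2‖ ≤ dist x x' := by rw [← dist_eq_norm]; exact le_max_right _ _
    change _ ≤ 2 * Λ * dist x x'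
    nlinarith
  have hN := (step_continuous (pot_Uof V.2) (gpath_one_le H) (H.ok.step r H.lt) (c V a)).1
  have h3 := Dom.abs_integral_sub (μ := k₁ V a)
    (gpath_integrable ((h₂.measurable_integral V hf).comp measurable_prodMk_left)
      (fun w => h₂.abs_integral_le V hM (a, w)))
    (gpath_integrable (F := fun w : (E d × E d × E d) × E d =>
      Φ (newC P.K P.h (P.β (r + 1)) (P.lam (r + 1)) (Uof V.1) t (c V a) w.1, w.2))
      (hΦc.comp ((hN.comp continuous_fst).prodMk continuous_snd)).measurable (fun w => hΦM _))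
    hw (((dom_of_integrable (hm V a).1 (hm V a).2).add (dom_const s)).const_mul hC)
  rw [hk' V a f hf ⟨M, hM⟩]
  exact (abs_sub_le _ _ _).trans (add_le_add h3 (he V a Φ Λ M hΛ hΦ hΦM))

end

end Crest.Agent.R285
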