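import Crest.Agent.R285.True

/-!
# R285/HVP: Lipschitz bounds and consistency of `HVP`
-/

set_option autoImplicit false

namespace Crest.Agent.R285

open MeasureTheory ProbabilityTheory Crest.OracleSampling Set
open scoped RealInnerProductSpace ContDiff

noncomputable section

variable {d : ℕ} {U : E d → ℝ}

theorem ta_ge {t a : ℝ} (ht : 0 ≤ t) (ha0 : 0 ≤ a) (ha : a ≤ 1 / 2) : t ≤ ta t a := by
  unfold ta
  rw [le_div_iff₀ (by nlinarith)]
  nlinarith [mul_nonneg ht (sq_nonneg a)]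

theorem ta_le {t a : ℝ} (ht : 0 ≤ t) (ha0 : 0 ≤ a) (ha : a ≤ 1 / 2) : ta t a ≤ 4 / 3 * t := by
  unfold ta
  rw [div_le_iff₀ (by nlinarith)]
  nlinarith [mul_nonneg ht (show 0 ≤ 1 / 4 - a ^ 2 by nlinarith)]

theorem sqrt_ta {t a : ℝ} (ht : 0 < t) (ha0 : 0 ≤ a) (ha : a ≤ 1 / 2) :
    (√(ta t a))⁻¹ = √(1 - a ^ 2) * (√t)⁻¹ := by
  unfold ta
  rw [Real.sqrt_div ht.le, inv_div, div_eq_mul_inv]

theorem half_le_sqrt {a : ℝ} (ha0 : 0 ≤ a) (ha : a ≤ 1 / 2) :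
    1 / 2 ≤ √(1 - a ^ 2) ∧ √(1 - a ^ 2) ≤ 1 := by
  refine ⟨Real.le_sqrt_of_sq_le (by nlinarith), Real.sqrt_le_one.2 (by nlinarith)⟩

theorem node_lip (hU : Pot d 1 U) {t a : ℝ} (ht : 0 < t) (ha0 : 0 ≤ a) (ha : a ≤ 1 / 2)
    (c c' u u' : E d) : ‖node U t c a u - node U t c' a u'‖ ≤ ‖c - c'‖ + a * ‖u - u'‖ := by
  have h1 := GG_lip hU zero_le_one (ht.trans_le (ta_ge ht.le ha0 ha)) (c + a • u) (c' + a • u')
  unfold node
  refine h1.trans ?_
  rw [one_mul, show c + a • u - (c' + a • u') = (c - c') + a • (u - u') by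
    rw [smul_sub]; abel]
  refine (norm_add_le _ _).trans ?_
  rw [norm_smul, Real.norm_of_nonneg ha0]

theorem node_continuous (hU : Pot d 1 U) {t a : ℝ} (ht : 0 < t) (ha0 : 0 ≤ a) (ha : a ≤ 1 / 2) :
    Continuous fun p : E d × E d => node U t p.1 a p.2 := by
  unfold node
  exact (GG_smooth hU zero_le_one (ht.trans_le (ta_ge ht.le ha0 ha))).continuous.comp
    (by fun_prop)

theorem hvp_node_mem (K : ℕ) {h : ℝ} (h0 : 0 < h) (l : Fin (K + 1)) :
    0 ≤ sg K l * h ∧ sg K l * h ≤ h :=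
  ⟨mul_nonneg (sg_pos K l).le h0.le, mul_le_of_le_one_left h0.le (sg_le_one K l)⟩

theorem hvp_fld_lip (hU : Pot d 1 U) (K : ℕ) {t h : ℝ} (ht : 1 ≤ t) (h0 : 0 < h) (h1 : h ≤ 1 / 2)
    (c c' : E d) (l : Fin (K + 1)) (Y Y' : E d) :
    ‖(-t⁻¹) • node U t c (sg K l * h) Y - (-t⁻¹) • node U t c' (sg K l * h) Y'‖ ≤
      ‖c - c'‖ + h * ‖Y - Y'‖ := by
  have ht0 : 0 < t := by linarith
  obtain ⟨k0, k1⟩ := hvp_node_mem K h0 l
  have k2 := node_lip hU ht0 k0 (k1.trans h1) c c' Y Y'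
  rw [← smul_sub, norm_smul, norm_neg, Real.norm_of_nonneg (inv_pos.2 ht0).le]
  have k3 : t⁻¹ ≤ 1 := inv_le_one_of_one_le₀ ht
  have k4 := mul_le_mul_of_nonneg_right k1 (norm_nonneg (Y - Y'))
  calc _ ≤ 1 * ‖node U t c (sg K l * h) Y - node U t c' (sg K l * h) Y'‖ :=
        mul_le_mul_of_nonneg_right k3 (norm_nonneg _)
    _ ≤ _ := by linarith

theorem hvp_sum_le (K : ℕ) {h B : ℝ} (h0 : 0 < h) (hB : 0 ≤ B) {x y : Fin (K + 1) → E d}
    (hx : ∀ l, ‖x l - y l‖ ≤ B) :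
    ‖∑ l, (h⁻¹ * dw K l) • x l - ∑ l, (h⁻¹ * dw K l) • y l‖ ≤ WW K / h * B := by
  rw [← Finset.sum_sub_distrib]
  refine (norm_sum_le _ _).trans ?_
  calc _ ≤ ∑ l, h⁻¹ * B * |dw K l| := by
        refine Finset.sum_le_sum fun l _ => ?_
        rw [← smul_sub, norm_smul, Real.norm_eq_abs, abs_mul, abs_of_pos (inv_pos.2 h0)]
        have := mul_le_mul_of_nonneg_left (hx l)
          (mul_nonneg (inv_pos.2 h0).le (abs_nonneg (dw K l)))
        linarith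
    _ = h⁻¹ * B * ∑ l, |dw K l| := by rw [Finset.mul_sum]
    _ ≤ h⁻¹ * B * WW K :=
        mul_le_mul_of_nonneg_left (sum_abs_dw_le K) (mul_nonneg (inv_pos.2 h0).le hB)
    _ = _ := by ring

/-- With `x_n = ‖Δc‖ + h max_l ‖ΔY_n l‖`: `x_{n+1} ≤ x_0 + h² W x_n` (`picard_lip` with
`D = ‖Δc‖`, `L = h`). -/
theorem hvp_lip (hU : Pot d 1 U) {K : ℕ} {t h : ℝ} (ht : 1 ≤ t) (h0 : 0 < h) (h1 : h ≤ 1 / 2)
    (hW : 2 * WW K * h ≤ 1) (c c' v v' : E d) :
    ‖HVP K h U t c v - HVP K h U t c' v'‖ ≤ 2 * WW K / h * (‖c - c'‖ + h * ‖v - v'‖) := by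
  have ht0 : 0 < t := by linarith
  have hW1 := one_le_WW K
  have hP := picard_lip K (f := fun a u => (-t⁻¹) • node U t c a u)
    (f' := fun a u => (-t⁻¹) • node U t c' a u) v v' h0 h0.le (norm_nonneg (c - c'))
    (hvp_fld_lip hU K ht h0 h1 c c') (by nlinarith) K
  unfold HVP
  refine (hvp_sum_le K (B := 2 * (‖c - c'‖ + h * ‖v - v'‖)) h0 (by positivity) fun l => ?_).trans
    (le_of_eq (by ring))
  obtain ⟨k0, k1⟩ := hvp_node_mem K h0 l
  refine (node_lip hU ht0 k0 (k1.trans h1) _ _ _ _).trans ?_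
  have k2 := mul_le_mul k1 (hP l) (norm_nonneg _) h0.le
  have k3 : h * (2 * WW K * h) * ‖c - c'‖ ≤ 1 * ‖c - c'‖ :=
    mul_le_mul_of_nonneg_right (by nlinarith) (norm_nonneg _)
  nlinarith

theorem hvp_continuous (hU : Pot d 1 U) {K : ℕ} {t h : ℝ} (ht : 1 ≤ t) (h0 : 0 < h)
    (h1 : h ≤ 1 / 2) (hW : 2 * WW K * h ≤ 1) :
    Continuous fun p : E d × E d => HVP K h U t p.1 p.2 := by
  have hW1 := one_le_WW K
  refine (LipschitzWith.of_dist_le' (K := 2 * WW K / h * (1 + h)) fun p p' => ?_).continuous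
  rw [dist_eq_norm, dist_eq_norm]
  refine (hvp_lip hU ht h0 h1 hW _ _ _ _).trans ?_
  rw [mul_assoc (2 * WW K / h)]
  refine mul_le_mul_of_nonneg_left ?_ (by positivity)
  have k1 : ‖p.1 - p'.1‖ ≤ ‖p - p'‖ := norm_fst_le (p - p')
  have k2 : ‖p.2 - p'.2‖ ≤ ‖p - p'‖ := norm_snd_le (p - p')
  nlinarith

theorem hvp_pt (hU : Pot d 1 U) {K : ℕ} (hK : 1 ≤ K) {t h q C : ℝ} {c : E d} (ht : 1 ≤ t)
    (h0 : 0 < h) (hq : h ≤ q) (hq1 : q ≤ 1 / 2) (hW : 2 * WW K * h ≤ 1)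
    (F : TrueFlow U t c 0 (K + 1) C) (z : E d × E d) :
    ‖HVP K h U t c ((√t)⁻¹ • z.1) - AA U t c ((√t)⁻¹ • z.1)‖ ≤
      WW K * q ^ K * (∫ a in (0 : ℝ)..h, ‖F.gG z 0 a‖) +
        (2 * WW K ^ 2 * h ^ (K + 1) + WW K * h ^ (K - 1)) *
          ∫ a in (0 : ℝ)..h, ‖F.gG z (K + 1) a‖ := by
  have ht0 : 0 < t := by linarith
  have h1 : h ≤ 1 / 2 := hq.trans hq1
  have hW1 := one_le_WW K
  have hti : t⁻¹ ≤ 1 := inv_le_one_of_one_le₀ ht
  have hg : Chain (1 / 2) (fun k a => (-t⁻¹) • F.gG z k a) := fun k a ha =>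
    (F.cG z k a ha).const_smul (-t⁻¹)
  have hy : ∀ a ∈ Icc (0 : ℝ) (1 / 2), HasDerivWithinAt (fun a => (F.y z a).1)
      ((-t⁻¹) • F.gG z 0 a) (Icc 0 (1 / 2)) a := by
    intro a ha
    have := (ContinuousLinearMap.fst ℝ (E d) (E d)).hasFDerivAt.comp_hasDerivWithinAt a
      (F.dy z a ha)
    simpa [Function.comp_def] using this
  have hI : ∀ k, (∫ a in (0 : ℝ)..h, ‖(-t⁻¹) • F.gG z k a‖) ≤ ∫ a in (0 : ℝ)..h, ‖F.gG z k a‖ := by
    intro k
    simp only [norm_smul, norm_neg, Real.norm_of_nonneg (inv_pos.2 ht0).le]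
    rw [intervalIntegral.integral_const_mul]
    exact mul_le_of_le_one_left
      (intervalIntegral.integral_nonneg h0.le fun _ _ => norm_nonneg _) hti
  have hI0 : ∀ k, 0 ≤ ∫ a in (0 : ℝ)..h, ‖F.gG z k a‖ := fun k =>
    intervalIntegral.integral_nonneg h0.le fun _ _ => norm_nonneg _
  have hP : ∀ m, ‖picard K h (fun a u => (-t⁻¹) • node U t c a u) ((√t)⁻¹ • z.1) K m -
      (F.y z (sg K m * h)).1‖ ≤ q ^ K * (∫ a in (0 : ℝ)..h, ‖F.gG z 0 a‖) +
        2 * (WW K * h ^ (K + 1) * ∫ a in (0 : ℝ)..h, ‖F.gG z (K + 1) a‖) := by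
    intro m
    have k := picard_err K (f := fun a u => (-t⁻¹) • node U t c a u)
      (y := fun a => (F.y z a).1) (L := h) (q := q) hg hy h0 h1 h0.le
      (fun l Y Y' => by simpa using hvp_fld_lip hU K ht h0 h1 c c l Y Y') (by nlinarith) hq1 K m
    have k0 : ∑ l, ‖(-t⁻¹) • node U t c (sg K l * h) (F.y z (sg K l * h)).1 -
        (-t⁻¹) • F.gG z 0 (sg K l * h)‖ = 0 := by
      refine Finset.sum_eq_zero fun l _ => ?_
      obtain ⟨j0, j1⟩ := hvp_node_mem K h0 l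
      rw [F.eG z _ ⟨j0, j1.trans h1⟩, sub_self, norm_zero]
    simp only [k0, mul_zero, add_zero, F.y0 z, Prod.smul_fst] at k
    refine k.trans (add_le_add ?_ ?_)
    · exact mul_le_mul_of_nonneg_left (hI 0) (pow_nonneg (h0.le.trans hq) _)
    · exact mul_le_mul_of_nonneg_left (mul_le_mul_of_nonneg_left (hI _) (by positivity))
        zero_le_two
  have hD := diff_err hK (F.cG z) h0 h1
  rw [F.d1 z] at hD
  have hq0 : 0 ≤ q := h0.le.trans hq
  have hS := hvp_sum_le K (B := h * (q ^ K * (∫ a in (0 : ℝ)..h, ‖F.gG z 0 a‖) +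
        2 * (WW K * h ^ (K + 1) * ∫ a in (0 : ℝ)..h, ‖F.gG z (K + 1) a‖))) h0
    (by have := hI0 0; have := hI0 (K + 1); positivity)
    (x := fun l => node U t c (sg K l * h)
      (picard K h (fun a u => (-t⁻¹) • node U t c a u) ((√t)⁻¹ • z.1) K l))
    (y := fun l => F.gG z 0 (sg K l * h)) (fun l => by
      obtain ⟨j0, j1⟩ := hvp_node_mem K h0 l
      rw [F.eG z _ ⟨j0, j1.trans h1⟩]
      refine (node_lip hU ht0 j0 (j1.trans h1) _ _ _ _).trans ?_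
      rw [sub_self, norm_zero, zero_add]
      exact mul_le_mul j1 (hP l) (norm_nonneg _) h0.le)
  unfold HVP
  rw [norm_sub_rev] at hD
  refine (norm_sub_le_norm_sub_add_norm_sub _ _ _).trans ((add_le_add hS hD).trans (le_of_eq ?_))
  field_simp
  ring

/-- Use `true_flow (K+1)` with `β = 0`: `u = (y z ·).1` solves `u' = -t⁻¹ gG 0`, so `picard_err`
(contraction `h W h ≤ q`, no defect in the field) and `diff_err` bound the error pointwise by
`W (q^K ∫‖gG 0‖ + 2 W h^{K+1} ∫‖gG (K+1)‖) + W h^{K-1} ∫‖gG (K+1)‖`.  The error depends on `z.1` only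
and is continuous, so pass from `gam ⊗ gam` to `gam` with `Dom.integrable`. -/
theorem hvp_err {K : ℕ} (hK : 1 ≤ K) : ∃ C : ℝ, 0 ≤ C ∧ ∀ (d : ℕ) (U : E d → ℝ), Pot d 1 U →
    ∀ (t h q : ℝ) (c : E d), 1 ≤ t → 0 < h → h ≤ q → q ≤ 1 / 2 → 2 * WW K * h ≤ 1 →
    Dom (gam d) (fun z => ‖HVP K h U t c ((√t)⁻¹ • z) - AA U t c ((√t)⁻¹ • z)‖)
      (C * q ^ K * (√d + ‖c‖)) := by
  obtain ⟨C, hC, H⟩ := true_flow (K + 1)
  have hW1 := one_le_WW K
  refine ⟨C * (2 * WW K + 2 * WW K ^ 2), by positivity,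
    fun d U hU t h q c ht h0 hq hq1 hW => ?_⟩
  obtain ⟨F⟩ := H d U hU t c 0 ht le_rfl zero_le_one
  have ht0 : 0 < t := by linarith
  have h1 : h ≤ 1 / 2 := hq.trans hq1
  have hq0 : 0 ≤ q := h0.le.trans hq
  have hb : ∀ k ≤ K + 1, Dom ((gam d).prod (gam d))
      (fun z => ∫ a in (0 : ℝ)..h, ‖F.gG z k a‖) (C * h * (√d + ‖c‖)) := by
    intro k hk
    refine (F.bd k hk h ⟨h0.le, h1⟩).mono (fun z => ?_) le_rfl
    have hc : ∀ {g : ℕ → ℝ → E d}, Chain (1 / 2) g →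
        IntervalIntegrable (fun a => ‖g k a‖) volume 0 h := fun hg =>
      (((hg.continuousOn k).mono (Icc_subset_Icc_right h1)).norm).intervalIntegrable_of_Icc h0.le
    refine intervalIntegral.integral_mono_on h0.le (hc (F.cG z))
      (((hc (F.cG z)).add (hc (F.cA z))).add (hc (F.cS z))) fun a _ => ?_
    have := norm_nonneg (F.gA z k a)
    have := norm_nonneg (F.gS z k a)
    linarith
  have hcont : Continuous fun z : E d =>
      ‖HVP K h U t c ((√t)⁻¹ • z) - AA U t c ((√t)⁻¹ • z)‖ := by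
    refine Continuous.norm (Continuous.sub ?_ (by fun_prop))
    exact (hvp_continuous hU ht h0 h1 hW).comp (f := fun z : E d => (c, (√t)⁻¹ • z))
      (by fun_prop)
  have hd : Dom ((gam d).prod (gam d))
      (fun z => ‖HVP K h U t c ((√t)⁻¹ • z.1) - AA U t c ((√t)⁻¹ • z.1)‖)
      (C * (2 * WW K + 2 * WW K ^ 2) * q ^ K * (√d + ‖c‖)) := by
    refine (((hb 0 (Nat.zero_le _)).const_mul (c := WW K * q ^ K) (by positivity)).add
      ((hb (K + 1) le_rfl).const_mul (c := 2 * WW K ^ 2 * h ^ (K + 1) + WW K * h ^ (K - 1))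
        (by positivity))).mono (fun z => hvp_pt hU hK ht h0 hq hq1 hW F z) ?_
    have e1 : h ^ (K - 1) * h ≤ q ^ K := by
      rw [← pow_succ, Nat.sub_add_cancel hK]
      exact pow_le_pow_left₀ h0.le hq K
    have e2 : h ^ (K + 1) * h ≤ q ^ K := by
      have : h ^ (K + 1) * h = h ^ K * (h * h) := by ring
      rw [this]
      calc _ ≤ h ^ K * 1 := mul_le_mul_of_nonneg_left (by nlinarith) (by positivity)
        _ ≤ _ := by rw [mul_one]; exact pow_le_pow_left₀ h0.le hq K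
    have e3 : q ^ K * h ≤ q ^ K := mul_le_of_le_one_right (by positivity) (by linarith)
    have e4 : WW K * (q ^ K * h) + 2 * WW K ^ 2 * (h ^ (K + 1) * h) + WW K * (h ^ (K - 1) * h) ≤
        WW K * q ^ K + 2 * WW K ^ 2 * q ^ K + WW K * q ^ K := by gcongr
    have e5 := mul_le_mul_of_nonneg_left e4 (show 0 ≤ C * (√d + ‖c‖) by positivity)
    calc _ = C * (√d + ‖c‖) * (WW K * (q ^ K * h) + 2 * WW K ^ 2 * (h ^ (K + 1) * h) +
          WW K * (h ^ (K - 1) * h)) := by ring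
      _ ≤ _ := e5
      _ = _ := by ring
  obtain ⟨k1, k2⟩ := hd.integrable (hcont.comp continuous_fst).aestronglyMeasurable
    fun z => norm_nonneg _
  have mp : MeasurePreserving (Prod.fst : E d × E d → E d) ((gam d).prod (gam d)) (gam d) :=
    measurePreserving_fst
  refine dom_of_integrable ((mp.integrable_comp hcont.aestronglyMeasurable).1 k1) ?_
  have k3 := integral_map (μ := (gam d).prod (gam d)) measurable_fst.aemeasurable
    (hcont.aestronglyMeasurable (μ := ((gam d).prod (gam d)).map Prod.fst))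
  rw [mp.map_eq] at k3
  rw [k3]
  exact k2

end

end Crest.Agent.R285
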