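import Crest.Agent.R285.KK

/-!
# R285/Scale: rescaling `z ↦ √t z` and identification of the target law
-/

set_option autoImplicit false

namespace Crest.Agent.R285

open MeasureTheory ProbabilityTheory Crest.OracleSampling Set
open scoped RealInnerProductSpace ContDiff

noncomputable section

variable {d : ℕ} {δ : ℝ} {W : E d → ℝ}

theorem scale_map_withDensity {α β : Type} [MeasurableSpace α] [MeasurableSpace β] {e : α → β}
    (he : MeasurableEmbedding e) (μ : Measure α) (f : β → ENNReal) :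
    (μ.withDensity fun x => f (e x)).map e = (μ.map e).withDensity f := by
  ext s hs
  rw [he.map_apply, withDensity_apply _ hs, withDensity_apply _ (he.measurable hs),
    he.restrict_map, he.lintegral_map]

theorem scale_emb {r : ℝ} (hr : r ≠ 0) : MeasurableEmbedding fun z : E d => r • z :=
  measurableEmbedding_const_smul₀ hr

theorem dens_resc {t : ℝ} (ht : 0 < t) (θ : ℝ) (c z : E d) :
    dens (resc W t) θ (√t • c) (√t • z) = dens W (t * θ) c z := by
  have h0 : √t ≠ 0 := (Real.sqrt_pos.2 ht).ne'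
  unfold dens resc
  rw [← smul_sub, norm_smul, mul_pow, Real.norm_eq_abs, sq_abs, Real.sq_sqrt ht.le, smul_smul,
    inv_mul_cancel₀ h0, one_smul]
  congr 1
  ring

theorem Zc_resc {t : ℝ} (ht : 0 < t) (θ : ℝ) (c : E d) :
    Zc (resc W t) θ (√t • c) = √t ^ d * Zc W (t * θ) c := by
  have h0 : 0 < √t := Real.sqrt_pos.2 ht
  have h := Measure.integral_comp_smul (volume : Measure (E d)) (dens (resc W t) θ (√t • c)) √t
  simp only [dens_resc ht, finrank_euclideanSpace_fin, smul_eq_mul] at h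
  unfold Zc
  rw [h, abs_of_pos (by positivity), ← mul_assoc, mul_inv_cancel₀ (by positivity), one_mul]

theorem mu_resc (hW : Pot d δ W) {t : ℝ} (ht : 0 < t) {θ : ℝ} (hθ : 0 < θ) (c : E d) :
    mu (resc W t) θ (√t • c) = (mu W (t * θ) c).map (fun z => √t • z) := by
  have h0 : 0 < √t := Real.sqrt_pos.2 ht
  have hp : 0 < √t ^ d := by positivity
  have hZ := Zc_pos hW (mul_pos ht hθ) c
  have h := scale_map_withDensity (scale_emb (d := d) h0.ne') volume
    (fun z => ENNReal.ofReal (dens (resc W t) θ (√t • c) z / Zc W (t * θ) c))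
  simp only [dens_resc ht] at h
  unfold mu
  rw [h, Measure.map_addHaar_smul _ h0.ne', withDensity_smul_measure,
    ← withDensity_smul' _ _ ENNReal.ofReal_ne_top, finrank_euclideanSpace_fin,
    abs_of_pos (inv_pos.2 hp)]
  congr 1
  funext z
  rw [Pi.smul_apply, smul_eq_mul, ← ENNReal.ofReal_mul (inv_pos.2 hp).le, Zc_resc ht]
  congr 1
  field_simp

theorem GG_resc (hW : Pot d δ W) (hδ : 0 ≤ δ) {t : ℝ} (ht : 0 < t) {θ : ℝ} (hθ : 0 < θ) (c : E d) :
    GG (resc W t) θ (√t • c) = (√t)⁻¹ • GG W (t * θ) c := by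
  have h0 : √t ≠ 0 := (Real.sqrt_pos.2 ht).ne'
  unfold GG
  rw [mu_resc hW ht hθ, (scale_emb h0).integral_map, ← integral_smul]
  congr 1
  funext z
  rw [hW.gradient_resc ht, smul_smul, inv_mul_cancel₀ h0, one_smul]

theorem AA_resc (hW : Pot d δ W) (hδ : 0 ≤ δ) {t : ℝ} (ht : 0 < t) {θ : ℝ} (hθ : 0 < θ) (c : E d) :
    AA (resc W t) θ (√t • c) = t⁻¹ • AA W (t * θ) c := by
  have h0 : √t ≠ 0 := (Real.sqrt_pos.2 ht).ne'
  have h : (fun c => GG (resc W t) θ (√t • c)) = (√t)⁻¹ • GG W (t * θ) :=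
    funext fun c => GG_resc hW hδ ht hθ c
  have h1 := fderiv_comp_smul (𝕜 := ℝ) (f := GG (resc W t) θ) (x := c) √t
  rw [h, fderiv_const_smul_field, Pi.smul_apply] at h1
  unfold AA
  have h2 : t⁻¹ = (√t)⁻¹ * (√t)⁻¹ := by rw [← mul_inv, Real.mul_self_sqrt ht.le]
  rw [h2, mul_smul, h1, smul_smul, inv_mul_cancel₀ h0, one_smul]

theorem qq_resc (hW : Pot d δ W) {t : ℝ} (ht : 0 < t) (c : E d) (a : ℝ) :
    qq (resc W t) 1 (√t • c) a = (qq W t c a).map (fun z => √t • z) := by
  have h0 : √t ≠ 0 := (Real.sqrt_pos.2 ht).ne'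
  have := mu_prob hW ht c
  have hm : Measurable fun z : E d => √t • z := (scale_emb h0).measurable
  have h : ((mu W t c).map fun z => √t • z).prod (gam d) =
      ((mu W t c).prod (gam d)).map (Prod.map (fun z => √t • z) id) := by
    rw [← Measure.map_prod_map _ _ hm measurable_id, Measure.map_id]
  unfold qq
  rw [mu_resc hW ht one_pos, mul_one, h, Measure.map_map (by fun_prop) (hm.prodMap measurable_id),
    Measure.map_map hm (by fun_prop)]
  congr 1
  funext w
  simp only [Function.comp_apply, Prod.map_fst, Prod.map_snd, id, Real.sqrt_one, div_one, smul_add,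
    smul_sub, smul_smul]
  rw [mul_comm √t (a ^ 2), mul_div_cancel₀ _ h0]

theorem target_eq {V : E d → ℝ} (hV : Admissible d V) : target d V = mu (Uof V) 1 0 := by
  have hW := pot_Uof hV
  have hZ := Zc_pos hW one_pos (0 : E d)
  have e : ∀ z, dens (Uof V) 1 0 z = Real.exp (-V z) := fun z => by
    unfold dens Uof
    congr 1
    rw [sub_zero]
    ring
  have hi : Integrable fun z => Real.exp (-V z) := by
    simpa [e] using integrable_dens hW one_pos (pg_const 1) (0 : E d)
  have hZ' : Zc (Uof V) 1 0 = ∫ z, Real.exp (-V z) := by simp only [Zc, e]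
  unfold target mu
  simp only [e]
  rw [withDensity_apply _ MeasurableSet.univ, Measure.restrict_univ,
    ← ofReal_integral_eq_lintegral_ofReal hi (ae_of_all _ fun z => (Real.exp_pos _).le), ← hZ',
    ← ENNReal.ofReal_inv_of_pos hZ, ← withDensity_smul' _ _ ENNReal.ofReal_ne_top]
  congr 1
  funext z
  rw [Pi.smul_apply, smul_eq_mul, ← ENNReal.ofReal_mul (inv_pos.2 hZ).le, div_eq_inv_mul]

/-- The proximal step: for `t = 1`, `c = 0`, `a = √α`. -/
theorem qq_prox (W : E d → ℝ) {α : ℝ} (h0 : 0 ≤ α) (h1 : α ≤ 1) :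
    qq W 1 0 √α = ((mu W 1 0).prod (gam d)).map (fun w => α • w.1 + √(α * (1 - α)) • w.2) := by
  unfold qq
  congr 1
  funext w
  rw [Real.sq_sqrt h0, Real.sqrt_one, div_one, zero_add, sub_zero, Real.sqrt_mul h0]

end

end Crest.Agent.R285
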