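import Crest.Agent.R285.Gibbs

/-!
# R285/TowerA: the joint law of `(u, z)` in stochastic localisation

`u = a √t (z - c) + √(1-a²) ζ` with `z ~ mu W t c`, `ζ ~ gam d`; the localised centre is
`p = c + (a/√t) u`.
-/

set_option autoImplicit false

namespace Crest.Agent.R285

open MeasureTheory ProbabilityTheory Crest.OracleSampling Set
open scoped RealInnerProductSpace ContDiff ENNReal

noncomputable section

variable {d : ℕ} {δ : ℝ} {W : E d → ℝ}

/-- The normalised localisation variable. -/
def tower_U (t : ℝ) (c : E d) (a : ℝ) (w : E d × E d) : E d :=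
  (a * √t) • (w.1 - c) + √(1 - a ^ 2) • w.2

/-- Joint density of `(u, z)`. -/
def tower_J (W : E d → ℝ) (t : ℝ) (c : E d) (a : ℝ) (q : E d × E d) : ℝ :=
  gdens q.1 / (Zc W t c * √(1 - a ^ 2) ^ d) * dens W (t / (1 - a ^ 2)) (c + (a / √t) • q.1) q.2

/-- Density of `u`. -/
def tower_rho (W : E d → ℝ) (t : ℝ) (c : E d) (a : ℝ) (u : E d) : ℝ :=
  gdens u * (Zc W (t / (1 - a ^ 2)) (c + (a / √t) • u) / (Zc W t c * √(1 - a ^ 2) ^ d))

theorem tower_sq_pos {a : ℝ} (ha0 : 0 ≤ a) (ha1 : a < 1) : 0 < 1 - a ^ 2 := by nlinarith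

theorem tower_U_meas (t : ℝ) (c : E d) (a : ℝ) : Measurable (tower_U t c a) := by
  unfold tower_U
  fun_prop

theorem tower_dens_pos (t : ℝ) (c z : E d) : 0 < dens W t c z := Real.exp_pos _

theorem tower_dens_cont (hW : Pot d δ W) (t : ℝ) :
    Continuous fun q : E d × E d => dens W t q.1 q.2 := by
  have := hW.smooth.continuous
  unfold dens
  fun_prop

theorem tower_J_cont (hW : Pot d δ W) (t : ℝ) (c : E d) (a : ℝ) :
    Continuous (tower_J W t c a) := by
  have h1 := hW.smooth.continuous
  have h2 := continuous_gdens (d := d)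
  unfold tower_J dens
  fun_prop

theorem tower_J_nonneg (hW : Pot d δ W) {t : ℝ} (ht : 0 < t) (c : E d) (a : ℝ) (q : E d × E d) :
    0 ≤ tower_J W t c a q := by
  have h1 := gdens_pos q.1
  have h2 := Zc_pos hW ht c
  have h3 := tower_dens_pos (W := W) (t / (1 - a ^ 2)) (c + (a / √t) • q.1) q.2
  unfold tower_J
  positivity

theorem tower_Zc_cont (hW : Pot d δ W) {θ : ℝ} (hθ : 0 < θ) : Continuous (Zc W θ) := by
  have h : Continuous (II W θ) := (KK_smooth hW hθ (pg_const 1)).continuous
  have : Zc W θ = fun y => Real.exp (-(θ * ‖y‖ ^ 2 / 2)) * II W θ y := funext (Zc_eq θ)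
  rw [this]
  fun_prop

theorem tower_rho_cont (hW : Pot d δ W) {t : ℝ} (ht : 0 < t) (c : E d) {a : ℝ} (ha0 : 0 ≤ a)
    (ha1 : a < 1) : Continuous (tower_rho W t c a) := by
  unfold tower_rho
  refine continuous_gdens.mul (Continuous.div_const ?_ _)
  exact (tower_Zc_cont hW (div_pos ht (tower_sq_pos ha0 ha1))).comp
    (continuous_const.add (continuous_id.const_smul (a / √t)))

theorem tower_rho_pos (hW : Pot d δ W) {t : ℝ} (ht : 0 < t) (c : E d) {a : ℝ} (ha0 : 0 ≤ a)
    (ha1 : a < 1) (u : E d) : 0 < tower_rho W t c a u := by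
  have h1 := gdens_pos u
  have h2 := Zc_pos hW ht c
  have h3 := Zc_pos hW (div_pos ht (tower_sq_pos ha0 ha1)) (c + (a / √t) • u)
  have h4 := Real.sqrt_pos.2 (tower_sq_pos ha0 ha1)
  unfold tower_rho
  positivity

/-- Affine change of variables in a Gaussian integral. -/
theorem tower_scale {s : ℝ} (hs : 0 < s) (b : E d) {G : E d → ℝ≥0∞} (hG : Measurable G) :
    ∫⁻ ζ, G (b + s • ζ) ∂(gam d) =
      ∫⁻ u, ENNReal.ofReal (gdens (s⁻¹ • (u - b)) / s ^ d) * G u := by
  have hg : Measurable fun z : E d => ENNReal.ofReal (gdens z) :=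
    continuous_gdens.measurable.ennreal_ofReal
  set H : E d → ℝ≥0∞ := fun u => ENNReal.ofReal (gdens (s⁻¹ • (u - b))) * G u with hH
  have hHm : Measurable H :=
    (hg.comp ((measurable_id.sub_const b).const_smul s⁻¹)).mul hG
  have hGm : Measurable fun ζ : E d => G (b + s • ζ) :=
    hG.comp ((measurable_id.const_smul s).const_add b)
  rw [gam_eq, lintegral_withDensity_eq_lintegral_mul _ hg hGm]
  have h1 : ∀ ζ : E d, ((fun z : E d => ENNReal.ofReal (gdens z)) * fun ζ => G (b + s • ζ)) ζ =
      (fun v => H (b + v)) (s • ζ) := by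
    intro ζ
    simp only [Pi.mul_apply, hH, add_sub_cancel_left, smul_smul, inv_mul_cancel₀ hs.ne', one_smul]
  have hHb : Measurable fun v => H (b + v) := hHm.comp (measurable_id.const_add b)
  simp only [h1]
  rw [← lintegral_map hHb (measurable_const_smul s), Measure.map_addHaar_smul _ hs.ne',
    lintegral_smul_measure, lintegral_add_left_eq_self H b, smul_eq_mul,
    ← lintegral_const_mul _ hHm]
  refine lintegral_congr fun u => ?_
  rw [hH, ← mul_assoc, ← ENNReal.ofReal_mul (abs_nonneg _), finrank_euclideanSpace_fin,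
    abs_of_pos (by positivity), inv_mul_eq_div]

/-- The pointwise identity. -/
theorem tower_point {t : ℝ} (ht : 0 < t) (c : E d) {a : ℝ} (ha0 : 0 ≤ a) (ha1 : a < 1)
    (u z : E d) :
    dens W t c z * gdens ((√(1 - a ^ 2))⁻¹ • (u - (a * √t) • (z - c))) =
      gdens u * dens W (t / (1 - a ^ 2)) (c + (a / √t) • u) z := by
  have hs := tower_sq_pos ha0 ha1
  have hst : 0 < √t := Real.sqrt_pos.2 ht
  have ht2 : √t ^ 2 = t := Real.sq_sqrt ht.le
  have h1 : ‖(√(1 - a ^ 2))⁻¹ • (u - (a * √t) • (z - c))‖ ^ 2 =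
      (‖u‖ ^ 2 - 2 * (a * √t) * ⟪u, z - c⟫ + a ^ 2 * t * ‖z - c‖ ^ 2) / (1 - a ^ 2) := by
    rw [norm_smul, mul_pow, Real.norm_eq_abs, sq_abs, inv_pow, Real.sq_sqrt hs.le,
      norm_sub_sq_real, real_inner_smul_right, norm_smul, mul_pow, Real.norm_eq_abs, sq_abs,
      mul_pow, ht2]
    field_simp
  have h2 : ‖z - (c + (a / √t) • u)‖ ^ 2 =
      ‖z - c‖ ^ 2 - 2 * (a / √t) * ⟪u, z - c⟫ + a ^ 2 / t * ‖u‖ ^ 2 := by
    rw [← sub_sub, norm_sub_sq_real, real_inner_smul_right, norm_smul, mul_pow, Real.norm_eq_abs,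
      sq_abs, div_pow, ht2, real_inner_comm]
    ring
  unfold dens gdens
  rw [h1, h2, mul_left_comm, ← Real.exp_add, mul_assoc _ (Real.exp _), ← Real.exp_add]
  congr 2
  have h3 : a / √t = a * √t / t := by
    rw [div_eq_div_iff hst.ne' ht.ne', mul_assoc, ← sq, ht2]
  rw [h3]
  field_simp
  ring

theorem tower_joint (hW : Pot d δ W) {t : ℝ} (ht : 0 < t) (c : E d) {a : ℝ} (ha0 : 0 ≤ a)
    (ha1 : a < 1) :
    ((mu W t c).prod (gam d)).map (fun w => (tower_U t c a w, w.1)) =
      (volume.prod volume).withDensity fun q => ENNReal.ofReal (tower_J W t c a q) := by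
  have := mu_prob hW ht c
  have hs : 0 < √(1 - a ^ 2) := Real.sqrt_pos.2 (tower_sq_pos ha0 ha1)
  have hΦ : Measurable fun w : E d × E d => (tower_U t c a w, w.1) :=
    (tower_U_meas t c a).prodMk measurable_fst
  have hJ : Measurable fun q => ENNReal.ofReal (tower_J W t c a q) :=
    (tower_J_cont hW t c a).measurable.ennreal_ofReal
  refine Measure.ext_of_lintegral _ fun F hF => ?_
  have hFΦ : Measurable fun w : E d × E d => F (tower_U t c a w, w.1) := hF.comp hΦ
  rw [lintegral_map hF hΦ, lintegral_prod _ hFΦ.aemeasurable,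
    lintegral_withDensity_eq_lintegral_mul _ hJ hF, lintegral_prod_symm _ (hJ.mul hF).aemeasurable]
  have hd : Measurable fun z => ENNReal.ofReal (dens W t c z / Zc W t c) :=
    (((tower_dens_cont hW t).comp (continuous_const.prodMk continuous_id)).measurable.div_const
      _).ennreal_ofReal
  rw [mu, lintegral_withDensity_eq_lintegral_mul _ hd hFΦ.lintegral_prod_right']
  refine lintegral_congr fun z => ?_
  have hFz : Measurable fun u : E d => F (u, z) := hF.comp measurable_prodMk_right
  have h1 := tower_scale hs ((a * √t) • (z - c)) hFz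
  simp only [Pi.mul_apply, tower_U]
  rw [h1, ← lintegral_const_mul' _ _ ENNReal.ofReal_ne_top]
  refine lintegral_congr fun u => ?_
  have hZ := Zc_pos hW ht c
  rw [← mul_assoc, ← ENNReal.ofReal_mul (div_pos (tower_dens_pos t c z) hZ).le]
  congr 2
  rw [div_mul_div_comm, tower_point ht c ha0 ha1, tower_J]
  ring

theorem tower_J_integral (t : ℝ) (c : E d) (a : ℝ) (u : E d) :
    ∫ z, tower_J W t c a (u, z) = tower_rho W t c a u := by
  simp only [tower_J]
  rw [integral_const_mul, tower_rho]
  unfold Zc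
  ring

theorem tower_J_integrable (hW : Pot d δ W) {t : ℝ} (ht : 0 < t) (c : E d) {a : ℝ} (ha0 : 0 ≤ a)
    (ha1 : a < 1) (u : E d) : Integrable fun z => tower_J W t c a (u, z) := by
  simp only [tower_J]
  refine Integrable.const_mul ?_ _
  simpa using integrable_dens hW (div_pos ht (tower_sq_pos ha0 ha1)) (pg_const 1)
    (c + (a / √t) • u)

theorem tower_law (hW : Pot d δ W) {t : ℝ} (ht : 0 < t) (c : E d) {a : ℝ} (ha0 : 0 ≤ a)
    (ha1 : a < 1) :
    ((mu W t c).prod (gam d)).map (tower_U t c a) =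
      volume.withDensity fun u => ENNReal.ofReal (tower_rho W t c a u) := by
  have hΦ : Measurable fun w : E d × E d => (tower_U t c a w, w.1) :=
    (tower_U_meas t c a).prodMk measurable_fst
  have hJ : Measurable fun q => ENNReal.ofReal (tower_J W t c a q) :=
    (tower_J_cont hW t c a).measurable.ennreal_ofReal
  have hρ : Measurable fun u => ENNReal.ofReal (tower_rho W t c a u) :=
    (tower_rho_cont hW ht c ha0 ha1).measurable.ennreal_ofReal
  have h0 : ((mu W t c).prod (gam d)).map (tower_U t c a) =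
      (((mu W t c).prod (gam d)).map (fun w => (tower_U t c a w, w.1))).map Prod.fst := by
    rw [Measure.map_map measurable_fst hΦ]
    rfl
  rw [h0, tower_joint hW ht c ha0 ha1]
  refine Measure.ext_of_lintegral _ fun G hG => ?_
  have hG1 : Measurable fun q : E d × E d => G q.1 := hG.comp measurable_fst
  rw [lintegral_map hG measurable_fst, lintegral_withDensity_eq_lintegral_mul _ hJ hG1,
    lintegral_prod _ (hJ.mul hG1).aemeasurable, lintegral_withDensity_eq_lintegral_mul _ hρ hG]
  refine lintegral_congr fun u => ?_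
  simp only [Pi.mul_apply]
  have hJu : Measurable fun z => ENNReal.ofReal (tower_J W t c a (u, z)) :=
    hJ.comp measurable_prodMk_left
  rw [lintegral_mul_const _ hJu, ← tower_J_integral,
    ofReal_integral_eq_lintegral_ofReal (tower_J_integrable hW ht c ha0 ha1 u)
      (Filter.Eventually.of_forall fun z => tower_J_nonneg hW ht c a _)]

theorem tower_qq_eq {t : ℝ} (ht : 0 < t) (c : E d) (a : ℝ) :
    qq W t c a =
      (((mu W t c).prod (gam d)).map (tower_U t c a)).map (fun u => c + (a / √t) • u) := by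
  have hst : 0 < √t := Real.sqrt_pos.2 ht
  rw [Measure.map_map (by fun_prop) (tower_U_meas t c a), qq]
  congr 1
  funext w
  simp only [Function.comp, tower_U, smul_add, smul_smul]
  rw [← add_assoc]
  congr 3
  · field_simp
  · ring

theorem tower_integral_rho (hW : Pot d δ W) {t : ℝ} (ht : 0 < t) (c : E d) {a : ℝ} (ha0 : 0 ≤ a)
    (ha1 : a < 1) : Integrable (tower_rho W t c a) ∧ ∫ u, tower_rho W t c a u = 1 := by
  have := mu_prob hW ht c
  have h1 : ∫⁻ u, ENNReal.ofReal (tower_rho W t c a u) = 1 := by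
    have h := congrArg (fun μ : Measure (E d) => μ univ) (tower_law hW ht c ha0 ha1)
    simp only [withDensity_apply _ MeasurableSet.univ, Measure.restrict_univ] at h
    rw [← h, Measure.map_apply (tower_U_meas t c a) MeasurableSet.univ]
    simp
  have hm := (tower_rho_cont hW ht c ha0 ha1).aestronglyMeasurable (μ := volume)
  have h0 : 0 ≤ᵐ[volume] tower_rho W t c a :=
    Filter.Eventually.of_forall fun u => (tower_rho_pos hW ht c ha0 ha1 u).le
  refine ⟨(lintegral_ofReal_ne_top_iff_integrable hm h0).1 (by rw [h1]; simp), ?_⟩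
  rw [integral_eq_lintegral_of_nonneg_ae h0 hm, h1]
  simp

theorem tower_main (hW : Pot d δ W) {t : ℝ} (ht : 0 < t) (c : E d) {a : ℝ} (ha0 : 0 ≤ a)
    (ha1 : a < 1) {f : E d → ℝ} (hf : Measurable f) {M : ℝ} (hM : ∀ z, |f z| ≤ M) :
    ∫ p, (∫ z, f z ∂(mu W (t / (1 - a ^ 2)) p)) ∂(qq W t c a) = ∫ z, f z ∂(mu W t c) := by
  have := mu_prob hW ht c
  have ht' := div_pos ht (tower_sq_pos ha0 ha1)
  have hφ : Continuous fun p => ∫ z, f z ∂(mu W (t / (1 - a ^ 2)) p) :=
    (smooth_integral_mu hW ht' (pg_of_bdd hf hM)).continuous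
  have hΦ : Measurable fun w : E d × E d => (tower_U t c a w, w.1) :=
    (tower_U_meas t c a).prodMk measurable_fst
  have hJ : Measurable fun q => ENNReal.ofReal (tower_J W t c a q) :=
    (tower_J_cont hW t c a).measurable.ennreal_ofReal
  have hρ : Measurable fun u => ENNReal.ofReal (tower_rho W t c a u) :=
    (tower_rho_cont hW ht c ha0 ha1).measurable.ennreal_ofReal
  have hf2 : Measurable fun q : E d × E d => f q.2 := hf.comp measurable_snd
  -- left-hand side
  rw [tower_qq_eq ht, integral_map (by fun_prop) hφ.aestronglyMeasurable,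
    tower_law hW ht c ha0 ha1, integral_withDensity_eq_integral_toReal_smul hρ
      (Filter.Eventually.of_forall fun _ => ENNReal.ofReal_lt_top)]
  -- right-hand side
  have hR : ∫ z, f z ∂(mu W t c) =
      ∫ q, f q.2 ∂(((mu W t c).prod (gam d)).map (fun w => (tower_U t c a w, w.1))) := by
    rw [integral_map hΦ.aemeasurable hf2.aestronglyMeasurable]
    simp only
    rw [integral_fun_fst]
    simp
  have hint : Integrable (fun q : E d × E d => f q.2)
      (((mu W t c).prod (gam d)).map (fun w => (tower_U t c a w, w.1))) :=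
    Integrable.of_bound hf2.aestronglyMeasurable M (Filter.Eventually.of_forall fun q => hM q.2)
  rw [tower_joint hW ht c ha0 ha1, integrable_withDensity_iff_integrable_smul' hJ
    (Filter.Eventually.of_forall fun _ => ENNReal.ofReal_lt_top)] at hint
  rw [hR, tower_joint hW ht c ha0 ha1, integral_withDensity_eq_integral_toReal_smul hJ
      (Filter.Eventually.of_forall fun _ => ENNReal.ofReal_lt_top), integral_prod _ hint]
  refine integral_congr_ae (Filter.Eventually.of_forall fun u => ?_)
  simp only [smul_eq_mul, ENNReal.toReal_ofReal (tower_J_nonneg hW ht c a _),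
    ENNReal.toReal_ofReal (tower_rho_pos hW ht c ha0 ha1 _).le]
  rw [integral_mu_dens hW ht']
  simp only [tower_J, mul_assoc]
  rw [integral_const_mul, tower_rho]
  have hZ := (Zc_pos hW ht' (c + (a / √t) • u)).ne'
  simp only [mul_comm (f _)]
  field_simp

end

end Crest.Agent.R285
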