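import Crest.Agent.R285.Gibbs
import Crest.Agent.R285.TowerA

/-!
# R285/Tower: stochastic localisation identity

With `θ = 1/(1-a²)`, `t' = tθ`, `p = c + a²(z-c) + (a√(1-a²)/√t) ζ` one has the pointwise identity
(for `a > 0`)
`dens W t c z · exp(-|ζ|²/2) = dens W t' p z · exp(-t|p-c|²/(2a²))`
(expand with `w = √t (z-c)`, `u = √t (p-c)/a = a w + ζ/√θ`:
`|w|² + |ζ|² = |w|² + θ|u - a w|² = θ|w - a u|² + |u|²`, using `1 + θa² = θ`).
So the joint law of `(p, z)` has density `const · exp(-t|p-c|²/(2a²)) · dens W t' p z`.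
-/

set_option autoImplicit false

namespace Crest.Agent.R285

open MeasureTheory ProbabilityTheory Crest.OracleSampling Set
open scoped RealInnerProductSpace ContDiff

noncomputable section

variable {d : ℕ} {δ : ℝ} {W : E d → ℝ}

theorem qq_prob (hW : Pot d δ W) {t : ℝ} (ht : 0 < t) (c : E d) (a : ℝ) :
    IsProbabilityMeasure (qq W t c a) := by
  have := mu_prob hW ht c
  unfold qq
  exact Measure.isProbabilityMeasure_map (by fun_prop)

/-- For `a = 0`, `qq` is the Dirac mass at `c`.  For `a > 0`: change variables `ζ ↦ p` (affine,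
`Measure.map_addHaar_smul`/`lintegral` translation and scaling) to get
`∫ φ dqq = ∫ φ(p) κ e^{-t|p-c|²/(2a²)} Zc W t' p dp` with
`κ = (√(2π))⁻¹^d (√t/(a√(1-a²)))^d / Zc W t c`, and then Fubini once more. -/
theorem tower (hW : Pot d δ W) {t : ℝ} (ht : 0 < t) (c : E d) {a : ℝ} (ha0 : 0 ≤ a) (ha1 : a < 1)
    {f : E d → ℝ} (hf : Measurable f) {M : ℝ} (hM : ∀ z, |f z| ≤ M) :
    ∫ p, (∫ z, f z ∂(mu W (t / (1 - a ^ 2)) p)) ∂(qq W t c a) = ∫ z, f z ∂(mu W t c) :=
  tower_main hW ht c ha0 ha1 hf hM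

theorem qq_dom (hW : Pot d 1 W) {t : ℝ} (ht : 1 ≤ t) (c : E d) {a : ℝ} (ha0 : 0 ≤ a)
    (ha1 : a < 1) : Dom (qq W t c a) (fun p => ‖p - c‖) (3 * a * (√d + ‖c‖) / √t) := by
  have ht0 : 0 < t := by linarith
  have := mu_prob hW ht0 c
  have hst : 0 < √t := Real.sqrt_pos.2 ht0
  have hΦ : Measurable fun w : E d × E d =>
      c + a ^ 2 • (w.1 - c) + (a * √(1 - a ^ 2) / √t) • w.2 := by fun_prop
  have hg : Continuous fun p : E d => ‖p - c‖ := by fun_prop
  have hi : Integrable (fun z : E d => ‖z - c‖) (mu W t c) :=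
    (integrable_mu_of_norm hW ht0 c (g := fun z => z - c) (by fun_prop) (L := 1 + ‖c‖) fun z => by
      have := norm_sub_le z c
      nlinarith [norm_nonneg z, norm_nonneg c]).norm
  have h1 := ((dom_of_integrable hi (mu_dist_le hW ht c)).const_mul ha0).fst (ν := gam d)
  have h2 := ((dom_norm_gam (d := d)).const_mul (div_nonneg ha0 hst.le)).snd (μ := mu W t c)
  have h3 : Dom ((mu W t c).prod (gam d))
      (fun w => ‖c + a ^ 2 • (w.1 - c) + (a * √(1 - a ^ 2) / √t) • w.2 - c‖)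
      (3 * a * (√d + ‖c‖) / √t) := by
    refine (h1.add h2).mono (fun w => ?_) ?_
    · have hs : √(1 - a ^ 2) ≤ 1 := Real.sqrt_le_one.2 (by nlinarith)
      rw [add_assoc, add_sub_cancel_left]
      refine (norm_add_le _ _).trans (add_le_add ?_ ?_)
      · rw [norm_smul, Real.norm_of_nonneg (by positivity)]
        exact mul_le_mul_of_nonneg_right (by nlinarith) (norm_nonneg _)
      · rw [norm_smul, Real.norm_of_nonneg (by positivity)]
        refine mul_le_mul_of_nonneg_right ?_ (norm_nonneg _)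
        exact div_le_div_of_nonneg_right (mul_le_of_le_one_right ha0 hs) hst.le
    · have h0 : 0 ≤ a * ‖c‖ / √t := by positivity
      have : 3 * a * (√d + ‖c‖) / √t =
          a * (2 * (√d + ‖c‖) / √t) + a / √t * √d + a * ‖c‖ / √t := by
        field_simp
        ring
      linarith
  have h4 := h3.integrable (hg.measurable.comp hΦ).aestronglyMeasurable fun _ => norm_nonneg _
  unfold qq
  refine dom_of_integrable ?_ ?_
  · exact (integrable_map_measure hg.aestronglyMeasurable hΦ.aemeasurable).2 h4.1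
  · rw [integral_map hΦ.aemeasurable hg.aestronglyMeasurable]
    exact h4.2

theorem tower_rhoU (x : E d) (a : ℝ) : rhoU W x a = tower_rho W 1 x a := by
  funext u
  simp [rhoU, tower_rho]

theorem rhoU_pos (hW : Pot d δ W) (x : E d) {a : ℝ} (ha0 : 0 ≤ a) (ha1 : a < 1) (u : E d) :
    0 < rhoU W x a u := by
  rw [tower_rhoU]
  exact tower_rho_pos hW one_pos x ha0 ha1 u

theorem continuous_rhoU (hW : Pot d δ W) (x : E d) {a : ℝ} (ha0 : 0 ≤ a) (ha1 : a < 1) :
    Continuous (rhoU W x a) := by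
  rw [tower_rhoU]
  exact tower_rho_cont hW one_pos x ha0 ha1

/-- `rhoU` is the density of `u = a (z - x) + √(1-a²) ζ` (valid also for `a = 0`). -/
theorem rhoU_law (hW : Pot d δ W) (x : E d) {a : ℝ} (ha0 : 0 ≤ a) (ha1 : a < 1) :
    ((mu W 1 x).prod (gam d)).map (fun w => a • (w.1 - x) + √(1 - a ^ 2) • w.2) =
      volume.withDensity fun u => ENNReal.ofReal (rhoU W x a u) := by
  rw [tower_rhoU, ← tower_law hW one_pos x ha0 ha1]
  congr 1
  funext w
  simp [tower_U]

theorem qq_density (hW : Pot d δ W) (x : E d) {a : ℝ} (ha0 : 0 ≤ a) (ha1 : a < 1) :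
    qq W 1 x a =
      (volume.withDensity fun u => ENNReal.ofReal (rhoU W x a u)).map (fun u => x + a • u) := by
  rw [tower_rhoU, ← tower_law hW one_pos x ha0 ha1, tower_qq_eq one_pos]
  simp

theorem integral_rhoU (hW : Pot d δ W) (x : E d) {a : ℝ} (ha0 : 0 ≤ a) (ha1 : a < 1) :
    Integrable (rhoU W x a) ∧ ∫ u, rhoU W x a u = 1 := by
  rw [tower_rhoU]
  exact tower_integral_rho hW one_pos x ha0 ha1

/-- Gaussian upper bound: `Zc W θ p ≤ Zc 0 θ p` since `W ≥ 0`. -/
theorem rhoU_le (hW : Pot d δ W) (x : E d) : ∃ C, ∀ a, 0 ≤ a → a < 1 → ∀ u,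
    rhoU W x a u ≤ C * gdens u := by
  refine ⟨√(2 * Real.pi) ^ d / Zc W 1 x, fun a ha0 ha1 u => ?_⟩
  have hs := tower_sq_pos ha0 ha1
  have hθ : 0 < 1 / (1 - a ^ 2) := one_div_pos.2 hs
  have hZ := Zc_pos hW one_pos x
  have hss := Real.sqrt_pos.2 hs
  have h1 : Zc W (1 / (1 - a ^ 2)) (x + a • u) ≤ Zc (fun _ => 0) (1 / (1 - a ^ 2)) (x + a • u) := by
    unfold Zc
    refine integral_mono ?_ ?_ fun z => ?_
    · simpa using integrable_dens hW hθ (pg_const 1) (x + a • u)
    · simpa using integrable_dens (pot_zero d) hθ (pg_const 1) (x + a • u)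
    · unfold dens
      exact Real.exp_le_exp.2 (by linarith [hW.nonneg z])
  rw [Zc_zero hθ, one_div, div_inv_eq_mul, Real.sqrt_mul (by positivity), mul_pow, ← one_div] at h1
  rw [rhoU, mul_comm]
  refine mul_le_mul_of_nonneg_right ?_ (gdens_pos u).le
  rw [div_le_div_iff₀ (by positivity) hZ]
  calc Zc W (1 / (1 - a ^ 2)) (x + a • u) * Zc W 1 x
      ≤ (√(2 * Real.pi) ^ d * √(1 - a ^ 2) ^ d) * Zc W 1 x := mul_le_mul_of_nonneg_right h1 hZ.le
    _ = _ := by ring

end

end Crest.Agent.R285
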