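import Crest.Agent.R285.Orc
import Crest.Agent.R285.Tower
import Crest.Agent.R285.Scale

/-!
# R285/Outer: the proximal sampler

`α = 1 - 1/T`, `σ = √(α(1-α)) ≤ 1`.  One iteration: `x ↦ c = αx + σξ ↦` sample of `k V c`.  Ideal
operator `(Kf)(x) = ∫ (∫ f d(mu U T (αx+σξ))) dγ(ξ)`.  It preserves `π = mu U 1 0`
(`tower` with `t = 1`, `c = 0`, `a = √α`, `1/(1-α) = T`, `qq_prox`), maps `|f| ≤ 1` to a
`√T α`-Lipschitz function bounded by `1` (`mu_bdd`) and `L`-Lipschitz to `αL`-Lipschitz (`mu_lip`).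
Induction on `M` (input space `E d`): the `M`-step algorithm started at `x` satisfies, for
measurable `|f| ≤ 1`,
`|E f(x_M) - K^M f (x)| ≤ √T η M (1+η)^M (‖x‖ + 2M√d)`, because `K^M f/√T` (or `f` itself) is in
`XT`, and `E‖x₁‖ ≤ (1+η)(‖x‖ + 2√d)` (`moment_of_test'`, `mu_norm_le`).  Finally
`|K^M f(0) - π f| ≤ √T α^M E_π‖x‖ ≤ √T α^M √d` for `M ≥ 1`.
-/

set_option autoImplicit false

namespace Crest.Agent.R285

open MeasureTheory ProbabilityTheory Crest.OracleSampling Set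
open scoped RealInnerProductSpace ContDiff

noncomputable section

/-- Ideal proximal operator. -/
def outer_K {d : ℕ} (W : E d → ℝ) (T : ℝ) (f : E d → ℝ) (x : E d) : ℝ :=
  ∫ ξ, (∫ z, f z ∂(mu W T ((1 - 1 / T) • x + √((1 - 1 / T) * (1 - (1 - 1 / T))) • ξ))) ∂(gam d)

section aux

variable {d : ℕ} {W : E d → ℝ} {T : ℝ}

theorem outer_abs_le {μ : Measure (E d)} [IsProbabilityMeasure μ] {f : E d → ℝ} {M : ℝ}
    (h : ∀ x, |f x| ≤ M) : |∫ x, f x ∂μ| ≤ M := by
  rw [← Real.norm_eq_abs]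
  exact (norm_integral_le_of_norm_le_const (C := M) (ae_of_all _ fun z => h _)).trans (by simp)

theorem outer_cont_of_lip {g : E d → ℝ} {L : ℝ} (hL : 0 ≤ L)
    (h : ∀ x y, |g x - g y| ≤ L * ‖x - y‖) : LipschitzWith L.toNNReal g :=
  LipschitzWith.of_dist_le_mul fun x y => by
    rw [Real.dist_eq, dist_eq_norm, Real.coe_toNNReal _ hL]
    exact h x y

theorem outer_alpha (hT : 2 ≤ T) : 0 ≤ 1 - 1 / T ∧ 1 - 1 / T < 1 := by
  have h0 : 0 < 1 / T := by positivity
  have h1 : 1 / T ≤ 1 := by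
    rw [div_le_one (by linarith)]
    linarith
  constructor <;> linarith

theorem outer_sigma (hT : 2 ≤ T) : √((1 - 1 / T) * (1 - (1 - 1 / T))) ≤ 1 := by
  obtain ⟨h0, h1⟩ := outer_alpha hT
  exact Real.sqrt_le_one.2 (by nlinarith)

/-- Averaging over the Gaussian noise of a bounded Lipschitz function. -/
theorem outer_avg_lip {g : E d → ℝ} {L M : ℝ} (hL : 0 ≤ L)
    (h : ∀ x y, |g x - g y| ≤ L * ‖x - y‖) (hM : ∀ x, |g x| ≤ M) {α : ℝ} (hα : 0 ≤ α) (σ : ℝ)
    (x y : E d) :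
    |∫ ξ, g (α • x + σ • ξ) ∂(gam d) - ∫ ξ, g (α • y + σ • ξ) ∂(gam d)| ≤ L * α * ‖x - y‖ := by
  have hc := (outer_cont_of_lip hL h).continuous
  have hi : ∀ x : E d, Integrable (fun ξ => g (α • x + σ • ξ)) (gam d) := fun x =>
    Integrable.of_bound (Continuous.aestronglyMeasurable (by fun_prop)) M
      (ae_of_all _ fun z => hM _)
  rw [← integral_sub (hi x) (hi y)]
  refine outer_abs_le fun ξ => (h _ _).trans (le_of_eq ?_)
  rw [add_sub_add_right_eq_sub, ← smul_sub, norm_smul, Real.norm_of_nonneg hα, mul_assoc]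

theorem outer_K_bdd (hW : Pot d 1 W) (hT : 2 ≤ T) {f : E d → ℝ} (h1 : ∀ x, |f x| ≤ 1) (x : E d) :
    |outer_K W T f x| ≤ 1 := by
  refine outer_abs_le fun ξ => ?_
  have := mu_prob hW (by linarith : (0 : ℝ) < T)
    ((1 - 1 / T) • x + √((1 - 1 / T) * (1 - (1 - 1 / T))) • ξ)
  exact outer_abs_le h1

theorem outer_K_lip0 (hW : Pot d 1 W) (hT : 2 ≤ T) {f : E d → ℝ} (hf : Measurable f)
    (h1 : ∀ x, |f x| ≤ 1) (x y : E d) :
    |outer_K W T f x - outer_K W T f y| ≤ √T * (1 - 1 / T) * ‖x - y‖ := by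
  have hT0 : (0 : ℝ) < T := by linarith
  refine outer_avg_lip (g := fun c => ∫ z, f z ∂(mu W T c)) (M := 1) (Real.sqrt_nonneg _)
    (mu_bdd hW hT0 hf h1) (fun c => ?_) (outer_alpha hT).1 _ x y
  have := mu_prob hW hT0 c
  exact outer_abs_le h1

theorem outer_K_lip (hW : Pot d 1 W) (hT : 2 ≤ T) {f : E d → ℝ} {L : ℝ} (hL : 0 ≤ L)
    (hf : ∀ x y, |f x - f y| ≤ L * ‖x - y‖) (h1 : ∀ x, |f x| ≤ 1) (x y : E d) :
    |outer_K W T f x - outer_K W T f y| ≤ L * (1 - 1 / T) * ‖x - y‖ := by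
  have hT0 : (0 : ℝ) < T := by linarith
  refine outer_avg_lip (g := fun c => ∫ z, f z ∂(mu W T c)) (M := 1) hL
    (fun c c' => ?_) (fun c => ?_) (outer_alpha hT).1 _ x y
  · have := mu_lip hW hT0 (outer_cont_of_lip hL hf) c c'
    rwa [Real.coe_toNNReal _ hL] at this
  · have := mu_prob hW hT0 c
    exact outer_abs_le h1

theorem outer_K_meas (hW : Pot d 1 W) (hT : 2 ≤ T) {f : E d → ℝ} (hf : Measurable f)
    (h1 : ∀ x, |f x| ≤ 1) : Measurable (outer_K W T f) :=
  (outer_cont_of_lip (mul_nonneg (Real.sqrt_nonneg _) (outer_alpha hT).1)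
    (outer_K_lip0 hW hT hf h1)).continuous.measurable

theorem outer_iter (hW : Pot d 1 W) (hT : 2 ≤ T) {f : E d → ℝ} (hf : Measurable f)
    (h1 : ∀ x, |f x| ≤ 1) (M : ℕ) :
    Measurable ((outer_K W T)^[M] f) ∧ ∀ x, |(outer_K W T)^[M] f x| ≤ 1 := by
  induction M with
  | zero => exact ⟨hf, h1⟩
  | succ M ih =>
    rw [Function.iterate_succ_apply']
    exact ⟨outer_K_meas hW hT ih.1 ih.2, outer_K_bdd hW hT ih.2⟩

theorem outer_iter_lip (hW : Pot d 1 W) (hT : 2 ≤ T) {f : E d → ℝ} (hf : Measurable f)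
    (h1 : ∀ x, |f x| ≤ 1) (M : ℕ) (x y : E d) :
    |(outer_K W T)^[M + 1] f x - (outer_K W T)^[M + 1] f y| ≤
      √T * (1 - 1 / T) ^ (M + 1) * ‖x - y‖ := by
  induction M generalizing x y with
  | zero => simpa using outer_K_lip0 hW hT hf h1 x y
  | succ M ih =>
    rw [Function.iterate_succ_apply']
    have := outer_K_lip hW hT (mul_nonneg (Real.sqrt_nonneg _) (pow_nonneg (outer_alpha hT).1 _))
      ih (outer_iter hW hT hf h1 (M + 1)).2 x y
    rwa [mul_assoc √T, ← pow_succ] at this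

theorem outer_K_inv (hW : Pot d 1 W) (hT : 2 ≤ T) {f : E d → ℝ} (hf : Measurable f)
    (h1 : ∀ x, |f x| ≤ 1) : ∫ x, outer_K W T f x ∂(mu W 1 0) = ∫ x, f x ∂(mu W 1 0) := by
  have hT0 : (0 : ℝ) < T := by linarith
  obtain ⟨ha0, ha1⟩ := outer_alpha hT
  have := mu_prob hW one_pos (0 : E d)
  have h := tower hW one_pos (0 : E d) (Real.sqrt_nonneg (1 - 1 / T))
    ((Real.sqrt_lt' one_pos).2 (by rw [one_pow]; exact ha1)) hf h1
  have e : 1 / (1 - √(1 - 1 / T) ^ 2) = T := by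
    rw [Real.sq_sqrt ha0]
    field_simp
    ring
  rw [e, qq_prox W ha0 ha1.le] at h
  have hc : Continuous fun c => ∫ z, f z ∂(mu W T c) :=
    (outer_cont_of_lip (Real.sqrt_nonneg _) (mu_bdd hW hT0 hf h1)).continuous
  rw [integral_map (by fun_prop) hc.aestronglyMeasurable, integral_prod] at h
  · exact h
  · refine Integrable.of_bound (Continuous.aestronglyMeasurable ?_) 1 (ae_of_all _ fun w => ?_)
    · exact hc.comp (by fun_prop)
    · have := mu_prob hW hT0 ((1 - 1 / T) • w.1 + √((1 - 1 / T) * (1 - (1 - 1 / T))) • w.2)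
      exact outer_abs_le h1

theorem outer_iter_inv (hW : Pot d 1 W) (hT : 2 ≤ T) {f : E d → ℝ} (hf : Measurable f)
    (h1 : ∀ x, |f x| ≤ 1) (M : ℕ) :
    ∫ x, (outer_K W T)^[M] f x ∂(mu W 1 0) = ∫ x, f x ∂(mu W 1 0) := by
  induction M with
  | zero => rfl
  | succ M ih =>
    rw [Function.iterate_succ_apply', outer_K_inv hW hT (outer_iter hW hT hf h1 M).1
      (outer_iter hW hT hf h1 M).2, ih]

theorem outer_mix (hW : Pot d 1 W) (hT : 2 ≤ T) {f : E d → ℝ} (hf : Measurable f)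
    (h1 : ∀ x, |f x| ≤ 1) (M : ℕ) :
    |(outer_K W T)^[M + 1] f 0 - ∫ x, f x ∂(mu W 1 0)| ≤ √T * (1 - 1 / T) ^ (M + 1) * √d := by
  have := mu_prob hW one_pos (0 : E d)
  obtain ⟨hm, hb⟩ := outer_iter hW hT hf h1 (M + 1)
  have hL : 0 ≤ √T * (1 - 1 / T) ^ (M + 1) :=
    mul_nonneg (Real.sqrt_nonneg _) (pow_nonneg (outer_alpha hT).1 _)
  have hi : Integrable ((outer_K W T)^[M + 1] f) (mu W 1 0) :=
    Integrable.of_bound hm.aestronglyMeasurable 1 (ae_of_all _ fun z => hb _)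
  have hn : Integrable (fun z : E d => ‖z‖) (mu W 1 0) := (gibbs_int_id hW one_pos 0).norm
  have e : (outer_K W T)^[M + 1] f 0 - ∫ x, f x ∂(mu W 1 0) =
      ∫ x, ((outer_K W T)^[M + 1] f 0 - (outer_K W T)^[M + 1] f x) ∂(mu W 1 0) := by
    rw [integral_sub (integrable_const _) hi, outer_iter_inv hW hT hf h1]
    simp
  rw [e, ← Real.norm_eq_abs]
  refine (norm_integral_le_of_norm_le (hn.const_mul (√T * (1 - 1 / T) ^ (M + 1)))
    (ae_of_all _ fun x => ?_)).trans ?_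
  · have := outer_iter_lip hW hT hf h1 M 0 x
    rwa [zero_sub, norm_neg] at this
  · rw [integral_const_mul]
    refine mul_le_mul_of_nonneg_left ?_ hL
    have := mu_norm_le hW zero_le_one one_pos (0 : E d)
    simpa using this

/-- Integration of a linear bound against the Gaussian noise. -/
theorem outer_noise (hT : 2 ≤ T) {G : E d → ℝ} {a b : ℝ} (ha : 0 ≤ a)
    (hG : ∀ c, |G c| ≤ a * ‖c‖ + b) (x : E d) :
    |∫ ξ, G ((1 - 1 / T) • x + √((1 - 1 / T) * (1 - (1 - 1 / T))) • ξ) ∂(gam d)| ≤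
      a * (‖x‖ + √d) + b := by
  obtain ⟨ha0, ha1⟩ := outer_alpha hT
  have hs := outer_sigma hT
  have hi : Integrable (fun ξ : E d => a * ‖ξ‖ + (a * ‖x‖ + b)) (gam d) :=
    (integrable_norm_gam.const_mul a).add (integrable_const _)
  rw [← Real.norm_eq_abs]
  refine (norm_integral_le_of_norm_le hi (ae_of_all _ fun ξ => (hG _).trans ?_)).trans ?_
  · have h1 : ‖(1 - 1 / T) • x + √((1 - 1 / T) * (1 - (1 - 1 / T))) • ξ‖ ≤ ‖x‖ + ‖ξ‖ := by
      refine (norm_add_le _ _).trans (add_le_add ?_ ?_)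
      · rw [norm_smul, Real.norm_of_nonneg ha0]
        exact mul_le_of_le_one_left (norm_nonneg _) ha1.le
      · rw [norm_smul, Real.norm_of_nonneg (Real.sqrt_nonneg _)]
        exact mul_le_of_le_one_left (norm_nonneg _) hs
    nlinarith [mul_le_mul_of_nonneg_left h1 ha]
  · rw [integral_add (integrable_norm_gam.const_mul a) (integrable_const _), integral_const_mul]
    have := mul_le_mul_of_nonneg_left (integral_norm_gam_le (d := d)) ha
    simp only [integral_const, probReal_univ, smul_eq_mul, one_mul]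
    linarith

end aux

theorem outer_chain {d q : ℕ} {T η : ℝ} (hT : 2 ≤ T) (hη : 0 ≤ η)
    {k : VV d → Kernel (E d) (E d)} (hk : Impl q k)
    (H : ∀ V c (f : E d → ℝ), XT f →
      |∫ x, f x ∂(k V c) - ∫ x, f x ∂(mu (Uof V.1) T c)| ≤ η * (√d + ‖c‖)) (M : ℕ) :
    ∃ kk : VV d → Kernel (E d) (E d), Impl (M * q) kk ∧
      ∀ V (f : E d → ℝ), Measurable f → (∀ x, |f x| ≤ 1) → ∀ x,
        |∫ y, f y ∂(kk V x) - (outer_K (Uof V.1) T)^[M] f x| ≤
          η * M * (1 + η) ^ M * (‖x‖ + 2 * M * √d) := by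
  have hT0 : (0 : ℝ) < T := by linarith
  have hd : 0 ≤ √(d : ℝ) := Real.sqrt_nonneg _
  induction M with
  | zero =>
    obtain ⟨k', h1, h2⟩ := (impl_const (d := d) (A := E d) (Measure.dirac ())).mapA
      (g := fun w : E d × Unit => w.1) measurable_fst
    refine ⟨k', by simpa using h1, fun V f hf hb x => ?_⟩
    rw [h2, Kernel.const_apply, Measure.map_dirac' measurable_const, integral_dirac]
    simp
  | succ M ih =>
    obtain ⟨kM, hM1, hM2⟩ := ih
    have hg : Measurable fun w : E d × E d =>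
        (1 - 1 / T) • w.1 + √((1 - 1 / T) * (1 - (1 - 1 / T))) • w.2 := by fun_prop
    obtain ⟨k1, h11, h12⟩ := (impl_const (d := d) (A := E d) (gam d)).bind (hk.comap hg)
    obtain ⟨k2, h21, h22⟩ := h11.bind (hM1.comap (measurable_snd (α := E d) (β := E d)))
    refine ⟨k2, h21.mono (le_of_eq (by ring)), fun V f hf hb x => ?_⟩
    have hW := pot_Uof V.2
    obtain ⟨hm, hb'⟩ := outer_iter hW hT hf hb M
    have hF : Measurable fun y => ∫ z, f z ∂(kM V y) := hM1.measurable_integral V hf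
    have hFb : ∀ y, |∫ z, f z ∂(kM V y)| ≤ 1 := hM1.abs_integral_le V hb
    rw [h22 V x f hf ⟨1, hb⟩, Function.iterate_succ_apply']
    simp only [Kernel.comap_apply]
    rw [h12 V x _ hF ⟨1, hFb⟩]
    simp only [Kernel.comap_apply, Kernel.const_apply]
    set h := (outer_K (Uof V.1) T)^[M] f with hh
    set C := η * M * (1 + η) ^ M with hC
    have hC0 : 0 ≤ C := by positivity
    -- bound for a fixed centre
    have key : ∀ c, |∫ y, ∫ z, f z ∂(kM V y) ∂(k V c) - ∫ y, h y ∂(mu (Uof V.1) T c)| ≤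
        (C * (1 + η) + η) * ‖c‖ + ((C * (1 + η) + η) * √d + C * (2 * M * √d)) := by
      intro c
      have := hk.markov V
      have := mu_prob hW hT0 c
      obtain ⟨m1, m2⟩ := moment_of_test' (μ := k V c) (μ' := mu (Uof V.1) T c)
        (gibbs_int_id hW hT0 c).norm fun g hg => H V c g ⟨hg.measurable, Or.inr hg⟩
      have m3 := mu_norm_le hW zero_le_one hT0 c
      have m4 : √(d : ℝ) / √T ≤ √d := div_le_self hd (Real.one_le_sqrt.2 (by linarith))
      have a1 := H V c h ⟨hm, Or.inl hb'⟩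
      have i1 : Integrable (fun y => ∫ z, f z ∂(kM V y)) (k V c) :=
        Integrable.of_bound hF.aestronglyMeasurable 1 (ae_of_all _ fun z => hFb _)
      have i2 : Integrable h (k V c) :=
        Integrable.of_bound hm.aestronglyMeasurable 1 (ae_of_all _ fun z => hb' _)
      have a2 : |∫ y, ∫ z, f z ∂(kM V y) ∂(k V c) - ∫ y, h y ∂(k V c)| ≤
          C * ((1 + η) * (√d + ‖c‖)) + C * (2 * M * √d) := by
        rw [← integral_sub i1 i2, ← Real.norm_eq_abs]
        have i3 : Integrable (fun y : E d => C * ‖y‖ + C * (2 * M * √d)) (k V c) :=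
          (m1.const_mul C).add (integrable_const (C * (2 * M * √d)))
        refine (norm_integral_le_of_norm_le i3 (ae_of_all _ fun y => ?_)).trans ?_
        · have := hM2 V f hf hb y
          rw [mul_add] at this
          exact this
        · rw [integral_add (m1.const_mul C) (integrable_const _), integral_const_mul]
          simp only [integral_const, probReal_univ, smul_eq_mul, one_mul]
          have : ∫ y, ‖y‖ ∂(k V c) ≤ (1 + η) * (√d + ‖c‖) := by linarith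
          linarith [mul_le_mul_of_nonneg_left this hC0]
      have a3 := abs_sub_le (∫ y, ∫ z, f z ∂(kM V y) ∂(k V c)) (∫ y, h y ∂(k V c))
        (∫ y, h y ∂(mu (Uof V.1) T c))
      nlinarith
    have hc : Continuous fun c => ∫ z, h z ∂(mu (Uof V.1) T c) :=
      (outer_cont_of_lip (Real.sqrt_nonneg _) (mu_bdd hW hT0 hm hb')).continuous
    have hg' : Measurable fun ξ : E d =>
        (1 - 1 / T) • x + √((1 - 1 / T) * (1 - (1 - 1 / T))) • ξ := by fun_prop
    have j1 : Integrable (fun ξ => ∫ y, ∫ z, f z ∂(kM V y)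
        ∂(k V ((1 - 1 / T) • x + √((1 - 1 / T) * (1 - (1 - 1 / T))) • ξ))) (gam d) :=
      Integrable.of_bound ((hk.measurable_integral V hF).comp hg').aestronglyMeasurable 1
        (ae_of_all _ fun z => hk.abs_integral_le V hFb _)
    have j2 : Integrable (fun ξ => ∫ y, h y
        ∂(mu (Uof V.1) T ((1 - 1 / T) • x + √((1 - 1 / T) * (1 - (1 - 1 / T))) • ξ))) (gam d) :=
      Integrable.of_bound (hc.measurable.comp hg').aestronglyMeasurable 1
        (ae_of_all _ fun ξ => by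
          have := mu_prob hW hT0 ((1 - 1 / T) • x + √((1 - 1 / T) * (1 - (1 - 1 / T))) • ξ)
          exact outer_abs_le hb')
    rw [outer_K, ← integral_sub j1 j2]
    refine (outer_noise hT (by positivity) key x).trans ?_
    have hp : 1 ≤ (1 + η) ^ (M + 1) := one_le_pow₀ (by linarith)
    have hx := norm_nonneg x
    have hM0 : (0 : ℝ) ≤ M := Nat.cast_nonneg _
    have e1 : C * (1 + η) + η ≤ η * (M + 1 : ℕ) * (1 + η) ^ (M + 1) := by
      have : η * (M + 1 : ℕ) * (1 + η) ^ (M + 1) = C * (1 + η) + η * (1 + η) ^ (M + 1) := by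
        rw [hC]
        push_cast
        ring
      nlinarith
    have e2 : C ≤ C * (1 + η) + η := by nlinarith
    have e3 : 0 ≤ 2 * M * √(d : ℝ) := by positivity
    calc (C * (1 + η) + η) * (‖x‖ + √d) + ((C * (1 + η) + η) * √d + C * (2 * M * √d))
        ≤ (C * (1 + η) + η) * (‖x‖ + 2 * (M + 1 : ℕ) * √d) := by
          push_cast
          nlinarith [mul_le_mul_of_nonneg_right e2 e3]
      _ ≤ _ := mul_le_mul_of_nonneg_right e1 (by positivity)

theorem outer {d q : ℕ} {T η : ℝ} (hT : 2 ≤ T) (hη : 0 ≤ η) {k : VV d → Kernel (E d) (E d)}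
    (hk : Impl q k)
    (H : ∀ V c (f : E d → ℝ), XT f →
      |∫ x, f x ∂(k V c) - ∫ x, f x ∂(mu (Uof V.1) T c)| ≤ η * (√d + ‖c‖))
    {M : ℕ} (hM : 1 ≤ M) :
    ∃ kk : VV d → Kernel Unit (E d), Impl (M * q) kk ∧
      ∀ V (f : E d → ℝ), Measurable f → (∀ x, |f x| ≤ 1) →
        |∫ x, f x ∂(kk V ()) - ∫ x, f x ∂(mu (Uof V.1) 1 0)| ≤
          √T * (2 * η * M ^ 2 * (1 + η) ^ M + (1 - 1 / T) ^ M) * √d := by
  obtain ⟨kM, h1, h2⟩ := outer_chain hT hη hk H M
  refine ⟨fun V => (kM V).comap (fun _ : Unit => (0 : E d)) measurable_const,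
    h1.comap measurable_const, fun V f hf hb => ?_⟩
  obtain ⟨M, rfl⟩ : ∃ M', M = M' + 1 := ⟨M - 1, by omega⟩
  have a1 := h2 V f hf hb 0
  have a2 := outer_mix (pot_Uof V.2) hT hf hb M
  rw [Kernel.comap_apply]
  have a3 := abs_sub_le (∫ y, f y ∂(kM V 0)) ((outer_K (Uof V.1) T)^[M + 1] f 0)
    (∫ x, f x ∂(mu (Uof V.1) 1 0))
  have hs : 1 ≤ √T := Real.one_le_sqrt.2 (by linarith)
  have e0 : 0 ≤ 2 * η * ((M + 1 : ℕ) : ℝ) ^ 2 * (1 + η) ^ (M + 1) * √d := by positivity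
  have e1 : η * (M + 1 : ℕ) * (1 + η) ^ (M + 1) * (‖(0 : E d)‖ + 2 * (M + 1 : ℕ) * √d) =
      2 * η * ((M + 1 : ℕ) : ℝ) ^ 2 * (1 + η) ^ (M + 1) * √d := by
    rw [norm_zero]
    ring
  nlinarith [mul_le_mul_of_nonneg_right hs e0]

end

end Crest.Agent.R285
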