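import Crest.Agent.R285.ParamA

/-!
# R285/ParamB: final accuracy, cost, existence of parameters
-/

set_option autoImplicit false

namespace Crest.Agent.R285

open MeasureTheory ProbabilityTheory Crest.OracleSampling Set
open scoped RealInnerProductSpace ContDiff

noncomputable section

variable {D r0 J : ℕ} {Cs e : ℝ}

theorem paramb_le (H : Small D r0 J Cs e) :
    e * (10 ^ 4 * (8 ^ r0 * ((pK D r0 : ℝ) + 2) ^ 3)) ≤ 1 := by
  refine le_trans (mul_le_mul_of_nonneg_left ?_ H.pos.le) H.le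
  have h1 : (1 : ℝ) ≤ WW (pK D r0) ^ 3 := one_le_pow₀ (one_le_WW _)
  have h2 : (1 : ℝ) ≤ 1 + Cs := by linarith [H.Cs0]
  have h3 : (0 : ℝ) ≤ 10 ^ 4 * (8 ^ r0 * ((pK D r0 : ℝ) + 2) ^ 3) := by positivity
  have h4 := mul_le_mul_of_nonneg_left (one_le_mul_of_one_le_of_one_le h1 h2) h3
  calc _ = 10 ^ 4 * (8 ^ r0 * ((pK D r0 : ℝ) + 2) ^ 3) * 1 := by ring
    _ ≤ _ := h4
    _ = _ := by ring

theorem paramb_Z (D r0 : ℕ) : (1 : ℝ) ≤ 8 ^ r0 * ((pK D r0 : ℝ) + 2) ^ 3 :=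
  one_le_mul_of_one_le_of_one_le (one_le_pow₀ (by norm_num))
    (one_le_pow₀ (by linarith [(Nat.cast_nonneg (pK D r0) : (0 : ℝ) ≤ _)]))

theorem paramb_small (H : Small D r0 J Cs e) : e ≤ 1 / 10 ^ 4 := by
  have h1 := paramb_le H
  have h2 := mul_le_mul_of_nonneg_left (paramb_Z D r0) (by positivity : (0 : ℝ) ≤ 10 ^ 4)
  have h3 := mul_le_mul_of_nonneg_left h2 H.pos.le
  rw [le_div_iff₀ (by positivity)]
  linarith

theorem paramb_inv (H : Small D r0 J Cs e) : 10 ^ 4 ≤ e⁻¹ := by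
  have := paramb_small H
  rw [le_inv_comm₀ (by positivity) H.pos]
  simpa using this

theorem paramb_cancel {e : ℝ} (he : 0 < e) (a b : ℕ) : e⁻¹ ^ a * e ^ (a + b) = e ^ b := by
  rw [pow_add, ← mul_assoc, ← mul_pow, inv_mul_cancel₀ he.ne', one_pow, one_mul]

theorem paramb_ceil {x : ℝ} (hx : 1 ≤ x) : (⌈x⌉₊ : ℝ) ≤ 2 * x := by
  have := Nat.ceil_lt_add_one (show 0 ≤ x by linarith)
  linarith

/-- `NX` is the least `M` with `T0/(1-e²)^M ≥ e^{-2s}` (`M = N` works by `mk_decay`, `T0 ≥ 1`). -/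
theorem exists_NX (H : Small D r0 J Cs e) {s : ℕ} (hs : s ≤ J) (hp : pp D r0 ≤ 2 * s) :
    ∃ NX, NX ≤ (mkPar D r0 NX Cs e).N ∧ e⁻¹ ^ s ≤ (mkPar D r0 NX Cs e).Λ ∧
      (mkPar D r0 NX Cs e).Λ ≤ 2 * e⁻¹ ^ s := by
  classical
  have he := H.pos
  have he1 := paramb_small H
  have hx := paramb_inv H
  have hx1 : (1 : ℝ) ≤ e⁻¹ := by linarith
  have he2 : e ^ 2 ≤ 1 / 2 := by nlinarith
  have hu : 0 < 1 - e ^ 2 := by linarith
  have hT : (1 : ℝ) ≤ e⁻¹ ^ pp D r0 := one_le_pow₀ hx1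
  have hN : (e⁻¹ ^ s) ^ 2 ≤ e⁻¹ ^ pp D r0 / (1 - e ^ 2) ^ ⌈e⁻¹ ^ 3⌉₊ := by
    have h1 : √((1 - e ^ 2) ^ ⌈e⁻¹ ^ 3⌉₊) ≤ e ^ J := mk_decay (NX := 0) H
    have h2 : e ^ J ≤ e ^ s := pow_le_pow_of_le_one he.le (by linarith) hs
    have h3 : (1 - e ^ 2) ^ ⌈e⁻¹ ^ 3⌉₊ ≤ (e ^ s) ^ 2 :=
      (Real.sqrt_le_left (by positivity)).1 (h1.trans h2)
    rw [le_div_iff₀ (by positivity)]
    refine (mul_le_mul_of_nonneg_left h3 (by positivity)).trans ?_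
    rw [← mul_pow, ← mul_pow, inv_mul_cancel₀ he.ne', one_pow, one_pow]
    exact hT
  have hex : ∃ M : ℕ, (e⁻¹ ^ s) ^ 2 ≤ e⁻¹ ^ pp D r0 / (1 - e ^ 2) ^ M := ⟨_, hN⟩
  refine ⟨Nat.find hex, Nat.find_min' hex hN, ?_, ?_⟩
  · exact Real.le_sqrt_of_sq_le (Nat.find_spec hex)
  · change √(e⁻¹ ^ pp D r0 / (1 - e ^ 2) ^ Nat.find hex) ≤ _
    rw [Real.sqrt_le_left (by positivity)]
    have hsq : 0 ≤ (e⁻¹ ^ s) ^ 2 := by positivity
    rcases h : Nat.find hex with _ | M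
    · rw [pow_zero, div_one]
      have : e⁻¹ ^ pp D r0 ≤ (e⁻¹ ^ s) ^ 2 := by
        rw [← pow_mul]
        exact pow_le_pow_right₀ hx1 (by omega)
      rw [mul_pow]
      linarith
    · have h1 := Nat.find_min hex (show M < Nat.find hex by omega)
      rw [not_le] at h1
      rw [pow_succ, ← div_div, div_le_iff₀ hu, mul_pow]
      have h2 := mul_le_mul_of_nonneg_left (show (1 : ℝ) / 2 ≤ 1 - e ^ 2 by linarith) hsq
      linarith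

/-- With `p = pp D r0`, `s = 3p + m + 7`:
`η ≤ 147 e^{-3} (4 e^s + 24 e^{D r0 - s + 4}) ≤ e^{3p+m+3}`; `MO ≤ 2e^{-(p+1)}`, `η MO ≤ 1`,
`(1+η)^MO ≤ 3`, `√T0 ≤ e^{-p}`, `(1-1/T0)^MO ≤ exp(-1/e) ≤ e^J`, `√d ≤ e^{-m}`. -/
theorem mk_final (H : Small D r0 J Cs e) (hr : 1 ≤ r0) {m d NX : ℕ}
    (hD : 6 * pp D r0 + 2 * m + 10 ≤ D * r0) (hJ : pp D r0 + m + 1 ≤ J) (hd : √d ≤ e⁻¹ ^ m)
    (h1 : NX ≤ (mkPar D r0 NX Cs e).N)
    (h2 : e⁻¹ ^ (3 * pp D r0 + m + 7) ≤ (mkPar D r0 NX Cs e).Λ)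
    (h3 : (mkPar D r0 NX Cs e).Λ ≤ 2 * e⁻¹ ^ (3 * pp D r0 + m + 7)) :
    FinalOK (mkPar D r0 NX Cs e) d := by
  have he := H.pos
  have he1 := paramb_small H
  have hx := paramb_inv H
  have hx1 : (1 : ℝ) ≤ e⁻¹ := by linarith
  have he' : e ≤ 1 := by linarith
  set P := mkPar D r0 NX Cs e with hP
  set p := pp D r0 with hp
  set s := 3 * p + m + 7 with hs
  have hNX : (NX : ℝ) ≤ 2 * e⁻¹ ^ 3 := le_trans (by exact_mod_cast h1) (mk_N_le H).2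
  have hΛ0 : 0 < P.Λ := lt_of_lt_of_le (by positivity) h2
  have hloc := mk_loc_le (NX := NX) H (show r0 - 1 < r0 by omega)
  have hloc0 : 0 ≤ P.loc (r0 - 1) := by
    have hW : 0 ≤ WW (pK D r0) := le_trans zero_le_one (one_le_WW _)
    have hC := H.Cs0
    simp only [hP, Par.loc, Par.kc, mkPar]
    positivity
  have hpow := mk_pow_le (NX := NX) H r0 h1
  have hB : P.B r0 ≤ e ^ (D + 7) :=
    div_le_self (by positivity) (one_le_pow₀ (by norm_num))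
  have hB0 : 0 ≤ P.B r0 := by simp only [hP, mkPar]; positivity
  obtain ⟨k, hk⟩ : ∃ k, D * r0 = 6 * p + 2 * m + 10 + k := ⟨_, (Nat.add_sub_cancel' hD).symm⟩
  have hθ : e ^ (D + 7) * (e ^ D) ^ (r0 - 1) ≤ e ^ (s + (3 + s)) := by
    rw [← pow_mul, ← pow_add]
    refine pow_le_pow_of_le_one he.le he' ?_
    obtain ⟨r, rfl⟩ : ∃ r, r0 = r + 1 := ⟨r0 - 1, by omega⟩
    rw [Nat.add_sub_cancel]
    rw [Nat.mul_succ] at hk
    omega
  have a1 : 4 / P.Λ ≤ 4 * e ^ s := by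
    rw [div_le_iff₀ hΛ0]
    have := mul_le_mul_of_nonneg_left h2 (by positivity : 0 ≤ e ^ s)
    rw [← mul_pow, mul_inv_cancel₀ he.ne', one_pow] at this
    linarith
  have a0 : P.Λ * (e ^ (D + 7) * (e ^ D) ^ (r0 - 1)) ≤ 2 * e ^ (3 + s) := by
    refine (mul_le_mul h3 hθ (by positivity) (by positivity)).trans (le_of_eq ?_)
    rw [mul_assoc, paramb_cancel he]
  have a2 : 2 * P.Λ * P.B r0 * (e ^ D) ^ (r0 - 1) ≤ 4 * e ^ s := by
    have b1 : P.Λ * (P.B r0 * (e ^ D) ^ (r0 - 1)) ≤ P.Λ * (e ^ (D + 7) * (e ^ D) ^ (r0 - 1)) :=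
      mul_le_mul_of_nonneg_left (mul_le_mul_of_nonneg_right hB (by positivity)) hΛ0.le
    have b2 : e ^ (3 + s) ≤ e ^ s := pow_le_pow_of_le_one he.le he' (by omega)
    linarith
  have a3 : NX * P.Λ * P.loc (r0 - 1) ≤ 20 * e ^ s := by
    have b1 : P.Λ * P.loc (r0 - 1) ≤ 10 * e ^ (3 + s) := by
      have := mul_le_mul_of_nonneg_left hloc hΛ0.le
      linarith
    have b2 := mul_le_mul hNX b1 (mul_nonneg hΛ0.le hloc0) (by positivity)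
    have b3 := paramb_cancel he 3 s
    linarith
  have a4 : 1 + 24 * (NX : ℝ) ≤ 49 * e⁻¹ ^ 3 := by
    have : (1 : ℝ) ≤ e⁻¹ ^ 3 := one_le_pow₀ hx1
    linarith
  have hηdef : P.η = (4 / P.Λ + 2 * P.Λ * P.B r0 * (e ^ D) ^ (r0 - 1) +
      NX * P.Λ * P.loc (r0 - 1)) * (1 + 32 * P.B r0) ^ NX * (1 + 24 * NX) := rfl
  have hη0 : 0 ≤ P.η := by rw [hηdef]; positivity
  have hη : P.η ≤ e ^ (3 * p + m + 3) := by
    rw [hηdef]
    have b1 : (4 / P.Λ + 2 * P.Λ * P.B r0 * (e ^ D) ^ (r0 - 1) +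
        NX * P.Λ * P.loc (r0 - 1)) ≤ 28 * e ^ s := by linarith
    have b2 := mul_le_mul (mul_le_mul b1 hpow (by positivity) (by positivity)) a4 (by positivity)
      (by positivity)
    refine b2.trans ?_
    have b3 := paramb_cancel he 3 (3 * p + m + 3 + 1)
    rw [show 3 + (3 * p + m + 3 + 1) = s by omega, pow_succ e (3 * p + m + 3)] at b3
    have b4 := mul_le_mul_of_nonneg_left he1 (by positivity : 0 ≤ e ^ (3 * p + m + 3))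
    have b5 : 0 ≤ e ^ (3 * p + m + 3) := by positivity
    have b6 : 28 * e ^ s * 3 * (49 * e⁻¹ ^ 3) = 4116 * (e⁻¹ ^ 3 * e ^ s) := by ring
    rw [b6, b3]
    linarith
  have hMO1 : e⁻¹ ^ (p + 1) ≤ (P.MO : ℝ) := Nat.le_ceil _
  have hMO2 : (P.MO : ℝ) ≤ 2 * e⁻¹ ^ (p + 1) := paramb_ceil (one_le_pow₀ hx1)
  have hT0 : P.T0 = e⁻¹ ^ p := rfl
  refine ⟨?_, ?_⟩
  · have : (1 : ℝ) ≤ P.MO := (one_le_pow₀ hx1).trans hMO1
    exact_mod_cast this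
  have c1 : P.η * P.MO ≤ 1 := by
    have b1 := mul_le_mul hη hMO2 (by positivity) (by positivity)
    have b2 := paramb_cancel he (p + 1) (2 * p + m + 2)
    rw [show p + 1 + (2 * p + m + 2) = 3 * p + m + 3 by omega] at b2
    have b3 : e ^ (2 * p + m + 2) ≤ e ^ 1 := pow_le_pow_of_le_one he.le he' (by omega)
    rw [pow_one] at b3
    linarith
  have c2 : (1 + P.η) ^ P.MO ≤ 3 := by
    calc (1 + P.η) ^ P.MO ≤ Real.exp P.η ^ P.MO :=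
          pow_le_pow_left₀ (by linarith) (by linarith [Real.add_one_le_exp P.η]) _
      _ = Real.exp (P.η * P.MO) := by rw [← Real.exp_nat_mul, mul_comm]
      _ ≤ Real.exp 1 := Real.exp_le_exp.2 c1
      _ ≤ 3 := by linarith [Real.exp_one_lt_d9]
  have c3 : √P.T0 ≤ e⁻¹ ^ p := by
    rw [hT0, Real.sqrt_le_left (by positivity), sq]
    exact le_mul_of_one_le_left (by positivity) (one_le_pow₀ hx1)
  have c4 : (1 - 1 / P.T0) ^ P.MO ≤ e ^ (p + m + 1) := by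
    have b0 : 1 / P.T0 = e ^ p := by rw [hT0, inv_pow, one_div, inv_inv]
    rw [b0]
    have b1 : e ^ p ≤ 1 := pow_le_one₀ he.le he'
    have b2 : e⁻¹ ≤ e ^ p * P.MO := by
      have := mul_le_mul_of_nonneg_left hMO1 (by positivity : 0 ≤ e ^ p)
      rwa [pow_succ, ← mul_assoc, ← mul_pow, mul_inv_cancel₀ he.ne', one_pow, one_mul] at this
    have b3 : 1 / (2 * e) ≤ e⁻¹ := by
      rw [← one_div]
      exact one_div_le_one_div_of_le he (by linarith)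
    calc (1 - e ^ p) ^ P.MO ≤ Real.exp (-e ^ p) ^ P.MO :=
          pow_le_pow_left₀ (by linarith) (by linarith [Real.add_one_le_exp (-e ^ p)]) _
      _ = Real.exp (-(e ^ p * P.MO)) := by rw [← Real.exp_nat_mul]; congr 1; ring
      _ ≤ Real.exp (-(1 / (2 * e))) := Real.exp_le_exp.2 (by linarith)
      _ ≤ e ^ J := H.exp
      _ ≤ e ^ (p + m + 1) := pow_le_pow_of_le_one he.le he' hJ
  have c5 : 2 * P.η * (P.MO : ℝ) ^ 2 * (1 + P.η) ^ P.MO ≤ 24 * e ^ (p + m + 1) := by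
    have b1 : (P.MO : ℝ) ^ 2 ≤ (2 * e⁻¹ ^ (p + 1)) ^ 2 := pow_le_pow_left₀ (by positivity) hMO2 2
    have b2 := mul_le_mul (mul_le_mul hη b1 (by positivity) (by positivity)) c2 (by positivity)
      (by positivity)
    have b3 := paramb_cancel he (2 * p + 2) (p + m + 1)
    rw [show 2 * p + 2 + (p + m + 1) = 3 * p + m + 3 by omega] at b3
    have b4 : e ^ (3 * p + m + 3) * (2 * e⁻¹ ^ (p + 1)) ^ 2 * 3 =
        12 * (e⁻¹ ^ (2 * p + 2) * e ^ (3 * p + m + 3)) := by ring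
    rw [b4, b3] at b2
    linarith
  have c6 : 0 ≤ (1 - 1 / P.T0) ^ P.MO := by
    have b0 : 1 / P.T0 = e ^ p := by rw [hT0, inv_pow, one_div, inv_inv]
    rw [b0]
    exact pow_nonneg (by linarith [pow_le_one₀ he.le he' (n := p)]) _
  have c7 : 2 * P.η * (P.MO : ℝ) ^ 2 * (1 + P.η) ^ P.MO + (1 - 1 / P.T0) ^ P.MO ≤
      25 * e ^ (p + m + 1) := by linarith
  refine (mul_le_mul (mul_le_mul c3 c7 (by positivity) (by positivity)) hd (by positivity)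
    (by positivity)).trans ?_
  have c8 := paramb_cancel he (p + m) 1
  have c9 : e⁻¹ ^ p * (25 * e ^ (p + m + 1)) * e⁻¹ ^ m = 25 * (e⁻¹ ^ (p + m) * e ^ (p + m + 1)) := by
    ring
  rw [c9, c8, pow_one]
  linarith

/-- `A = (2N+1) 8^{r0} (K+2)³ + 1 ≤ e^{-4}`, `Q r ≤ A^r`, `cost ≤ MO · A^{r0}`. -/
theorem mk_cost (H : Small D r0 J Cs e) (hr : 1 ≤ r0) {NX : ℕ}
    (h1 : NX ≤ (mkPar D r0 NX Cs e).N) :
    ((mkPar D r0 NX Cs e).cost : ℝ) ≤ e⁻¹ ^ (pP D + 7 * r0 + 3) := by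
  have he := H.pos
  have hx := paramb_inv H
  have hx1 : (1 : ℝ) ≤ e⁻¹ := by linarith
  set N := ⌈e⁻¹ ^ 3⌉₊ with hN
  set K := pK D r0 with hK
  set A := (2 * N + 1) * (8 ^ r0 * (K + 2) ^ 3) + 1 with hA
  have hS : ∀ j, (2 * N + 1) * pSq K r0 j ≤ (2 * N + 1) * (8 ^ r0 * (K + 2) ^ 3) := fun j =>
    Nat.mul_le_mul_left _ (Nat.mul_le_mul_right _ (Nat.pow_le_pow_right (by norm_num) (by omega)))
  have hQ : ∀ r, pQ N K r0 r ≤ A ^ r := by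
    intro r
    induction r with
    | zero => simp [pQ]
    | succ r ih =>
      have h2 : 1 ≤ A ^ r := Nat.one_le_pow _ _ (by omega)
      have h3 := Nat.mul_le_mul (hS (r + 1)) ih
      calc pQ N K r0 (r + 1) = (2 * N + 1) * pSq K r0 (r + 1) * pQ N K r0 r + 1 := rfl
        _ ≤ (2 * N + 1) * (8 ^ r0 * (K + 2) ^ 3) * A ^ r + A ^ r := Nat.add_le_add h3 h2
        _ = A * A ^ r := by rw [← add_one_mul]
        _ = A ^ (r + 1) := (pow_succ' _ _).symm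
  have hc : (mkPar D r0 NX Cs e).cost ≤ ⌈e⁻¹ ^ (pp D r0 + 1)⌉₊ * A ^ r0 := by
    change ⌈e⁻¹ ^ (pp D r0 + 1)⌉₊ * ((2 * NX + 1) * pSq K r0 r0 * pQ N K r0 (r0 - 1)) ≤ _
    refine Nat.mul_le_mul_left _ ?_
    have h2 : (2 * NX + 1) * pSq K r0 r0 ≤ A := by
      have h3 : NX ≤ N := h1
      have := Nat.mul_le_mul_right (pSq K r0 r0) (show 2 * NX + 1 ≤ 2 * N + 1 by omega)
      have := hS r0
      omega
    refine (Nat.mul_le_mul h2 (hQ _)).trans (le_of_eq ?_)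
    rw [← pow_succ', Nat.sub_add_cancel hr]
  have hA' : (A : ℝ) ≤ e⁻¹ ^ 4 := by
    have h2 : (N : ℝ) ≤ 2 * e⁻¹ ^ 3 := paramb_ceil (one_le_pow₀ hx1)
    have h3 : (1 : ℝ) ≤ e⁻¹ ^ 3 := one_le_pow₀ hx1
    have h4 : 10 ^ 4 * (8 ^ r0 * ((K : ℝ) + 2) ^ 3) ≤ e⁻¹ := by
      have := mul_le_mul_of_nonneg_left (paramb_le H) (inv_pos.2 he).le
      rwa [← mul_assoc, inv_mul_cancel₀ he.ne', one_mul, mul_one] at this
    have h5 := paramb_Z D r0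
    rw [← hK] at h5
    have h6 : (A : ℝ) = (2 * N + 1) * (8 ^ r0 * ((K : ℝ) + 2) ^ 3) + 1 := by
      rw [hA]; push_cast; ring
    rw [h6, pow_succ]
    have h7 := mul_le_mul_of_nonneg_right (show 2 * (N : ℝ) + 1 ≤ 5 * e⁻¹ ^ 3 by linarith)
      (show 0 ≤ 8 ^ r0 * ((K : ℝ) + 2) ^ 3 by positivity)
    have h8 := mul_le_mul_of_nonneg_left h4 (show 0 ≤ e⁻¹ ^ 3 by positivity)
    have h9 := one_le_mul_of_one_le_of_one_le h3 h5
    linarith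
  have hM : (⌈e⁻¹ ^ (pp D r0 + 1)⌉₊ : ℝ) ≤ e⁻¹ ^ (pp D r0 + 2) := by
    refine (paramb_ceil (one_le_pow₀ hx1)).trans ?_
    rw [pow_succ e⁻¹ (pp D r0 + 1), mul_comm]
    exact mul_le_mul_of_nonneg_left (by linarith) (by positivity)
  calc ((mkPar D r0 NX Cs e).cost : ℝ) ≤ (⌈e⁻¹ ^ (pp D r0 + 1)⌉₊ : ℝ) * (A : ℝ) ^ r0 := by
        exact_mod_cast hc
    _ ≤ e⁻¹ ^ (pp D r0 + 2) * (e⁻¹ ^ 4) ^ r0 :=
        mul_le_mul hM (pow_le_pow_left₀ (by positivity) hA' _) (by positivity) (by positivity)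
    _ = _ := by
        rw [← pow_mul, ← pow_add]
        congr 1
        unfold pp
        omega

/-- Choose `n ≥ 1` with `1/n ≤ ε`, `D = 18 + 14 n`, `r0 = pP D + 3`, `m = 7 n r0 - 3 pP D - 8 ≥ 1`
(so `D r0 = 6p + 2m + 10`), `κ = pP D + 7 r0 + 3 ≤ 2m/n`, `J` large, `e₀` from `exists_small`,
`e = min e₀ (d^{-1/(2m)})`; then `√d ≤ e^{-m}` and
`e^{-κ} ≤ e₀^{-κ} + d^{κ/(2m)} ≤ (e₀^{-κ} + 1) d^ε`. -/
theorem exists_par (Cs : ℕ → ℝ) (hCs : ∀ K, 0 ≤ Cs K) {ε : ℝ} (hε : 0 < ε) :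
    ∃ C : ℝ, ∀ d : ℕ, 2 ≤ d → ∃ P : Par, P.Cs = Cs P.K ∧ ParOK P ∧ FinalOK P d ∧
      (P.cost : ℝ) ≤ C * (d : ℝ) ^ ε := by
  obtain ⟨n₀, hn₀⟩ := exists_nat_one_div_lt hε
  obtain ⟨n, hn⟩ : ∃ n, n = n₀ + 1 := ⟨_, rfl⟩
  have hn1 : 1 ≤ n := by omega
  have hnε : 1 / (n : ℝ) ≤ ε := by rw [hn]; push_cast; exact hn₀.le
  obtain ⟨D, hD⟩ : ∃ D, D = 18 + 14 * n := ⟨_, rfl⟩
  obtain ⟨r0, hr0⟩ : ∃ r0, r0 = pP D + 3 := ⟨_, rfl⟩
  have hnr : r0 ≤ n * r0 := Nat.le_mul_of_pos_left _ hn1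
  obtain ⟨m, hm⟩ : ∃ m, 7 * (n * r0) = m + (3 * pP D + 8) :=
    ⟨7 * (n * r0) - (3 * pP D + 8), by omega⟩
  have hm1 : 1 ≤ m := by omega
  have hDr : D * r0 = 18 * r0 + 14 * (n * r0) := by rw [hD]; ring
  have hpp : pp D r0 = pP D + 3 * r0 + 1 := rfl
  obtain ⟨J, hJ⟩ : ∃ J, J = 3 * pp D r0 + m + 7 + (D * r0 + D + 4) := ⟨_, rfl⟩
  obtain ⟨e₀, he₀, hsm⟩ := exists_small D r0 J (hCs (pK D r0))
  refine ⟨e₀⁻¹ ^ (pP D + 7 * r0 + 3) + 1, fun d hd => ?_⟩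
  have hd1 : (1 : ℝ) ≤ d := by exact_mod_cast (by omega : 1 ≤ d)
  have hd0 : (0 : ℝ) < d := by linarith
  have hm0 : (0 : ℝ) < m := by exact_mod_cast hm1
  set y : ℝ := (d : ℝ) ^ (1 / (2 * (m : ℝ))) with hy
  have hy0 : 0 < y := Real.rpow_pos_of_pos hd0 _
  set e := min e₀ y⁻¹ with he
  have he0 : 0 < e := lt_min he₀ (inv_pos.2 hy0)
  have H := hsm e he0 (min_le_left _ _)
  obtain ⟨NX, h1, h2, h3⟩ := exists_NX H (s := 3 * pp D r0 + m + 7) (by omega) (by omega)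
  have hye : y ≤ e⁻¹ := by
    rw [le_inv_comm₀ hy0 he0]
    exact min_le_right _ _
  have hsq : √d ≤ e⁻¹ ^ m := by
    refine le_trans (le_of_eq ?_) (pow_le_pow_left₀ hy0.le hye m)
    rw [hy, ← Real.rpow_natCast, ← Real.rpow_mul hd0.le, Real.sqrt_eq_rpow]
    congr 1
    field_simp
  refine ⟨mkPar D r0 NX (Cs (pK D r0)) e, rfl, mk_ok H (by omega) (by omega),
    mk_final H (by omega) (by omega) (by omega) hsq h1 h2 h3, (mk_cost H (by omega) h1).trans ?_⟩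
  have hdε : 1 ≤ (d : ℝ) ^ ε := Real.one_le_rpow hd1 hε.le
  have k1 : y ^ (pP D + 7 * r0 + 3) ≤ (d : ℝ) ^ ε := by
    rw [hy, ← Real.rpow_natCast, ← Real.rpow_mul hd0.le]
    refine Real.rpow_le_rpow_of_exponent_le hd1 (le_trans ?_ hnε)
    have hn0 : (0 : ℝ) < n := by exact_mod_cast hn1
    rw [one_div_mul_eq_div, div_le_div_iff₀ (by positivity) hn0]
    have : (pP D + 7 * r0 + 3) * n ≤ 1 * (2 * m) := by
      have : (pP D + 7 * r0 + 3) * n = 8 * (n * r0) := by rw [hr0]; ring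
      omega
    exact_mod_cast this
  have k2 : e₀⁻¹ ^ (pP D + 7 * r0 + 3) ≤ e₀⁻¹ ^ (pP D + 7 * r0 + 3) * (d : ℝ) ^ ε :=
    le_mul_of_one_le_right (by positivity) hdε
  have k3 : 0 ≤ e₀⁻¹ ^ (pP D + 7 * r0 + 3) * (d : ℝ) ^ ε := by positivity
  rw [add_mul, one_mul]
  rcases min_choice e₀ y⁻¹ with h | h
  · rw [he, h]; linarith
  · rw [he, h, inv_inv]; linarith

end

end Crest.Agent.R285
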