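import Crest.Agent.R285.StepLip
import Crest.Agent.R285.Tower

/-!
# R285/Step: consistency of one step

Take `F = true_flow (K+1)`, `pT z = c + h (y z h).1`, `ξT z = √t • xih (y z h)`; then
`β⁻¹ (y z h).2 = G_0 - G_h + (β√t)⁻¹ ξT`, and the Picard iteration starts at
`(h⁻¹ (h/√t) z.1, z.2/√t) = y z 0`.  `picard_err` for the chain
`g k = (-t⁻¹ gG k - β gA k, β² gS k)` with `fldN_lip'`.  At a node `a = σ_l h`, with `ρ = √(1-a²)`,
`p = c + a u`, `z' = √t ξ`, `ρ ξ = (√(ta t a))⁻¹ z'` (`sqrt_ta`), the defect of the field is at most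
`2β e_H(p, z') + 2β²h e_S(p, z', ζ)` where `e_H, e_S` are the (jointly continuous) errors of
`hvp_err`, `sq_err` at time `ta t a`; `(p, z', ζ)` has law `qq ⊗ gam ⊗ gam`, so use `Dom.prod`,
`qq_dom` (`E‖p‖ ≤ ‖c‖ + 3(√d+‖c‖)`), `Dom.comp`.  Finally `β² /λ ≤ β ≤ 1`, `h ≤ q`,
`‖Δ newC‖ + ‖Δ corr‖ ≤ (h + 1/β) ‖ΔY‖`.
-/

set_option autoImplicit false

namespace Crest.Agent.R285

open MeasureTheory ProbabilityTheory Crest.OracleSampling Set
open scoped RealInnerProductSpace ContDiff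

noncomputable section

variable {d : ℕ} {U : E d → ℝ}

/-- Error of the Hessian-vector product at a random centre. -/
def step_eH (K : ℕ) (h : ℝ) (U : E d → ℝ) (T : ℝ) (x : E d × E d) : ℝ :=
  ‖HVP K h U T x.1 ((√T)⁻¹ • x.2) - AA U T x.1 ((√T)⁻¹ • x.2)‖

/-- Error of the squared Hessian at a random centre. -/
def step_eS (K : ℕ) (h lam : ℝ) (U : E d → ℝ) (T : ℝ) (x : E d × E d × E d) : ℝ :=
  ‖SQ K h lam U T x.1 ((√T)⁻¹ • x.2.1) ((√T)⁻¹ • x.2.2) -
    AA U T x.1 (AA U T x.1 ((√T)⁻¹ • x.2.1))‖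

theorem step_qq_dom (hU : Pot d 1 U) {t : ℝ} (ht : 1 ≤ t) (c : E d) {a : ℝ} (ha0 : 0 ≤ a)
    (ha : a ≤ 1 / 2) {C : ℝ} (hC : 0 ≤ C) :
    Dom (qq U t c a) (fun p => C * (√d + ‖p‖)) (C * (4 * (√d + ‖c‖))) := by
  have := qq_prob hU (by linarith : 0 < t) c a
  refine Dom.const_mul ?_ hC
  have h1 := (dom_const (μ := qq U t c a) (√d + ‖c‖)).add (qq_dom hU ht c ha0 (by linarith))
  refine h1.mono (fun p => ?_) ?_
  · have := norm_le_insert' p c
    linarith
  · have h2 : 1 ≤ √t := Real.one_le_sqrt.2 ht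
    have h3 : 0 ≤ √(d : ℝ) + ‖c‖ := by positivity
    have h4 : 3 * a * (√d + ‖c‖) / √t ≤ 3 * a * (√d + ‖c‖) := div_le_self (by positivity) h2
    nlinarith

theorem step_eH_dom (hU : Pot d 1 U) {K : ℕ} {t T h a B : ℝ} (ht : 1 ≤ t) (hT : 1 ≤ T) (c : E d)
    (ha0 : 0 ≤ a) (ha : a ≤ 1 / 2) (h0 : 0 < h) (h1 : h ≤ 1 / 2) (hW : 2 * WW K * h ≤ 1)
    (hB : 0 ≤ B)
    (H : ∀ p : E d, Dom (gam d) (fun z => step_eH K h U T (p, z)) (B * (√d + ‖p‖))) :
    Dom ((qq U t c a).prod (gam d)) (step_eH K h U T) (B * (4 * (√d + ‖c‖))) := by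
  have := qq_prob hU (by linarith : 0 < t) c a
  refine Dom.prod (Continuous.measurable ?_) (fun _ => norm_nonneg _) H
    (step_qq_dom hU ht c ha0 ha hB)
  have h2 := hvp_continuous hU hT h0 h1 hW
  have h3 := continuous_AA hU zero_le_one (by linarith : 0 < T)
  refine Continuous.norm (Continuous.sub ?_ ?_)
  · exact h2.comp (f := fun x : E d × E d => (x.1, (√T)⁻¹ • x.2)) (by fun_prop)
  · exact (h3.comp continuous_fst).clm_apply (by fun_prop)

theorem step_eS_dom (hU : Pot d 1 U) {K : ℕ} {t T h lam a B : ℝ} (ht : 1 ≤ t) (hT : 1 ≤ T)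
    (c : E d) (ha0 : 0 ≤ a) (ha : a ≤ 1 / 2) (h0 : 0 < h) (h1 : h ≤ 1 / 2)
    (hW : 2 * WW K * h ≤ 1) (l0 : 0 < lam) (l1 : 2 * lam * WW K ^ 2 ≤ 1 / 2) (hB : 0 ≤ B)
    (H : ∀ p : E d, Dom ((gam d).prod (gam d)) (fun z => step_eS K h lam U T (p, z))
      (B * (√d + ‖p‖))) :
    Dom (((qq U t c a).prod (gam d)).prod (gam d))
      (fun w => step_eS K h lam U T (w.1.1, w.1.2, w.2)) (B * (4 * (√d + ‖c‖))) := by
  have := qq_prob hU (by linarith : 0 < t) c a
  have key : Dom ((qq U t c a).prod ((gam d).prod (gam d))) (step_eS K h lam U T)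
      (B * (4 * (√d + ‖c‖))) := by
    refine Dom.prod (Continuous.measurable ?_) (fun _ => norm_nonneg _) H
      (step_qq_dom hU ht c ha0 ha hB)
    have h2 := sq_continuous hU hT h0 h1 hW l0 l1
    have h3 := continuous_AA hU zero_le_one (by linarith : 0 < T)
    refine Continuous.norm (Continuous.sub ?_ ?_)
    · exact h2.comp (f := fun x : E d × E d × E d => (x.1, (√T)⁻¹ • x.2.1, (√T)⁻¹ • x.2.2))
        (by fun_prop)
    · exact (h3.comp continuous_fst).clm_apply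
        ((h3.comp continuous_fst).clm_apply (by fun_prop))
  exact key.comp (Φ := MeasurableEquiv.prodAssoc) MeasurableEquiv.prodAssoc.measurable
    Measure.prodAssoc_prod

/-- The defect of the computable field along the true flow. -/
theorem step_defect {K : ℕ} {t h β lam a : ℝ} (ht : 0 < t) (c ζ : E d) (hβ : 0 ≤ β) (ha0 : 0 ≤ a)
    (ha : a ≤ 1 / 2) (Y : E d × E d) :
    ‖fldN K h β lam U t c ((√t)⁻¹ • ζ) a Y -
      ((-t⁻¹) • node U t c a Y.1 - β • AA U (ta t a) (c + a • Y.1) (xih U t c β a Y),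
        β ^ 2 • a • AA U (ta t a) (c + a • Y.1)
          (AA U (ta t a) (c + a • Y.1) (xih U t c β a Y)))‖ ≤
      2 * β * step_eH K h U (ta t a) (c + a • Y.1, √t • xih U t c β a Y) +
        2 * β ^ 2 * a * step_eS K h lam U (ta t a) (c + a • Y.1, √t • xih U t c β a Y, ζ) := by
  obtain ⟨hρ, -⟩ := half_le_sqrt ha0 ha
  have hρ0 : 0 < √(1 - a ^ 2) := by linarith
  have hst : √t ≠ 0 := (Real.sqrt_pos.2 ht).ne'
  have e1 : (√(ta t a))⁻¹ • √t • xih U t c β a Y = √(1 - a ^ 2) • xih U t c β a Y := by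
    rw [sqrt_ta ht ha0 ha, smul_smul, mul_assoc, inv_mul_cancel₀ hst, mul_one]
  have e2 : (√(ta t a))⁻¹ • ζ = √(1 - a ^ 2) • (√t)⁻¹ • ζ := by
    rw [sqrt_ta ht ha0 ha, smul_smul]
  unfold step_eH step_eS fldN
  simp only [e1, e2]
  generalize √(1 - a ^ 2) = ρ at hρ hρ0
  generalize AA U (ta t a) (c + a • Y.1) = A
  generalize xih U t c β a Y = ξ
  generalize HVP K h U (ta t a) (c + a • Y.1) (ρ • ξ) = H
  generalize SQ K h lam U (ta t a) (c + a • Y.1) (ρ • ξ) (ρ • (√t)⁻¹ • ζ) = S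
  have hi : ρ⁻¹ ≤ 2 := by
    rw [inv_le_comm₀ hρ0 (by norm_num)]
    linarith
  have f1 : (-t⁻¹) • node U t c a Y.1 - (β / ρ) • H - ((-t⁻¹) • node U t c a Y.1 - β • A ξ) =
      -((β / ρ) • (H - A (ρ • ξ))) := by
    rw [map_smul, smul_sub, smul_smul, div_mul_cancel₀ _ hρ0.ne']
    abel
  have f2 : (β ^ 2 * a / ρ) • S - β ^ 2 • a • A (A ξ) = (β ^ 2 * a / ρ) • (S - A (A (ρ • ξ))) := by
    rw [map_smul, map_smul, smul_sub, smul_smul, smul_smul, div_mul_cancel₀ _ hρ0.ne']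
  rw [Prod.mk_sub_mk, f1, f2, Prod.norm_mk, norm_neg, norm_smul, norm_smul,
    Real.norm_of_nonneg (by positivity), Real.norm_of_nonneg (by positivity)]
  have g1 : β / ρ * ‖H - A (ρ • ξ)‖ ≤ 2 * β * ‖H - A (ρ • ξ)‖ := by
    refine mul_le_mul_of_nonneg_right ?_ (norm_nonneg _)
    rw [div_eq_mul_inv]
    nlinarith
  have g2 : β ^ 2 * a / ρ * ‖S - A (A (ρ • ξ))‖ ≤ 2 * β ^ 2 * a * ‖S - A (A (ρ • ξ))‖ := by
    refine mul_le_mul_of_nonneg_right ?_ (norm_nonneg _)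
    rw [div_eq_mul_inv]
    have : 0 ≤ β ^ 2 * a := by positivity
    nlinarith
  have g3 : 0 ≤ 2 * β * ‖H - A (ρ • ξ)‖ := by positivity
  have g4 : 0 ≤ 2 * β ^ 2 * a * ‖S - A (A (ρ • ξ))‖ := by positivity
  exact max_le (by linarith) (by linarith)

/-- The chain of derivatives of the true flow. -/
def step_g {t β C : ℝ} {c : E d} {n : ℕ} (F : TrueFlow U t c β n C) (z : E d × E d) (k : ℕ)
    (a : ℝ) : E d × E d :=
  ((-t⁻¹) • F.gG z k a - β • F.gA z k a, β ^ 2 • F.gS z k a)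

theorem step_g_chain {t β C : ℝ} {c : E d} {n : ℕ} (F : TrueFlow U t c β n C) (z : E d × E d) :
    Chain (1 / 2) (step_g F z) := fun k a ha =>
  (((F.cG z k a ha).const_smul (-t⁻¹)).sub ((F.cA z k a ha).const_smul β)).prodMk
    ((F.cS z k a ha).const_smul (β ^ 2))

theorem step_g_int {t β C : ℝ} {c : E d} {n : ℕ} (F : TrueFlow U t c β n C) (ht : 1 ≤ t)
    (hβ0 : 0 ≤ β) (hβ : β ≤ 1) (z : E d × E d) (k : ℕ) {h : ℝ} (h0 : 0 ≤ h) (h1 : h ≤ 1 / 2) :
    ∫ a in (0 : ℝ)..h, ‖step_g F z k a‖ ≤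
      ∫ a in (0 : ℝ)..h, (‖F.gG z k a‖ + ‖F.gA z k a‖ + ‖F.gS z k a‖) := by
  have hsub : uIcc (0 : ℝ) h ⊆ Icc 0 (1 / 2) := by
    rw [uIcc_of_le h0]
    exact Icc_subset_Icc le_rfl h1
  refine intervalIntegral.integral_mono_on h0
    ((((step_g_chain F z).continuousOn k).norm.mono hsub).intervalIntegrable)
    ((((((F.cG z).continuousOn k).norm.add ((F.cA z).continuousOn k).norm).add
      ((F.cS z).continuousOn k).norm).mono hsub).intervalIntegrable) fun a _ => ?_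
  unfold step_g
  rw [Prod.norm_mk]
  have e1 : ‖(-t⁻¹) • F.gG z k a‖ ≤ ‖F.gG z k a‖ := by
    rw [norm_smul, norm_neg, Real.norm_of_nonneg (by positivity)]
    exact mul_le_of_le_one_left (norm_nonneg _) (inv_le_one_of_one_le₀ ht)
  have e2 : ‖β • F.gA z k a‖ ≤ ‖F.gA z k a‖ := by
    rw [norm_smul, Real.norm_of_nonneg hβ0]
    exact mul_le_of_le_one_left (norm_nonneg _) hβ
  have e3 : ‖β ^ 2 • F.gS z k a‖ ≤ ‖F.gS z k a‖ := by
    rw [norm_smul, Real.norm_of_nonneg (by positivity)]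
    exact mul_le_of_le_one_left (norm_nonneg _) (pow_le_one₀ hβ0 hβ)
  have e4 := norm_sub_le ((-t⁻¹) • F.gG z k a) (β • F.gA z k a)
  have := norm_nonneg (F.gG z k a)
  have := norm_nonneg (F.gA z k a)
  have := norm_nonneg (F.gS z k a)
  exact max_le (by linarith) (by linarith)

/-- Pointwise error of one step. -/
theorem step_pt (hU : Pot d 1 U) {K : ℕ} {t h β lam q C : ℝ} {c : E d} {n : ℕ} (ht : 1 ≤ t)
    (H : StepOK K h β lam q) (F : TrueFlow U t c β n C) (z : E d × E d) (ζ : E d) :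
    ‖stepY K h β lam U t c (c + (h / √t) • z.1, z.2, ζ) - F.y z h‖ ≤
      q ^ K * (∫ a in (0 : ℝ)..h, (‖F.gG z 0 a‖ + ‖F.gA z 0 a‖ + ‖F.gS z 0 a‖)) +
        2 * (WW K * h ^ (K + 1) *
          (∫ a in (0 : ℝ)..h, (‖F.gG z (K + 1) a‖ + ‖F.gA z (K + 1) a‖ + ‖F.gS z (K + 1) a‖)) +
          h * WW K * ∑ l, (2 * β * step_eH K h U (ta t (sg K l * h))
              (c + (sg K l * h) • (F.y z (sg K l * h)).1,
                √t • xih U t c β (sg K l * h) (F.y z (sg K l * h))) +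
            2 * β ^ 2 * (sg K l * h) * step_eS K h lam U (ta t (sg K l * h))
              (c + (sg K l * h) • (F.y z (sg K l * h)).1,
                √t • xih U t c β (sg K l * h) (F.y z (sg K l * h)), ζ))) := by
  have h0 := H.h0
  have h1 : h ≤ 1 / 2 := H.hq.trans H.q1
  have hq0 : 0 ≤ q := h0.le.trans H.hq
  have hW := one_le_WW K
  obtain ⟨L, hL0, hL1, hL⟩ := fldN_lip' hU ht H
  have hnode : ∀ l, 0 ≤ sg K l * h ∧ sg K l * h ≤ h := fun l =>
    ⟨mul_nonneg (sg_pos K l).le h0.le, mul_le_of_le_one_left h0.le (sg_le_one K l)⟩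
  have key := picard_err K (f := fldN K h β lam U t c ((√t)⁻¹ • ζ)) (step_g_chain F z) (F.dy z) h0
    h1 hL0 (fun l => hL c _ _ (hnode l).1 (hnode l).2) hL1 H.q1 K (Fin.last K)
  rw [sg_last, one_mul] at key
  have e0 : (h⁻¹ • (c + (h / √t) • z.1 - c), (√t)⁻¹ • z.2) = F.y z 0 := by
    rw [F.y0, add_sub_cancel_left, smul_smul, div_eq_mul_inv, ← mul_assoc,
      inv_mul_cancel₀ h0.ne', one_mul]
    rfl
  unfold stepY
  simp only [e0]
  refine key.trans ?_
  have i0 := step_g_int F ht H.β0.le H.β1.1 z 0 h0.le h1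
  have i1 := step_g_int F ht H.β0.le H.β1.1 z (K + 1) h0.le h1
  gcongr with l
  have ha : sg K l * h ∈ Icc (0 : ℝ) (1 / 2) := ⟨(hnode l).1, (hnode l).2.trans h1⟩
  unfold step_g
  rw [F.eG z _ ha, F.eA z _ ha, F.eS z _ ha]
  exact step_defect (by linarith) c ζ H.β0.le ha.1 ha.2 _

theorem step_err (K : ℕ) : ∃ C : ℝ, 0 ≤ C ∧ StepErr K C := by
  rcases Nat.eq_zero_or_pos K with rfl | hK
  · exact ⟨0, le_rfl, fun d U _ t c h β lam q _ H => absurd H.K1 (by norm_num)⟩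
  obtain ⟨CT, hCT, HT⟩ := true_flow (K + 1)
  obtain ⟨CH, hCH, HH⟩ := hvp_err hK
  obtain ⟨CS, hCS, HS⟩ := sq_err hK
  have hW := one_le_WW K
  refine ⟨2 * (CT + 2 * (WW K * CT + (K + 1) * (8 * CH + 8 * CS))), by positivity, ?_⟩
  intro d U hU t c h β lam q ht H
  have h0 := H.h0
  have h1 : h ≤ 1 / 2 := H.hq.trans H.q1
  have hq0 : 0 ≤ q := h0.le.trans H.hq
  have hβ0 := H.β0
  have hl0 := H.lam0
  obtain ⟨hβ1, hβl, -⟩ := H.β1
  obtain ⟨F⟩ := HT d U hU t c β ht hβ0.le hβ1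
  have hh : h ∈ Icc (0 : ℝ) (1 / 2) := ⟨h0.le, h1⟩
  have ht0 : 0 < t := by linarith
  have hst : √t ≠ 0 := (Real.sqrt_pos.2 ht0).ne'
  have hmeas : ∀ a ∈ Icc (0 : ℝ) (1 / 2), (Measurable fun z => c + a • (F.y z a).1) ∧
      Measurable fun z => √t • xih U t c β a (F.y z a) := by
    intro a ha
    have m1 := F.meas a ha
    have m2 : Continuous fun u : E d => node U t c a u :=
      (node_continuous hU ht0 ha.1 ha.2).comp (f := fun u : E d => (c, u)) (by fun_prop)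
    refine ⟨by fun_prop, ?_⟩
    unfold xih
    have m3 : Measurable fun z => node U t c a (F.y z a).1 := m2.measurable.comp m1.fst
    fun_prop
  refine ⟨fun z => c + h • (F.y z h).1, fun z => √t • xih U t c β h (F.y z h), (hmeas h hh).1,
    (hmeas h hh).2, F.law h hh, ?_⟩
  obtain ⟨M, hM⟩ : ∃ M : ℝ, M = √d + ‖c‖ := ⟨_, rfl⟩
  have hM0 : 0 ≤ M := by rw [hM]; positivity
  have hnode : ∀ l, sg K l * h ∈ Icc (0 : ℝ) (1 / 2) ∧ sg K l * h ≤ h := fun l =>
    ⟨⟨mul_nonneg (sg_pos K l).le h0.le, (mul_le_of_le_one_left h0.le (sg_le_one K l)).trans h1⟩,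
      mul_le_of_le_one_left h0.le (sg_le_one K l)⟩
  have D0 := (F.bd 0 (by omega) h hh).fst (ν := gam d)
  have D1 := (F.bd (K + 1) le_rfl h hh).fst (ν := gam d)
  have D2 : ∀ l ∈ (Finset.univ : Finset (Fin (K + 1))),
      Dom (((gam d).prod (gam d)).prod (gam d)) (fun w =>
        2 * β * step_eH K h U (ta t (sg K l * h))
          (c + (sg K l * h) • (F.y w.1 (sg K l * h)).1,
            √t • xih U t c β (sg K l * h) (F.y w.1 (sg K l * h))) +
        2 * β ^ 2 * (sg K l * h) * step_eS K h lam U (ta t (sg K l * h))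
          (c + (sg K l * h) • (F.y w.1 (sg K l * h)).1,
            √t • xih U t c β (sg K l * h) (F.y w.1 (sg K l * h)), w.2))
        ((8 * CH + 8 * CS) * (q ^ K * M)) := by
    intro l _
    obtain ⟨ha, hah⟩ := hnode l
    generalize sg K l * h = a at ha hah
    have hT : 1 ≤ ta t a := ht.trans (ta_ge ht0.le ha.1 ha.2)
    have := qq_prob hU ht0 c a
    have hm := (hmeas a ha).1.prodMk (hmeas a ha).2
    have d1 := ((step_eH_dom hU ht hT c ha.1 ha.2 h0 h1 H.hW (B := CH * q ^ K) (by positivity)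
      fun p => HH d U hU _ h q p hT h0 H.hq H.q1 H.hW).comp hm (F.law a ha)).fst (ν := gam d)
    have d2 := (step_eS_dom hU ht hT c ha.1 ha.2 h0 h1 H.hW hl0 (H.lamq.trans H.q1)
      (B := CS * q ^ K / lam) (by positivity)
      fun p => HS d U hU _ h lam q p hT h0 H.hq H.q1 H.hW hl0 H.lamq).comp
      (μ := ((gam d).prod (gam d)).prod (gam d)) (hm.prodMap measurable_id)
      (by rw [← Measure.map_prod_map _ _ hm measurable_id, F.law a ha, Measure.map_id])
    have ha0 := ha.1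
    refine ((d1.const_mul (c := 2 * β) (by positivity)).add
      (d2.const_mul (c := 2 * β ^ 2 * a) (by positivity))).mono (fun w => le_rfl) ?_
    rw [← hM]
    have k1 : β ^ 2 * a / lam ≤ 1 := by
      rw [div_le_one hl0]
      have : β * a ≤ 1 := by nlinarith [ha.2]
      nlinarith
    have k2 : 0 ≤ q ^ K * M := by positivity
    have k3 : 2 * β * (CH * q ^ K * (4 * M)) = β * (8 * CH * (q ^ K * M)) := by ring
    have k4 : 2 * β ^ 2 * a * (CS * q ^ K / lam * (4 * M)) =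
        β ^ 2 * a / lam * (8 * CS * (q ^ K * M)) := by ring
    have k5 := mul_le_of_le_one_left (by positivity : 0 ≤ 8 * CH * (q ^ K * M)) hβ1
    have k6 := mul_le_of_le_one_left (by positivity : 0 ≤ 8 * CS * (q ^ K * M)) k1
    rw [k3, k4]
    linarith
  have D := (((D0.const_mul (c := q ^ K) (by positivity)).add
    (((D1.const_mul (c := WW K * h ^ (K + 1)) (by positivity)).add
      ((Dom.sum _ D2).const_mul (c := h * WW K) (by positivity))).const_mul (c := 2)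
        (by norm_num))).const_mul (c := 2 / β) (by positivity))
  refine D.mono (fun w => ?_) ?_
  · refine le_trans ?_ (mul_le_mul_of_nonneg_left (step_pt hU ht H F w.1 w.2) (by positivity))
    unfold newC corr xih node
    beta_reduce
    generalize stepY K h β lam U t c (c + (h / √t) • w.1.1, w.1.2, w.2) = Y
    generalize F.y w.1 h = Y'
    have e1 : c + h • Y.1 - (c + h • Y'.1) = h • (Y - Y').1 := by
      rw [Prod.fst_sub, smul_sub]; abel
    have e2 : β⁻¹ • Y.2 - (GG U t c - GG U (ta t h) (c + h • Y'.1) +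
        (β * √t)⁻¹ • √t • (Y'.2 + β • (GG U (ta t h) (c + h • Y'.1) - GG U t c))) =
        β⁻¹ • (Y - Y').2 := by
      rw [smul_smul, mul_inv, mul_assoc, inv_mul_cancel₀ hst, mul_one, smul_add, smul_smul,
        inv_mul_cancel₀ hβ0.ne', one_smul, Prod.snd_sub, smul_sub]
      abel
    rw [e1, e2, norm_smul, norm_smul, Real.norm_of_nonneg h0.le,
      Real.norm_of_nonneg (by positivity)]
    have n1 := norm_fst_le (Y - Y')
    have n2 := norm_snd_le (Y - Y')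
    have n3 : h ≤ β⁻¹ := (by linarith : h ≤ 1).trans (one_le_inv_iff₀.2 ⟨hβ0, hβ1⟩)
    have n4 : h * ‖(Y - Y').1‖ ≤ β⁻¹ * ‖Y - Y'‖ := by gcongr
    have n5 : β⁻¹ * ‖(Y - Y').2‖ ≤ β⁻¹ * ‖Y - Y'‖ := by gcongr
    rw [div_eq_mul_inv]
    linarith
  · rw [← hM, Finset.sum_const, Finset.card_univ, Fintype.card_fin, nsmul_eq_mul]
    have k0 : 0 ≤ q ^ K * M := by positivity
    have k1 : q ^ K * (CT * h * M) ≤ CT * (q ^ K * M) := by
      have : q ^ K * (CT * h * M) = h * (CT * (q ^ K * M)) := by ring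
      rw [this]
      exact mul_le_of_le_one_left (by positivity) (by linarith)
    have k2 : WW K * h ^ (K + 1) * (CT * h * M) ≤ WW K * CT * (q ^ K * M) := by
      have e : WW K * h ^ (K + 1) * (CT * h * M) = (h * h) * (WW K * CT * (h ^ K * M)) := by ring
      rw [e]
      have : h ^ K ≤ q ^ K := pow_le_pow_left₀ h0.le H.hq K
      calc _ ≤ WW K * CT * (h ^ K * M) := mul_le_of_le_one_left (by positivity) (by nlinarith)
        _ ≤ _ := by gcongr
    have k3 : h * WW K * (((K + 1 : ℕ) : ℝ) * ((8 * CH + 8 * CS) * (q ^ K * M))) ≤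
        (K + 1) * (8 * CH + 8 * CS) * (q ^ K * M) := by
      push_cast
      rw [← mul_assoc ((K : ℝ) + 1)]
      exact mul_le_of_le_one_left (by positivity) (by have := H.hW; linarith)
    have e : 2 * (CT + 2 * (WW K * CT + (K + 1) * (8 * CH + 8 * CS))) * q ^ K / β * M =
        2 / β * (CT * (q ^ K * M) + 2 * (WW K * CT * (q ^ K * M) +
          (K + 1) * (8 * CH + 8 * CS) * (q ^ K * M))) := by ring
    rw [e]
    gcongr

end

end Crest.Agent.R285
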