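import Crest.Agent.R285.GPathA

/-!
# R285/XPath: sampling from `mu U t c`

Induction on `M`.  `M = 0`: draw `ĉ ≈ c + (h/√t) Z` and output `ĉ + (√(1-h²)/√t) Z'`; the smoothed
test is `2√t`-Lipschitz (`smooth_bdd_lip` if `|f| ≤ 1`, `Test.smooth` otherwise; `lip_of_test`),
`integral_gam_add`, `mu_tv_gauss`/`mu_w1_gauss`.  Step: as in `gpath` with
`Φ(p, w) = ∫ f d(mu U t' p)`, which is `Λ`-Lipschitz for `Λ = √(t/(1-h²)^(M+1)) ≥ √t' ≥ 1`
(`mu_bdd`, `mu_lip`); its ideal value is `∫ f d(mu U t c)` by `tower`; `path_arith` with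
`l = Λ loc`.
-/

set_option autoImplicit false

namespace Crest.Agent.R285

open MeasureTheory ProbabilityTheory Crest.OracleSampling Set
open scoped RealInnerProductSpace ContDiff

noncomputable section

variable {d : ℕ} {P : Par} {r : ℕ}

theorem xpath_bdd {f : E d → ℝ} (hf : XT f) : ∃ M, ∀ x, |f x| ≤ M :=
  hf.2.elim (fun h => ⟨1, h⟩) fun h => h.2

theorem xpath_zero {A : Type} [MeasurableSpace A] {t : ℝ} {c : VV d → A → E d} {b : VV d → A → ℝ}
    (H : Ctx P d r t) (hc : Arg P (r + 1) t c b) :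
    ∃ k : VV d → Kernel A (E d), Impl (P.Sq (r + 1) * P.Q r) k ∧
      ∀ V a (f : E d → ℝ), XT f →
        |∫ x, f x ∂(k V a) - ∫ x, f x ∂(mu (Uof V.1) t (c V a))| ≤
          (4 / √t + 2 * √t * P.B (r + 1) * P.θ ^ r) * b V a := by
  obtain ⟨kc, hkc, hkc'⟩ := gpath_centre H hc
  obtain ⟨kn, hkn, hkn'⟩ := gpath_noise (d := d) (A := A × E d) measurable_snd
    (√(1 - P.h ^ 2) / √t)
  obtain ⟨k, hk, hk'⟩ := hkc.bind hkn
  refine ⟨k, hk, fun V a f hf => ?_⟩
  have ht := gpath_one_le H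
  have hs : 1 ≤ √t := gibbs_one_le_sqrt ht
  have hh := H.ok.h_pos
  have h34 : 1 / 2 ≤ √(1 - P.h ^ 2) := Real.le_sqrt_of_sq_le (by nlinarith)
  obtain ⟨M, hM⟩ := xpath_bdd hf
  have hlip : ∀ x x' : E d, |∫ z, f (x + (√(1 - P.h ^ 2) / √t) • z) ∂(gam d) -
      ∫ z, f (x' + (√(1 - P.h ^ 2) / √t) • z) ∂(gam d)| ≤ 2 * √t * ‖x - x'‖ := fun x x' => by
    rcases hf.2 with h1 | h1
    · refine (smooth_bdd_lip hf.1 h1 (by positivity) x x').trans
        (mul_le_mul_of_nonneg_right ?_ (norm_nonneg _))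
      rw [inv_div, div_le_iff₀ (by positivity)]
      nlinarith
    · have := (h1.smooth 0 (√(1 - P.h ^ 2) / √t)).1.dist_le_mul x x'
      simp only [add_zero, NNReal.coe_one, one_mul, Real.dist_eq, dist_eq_norm] at this
      refine this.trans ?_
      nlinarith [norm_nonneg (x - x')]
  have h1 := lip_of_test (hkc' V a) (by positivity) hlip
    (fun x => gpath_abs_integral_le _ fun z => hM _)
  rw [integral_gam_add hf.1 hM (c V a) (ν := (√t)⁻¹) (by
    rw [div_pow, div_pow, Real.sq_sqrt (by nlinarith : 0 ≤ 1 - P.h ^ 2), inv_pow]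
    field_simp
    ring)] at h1
  have h2 : |∫ z, f z ∂(mu (Uof V.1) t (c V a)) - ∫ z, f (c V a + (√t)⁻¹ • z) ∂(gam d)| ≤
      4 * (√d + ‖c V a‖) / √t :=
    hf.2.elim (mu_tv_gauss (pot_Uof V.2) ht _ hf.1) (mu_w1_gauss (pot_Uof V.2) ht _)
  have h3 : 4 * (√d + ‖c V a‖) / √t ≤ 4 / √t * b V a := by
    rw [div_mul_eq_mul_div]
    exact div_le_div_of_nonneg_right (by linarith [hc.2 V a]) (by positivity)
  rw [hk' V a f hf.1 ⟨M, hM⟩]
  simp only [hkn' V _ f hf.1]
  rw [abs_sub_comm] at h2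
  refine (abs_sub_le _ _ _).trans ((add_le_add h1 (h2.trans h3)).trans_eq ?_)
  ring

theorem xpath (hS : StepErr P.K P.Cs) (M : ℕ) : ∀ (A : Type) [MeasurableSpace A] (t : ℝ)
    (c : VV d → A → E d) (b : VV d → A → ℝ), Ctx P d r t → Arg P (r + 1) t c b →
    ∃ k : VV d → Kernel A (E d), Impl ((2 * M + 1) * P.Sq (r + 1) * P.Q r) k ∧
      ∀ V a (f : E d → ℝ), XT f →
        |∫ x, f x ∂(k V a) - ∫ x, f x ∂(mu (Uof V.1) t (c V a))| ≤
          (4 / √(t / (1 - P.h ^ 2) ^ M) +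
              2 * √(t / (1 - P.h ^ 2) ^ M) * P.B (r + 1) * P.θ ^ r +
              M * (√(t / (1 - P.h ^ 2) ^ M) * P.loc r)) *
            (1 + 32 * P.B (r + 1)) ^ M * (b V a + 24 * M * √d) := by
  induction M with
  | zero =>
    intro A _ t c b H hc
    obtain ⟨k, hk, hk'⟩ := xpath_zero H hc
    exact ⟨k, by simpa using hk, fun V a f hf => by simpa using hk' V a f hf⟩
  | succ M ih =>
    intro A _ t c b H hc
    obtain ⟨k₂, h₂, h₂'⟩ := ih _ _ _ _ H.next (gpath_arg H hc)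
    obtain ⟨k, hk, hk'⟩ := gpath_step H hS hc h₂
    refine ⟨k, hk.mono (le_of_eq (by ring)), fun V a f hf => ?_⟩
    have ht := gpath_one_le H
    have ht' := gpath_one_le H.next
    have hh := H.ok.h_pos
    have hh1 : 0 < 1 - P.h ^ 2 := by nlinarith
    have hU := pot_Uof V.2
    have hB := H.ok.B0 (r + 1)
    have hθ := H.ok.θ0
    have hloc := Par.loc_nonneg H.ok H.lt
    have e : ta t P.h / (1 - P.h ^ 2) ^ M = t / (1 - P.h ^ 2) ^ (M + 1) := by
      rw [ta, div_div, pow_succ' _ M]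
    rw [e] at h₂'
    have hΛ : √(ta t P.h) ≤ √(t / (1 - P.h ^ 2) ^ (M + 1)) := by
      rw [← e]
      refine Real.sqrt_le_sqrt ?_
      rw [le_div_iff₀ (by positivity)]
      exact mul_le_of_le_one_right (by linarith) (pow_le_one₀ hh1.le (by nlinarith))
    have hs : 1 ≤ √(ta t P.h) := gibbs_one_le_sqrt ht'
    generalize √(t / (1 - P.h ^ 2) ^ (M + 1)) = Λ at h₂' hΛ ⊢
    have hΛ0 : 0 < Λ := by linarith
    obtain ⟨M₀, hM⟩ := xpath_bdd hf
    have h := hk' V a f (fun x => ∫ z, f z ∂(mu (Uof V.1) (ta t P.h) x.1)) Λ M₀ _ _ hf.1 hM hΛ0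
      (fun x x' => by
        have h0 : |∫ z, f z ∂(mu (Uof V.1) (ta t P.h) x.1) -
            ∫ z, f z ∂(mu (Uof V.1) (ta t P.h) x'.1)| ≤ Λ * ‖x.1 - x'.1‖ := by
          rcases hf.2 with h1 | h1
          · exact (mu_bdd hU (by linarith) hf.1 h1 _ _).trans
              (mul_le_mul_of_nonneg_right hΛ (norm_nonneg _))
          · exact (mu_lip hU (by linarith) h1.1 _ _).trans
              (mul_le_mul_of_nonneg_right (by simpa using hs.trans hΛ) (norm_nonneg _))
        exact h0.trans (mul_le_mul_of_nonneg_left (le_add_of_nonneg_right (norm_nonneg _)) hΛ0.le))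
      (fun x => by
        have := mu_prob hU (θ := ta t P.h) (by linarith) x.1
        exact gpath_abs_integral_le _ hM)
      (by positivity) (fun w => h₂' V (a, w) f hf)
    simp only [integral_const, probReal_univ, one_smul] at h
    rw [ta, tower hU (by linarith) (c V a) hh.1.le (by linarith) hf.1 hM] at h
    have hb : 0 ≤ b V a := le_trans (by positivity) (hc.2 V a)
    exact h.trans (path_arith hB.le (by positivity) (by positivity) hb (by positivity))

end

end Crest.Agent.R285
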