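import Crest.Agent.R285.GPath
import Crest.Agent.R285.XPath
import Crest.Agent.R285.Outer
import Crest.Agent.R285.Step
import Crest.Agent.R285.ParamB

/-!
# R285/Main: assembling the sampler
-/

set_option autoImplicit false

namespace Crest.Agent.R285

open MeasureTheory ProbabilityTheory Crest.OracleSampling Set
open scoped RealInnerProductSpace ContDiff

noncomputable section

theorem sampler {P : Par} (hP : ParOK P) (hS : StepErr P.K P.Cs) {d : ℕ} (hF : FinalOK P d) :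
    ∃ A : QueryAlg d P.cost, ∀ V : E d → ℝ, Admissible d V → Succeeds A V := by
  obtain ⟨r, hr⟩ : ∃ r, P.r0 = r + 1 := ⟨P.r0 - 1, by have := hP.r0pos; omega⟩
  have hctx : Ctx P d r P.T0 :=
    ⟨hP, by omega, fun j hj => call_ok hP hS d j (by omega), le_rfl⟩
  obtain ⟨k, hk, hkk⟩ := xpath hS P.NX (E d) P.T0 (fun _ a => a) (fun _ a => √d + ‖a‖) hctx
    (arg_known hP measurable_id)
  have hh := hP.h_pos
  have hT : (0 : ℝ) < P.T0 := by linarith [hP.T2]
  have hΛ : 0 < P.Λ := by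
    unfold Par.Λ
    have : 0 < 1 - P.h ^ 2 := by nlinarith
    positivity
  have hB := hP.B0 (r + 1)
  have hθ := hP.θ0
  have hloc := Par.loc_nonneg hP (r := r) (by omega)
  have hη' : P.η = (4 / P.Λ + 2 * P.Λ * P.B (r + 1) * P.θ ^ r + P.NX * (P.Λ * P.loc r)) *
      (1 + 32 * P.B (r + 1)) ^ P.NX * (1 + 24 * P.NX) := by
    unfold Par.η
    rw [hr]
    simp only [Nat.add_sub_cancel]
    ring
  have hη : 0 ≤ P.η := by rw [hη']; positivity
  obtain ⟨kk, hkk1, hkk2⟩ := outer (η := P.η) hP.T2 hη hk (fun V c f hf => by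
    refine (hkk V c f hf).trans ?_
    rw [hη']
    have h1 : (√d + ‖c‖ + 24 * P.NX * √d : ℝ) ≤ (1 + 24 * P.NX) * (√d + ‖c‖) := by
      have := norm_nonneg c
      have : (0 : ℝ) ≤ P.NX := Nat.cast_nonneg _
      nlinarith
    have h2 : 0 ≤ (4 / P.Λ + 2 * P.Λ * P.B (r + 1) * P.θ ^ r + P.NX * (P.Λ * P.loc r)) *
      (1 + 32 * P.B (r + 1)) ^ P.NX := by positivity
    calc _ ≤ (4 / P.Λ + 2 * P.Λ * P.B (r + 1) * P.θ ^ r + P.NX * (P.Λ * P.loc r)) *
        (1 + 32 * P.B (r + 1)) ^ P.NX * ((1 + 24 * P.NX) * (√d + ‖c‖)) :=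
          mul_le_mul_of_nonneg_left h1 h2
      _ = _ := by ring) hF.1
  have hcost : P.MO * ((2 * P.NX + 1) * P.Sq (r + 1) * P.Q r) = P.cost := by
    unfold Par.cost
    rw [hr]
    simp only [Nat.add_sub_cancel]
  rw [hcost] at hkk1
  obtain ⟨Alg, hAlg⟩ := hkk1.toAlg
  refine ⟨Alg, fun V hV B hB => ?_⟩
  have h := hkk2 ⟨V, hV⟩ (B.indicator 1) (measurable_const.indicator hB)
    (fun x => by by_cases hx : x ∈ B <;> simp [hx])
  rw [integral_indicator_one hB, integral_indicator_one hB] at h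
  rw [hAlg ⟨V, hV⟩, target_eq hV]
  exact h.trans hF.2

theorem main (ε : ℝ) (hε : 0 < ε) : ∃ C : ℝ, ∀ d : ℕ, 2 ≤ d →
    ∃ (q : ℕ) (A : QueryAlg d q), (q : ℝ) ≤ C * (d : ℝ) ^ ε ∧
      ∀ V : E d → ℝ, Admissible d V → Succeeds A V := by
  choose Cs hCs hS using step_err
  obtain ⟨C, hC⟩ := exists_par Cs hCs hε
  refine ⟨C, fun d hd => ?_⟩
  obtain ⟨P, h1, h2, h3, h4⟩ := hC d hd
  obtain ⟨A, hA⟩ := sampler h2 (h1 ▸ hS P.K) h3
  exact ⟨P.cost, A, h4, hA⟩

end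

end Crest.Agent.R285
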