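import Crest.Agent.R285.Split

/-!
# R285/Mul: basic properties of the class of multipliers

All proofs are by induction on the derivation of `Mul`; use `Mul.congr` to massage the functions.
-/

set_option autoImplicit false

namespace Crest.Agent.R285

open MeasureTheory ProbabilityTheory Crest.OracleSampling Set
open scoped RealInnerProductSpace ContDiff

noncomputable section

variable {O J : Fam}

theorem Inst.Ψ_smooth (I : Inst) : ContDiff ℝ ∞ I.Ψ := by
  exact Psi_smooth I.pot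

theorem Mul.congr {M M' : MF O J} (h : Mul O J M) (H : ∀ I o j y, M' I o j y = M I o j y) :
    Mul O J M' := by
  have e : M' = M := by
    funext I o j y
    exact H I o j y
  rw [e]
  exact h

theorem Mul.smooth {M : MF O J} (h : Mul O J M) : ∀ I o j, ContDiff ℝ ∞ (M I o j) := by
  induction h with
  | base p q => exact fun I o j => (pd_smooth _ _ I.Ψ_smooth).div_const _
  | const c h => exact fun I o j => contDiff_const
  | comp h₂ h₁ ih₂ ih₁ => exact fun I o j => ContDiff.sum fun k _ => (ih₂ I o k).mul (ih₁ I k j)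
  | add h h' ih ih' => exact fun I o j => (ih I o j).add (ih' I o j)
  | idL T h ih =>
    intro I o j
    by_cases hh : o.1 = j.1
    · simp only [if_pos hh]; exact ih I o.2 j.2
    · simp only [if_neg hh]; exact contDiff_const
  | smul c hc g hg h ih =>
    exact fun I o j => (contDiff_const.mul (hg.comp contDiff_fst)).mul (ih I o j)
  | reidx eO eJ h ih => exact fun I o j => ih I _ _

/-- `split_bound` and the `OpBd` calculus; a smooth `g` is bounded on `[0,1]`. -/
theorem Mul.bound {M : MF O J} (h : Mul O J M) : ∃ C : ℝ, 0 ≤ C ∧ ∀ (I : Inst) (y : I.X),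
    y.1 ∈ Icc (0 : ℝ) 1 → OpBd (fun o j => M I o j y) C := by
  induction h with
  | base p q => exact split_bound p q
  | const c h => exact ⟨1, zero_le_one, fun I y _ => h I.d⟩
  | comp h₂ h₁ ih₂ ih₁ =>
    obtain ⟨C₂, h2, ih₂⟩ := ih₂
    obtain ⟨C₁, h1, ih₁⟩ := ih₁
    exact ⟨C₂ * C₁, mul_nonneg h2 h1, fun I y hy => (ih₂ I y hy).comp (ih₁ I y hy) h2 h1⟩
  | add h h' ih ih' =>
    obtain ⟨C, h1, ih⟩ := ih
    obtain ⟨C', h2, ih'⟩ := ih'
    exact ⟨C + C', add_nonneg h1 h2, fun I y hy => (ih I y hy).add (ih' I y hy)⟩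
  | idL T h ih =>
    obtain ⟨C, h1, ih⟩ := ih
    exact ⟨C, h1, fun I y hy => (ih I y hy).idL h1⟩
  | smul c hc g hg h ih =>
    obtain ⟨C, h1, ih⟩ := ih
    obtain ⟨B, hB⟩ := (isCompact_Icc (a := (0 : ℝ)) (b := 1)).exists_bound_of_continuousOn
      hg.continuous.continuousOn
    have hB0 : 0 ≤ B := (norm_nonneg _).trans (hB 0 ⟨le_rfl, zero_le_one⟩)
    refine ⟨B * C, mul_nonneg hB0 h1, fun I y hy => ?_⟩
    refine ((ih I y hy).const_mul (c I * g y.1)).mono (mul_le_mul_of_nonneg_right ?_ h1)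
    rw [abs_mul]
    calc |c I| * |g y.1| ≤ 1 * B :=
          mul_le_mul (hc I) (hB _ hy) (abs_nonneg _) zero_le_one
      _ = B := one_mul B
  | reidx eO eJ h ih =>
    obtain ⟨C, h1, ih⟩ := ih
    exact ⟨C, h1, fun I y hy => (ih I y hy).reidx (eO I.d) (eJ I.d)⟩

theorem mul_zero' (O J : Fam) : Mul O J (fun _ _ _ _ => 0) := by
  exact Mul.const (fun _ _ _ => 0) (fun _ => opBd_zero zero_le_one)

theorem mul_id (O : Fam) : Mul O O (fun _ o j _ => if o = j then 1 else 0) := by
  exact Mul.const (O := O) (J := O) (fun _ o j => if o = j then 1 else 0) (fun _ => opBd_id)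

theorem Mul.tmul {M : MF O J} (h : Mul O J M) {g : ℝ → ℝ} (hg : ContDiff ℝ ∞ g) :
    Mul O J (fun I o j y => g y.1 * M I o j y) := by
  exact (Mul.smul (fun _ => 1) (fun _ => by simp) g hg h).congr fun I o j y => by simp

theorem Mul.neg {M : MF O J} (h : Mul O J M) : Mul O J (fun I o j y => -M I o j y) := by
  exact (Mul.smul (fun _ => -1) (fun _ => by simp) (fun _ => 1) contDiff_const h).congr
    fun I o j y => by simp

/-- `M ⊗ id`, from `idL` and `reidx` with `Equiv.prodComm`. -/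
theorem Mul.idR (T : Fam) {M : MF O J} (h : Mul O J M) : Mul (O.prod T) (J.prod T)
    (fun I o j y => if o.2 = j.2 then M I o.1 j.1 y else 0) := by
  exact (Mul.reidx (O' := O.prod T) (J' := J.prod T) (fun d => Equiv.prodComm _ _)
    (fun d => Equiv.prodComm _ _) (Mul.idL T h)).congr fun I o j y => rfl

theorem mul_Ah : Mul Fam.leg Fam.leg Ah := by
  refine (Mul.reidx (O' := Fam.leg) (J' := Fam.leg)
    (fun d => (Equiv.punitProd (Fin d)).symm) (fun d => (Equiv.punitProd (Fin d)).symm)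
    (Mul.base 0 0)).congr fun I k l y => ?_
  show dd (ex k) (dd (ex l) I.Ψ) y / I.δ = pd ex ((k ::ₘ 0) + (l ::ₘ 0)) I.Ψ y / I.δ
  rw [Multiset.cons_add, zero_add, pd_cons _ _ _ I.Ψ_smooth, pd_cons _ _ _ I.Ψ_smooth, pd_zero]

theorem Ah_symm (I : Inst) (k l : Fin I.d) (y : I.X) : Ah I k l y = Ah I l k y := by
  unfold Ah
  rw [dd_comm I.Ψ_smooth]

theorem Ah_eq (I : Inst) (k l : Fin I.d) (y : I.X) :
    Ah I k l y = I.δ⁻¹ * AA I.W (th y.1) y.2 (ee l) k := by
  rw [Ah_symm]
  unfold Ah Inst.Ψ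
  rw [hess_Psi I.pot I.δ0.le, div_eq_inv_mul]

theorem opBd_Ah (I : Inst) (y : I.X) : OpBd (fun k l => Ah I k l y) 1 := by
  have h := ((opBd_clm (AA I.W (th y.1) y.2)).const_mul I.δ⁻¹).mono (C' := 1) (by
    rw [abs_of_pos (inv_pos.2 I.δ0), inv_mul_le_iff₀ I.δ0, mul_one]
    exact AA_norm I.pot I.δ0.le (th_pos _) _)
  simp only [Ah_eq]
  exact h

theorem Fh_smooth (I : Inst) (k : Fin I.d) : ContDiff ℝ ∞ (Fh I k) := by
  exact (dd_smooth I.Ψ_smooth _).div_const _

theorem dd_Fh (I : Inst) (k l : Fin I.d) : dd (ex l) (Fh I k) = Ah I k l := by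
  unfold Fh Ah
  rw [dd_div_const (dd_smooth I.Ψ_smooth _), dd_comm I.Ψ_smooth]

theorem mul_sum_prod (A B : Fam) (d : ℕ) (f : (A.prod B).T d → ℝ) :
    ∑ x, f x = ∑ a : A.T d, ∑ b : B.T d, f (a, b) :=
  Fintype.sum_prod_type f

theorem mul_dd_smul {d : ℕ} {g : ℝ → ℝ} (hg : ContDiff ℝ ∞ g) {φ : ℝ × E d → ℝ}
    (hφ : ContDiff ℝ ∞ φ) (c : ℝ) (k : Fin d) (y : ℝ × E d) :
    dd (ex k) (fun y => c * g y.1 * φ y) y = c * g y.1 * dd (ex k) φ y := by
  have h1 : ContDiff ℝ ∞ (fun s : ℝ => c * g s) := contDiff_const.mul hg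
  have h2 : ContDiff ℝ ∞ (fun y : ℝ × E d => c * g y.1) := h1.comp contDiff_fst
  have h3 : dd (ex k) (fun y : ℝ × E d => c * g y.1) y = 0 := by
    rw [dd_comp h1 (T := fun y : ℝ × E d => y.1) contDiff_fst, fderiv_fst]
    show dd (0 : ℝ) _ _ = 0
    rw [dd_dir_zero]
  rw [dd_mul h2 hφ]
  simp only [h3, zero_mul, zero_add]

/-- Prove both closure properties simultaneously.  `base p q ↦ base p (q+1)` resp. `base (p+1) q`
(`pd_cons`); for `comp`: `dOut (M₂ M₁) = (dOut M₂) M₁ + (M₂ ⊗ id)(dOut M₁)`,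
`dIn (M₂ M₁) = M₂ (dIn M₁) + (dIn M₂)(M₁ ⊗ id)`; for `idL` reindex with `Equiv.prodAssoc`;
`dd (ex k)` of `g y.1` vanishes. -/
theorem Mul.dOut_dIn {M : MF O J} (h : Mul O J M) :
    Mul (O.prod Fam.leg) J (dOut M) ∧ Mul O (J.prod Fam.leg) (dIn M) := by
  induction h with
  | base p q =>
    constructor
    · refine (Mul.base p (q + 1)).congr fun I o j y => ?_
      show dd (ex o.2) (fun y => pd ex (ms (q + 1) o.1 + ms (p + 1) j) I.Ψ y / I.δ) y =
        pd ex ((o.2 ::ₘ ms (q + 1) o.1) + ms (p + 1) j) I.Ψ y / I.δ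
      rw [dd_div_const (pd_smooth _ _ I.Ψ_smooth), Multiset.cons_add, pd_cons _ _ _ I.Ψ_smooth]
    · refine (Mul.base (p + 1) q).congr fun I o j y => ?_
      show dd (ex j.2) (fun y => pd ex (ms (q + 1) o + ms (p + 1) j.1) I.Ψ y / I.δ) y =
        pd ex (ms (q + 1) o + (j.2 ::ₘ ms (p + 1) j.1)) I.Ψ y / I.δ
      rw [dd_div_const (pd_smooth _ _ I.Ψ_smooth), Multiset.add_cons, pd_cons _ _ _ I.Ψ_smooth]
  | const c h =>
    constructor
    · refine (mul_zero' _ _).congr fun I o j y => ?_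
      show dd _ (fun _ => _) y = 0
      rw [dd_const]
    · refine (mul_zero' _ _).congr fun I o j y => ?_
      show dd _ (fun _ => _) y = 0
      rw [dd_const]
  | @comp O K J M₂ M₁ h₂ h₁ ih₂ ih₁ =>
    constructor
    · refine ((Mul.comp ih₂.1 h₁).add (Mul.comp (h₂.idR Fam.leg) ih₁.1)).congr fun I o j y => ?_
      show dd (ex o.2) (fun y => ∑ k, M₂ I o.1 k y * M₁ I k j y) y = _
      rw [dd_sum _ fun k _ => (h₂.smooth I _ k).mul (h₁.smooth I k _), mul_sum_prod,
        ← Finset.sum_add_distrib]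
      refine Finset.sum_congr rfl fun k _ => ?_
      rw [dd_mul (h₂.smooth I _ k) (h₁.smooth I k _)]
      congr 1
      rw [Finset.sum_eq_single o.2]
      · simp only [if_true]; rfl
      · intro b _ hb
        rw [if_neg (Ne.symm hb), zero_mul]
      · simp
    · refine ((Mul.comp ih₂.2 (h₁.idR Fam.leg)).add (Mul.comp h₂ ih₁.2)).congr fun I o j y => ?_
      show dd (ex j.2) (fun y => ∑ k, M₂ I o k y * M₁ I k j.1 y) y = _
      rw [dd_sum _ fun k _ => (h₂.smooth I _ k).mul (h₁.smooth I k _), mul_sum_prod,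
        ← Finset.sum_add_distrib]
      refine Finset.sum_congr rfl fun k _ => ?_
      rw [dd_mul (h₂.smooth I _ k) (h₁.smooth I k _)]
      congr 1
      rw [Finset.sum_eq_single j.2]
      · simp only [if_true]; rfl
      · intro b _ hb
        rw [if_neg hb, mul_zero]
      · simp
  | @add O J M M' h h' ih ih' =>
    constructor
    · refine (ih.1.add ih'.1).congr fun I o j y => ?_
      show dd (ex o.2) (fun y => M I o.1 j y + M' I o.1 j y) y = _
      rw [dd_add (h.smooth I _ _) (h'.smooth I _ _)]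
      rfl
    · refine (ih.2.add ih'.2).congr fun I o j y => ?_
      show dd (ex j.2) (fun y => M I o j.1 y + M' I o j.1 y) y = _
      rw [dd_add (h.smooth I _ _) (h'.smooth I _ _)]
      rfl
  | @idL T O J M h ih =>
    constructor
    · refine (Mul.reidx (O' := (T.prod O).prod Fam.leg) (J' := T.prod J)
        (fun d => Equiv.prodAssoc _ _ _) (fun d => Equiv.refl _) (Mul.idL T ih.1)).congr
        fun I o j y => ?_
      show dd (ex o.2) (fun y => if o.1.1 = j.1 then M I o.1.2 j.2 y else 0) y =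
        if o.1.1 = j.1 then dd (ex o.2) (M I o.1.2 j.2) y else 0
      by_cases hh : o.1.1 = j.1
      · simp only [if_pos hh]
      · simp only [if_neg hh]; rw [dd_const]
    · refine (Mul.reidx (O' := T.prod O) (J' := (T.prod J).prod Fam.leg)
        (fun d => Equiv.refl _) (fun d => Equiv.prodAssoc _ _ _) (Mul.idL T ih.2)).congr
        fun I o j y => ?_
      show dd (ex j.2) (fun y => if o.1 = j.1.1 then M I o.2 j.1.2 y else 0) y =
        if o.1 = j.1.1 then dd (ex j.2) (M I o.2 j.1.2) y else 0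
      by_cases hh : o.1 = j.1.1
      · simp only [if_pos hh]
      · simp only [if_neg hh]; rw [dd_const]
  | @smul O J M c hc g hg h ih =>
    constructor
    · refine (Mul.smul c hc g hg ih.1).congr fun I o j y => ?_
      exact mul_dd_smul hg (h.smooth I _ _) _ _ _
    · refine (Mul.smul c hc g hg ih.2).congr fun I o j y => ?_
      exact mul_dd_smul hg (h.smooth I _ _) _ _ _
  | @reidx O J O' J' M eO eJ h ih =>
    constructor
    · exact (Mul.reidx (O' := O'.prod Fam.leg) (J' := J')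
        (fun d => Equiv.prodCongr (eO d) (Equiv.refl _)) eJ ih.1).congr fun I o j y => rfl
    · exact (Mul.reidx (O' := O') (J' := J'.prod Fam.leg) eO
        (fun d => Equiv.prodCongr (eJ d) (Equiv.refl _)) ih.2).congr fun I o j y => rfl

theorem Mul.dOut {M : MF O J} (h : Mul O J M) : Mul (O.prod Fam.leg) J (dOut M) :=
  h.dOut_dIn.1

theorem Mul.dIn {M : MF O J} (h : Mul O J M) : Mul O (J.prod Fam.leg) (dIn M) :=
  h.dOut_dIn.2

end

end Crest.Agent.R285
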