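import Crest.Agent.R285.Units
import Crest.Agent.R285.Tower

/-!
# R285/OneStep: the randomised implementation of one step

The kernel `k₁` draws `ĉ` from the level-`r` oracle of `c` (`hc.1 r`: noise `(h/ς r) ς r/√t = h/√t`,
error `B θ^r b`), then `ξ, ζ ~ gam` (`impl_const`), then `ŵ` from the oracle of `corr` (`units`):
`k₁ = (kc ⊗ₖ const (gam ⊗ gam)) ⊗ₖ kw` (`Impl.compProd`).

*Moment*: `E rsz ≤ h√d/√t + Bθ^r b + 2√d ≤ 3√d + B b` (`moment_of_test`), and
`(1+16B)(1+8B) ≤ 1+32B` for `B ≤ 1/16`.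

*Error*: (i) given `w = (ĉ, ξ, ζ)`, replace `ŵ` by `corr w + κ Z` (`lip_of_test`): error
`Λ kc θ^r b1`, integrate; (ii) `ĉ ↦ ∫∫ Φ(newC, corr + κZ)` is bounded and `3Λ`-Lipschitz
(`step_lip`, `step_continuous`), replace `ĉ` by `c + (h/√t) Z₀`: error `3ΛBθ^r b`; (iii) `StepErr`
and `Dom.abs_integral_sub` replace `(newC, corr)` by `(pT, G - G' + κ ξT)`: error
`Λ Cs q^K/β (√d+‖c‖)`; then transport along `(pT, ξT)` (`integral_map`, `integral_prod`).
-/

set_option autoImplicit false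

namespace Crest.Agent.R285

open MeasureTheory ProbabilityTheory Crest.OracleSampling Set
open scoped RealInnerProductSpace ContDiff

noncomputable section

section aux

variable {d : ℕ}

theorem onestep_cont {Φ : E d × E d → ℝ} {Λ : ℝ}
    (h1 : ∀ x x', |Φ x - Φ x'| ≤ Λ * (‖x.1 - x'.1‖ + ‖x.2 - x'.2‖)) : Continuous Φ := by
  have : LipschitzWith (Real.toNNReal (2 * |Λ|)) Φ := by
    refine LipschitzWith.of_dist_le_mul fun x x' => ?_
    rw [Real.dist_eq, Real.coe_toNNReal _ (by positivity), dist_eq_norm]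
    have a1 : ‖x.1 - x'.1‖ ≤ ‖x - x'‖ := norm_fst_le (x - x')
    have a2 : ‖x.2 - x'.2‖ ≤ ‖x - x'‖ := norm_snd_le (x - x')
    refine (h1 x x').trans ?_
    calc Λ * (‖x.1 - x'.1‖ + ‖x.2 - x'.2‖) ≤ |Λ| * (‖x.1 - x'.1‖ + ‖x.2 - x'.2‖) :=
          mul_le_mul_of_nonneg_right (le_abs_self _) (by positivity)
      _ ≤ |Λ| * (2 * ‖x - x'‖) := mul_le_mul_of_nonneg_left (by linarith) (abs_nonneg _)
      _ = _ := by ring
  exact this.continuous

theorem onestep_int {α : Type} [MeasurableSpace α] {μ : Measure α} [IsFiniteMeasure μ] {f : α → ℝ}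
    (hf : Measurable f) {M : ℝ} (hM : ∀ x, |f x| ≤ M) : Integrable f μ :=
  Integrable.of_bound hf.aestronglyMeasurable M (Filter.Eventually.of_forall hM)

theorem onestep_abs_le {α : Type} [MeasurableSpace α] {μ : Measure α} [IsProbabilityMeasure μ]
    {f : α → ℝ} {M : ℝ} (hM : ∀ x, |f x| ≤ M) : |∫ x, f x ∂μ| ≤ M := by
  have := norm_integral_le_of_norm_le_const (μ := μ) (f := f) (C := M)
    (Filter.Eventually.of_forall hM)
  simpa using this

theorem onestep_abs_sub_le {α : Type} [MeasurableSpace α] {μ : Measure α} [IsProbabilityMeasure μ]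
    {f g : α → ℝ} (hf : Integrable f μ) (hg : Integrable g μ) {M : ℝ}
    (hM : ∀ x, |f x - g x| ≤ M) : |∫ x, f x ∂μ - ∫ x, g x ∂μ| ≤ M := by
  rw [← integral_sub hf hg]
  exact onestep_abs_le hM

/-- Smoothing in the second variable. -/
def onestepS (Φ : E d × E d → ℝ) (κ : ℝ) (x : E d × E d) : ℝ :=
  ∫ z, Φ (x.1, x.2 + κ • z) ∂(gam d)

theorem onestepS_lip {Φ : E d × E d → ℝ} {Λ M : ℝ}
    (h1 : ∀ x x', |Φ x - Φ x'| ≤ Λ * (‖x.1 - x'.1‖ + ‖x.2 - x'.2‖)) (h2 : ∀ x, |Φ x| ≤ M) (κ : ℝ)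
    (x x' : E d × E d) :
    |onestepS Φ κ x - onestepS Φ κ x'| ≤ Λ * (‖x.1 - x'.1‖ + ‖x.2 - x'.2‖) := by
  have hc := onestep_cont h1
  refine onestep_abs_sub_le (onestep_int (by fun_prop) (fun z => h2 _))
    (onestep_int (by fun_prop) (fun z => h2 _)) fun z => ?_
  simpa using h1 (x.1, x.2 + κ • z) (x'.1, x'.2 + κ • z)

theorem onestepS_bdd {Φ : E d × E d → ℝ} {M : ℝ} (h2 : ∀ x, |Φ x| ≤ M) (κ : ℝ)
    (x : E d × E d) : |onestepS Φ κ x| ≤ M :=
  onestep_abs_le fun _ => h2 _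

/-- The measure-level statement. -/
theorem onestep_meas {μc : Measure (E d)} [IsProbabilityMeasure μc]
    {kw : Kernel (E d × E d × E d) (E d)} [IsMarkovKernel kw] {c : E d} {ν κ e₁ e₃ B₂ : ℝ}
    {e₂ : E d × E d × E d → ℝ} {N Cr : E d × E d × E d → E d} (hN : Continuous N)
    (hCr : Continuous Cr)
    (hlip : ∀ x x' v, ‖N (x, v) - N (x', v)‖ ≤ 2 * ‖x - x'‖ ∧ ‖Cr (x, v) - Cr (x', v)‖ ≤ ‖x - x'‖)
    (hc : ∀ f : E d → ℝ, Test f → |∫ x, f x ∂μc - ∫ z, f (c + ν • z) ∂(gam d)| ≤ e₁)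
    (hw : ∀ w (f : E d → ℝ), Test f →
      |∫ x, f x ∂(kw w) - ∫ z, f (Cr w + κ • z) ∂(gam d)| ≤ e₂ w)
    (he₂ : Dom (μc.prod ((gam d).prod (gam d))) e₂ B₂)
    {pT ξT : E d × E d → E d} (hp : Measurable pT) (hξ : Measurable ξT) {Q : Measure (E d)}
    [IsProbabilityMeasure Q]
    (hlaw : ((gam d).prod (gam d)).map (fun z => (pT z, ξT z)) = Q.prod (gam d))
    {g : E d → E d} (hg : Continuous g)
    (hD : Dom (((gam d).prod (gam d)).prod (gam d))
      (fun w => ‖N (c + ν • w.1.1, w.1.2, w.2) - pT w.1‖ +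
        ‖Cr (c + ν • w.1.1, w.1.2, w.2) - (g (pT w.1) + κ • ξT w.1)‖) e₃)
    {Φ : E d × E d → ℝ} {Λ M : ℝ} (hΛ : 0 < Λ)
    (h1 : ∀ x x', |Φ x - Φ x'| ≤ Λ * (‖x.1 - x'.1‖ + ‖x.2 - x'.2‖)) (h2 : ∀ x, |Φ x| ≤ M) :
    |∫ w, Φ (N w.1, w.2) ∂((μc.prod ((gam d).prod (gam d))) ⊗ₘ kw) -
      ∫ p, ∫ ξ, ∫ z, Φ (p, g p + κ • ξ + κ • z) ∂(gam d) ∂(gam d) ∂Q| ≤
      Λ * (B₂ + 3 * e₁ + e₃) := by
  have hΦ := onestep_cont h1
  set S := onestepS Φ κ with hS
  have hS1 : ∀ x x', |S x - S x'| ≤ Λ * (‖x.1 - x'.1‖ + ‖x.2 - x'.2‖) := onestepS_lip h1 h2 κ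
  have hS2 : ∀ x, |S x| ≤ M := onestepS_bdd h2 κ
  have hSc : Continuous S := onestep_cont hS1
  set ν2 := (gam d).prod (gam d) with hν2
  -- stage (i)
  have hm0 : Measurable fun w : (E d × E d × E d) × E d => Φ (N w.1, w.2) := by fun_prop
  have e0 : ∫ w, Φ (N w.1, w.2) ∂((μc.prod ν2) ⊗ₘ kw) =
      ∫ w, ∫ x, Φ (N w, x) ∂(kw w) ∂(μc.prod ν2) :=
    Measure.integral_compProd (onestep_int hm0 fun _ => h2 _)
  have hm1 : Measurable fun w => ∫ x, Φ (N w, x) ∂(kw w) :=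
    (hm0.stronglyMeasurable.integral_kernel_prod_right' (κ := kw)).measurable
  have hm2 : Measurable fun w => S (N w, Cr w) := by fun_prop
  have s1 : |∫ w, ∫ x, Φ (N w, x) ∂(kw w) ∂(μc.prod ν2) - ∫ w, S (N w, Cr w) ∂(μc.prod ν2)| ≤
      Λ * B₂ := by
    refine Dom.abs_integral_sub (onestep_int hm1 fun _ => onestep_abs_le fun _ => h2 _)
      (onestep_int hm2 fun _ => hS2 _) (e := fun w => Λ * e₂ w) (fun w => ?_)
      (he₂.const_mul hΛ.le)
    exact lip_of_test (hw w) (f := fun x => Φ (N w, x)) hΛ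
      (fun x x' => by simpa using h1 (N w, x) (N w, x')) (fun x => h2 _)
  -- stage (ii)
  set Θ : E d → ℝ := fun x => ∫ v, S (N (x, v), Cr (x, v)) ∂ν2 with hΘ
  have e1 : ∫ w, S (N w, Cr w) ∂(μc.prod ν2) = ∫ x, Θ x ∂μc :=
    integral_prod _ (onestep_int hm2 fun _ => hS2 _)
  have s2 : |∫ x, Θ x ∂μc - ∫ z, Θ (c + ν • z) ∂(gam d)| ≤ 3 * Λ * e₁ := by
    refine lip_of_test hc (by positivity) (M := M) (fun x x' => ?_)
      (fun x => onestep_abs_le fun _ => hS2 _)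
    refine onestep_abs_sub_le (onestep_int (by fun_prop) fun _ => hS2 _)
      (onestep_int (by fun_prop) fun _ => hS2 _) fun v => (hS1 _ _).trans ?_
    obtain ⟨a1, a2⟩ := hlip x x' v
    calc Λ * (‖N (x, v) - N (x', v)‖ + ‖Cr (x, v) - Cr (x', v)‖) ≤ Λ * (3 * ‖x - x'‖) :=
          mul_le_mul_of_nonneg_left (by linarith) hΛ.le
      _ = _ := by ring
  have hm3 : Measurable fun w : (E d × E d) × E d =>
      S (N (c + ν • w.1.1, w.1.2, w.2), Cr (c + ν • w.1.1, w.1.2, w.2)) := by fun_prop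
  have e2 : ∫ z, Θ (c + ν • z) ∂(gam d) = ∫ w : (E d × E d) × E d,
      S (N (c + ν • w.1.1, w.1.2, w.2), Cr (c + ν • w.1.1, w.1.2, w.2)) ∂(ν2.prod (gam d)) := by
    rw [integral_prod _ (onestep_int hm3 fun _ => hS2 _), hν2, integral_prod]
    · refine integral_congr_ae (Filter.Eventually.of_forall fun z => ?_)
      simp only [hΘ, hν2]
      rw [integral_prod _ (onestep_int (by fun_prop) fun _ => hS2 _)]
    · exact onestep_int (hm3.stronglyMeasurable.integral_prod_right' (ν := gam d)).measurable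
        fun _ => onestep_abs_le fun _ => hS2 _
  -- stage (iii)
  have hm4 : Measurable fun x : E d × E d => S (x.1, g x.1 + κ • x.2) := by fun_prop
  have hm5 : Measurable fun z : E d × E d => (pT z, ξT z) := hp.prodMk hξ
  have hm6 : Measurable fun w : (E d × E d) × E d => S (pT w.1, g (pT w.1) + κ • ξT w.1) :=
    (hm4.comp hm5).comp measurable_fst
  have s3 : |∫ w : (E d × E d) × E d,
      S (N (c + ν • w.1.1, w.1.2, w.2), Cr (c + ν • w.1.1, w.1.2, w.2)) ∂(ν2.prod (gam d)) -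
      ∫ w : (E d × E d) × E d, S (pT w.1, g (pT w.1) + κ • ξT w.1) ∂(ν2.prod (gam d))| ≤
      Λ * e₃ :=
    Dom.abs_integral_sub (onestep_int hm3 fun _ => hS2 _)
      (onestep_int hm6 fun _ => hS2 _) (fun w => hS1 _ _)
      (hD.const_mul hΛ.le)
  have e3 : ∫ w : (E d × E d) × E d, S (pT w.1, g (pT w.1) + κ • ξT w.1) ∂(ν2.prod (gam d)) =
      ∫ p, ∫ ξ, ∫ z, Φ (p, g p + κ • ξ + κ • z) ∂(gam d) ∂(gam d) ∂Q := by
    rw [integral_prod _ (onestep_int hm6 fun _ => hS2 _)]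
    simp only [integral_const, probReal_univ, one_smul]
    have := integral_map (μ := ν2) hm5.aemeasurable (hm4.aestronglyMeasurable)
    rw [← this, hlaw, integral_prod _ (onestep_int hm4 fun _ => hS2 _)]
    rfl
  rw [e0, ← e3]
  rw [e1] at s1
  rw [e2] at s2
  have := abs_sub_le (∫ w, ∫ x, Φ (N w, x) ∂(kw w) ∂(μc.prod ν2)) (∫ x, Θ x ∂μc)
    (∫ w : (E d × E d) × E d, S (pT w.1, g (pT w.1) + κ • ξT w.1) ∂(ν2.prod (gam d)))
  have := abs_sub_le (∫ x, Θ x ∂μc) (∫ w : (E d × E d) × E d,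
      S (N (c + ν • w.1.1, w.1.2, w.2), Cr (c + ν • w.1.1, w.1.2, w.2)) ∂(ν2.prod (gam d)))
    (∫ w : (E d × E d) × E d, S (pT w.1, g (pT w.1) + κ • ξT w.1) ∂(ν2.prod (gam d)))
  nlinarith

/-- First moment of `b1`. -/
theorem onestep_b1 {μc : Measure (E d)} [IsProbabilityMeasure μc] {c : E d} {B b : ℝ}
    (hB0 : 0 ≤ B) (hB : B ≤ 1 / 16) (hb : 0 ≤ b) (h1 : Integrable (fun x => ‖x - c‖) μc)
    (h2 : ∫ x, ‖x - c‖ ∂μc ≤ √d + B * b) :
    Integrable (b1 B b c) (μc.prod ((gam d).prod (gam d))) ∧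
      ∫ w, b1 B b c w ∂(μc.prod ((gam d).prod (gam d))) ≤ (1 + 32 * B) * (b + 24 * √d) := by
  have d1 : Dom (μc.prod ((gam d).prod (gam d))) (fun w => ‖w.1 - c‖) (√d + B * b) :=
    (dom_of_integrable h1 h2).fst
  have d2 : Dom (μc.prod ((gam d).prod (gam d))) (fun w => ‖w.2.1‖) √d :=
    Dom.snd (f := fun v : E d × E d => ‖v.1‖) dom_norm_gam.fst
  have d3 : Dom (μc.prod ((gam d).prod (gam d))) (fun w => ‖w.2.2‖) √d :=
    Dom.snd (f := fun v : E d × E d => ‖v.2‖) dom_norm_gam.snd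
  have d4 := (((dom_const b).add (((d1.add d2).add d3).const_mul (c := 8) (by norm_num))).const_mul
    (c := 1 + 16 * B) (by positivity))
  have d5 : Dom (μc.prod ((gam d).prod (gam d))) (b1 B b c) ((1 + 32 * B) * (b + 24 * √d)) := by
    refine d4.mono (fun w => le_of_eq rfl) ?_
    have hs : (0 : ℝ) ≤ √d := Real.sqrt_nonneg _
    have : 0 ≤ B * b * (1 - 16 * B) := mul_nonneg (mul_nonneg hB0 hb) (by linarith)
    have : 0 ≤ B * √d := mul_nonneg hB0 hs
    nlinarith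
  refine d5.integrable ?_ fun w => ?_
  · have : Continuous (b1 B b c) := by unfold b1 rsz; fun_prop
    exact this.aestronglyMeasurable
  · unfold b1 rsz; positivity

end aux

variable {d : ℕ} {A : Type} [MeasurableSpace A] {P : Par} {r : ℕ} {t : ℝ}

theorem one_step (H : Ctx P d r t) (hS : StepErr P.K P.Cs) {c : VV d → A → E d} {b : VV d → A → ℝ}
    (hc : Arg P (r + 1) t c b) :
    ∃ k₁ : VV d → Kernel A ((E d × E d × E d) × E d), Impl (2 * (P.Sq (r + 1) * P.Q r)) k₁ ∧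
      (∀ V a, Integrable (fun w => b1 (P.B (r + 1)) (b V a) (c V a) w.1) (k₁ V a) ∧
        ∫ w, b1 (P.B (r + 1)) (b V a) (c V a) w.1 ∂(k₁ V a) ≤
          (1 + 32 * P.B (r + 1)) * (b V a + 24 * √d)) ∧
      ∀ V a (Φ : E d × E d → ℝ) (Λ M : ℝ), 0 < Λ →
        (∀ x x', |Φ x - Φ x'| ≤ Λ * (‖x.1 - x'.1‖ + ‖x.2 - x'.2‖)) → (∀ x, |Φ x| ≤ M) →
        |∫ w, Φ (newC P.K P.h (P.β (r + 1)) (P.lam (r + 1)) (Uof V.1) t (c V a) w.1, w.2) ∂(k₁ V a) -
          ∫ p, ∫ ξ, ∫ z, Φ (p, GG (Uof V.1) t (c V a) - GG (Uof V.1) (ta t P.h) p +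
              (P.β (r + 1) * √t)⁻¹ • ξ + (P.β (r + 1) * √t)⁻¹ • z)
            ∂(gam d) ∂(gam d) ∂(qq (Uof V.1) t (c V a) P.h)| ≤
          Λ * P.loc r * ((1 + 32 * P.B (r + 1)) * (b V a + 24 * √d)) := by
  have hP := H.ok
  have hstep := hP.step r H.lt
  have hh := hP.h_pos
  have ht1 : 1 ≤ t := by linarith [hP.T2, H.ht]
  have ht0 : 0 < t := by linarith
  have hst : 1 ≤ √t := Real.one_le_sqrt.2 ht1
  have hB0 := hP.B0 (r + 1)
  have hB : P.B (r + 1) ≤ 1 / 16 := hP.B_le H.lt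
  have hθ0 := hP.θ0
  have hθ1 : P.θ ^ r ≤ 1 := pow_le_one₀ hθ0.le hP.θ1
  have hsd : (0 : ℝ) ≤ √d := Real.sqrt_nonneg _
  obtain ⟨kc, hkc, hkc'⟩ := hc.1 r (Nat.lt_succ_self r)
  have hν : P.h / P.ς (r + 1 - 1) * P.ς r / √t = P.h / √t := by
    rw [Nat.add_sub_cancel, div_mul_cancel₀ _ (hP.ς0 r).ne']
  rw [hν] at hkc'
  obtain ⟨kw, hkw, hkw'⟩ := (units H hc).2
  have hI := (hkc.compProd (impl_const (d := d) (A := A × E d) ((gam d).prod (gam d)))).compProd hkw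
  have hb0 : ∀ V a, 0 ≤ b V a := fun V a => le_trans (by positivity) (hc.2 V a)
  have hk : ∀ V a, ((kc V ⊗ₖ Kernel.const (A × E d) ((gam d).prod (gam d))) ⊗ₖ kw V) a =
      ((kc V a).prod ((gam d).prod (gam d))) ⊗ₘ (Kernel.sectR (kw V) a) := by
    intro V a
    have := hkc.markov V
    have := hkw.markov V
    rw [Kernel.compProd_apply_eq_compProd_sectR, Kernel.compProd_apply_eq_compProd_sectR]
    congr 1
    exact Measure.compProd_const
  have hmom : ∀ V a, Integrable (b1 (P.B (r + 1)) (b V a) (c V a))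
      ((kc V a).prod ((gam d).prod (gam d))) ∧
      ∫ w, b1 (P.B (r + 1)) (b V a) (c V a) w ∂((kc V a).prod ((gam d).prod (gam d))) ≤
        (1 + 32 * P.B (r + 1)) * (b V a + 24 * √d) := by
    intro V a
    have := hkc.markov V
    obtain ⟨m1, m2⟩ := moment_of_test (div_nonneg hh.1.le (Real.sqrt_nonneg _)) (hkc' V a)
    refine onestep_b1 hB0.le hB (hb0 V a) m1 (m2.trans ?_)
    have a1 : P.h / √t ≤ 1 := by
      rw [div_le_one (by positivity)]; linarith [hh.2]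
    have a2 : P.B (r + 1) * P.θ ^ r * b V a ≤ P.B (r + 1) * b V a := by
      have := hb0 V a
      calc P.B (r + 1) * P.θ ^ r * b V a = P.θ ^ r * (P.B (r + 1) * b V a) := by ring
        _ ≤ 1 * (P.B (r + 1) * b V a) := mul_le_mul_of_nonneg_right hθ1 (by positivity)
        _ = _ := one_mul _
    nlinarith
  refine ⟨_, hI.mono (by omega), fun V a => ?_, fun V a Φ Λ M hΛ h1 h2 => ?_⟩
  · have := hkc.markov V
    have := hkw.markov V
    rw [hk]
    have hmp : MeasurePreserving Prod.fst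
        (((kc V a).prod ((gam d).prod (gam d))) ⊗ₘ (Kernel.sectR (kw V) a))
        ((kc V a).prod ((gam d).prod (gam d))) :=
      ⟨measurable_fst, Measure.fst_compProd _ _⟩
    obtain ⟨m1, m2⟩ := hmom V a
    refine ⟨hmp.integrable_comp_of_integrable m1, ?_⟩
    have := integral_map (μ := ((kc V a).prod ((gam d).prod (gam d))) ⊗ₘ (Kernel.sectR (kw V) a))
      measurable_fst.aemeasurable (f := b1 (P.B (r + 1)) (b V a) (c V a))
      (by rw [hmp.map_eq]; exact m1.aestronglyMeasurable)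
    rw [← this, hmp.map_eq]
    exact m2
  · have := hkc.markov V
    have := hkw.markov V
    have hU := pot_Uof V.2
    have := qq_prob hU ht0 (c V a) P.h
    rw [hk]
    obtain ⟨pT, ξT, hp, hξ, hlaw, hD⟩ := hS d _ hU t (c V a) _ _ _ _ ht1 hstep
    have hta : 0 < ta t P.h := lt_of_lt_of_le ht0 (ta_ge ht0.le hh.1.le hh.2)
    have hg : Continuous fun p => GG (Uof V.1) t (c V a) - GG (Uof V.1) (ta t P.h) p :=
      continuous_const.sub (GG_smooth hU zero_le_one hta).continuous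
    have hkc0 : 0 ≤ P.kc (r + 1) := by
      have := hstep.β0; have := hstep.lam0; have := one_le_WW P.K; have := hh.1
      unfold Par.kc; positivity
    obtain ⟨m1, m2⟩ := hmom V a
    have hD2 := (dom_of_integrable m1 m2).const_mul (c := P.kc (r + 1) * P.θ ^ r) (by positivity)
    have key := onestep_meas (kw := Kernel.sectR (kw V) a)
      (step_continuous hU ht1 hstep (c V a)).1 (step_continuous hU ht1 hstep (c V a)).2
      (fun x x' v => step_lip hU ht1 hstep (c V a) x x' v) (hkc' V a)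
      (fun w f hf => hkw' V (a, w) f hf) hD2 hp hξ hlaw hg hD hΛ h1 h2
    refine key.trans ?_
    rw [mul_assoc Λ]
    refine mul_le_mul_of_nonneg_left ?_ hΛ.le
    set Bd := (1 + 32 * P.B (r + 1)) * (b V a + 24 * √d) with hBd
    have hbB : b V a ≤ Bd := by
      have := hb0 V a
      have : 0 ≤ P.B (r + 1) * (b V a + 24 * √d) := by positivity
      rw [hBd]; nlinarith
    have hτ : 0 ≤ P.Cs * P.q ^ P.K / P.β (r + 1) := by
      have := hP.Cs0; have := hstep.β0; have : 0 < P.q := hstep.h0.trans_le hstep.hq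
      positivity
    have a1 : P.B (r + 1) * P.θ ^ r * b V a ≤ P.B (r + 1) * P.θ ^ r * Bd :=
      mul_le_mul_of_nonneg_left hbB (by positivity)
    have a2 : P.Cs * P.q ^ P.K / P.β (r + 1) * (√d + ‖c V a‖) ≤
        P.Cs * P.q ^ P.K / P.β (r + 1) * Bd :=
      mul_le_mul_of_nonneg_left ((hc.2 V a).trans hbB) hτ
    unfold Par.loc
    nlinarith

/-- Telescoping along a path: combining the error of the remaining path (dominated by an affine
function of `b1`) with the error of the first step. -/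
theorem path_arith {B E₀ l b s : ℝ} {M : ℕ} (hB : 0 ≤ B) (hE : 0 ≤ E₀) (hl : 0 ≤ l) (hb : 0 ≤ b)
    (hs : 0 ≤ s) :
    (E₀ + M * l) * (1 + 32 * B) ^ M * ((1 + 32 * B) * (b + 24 * s) + 24 * M * s) +
        l * ((1 + 32 * B) * (b + 24 * s)) ≤
      (E₀ + (M + 1 : ℕ) * l) * (1 + 32 * B) ^ (M + 1) * (b + 24 * (M + 1 : ℕ) * s) := by
  have hM : (0 : ℝ) ≤ M := Nat.cast_nonneg _
  have h1 : (1 : ℝ) ≤ 1 + 32 * B := by linarith
  have h2 : (1 : ℝ) ≤ (1 + 32 * B) ^ M := one_le_pow₀ h1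
  set u := 1 + 32 * B with hu
  set v := u ^ M with hv
  have hMs : 0 ≤ 24 * M * s := by positivity
  have a1 : u * (b + 24 * s) + 24 * M * s ≤ u * (b + 24 * (M + 1) * s) := by nlinarith
  have a2 : u * (b + 24 * s) ≤ v * (u * (b + 24 * (M + 1) * s)) := by
    have : 0 ≤ u * (b + 24 * (M + 1) * s) := by positivity
    nlinarith
  have a3 := mul_le_mul_of_nonneg_left a1 (by positivity : 0 ≤ (E₀ + M * l) * v)
  have a4 := mul_le_mul_of_nonneg_left a2 hl
  push_cast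
  rw [pow_succ, ← hv]
  nlinarith

theorem Par.loc_nonneg (hP : ParOK P) {r : ℕ} (hr : r < P.r0) : 0 ≤ P.loc r := by
  have hs := hP.step r hr
  have := hs.β0; have := hs.lam0; have := one_le_WW P.K; have := hs.h0; have := hP.Cs0
  have := hP.B0 (r + 1); have := hP.θ0
  have : 0 < P.q := hs.h0.trans_le hs.hq
  unfold Par.loc Par.kc
  positivity

theorem Ctx.next (H : Ctx P d r t) : Ctx P d r (ta t P.h) := by
  have hh := H.ok.h_pos
  have ht : 0 ≤ t := by linarith [H.ok.T2, H.ht]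
  exact ⟨H.ok, H.lt, H.call, H.ht.trans (ta_ge ht hh.1.le hh.2)⟩

end

end Crest.Agent.R285
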