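import Crest.Agent.R285.Comp
import Crest.Agent.R285.Gauss

/-!
# R285/Orc: calculus of noisy oracles
-/

set_option autoImplicit false

namespace Crest.Agent.R285

open MeasureTheory ProbabilityTheory Crest.OracleSampling Set
open scoped RealInnerProductSpace ContDiff

noncomputable section

variable {d : ℕ} {A A' : Type} [MeasurableSpace A] [MeasurableSpace A']
  {y y' : VV d → A → E d} {ν ν' : ℝ} {e e' : VV d → A → ℝ} {q q' : ℕ}

theorem orc_int {X : Type} [MeasurableSpace X] (μ : Measure X) [IsFiniteMeasure μ] {f : X → ℝ}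
    (hf : Measurable f) {M : ℝ} (hM : ∀ x, |f x| ≤ M) : Integrable f μ :=
  (integrable_const M).mono' hf.aestronglyMeasurable (ae_of_all _ hM)

theorem orc_shift {f : E d → ℝ} (hf : Test f) (b : E d) : Test fun x => f (b + x) := by
  obtain ⟨h1, M, hM⟩ := hf
  refine ⟨LipschitzWith.of_dist_le_mul fun x x' => ?_, M, fun x => hM _⟩
  simpa using h1.dist_le_mul (b + x) (b + x')

theorem orc_lip {μ : Measure (E d)} {y : E d} {ν e : ℝ}
    (h : ∀ f : E d → ℝ, Test f → |∫ x, f x ∂μ - ∫ z, f (y + ν • z) ∂(gam d)| ≤ e)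
    {f : E d → ℝ} {L M : ℝ} (hL : 0 < L) (h1 : ∀ x x', |f x - f x'| ≤ L * ‖x - x'‖)
    (h2 : ∀ x, |f x| ≤ M) : |∫ x, f x ∂μ - ∫ z, f (y + ν • z) ∂(gam d)| ≤ L * e := by
  have := h _ (test_div hL (fun x x' => by rw [dist_eq_norm]; exact h1 x x') h2)
  rw [integral_div, integral_div, ← sub_div, abs_div, abs_of_pos hL, div_le_iff₀ hL] at this
  linarith

theorem orc_moment {μ μ' : Measure (E d)} [IsProbabilityMeasure μ] [IsProbabilityMeasure μ']
    {e : ℝ} {g : E d → ℝ} (hg : LipschitzWith 1 g) (h0 : ∀ x, 0 ≤ g x) (hμ' : Integrable g μ')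
    (h : ∀ f : E d → ℝ, Test f → |∫ x, f x ∂μ - ∫ x, f x ∂μ'| ≤ e) :
    Integrable g μ ∧ ∫ x, g x ∂μ ≤ ∫ x, g x ∂μ' + e := by
  have hm : Measurable g := hg.continuous.measurable
  have hb : ∀ (n : ℕ) x, |min (g x) n| ≤ n := fun n x => by
    rw [abs_of_nonneg (le_min (h0 x) n.cast_nonneg)]; exact min_le_right _ _
  have hmn : ∀ n : ℕ, Measurable fun x => min (g x) n := fun n => hm.min measurable_const
  have h1 : ∀ n : ℕ, ∫ x, min (g x) n ∂μ ≤ ∫ x, g x ∂μ' + e := fun n => by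
    have a1 := (abs_le.1 (h (fun x => min (g x) n) ⟨hg.min_const _, n, hb n⟩)).2
    have a2 : ∫ x, min (g x) n ∂μ' ≤ ∫ x, g x ∂μ' :=
      integral_mono (orc_int μ' (hmn n) (hb n)) hμ' fun x => min_le_left _ _
    linarith
  have hC : 0 ≤ ∫ x, g x ∂μ' + e :=
    le_trans (integral_nonneg fun x => le_min (h0 x) (Nat.cast_nonneg 0)) (h1 0)
  have key : ∫⁻ x, ENNReal.ofReal (g x) ∂μ ≤ ENNReal.ofReal (∫ x, g x ∂μ' + e) := by
    have e1 : ∀ x, ENNReal.ofReal (g x) = ⨆ n : ℕ, ENNReal.ofReal (min (g x) n) := fun x => by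
      refine le_antisymm (le_iSup_of_le ⌈g x⌉₊ ?_)
        (iSup_le fun n => ENNReal.ofReal_le_ofReal (min_le_left _ _))
      rw [min_eq_left (Nat.le_ceil _)]
    simp only [e1]
    rw [lintegral_iSup (fun n => (hmn n).ennreal_ofReal) fun n m hnm x =>
      ENNReal.ofReal_le_ofReal (min_le_min le_rfl (Nat.cast_le.2 hnm))]
    refine iSup_le fun n => ?_
    rw [← ofReal_integral_eq_lintegral_ofReal (orc_int μ (hmn n) (hb n))
      (ae_of_all _ fun x => le_min (h0 x) n.cast_nonneg)]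
    exact ENNReal.ofReal_le_ofReal (h1 n)
  refine ⟨⟨hm.aestronglyMeasurable, (hasFiniteIntegral_iff_ofReal (ae_of_all _ h0)).2
    (key.trans_lt ENNReal.ofReal_lt_top)⟩, ?_⟩
  rw [integral_eq_lintegral_of_nonneg_ae (ae_of_all _ h0) hm.aestronglyMeasurable]
  exact ENNReal.toReal_le_of_le_ofReal hC key

/-- independent sum of two oracles -/
theorem orc_conv (h : Orc y ν e q) (h' : Orc y' ν' e' q') {μ : ℝ} (hμ : μ ^ 2 = ν ^ 2 + ν' ^ 2) :
    Orc (fun V a => y V a + y' V a) μ (fun V a => e V a + e' V a) (q + q') := by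
  obtain ⟨k₁, i₁, H₁⟩ := h
  obtain ⟨k₂, i₂, H₂⟩ := h'
  obtain ⟨k₃, i₃, H₃⟩ := (i₂.comap (A' := A × E d) measurable_fst).mapA
    (g := fun p : (A × E d) × E d => p.1.2 + p.2) (by fun_prop)
  obtain ⟨k, i, H⟩ := i₁.bind i₃
  refine ⟨k, i, fun V a f hf => ?_⟩
  have := i₁.markov V
  have hfm := hf.measurable
  obtain ⟨M, hM⟩ := hf.2
  have hF := hf.smooth (y' V a) ν'
  have e1 := H₁ V a _ hF
  have e2 : ∫ z, ∫ z', f (y V a + ν • z + y' V a + ν' • z') ∂(gam d) ∂(gam d) =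
      ∫ z, f (y V a + y' V a + μ • z) ∂(gam d) := by
    rw [← integral_gam_add hfm hM _ hμ]
    simp only [add_right_comm (y V a) _ (y' V a)]
  have e3 : ∀ b, |∫ x, f x ∂(k₃ V (a, b)) - ∫ z, f (b + y' V a + ν' • z) ∂(gam d)| ≤ e' V a := by
    intro b
    rw [H₃, integral_map (by fun_prop) hfm.aestronglyMeasurable, Kernel.comap_apply]
    simpa only [add_assoc] using H₂ V a _ (orc_shift hf b)
  have e4 : |∫ b, ∫ x, f x ∂(k₃ V (a, b)) ∂(k₁ V a) -
      ∫ b, ∫ z, f (b + y' V a + ν' • z) ∂(gam d) ∂(k₁ V a)| ≤ e' V a := by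
    obtain ⟨M', hM'⟩ := hF.2
    have hm3 : Measurable fun b => ∫ x, f x ∂(k₃ V (a, b)) :=
      (i₃.measurable_integral V hfm).comp measurable_prodMk_left
    rw [← integral_sub (orc_int _ hm3 fun b => i₃.abs_integral_le V hM (a, b))
      (orc_int _ hF.measurable hM')]
    simpa using norm_integral_le_of_norm_le_const (μ := k₁ V a)
      (ae_of_all _ fun b => (Real.norm_eq_abs _).trans_le (e3 b))
  rw [H V a f hfm ⟨M, hM⟩, ← e2]
  rw [abs_le] at e1 e4 ⊢
  constructor <;> linarith [e1.1, e1.2, e4.1, e4.2]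

theorem Orc.congr (h : Orc y ν e q) (H : ∀ V a, y' V a = y V a) : Orc y' ν e q := by
  obtain ⟨k, i, h⟩ := h
  exact ⟨k, i, fun V a f hf => by rw [H]; exact h V a f hf⟩

/-- Known vectors. -/
theorem orc_known {x : A → E d} (hx : Measurable x) (ν : ℝ) :
    Orc (fun (_ : VV d) a => x a) ν (fun _ _ => 0) 0 := by
  obtain ⟨k, i, H⟩ := (impl_const (d := d) (A := A) (gam d)).mapA
    (g := fun p : A × E d => x p.1 + ν • p.2) (by fun_prop)
  refine ⟨k, i, fun V a f hf => ?_⟩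
  rw [H, integral_map (by fun_prop) hf.measurable.aestronglyMeasurable, Kernel.const_apply]
  simp

/-- Output pure noise. -/
theorem orc_crude (ν : ℝ) (H : ∀ V a, ‖y V a‖ ≤ e V a) : Orc y ν e 0 := by
  obtain ⟨k, i, H'⟩ := (impl_const (d := d) (A := A) (gam d)).mapA
    (g := fun p : A × E d => ν • p.2) (by fun_prop)
  refine ⟨k, i, fun V a f hf => ?_⟩
  rw [H', integral_map (by fun_prop) hf.measurable.aestronglyMeasurable, Kernel.const_apply]
  have := (hf.smooth 0 ν).1.dist_le_mul 0 (y V a)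
  simp only [add_zero, zero_add, Real.dist_eq, NNReal.coe_one, one_mul, dist_zero_left] at this
  exact this.trans (H V a)

/-- Add independent noise `√(ν'² - ν²) Z'` (`integral_gam_add`, `Test.smooth`). -/
theorem Orc.mono (h : Orc y ν e q) (hν : ν ^ 2 ≤ ν' ^ 2) (he : ∀ V a, e V a ≤ e' V a)
    (hq : q ≤ q') : Orc y ν' e' q' := by
  obtain ⟨k, i, H⟩ := orc_conv h (orc_known (x := fun _ => 0) measurable_const (√(ν' ^ 2 - ν ^ 2)))
    (μ := ν') (by rw [Real.sq_sqrt (by linarith)]; ring)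
  refine ⟨k, i.mono (by omega), fun V a f hf => ?_⟩
  have := H V a f hf
  simp only [add_zero] at this
  exact this.trans (he V a)

/-- Run both oracles independently and add; the noise is `√(ν² + ν'²) ≤ ν + ν'`. -/
theorem Orc.add (h : Orc y ν e q) (h' : Orc y' ν' e' q') (hν : 0 ≤ ν) (hν' : 0 ≤ ν') :
    Orc (fun V a => y V a + y' V a) (ν + ν') (fun V a => e V a + e' V a) (q + q') := by
  refine (orc_conv h h' (μ := √(ν ^ 2 + ν' ^ 2)) (Real.sq_sqrt (by positivity))).mono ?_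
    (fun _ _ => le_rfl) le_rfl
  rw [Real.sq_sqrt (by positivity)]
  nlinarith [mul_nonneg hν hν']

theorem Orc.smul (h : Orc y ν e q) (κ : ℝ) :
    Orc (fun V a => κ • y V a) (|κ| * ν) (fun V a => |κ| * e V a) q := by
  obtain ⟨k, i, H⟩ := h
  obtain ⟨k', i', H'⟩ := i.mapA (g := fun p : A × E d => κ • p.2) (by fun_prop)
  refine ⟨k', i', fun V a f hf => ?_⟩
  have := i.markov V
  have hfm := hf.measurable
  rw [H', integral_map (by fun_prop) hfm.aestronglyMeasurable]
  rcases eq_or_ne κ 0 with rfl | hκ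
  · simp
  · obtain ⟨M, hM⟩ := hf.2
    have := orc_lip (H V a) (f := fun x => f (κ • x)) (abs_pos.2 hκ) (fun x x' => by
      have := hf.1.dist_le_mul (κ • x) (κ • x')
      rwa [NNReal.coe_one, one_mul, Real.dist_eq, dist_eq_norm, ← smul_sub, norm_smul,
        Real.norm_eq_abs] at this) fun x => hM _
    rw [← integral_gam_abs hfm, abs_mul, abs_abs, ← abs_mul, integral_gam_abs hfm]
    simpa only [smul_add, smul_smul] using this

theorem Orc.comap (h : Orc y ν e q) {g : A' → A} (hg : Measurable g) :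
    Orc (fun V a => y V (g a)) ν (fun V a => e V (g a)) q := by
  obtain ⟨k, i, H⟩ := h
  exact ⟨_, i.comap hg, fun V a f hf => by rw [Kernel.comap_apply]; exact H V (g a) f hf⟩

theorem Orc.err_nonneg (h : Orc y ν e q) (V : VV d) (a : A) : 0 ≤ e V a := by
  obtain ⟨k, -, H⟩ := h
  exact (abs_nonneg _).trans (H V a (fun _ => 0) ⟨(LipschitzWith.const 0).weaken zero_le_one, 0,
    fun _ => by simp⟩)

/-- First moment: test with `min ‖x - y‖ M`, monotone convergence. -/
theorem moment_of_test {μ : Measure (E d)} [IsProbabilityMeasure μ] {y : E d} {ν e : ℝ}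
    (hν : 0 ≤ ν)
    (h : ∀ f : E d → ℝ, Test f → |∫ x, f x ∂μ - ∫ z, f (y + ν • z) ∂(gam d)| ≤ e) :
    Integrable (fun x => ‖x - y‖) μ ∧ ∫ x, ‖x - y‖ ∂μ ≤ ν * √d + e := by
  have hm : Measurable fun z : E d => y + ν • z := by fun_prop
  have : IsProbabilityMeasure ((gam d).map fun z => y + ν • z) :=
    Measure.isProbabilityMeasure_map hm.aemeasurable
  have hg : LipschitzWith 1 fun x : E d => ‖x - y‖ := by
    simpa only [dist_eq_norm] using LipschitzWith.dist_left y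
  have e1 : ∀ z : E d, ‖y + ν • z - y‖ = ν * ‖z‖ := fun z => by
    rw [add_sub_cancel_left, norm_smul, Real.norm_of_nonneg hν]
  obtain ⟨h1, h2⟩ := orc_moment (μ := μ) (μ' := (gam d).map fun z => y + ν • z) (e := e) hg
    (fun _ => norm_nonneg _) (by
      rw [integrable_map_measure hg.continuous.aestronglyMeasurable hm.aemeasurable]
      simpa only [Function.comp_def, e1] using integrable_norm_gam.const_mul ν) fun f hf => by
      rw [integral_map hm.aemeasurable hf.measurable.aestronglyMeasurable]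
      exact h f hf
  refine ⟨h1, h2.trans ?_⟩
  rw [integral_map hm.aemeasurable hg.continuous.aestronglyMeasurable]
  simp only [e1]
  rw [integral_const_mul]
  have := mul_le_mul_of_nonneg_left (integral_norm_gam_le (d := d)) hν
  linarith

/-- General form of the same argument. -/
theorem moment_of_test' {μ μ' : Measure (E d)} [IsProbabilityMeasure μ] [IsProbabilityMeasure μ']
    {e : ℝ} (hμ' : Integrable (fun x => ‖x‖) μ')
    (h : ∀ f : E d → ℝ, Test f → |∫ x, f x ∂μ - ∫ x, f x ∂μ'| ≤ e) :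
    Integrable (fun x => ‖x‖) μ ∧ ∫ x, ‖x‖ ∂μ ≤ ∫ x, ‖x‖ ∂μ' + e := by
  exact orc_moment lipschitzWith_one_norm (fun _ => norm_nonneg _) hμ' h

/-- Bounded `L`-Lipschitz tests. -/
theorem lip_of_test {μ : Measure (E d)} {y : E d} {ν e : ℝ}
    (h : ∀ f : E d → ℝ, Test f → |∫ x, f x ∂μ - ∫ z, f (y + ν • z) ∂(gam d)| ≤ e)
    {f : E d → ℝ} {L M : ℝ} (hL : 0 < L) (h1 : ∀ x x', |f x - f x'| ≤ L * ‖x - x'‖)
    (h2 : ∀ x, |f x| ≤ M) : |∫ x, f x ∂μ - ∫ z, f (y + ν • z) ∂(gam d)| ≤ L * e := by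
  exact orc_lip h hL h1 h2

end

end Crest.Agent.R285
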