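import Crest.Agent.R285.DefsN

/-!
# R285/Weights: error of the quadrature and differentiation formulas; Picard iteration
-/

set_option autoImplicit false

namespace Crest.Agent.R285

open MeasureTheory ProbabilityTheory Crest.OracleSampling Set
open scoped RealInnerProductSpace ContDiff

noncomputable section

theorem sg_pos (K : ℕ) (l : Fin (K + 1)) : 0 < sg K l := by
  unfold sg; positivity

theorem sg_le_one (K : ℕ) (l : Fin (K + 1)) : sg K l ≤ 1 := by
  have h : ((l : ℕ) : ℝ) ≤ K := by exact_mod_cast Nat.lt_succ_iff.1 l.2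
  rw [sg, div_le_one (by positivity)]
  linarith

theorem sg_last (K : ℕ) : sg K (Fin.last K) = 1 := by
  rw [sg, Fin.val_last, div_self (by positivity)]

theorem one_le_WW (K : ℕ) : 1 ≤ WW K := by
  have h1 : 0 ≤ ∑ l, |dw K l| := by positivity
  have h2 : 0 ≤ ∑ m, ∑ l, |iw K m l| := by positivity
  unfold WW
  linarith

theorem sum_abs_dw_le (K : ℕ) : ∑ l, |dw K l| ≤ WW K := by
  have h2 : 0 ≤ ∑ m, ∑ l, |iw K m l| := by positivity
  unfold WW
  linarith

theorem sum_abs_iw_le (K : ℕ) (m : Fin (K + 1)) : 1 + ∑ l, |iw K m l| ≤ WW K := by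
  have h1 : 0 ≤ ∑ l, |dw K l| := by positivity
  have h2 := Finset.single_le_sum (f := fun m => ∑ l, |iw K m l|) (fun _ _ => by positivity)
    (Finset.mem_univ m)
  unfold WW
  linarith

theorem weights_interp (K : ℕ) {j : ℕ} (hj : j ≤ K) : (Polynomial.X ^ j : Polynomial ℝ) =
    ∑ l, Polynomial.C (sg K l ^ j) * Lagrange.basis Finset.univ (sg K) l := by
  have h := Lagrange.eq_interpolate (s := Finset.univ) (v := sg K) (f := Polynomial.X ^ j)
    (fun a _ b _ e => by
      rw [sg, sg, div_left_inj' (by positivity), add_left_inj] at e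
      exact Fin.ext (by exact_mod_cast e))
    (by
      rw [Polynomial.degree_X_pow, Finset.card_univ, Fintype.card_fin]
      exact_mod_cast Nat.lt_succ_of_le hj)
  simpa [Lagrange.interpolate_apply] using h

/-- Exactness on monomials (`Lagrange.eq_interpolate` for `X^j`, `j ≤ K`). -/
theorem sum_iw_pow (K : ℕ) (m : Fin (K + 1)) {j : ℕ} (hj : j ≤ K) :
    ∑ l, iw K m l * sg K l ^ j = sg K m ^ (j + 1) / (j + 1) := by
  have h : ∀ x : ℝ, x ^ j = ∑ l, sg K l ^ j * (Lagrange.basis Finset.univ (sg K) l).eval x :=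
    fun x => by
      have := congrArg (Polynomial.eval x) (weights_interp K hj)
      simpa [Polynomial.eval_finsetSum] using this
  have h2 : ∫ x in (0 : ℝ)..sg K m, x ^ j = sg K m ^ (j + 1) / (j + 1) := by simp
  rw [← h2, show (fun x : ℝ => x ^ j) = _ from funext h, intervalIntegral.integral_finsetSum
    fun l _ => Continuous.intervalIntegrable (by fun_prop) _ _]
  refine Finset.sum_congr rfl fun l _ => ?_
  rw [intervalIntegral.integral_const_mul, iw, mul_comm]

theorem sum_dw_pow (K : ℕ) {j : ℕ} (hj : j ≤ K) :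
    ∑ l, dw K l * sg K l ^ j = if j = 1 then 1 else 0 := by
  have h := congrArg (fun p => (Polynomial.derivative p).eval 0) (weights_interp K hj)
  simp only [Polynomial.derivative_sum, Polynomial.eval_finsetSum, Polynomial.derivative_C_mul,
    Polynomial.eval_mul, Polynomial.eval_C, Polynomial.derivative_X_pow, Polynomial.eval_pow,
    Polynomial.eval_X] at h
  simp only [dw, mul_comm _ (sg K _ ^ j)]
  rw [← h]
  rcases j with _ | _ | j <;> simp

variable {X : Type} [NormedAddCommGroup X] [NormedSpace ℝ X] [CompleteSpace X]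

theorem Chain.continuousOn {T : ℝ} {g : ℕ → ℝ → X} (hg : Chain T g) (k : ℕ) :
    ContinuousOn (g k) (Icc 0 T) := by
  exact fun a ha => (hg k a ha).continuousWithinAt

/-- FTC on `[0,a]`. -/
theorem sub_eq_integral {T : ℝ} {y g : ℝ → X} (hy : ∀ a ∈ Icc (0 : ℝ) T,
    HasDerivWithinAt y (g a) (Icc 0 T) a) (hg : ContinuousOn g (Icc 0 T)) {a : ℝ}
    (ha : a ∈ Icc (0 : ℝ) T) : y a - y 0 = ∫ x in (0 : ℝ)..a, g x := by
  have hs : Icc (0 : ℝ) a ⊆ Icc 0 T := Icc_subset_Icc_right ha.2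
  refine (intervalIntegral.integral_eq_sub_of_hasDeriv_right_of_le ha.1
    (fun x hx => (hy x (hs hx)).continuousWithinAt.mono hs) (fun x hx => ?_)
    ((hg.mono hs).intervalIntegrable_of_Icc ha.1)).symm
  exact ((hy x (hs (Ioo_subset_Icc_self hx))).hasDerivAt
    (Icc_mem_nhds hx.1 (hx.2.trans_le ha.2))).hasDerivWithinAt

omit [CompleteSpace X] in
theorem weights_norm_int {T : ℝ} {g : ℝ → X} (hg : ContinuousOn g (Icc 0 T)) {h a : ℝ}
    (hT : h ≤ T) (ha : a ∈ Icc (0 : ℝ) h) :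
    ‖∫ x in (0 : ℝ)..a, g x‖ ≤ ∫ x in (0 : ℝ)..h, ‖g x‖ :=
  (intervalIntegral.norm_integral_le_integral_norm ha.1).trans
    (intervalIntegral.integral_mono_interval le_rfl ha.1 ha.2
      (Filter.Eventually.of_forall fun _ => norm_nonneg _)
      ((hg.mono (Icc_subset_Icc_right hT)).norm.intervalIntegrable_of_Icc (ha.1.trans ha.2)))

theorem weights_mem (K : ℕ) {h : ℝ} (h0 : 0 < h) (l : Fin (K + 1)) : sg K l * h ∈ Icc (0 : ℝ) h :=
  ⟨(mul_pos (sg_pos K l) h0).le, mul_le_of_le_one_left h0.le (sg_le_one K l)⟩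

/-- Taylor with a crude remainder (induction on `n`, applying the hypothesis to `k ↦ g (k+1)`). -/
theorem taylor_chain {T : ℝ} {g : ℕ → ℝ → X} (hg : Chain T g) (n : ℕ) {h a : ℝ} (hT : h ≤ T)
    (ha : a ∈ Icc (0 : ℝ) h) :
    ‖g 0 a - ∑ j ∈ Finset.range (n + 1), (a ^ j / j.factorial) • g j 0‖ ≤
      h ^ n * ∫ x in (0 : ℝ)..h, ‖g (n + 1) x‖ := by
  induction n generalizing g a with
  | zero =>
    rw [zero_add, Finset.sum_range_one, pow_zero, pow_zero, Nat.factorial_zero, Nat.cast_one,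
      div_one, one_smul, one_mul,
      sub_eq_integral (hg 0) (hg.continuousOn 1) (Icc_subset_Icc_right hT ha)]
    exact weights_norm_int (hg.continuousOn 1) hT ha
  | succ n ih =>
    have hd : ∀ x ∈ Icc (0 : ℝ) h, HasDerivWithinAt
        (fun x => g 0 x - ∑ j ∈ Finset.range (n + 1),
          (x ^ (j + 1) / ((j + 1).factorial : ℝ)) • g (j + 1) 0)
        (g 1 x - ∑ j ∈ Finset.range (n + 1), (x ^ j / (j.factorial : ℝ)) • g (j + 1) 0)
        (Icc 0 h) x := fun x hx => by
      refine ((hg 0 x (Icc_subset_Icc_right hT hx)).mono (Icc_subset_Icc_right hT)).sub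
        (HasDerivWithinAt.fun_sum fun j _ => ?_)
      convert (((hasDerivAt_pow (j + 1) x).div_const
        ((j + 1).factorial : ℝ)).smul_const (g (j + 1) 0)).hasDerivWithinAt using 2
      rw [Nat.factorial_succ]
      push_cast
      field_simp
    have h1 := (convex_Icc (0 : ℝ) h).norm_image_sub_le_of_norm_hasDerivWithin_le hd
      (fun x hx => ih (g := fun k => g (k + 1)) (fun k => hg (k + 1)) hx)
      ⟨le_rfl, ha.1.trans ha.2⟩ ha
    have h2 : 0 ≤ h ^ n * ∫ x in (0 : ℝ)..h, ‖g (n + 1 + 1) x‖ :=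
      mul_nonneg (pow_nonneg (ha.1.trans ha.2) _)
        (intervalIntegral.integral_nonneg (ha.1.trans ha.2) fun _ _ => norm_nonneg _)
    rw [sub_zero, Real.norm_of_nonneg ha.1] at h1
    rw [Finset.sum_range_succ']
    refine le_trans (le_of_eq (congrArg _ ?_)) (h1.trans ?_)
    · simp
      abel
    · rw [pow_succ, mul_right_comm _ h]
      exact mul_le_mul_of_nonneg_left ha.2 h2

omit [CompleteSpace X] in
theorem weights_sum_le {K : ℕ} (w : Fin (K + 1) → ℝ) {c C : ℝ} (hc : 0 ≤ c) {v : Fin (K + 1) → X}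
    (hv : ∀ l, ‖v l‖ ≤ C) : ‖∑ l, (c * w l) • v l‖ ≤ c * (∑ l, |w l|) * C := by
  refine (norm_sum_le _ _).trans ?_
  rw [Finset.mul_sum, Finset.sum_mul]
  refine Finset.sum_le_sum fun l _ => ?_
  rw [norm_smul, Real.norm_eq_abs, abs_mul, abs_of_nonneg hc]
  exact mul_le_mul_of_nonneg_left (hv l) (by positivity)

omit [CompleteSpace X] in
theorem weights_sum_poly {K : ℕ} (w : Fin (K + 1) → ℝ) (c h : ℝ) (u : ℕ → X) :
    ∑ l, (c * w l) • ∑ j ∈ Finset.range (K + 1), ((sg K l * h) ^ j / (j.factorial : ℝ)) • u j =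
      ∑ j ∈ Finset.range (K + 1), (c * h ^ j / j.factorial * ∑ l, w l * sg K l ^ j) • u j := by
  simp only [Finset.smul_sum, smul_smul]
  rw [Finset.sum_comm]
  refine Finset.sum_congr rfl fun j _ => ?_
  rw [Finset.mul_sum, Finset.sum_smul]
  refine Finset.sum_congr rfl fun l _ => ?_
  congr 1
  ring

theorem quad_err (K : ℕ) {T : ℝ} {g : ℕ → ℝ → X} (hg : Chain T g) {h : ℝ} (h0 : 0 < h)
    (hT : h ≤ T) (m : Fin (K + 1)) :
    ‖(∫ a in (0 : ℝ)..sg K m * h, g 0 a) - ∑ l, (h * iw K m l) • g 0 (sg K l * h)‖ ≤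
      WW K * h ^ (K + 1) * ∫ a in (0 : ℝ)..h, ‖g (K + 1) a‖ := by
  have hm := weights_mem K h0 m
  have hR := fun a ha => taylor_chain hg K (a := a) hT ha
  have hC : 0 ≤ h ^ K * ∫ x in (0 : ℝ)..h, ‖g (K + 1) x‖ :=
    (norm_nonneg _).trans (hR 0 ⟨le_rfl, h0.le⟩)
  have hP : ∀ j : ℕ, IntervalIntegrable (fun a : ℝ => (a ^ j / (j.factorial : ℝ)) • g j 0) volume 0
      (sg K m * h) := fun j => Continuous.intervalIntegrable (by fun_prop) _ _
  have e1 : ∫ a in (0 : ℝ)..sg K m * h,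
      ∑ j ∈ Finset.range (K + 1), (a ^ j / (j.factorial : ℝ)) • g j 0 =
      ∑ l, (h * iw K m l) •
        ∑ j ∈ Finset.range (K + 1), ((sg K l * h) ^ j / (j.factorial : ℝ)) • g j 0 := by
    rw [weights_sum_poly, intervalIntegral.integral_finsetSum fun j _ => hP j]
    refine Finset.sum_congr rfl fun j hj => ?_
    rw [intervalIntegral.integral_smul_const, sum_iw_pow K m (Finset.mem_range_succ_iff.1 hj),
      intervalIntegral.integral_div, integral_pow]
    congr 1
    ring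
  have e2 : (∫ a in (0 : ℝ)..sg K m * h, g 0 a) - ∑ l, (h * iw K m l) • g 0 (sg K l * h) =
      (∫ a in (0 : ℝ)..sg K m * h,
        (g 0 a - ∑ j ∈ Finset.range (K + 1), (a ^ j / (j.factorial : ℝ)) • g j 0)) -
      ∑ l, (h * iw K m l) • (g 0 (sg K l * h) -
        ∑ j ∈ Finset.range (K + 1), ((sg K l * h) ^ j / (j.factorial : ℝ)) • g j 0) := by
    rw [intervalIntegral.integral_sub (((hg.continuousOn 0).mono
      (Icc_subset_Icc_right (hm.2.trans hT))).intervalIntegrable_of_Icc hm.1)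
      (Continuous.intervalIntegrable (by fun_prop) _ _), e1]
    simp only [smul_sub, Finset.sum_sub_distrib]
    abel
  have h1 := intervalIntegral.norm_integral_le_of_norm_le_const (a := 0) (b := sg K m * h)
    fun a ha => hR a (by
      rw [uIoc_of_le hm.1] at ha
      exact ⟨ha.1.le, ha.2.trans hm.2⟩)
  rw [sub_zero, abs_of_nonneg hm.1] at h1
  have h2 := weights_sum_le (iw K m) h0.le fun l => hR _ (weights_mem K h0 l)
  rw [e2]
  refine (norm_sub_le _ _).trans ?_
  have h3 := mul_le_mul_of_nonneg_left hm.2 hC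
  have h4 := mul_le_mul_of_nonneg_right (sum_abs_iw_le K m) (mul_nonneg h0.le hC)
  rw [pow_succ]
  linarith

theorem diff_err {K : ℕ} (hK : 1 ≤ K) {T : ℝ} {g : ℕ → ℝ → X} (hg : Chain T g) {h : ℝ}
    (h0 : 0 < h) (hT : h ≤ T) :
    ‖g 1 0 - ∑ l, (h⁻¹ * dw K l) • g 0 (sg K l * h)‖ ≤
      WW K * h ^ (K - 1) * ∫ a in (0 : ℝ)..h, ‖g (K + 1) a‖ := by
  have hR := fun a ha => taylor_chain hg K (a := a) hT ha
  have hC : 0 ≤ h ^ K * ∫ x in (0 : ℝ)..h, ‖g (K + 1) x‖ :=
    (norm_nonneg _).trans (hR 0 ⟨le_rfl, h0.le⟩)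
  have e1 : ∑ l, (h⁻¹ * dw K l) •
      ∑ j ∈ Finset.range (K + 1), ((sg K l * h) ^ j / (j.factorial : ℝ)) • g j 0 = g 1 0 := by
    rw [weights_sum_poly, Finset.sum_eq_single 1 (fun j hj h1 => by
      rw [sum_dw_pow K (Finset.mem_range_succ_iff.1 hj), if_neg h1, mul_zero, zero_smul])
      (fun h => (h (Finset.mem_range_succ_iff.2 hK)).elim), sum_dw_pow K hK]
    simp [h0.ne']
  have h2 := weights_sum_le (dw K) (inv_nonneg.2 h0.le) fun l => hR _ (weights_mem K h0 l)
  simp only [smul_sub, Finset.sum_sub_distrib] at h2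
  rw [e1, norm_sub_rev] at h2
  refine h2.trans ?_
  have h4 := mul_le_mul_of_nonneg_right (sum_abs_dw_le K) (mul_nonneg (inv_nonneg.2 h0.le) hC)
  have e2 : h ^ (K - 1) = h⁻¹ * h ^ K := by rw [pow_sub₀ _ h0.ne' hK, pow_one, mul_comm]
  rw [e2]
  linarith

/-- Error of the Picard iterates with respect to a path `y` with `y' = g 0`.  With
`e_n = max_m ‖picard n m - y(σ_m h)‖` one has `e_{n+1} ≤ q e_n + D`, `e_0 ≤ ∫_0^h ‖g 0‖`. -/
theorem picard_err (K : ℕ) {T h L q : ℝ} {f : ℝ → X → X} {y : ℝ → X} {g : ℕ → ℝ → X}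
    (hg : Chain T g) (hy : ∀ a ∈ Icc (0 : ℝ) T, HasDerivWithinAt y (g 0 a) (Icc 0 T) a)
    (h0 : 0 < h) (hT : h ≤ T) (hL0 : 0 ≤ L)
    (hL : ∀ l Y Y', ‖f (sg K l * h) Y - f (sg K l * h) Y'‖ ≤ L * ‖Y - Y'‖)
    (hq : h * WW K * L ≤ q) (hq1 : q ≤ 1 / 2) (n : ℕ) (m : Fin (K + 1)) :
    ‖picard K h f (y 0) n m - y (sg K m * h)‖ ≤
      q ^ n * (∫ a in (0 : ℝ)..h, ‖g 0 a‖) +
        2 * (WW K * h ^ (K + 1) * (∫ a in (0 : ℝ)..h, ‖g (K + 1) a‖) +
          h * WW K * ∑ l, ‖f (sg K l * h) (y (sg K l * h)) - g 0 (sg K l * h)‖) := by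
  have hW := fun m => (le_add_of_nonneg_left zero_le_one).trans (sum_abs_iw_le K m)
  have hW0 := zero_le_one.trans (one_le_WW K)
  have hy' := fun m => sub_eq_integral hy (hg.continuousOn 0)
    (Icc_subset_Icc_right hT (weights_mem K h0 m))
  have hA : 0 ≤ ∫ a in (0 : ℝ)..h, ‖g 0 a‖ :=
    intervalIntegral.integral_nonneg h0.le fun _ _ => norm_nonneg _
  have hB : 0 ≤ ∫ a in (0 : ℝ)..h, ‖g (K + 1) a‖ :=
    intervalIntegral.integral_nonneg h0.le fun _ _ => norm_nonneg _
  have hq0 : 0 ≤ q := le_trans (by positivity) hq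
  have hE := fun l => Finset.single_le_sum
    (f := fun l => ‖f (sg K l * h) (y (sg K l * h)) - g 0 (sg K l * h)‖)
    (fun _ _ => norm_nonneg _) (Finset.mem_univ l)
  have hE0 := (norm_nonneg _).trans (hE 0)
  have hQ := quad_err K hg h0 hT
  have hQ0 := (norm_nonneg _).trans (hQ 0)
  induction n generalizing m with
  | zero =>
    have h1 := weights_norm_int (hg.continuousOn 0) hT (weights_mem K h0 m)
    rw [← hy', norm_sub_rev] at h1
    have h2 := mul_nonneg (mul_nonneg h0.le hW0) hE0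
    rw [pow_zero, one_mul]
    exact h1.trans (by linarith)
  | succ n ih =>
    have e : picard K h f (y 0) (n + 1) m - y (sg K m * h) =
        ∑ l, (h * iw K m l) • (f (sg K l * h) (picard K h f (y 0) n l) -
          f (sg K l * h) (y (sg K l * h))) +
        ∑ l, (h * iw K m l) • (f (sg K l * h) (y (sg K l * h)) - g 0 (sg K l * h)) -
        ((∫ a in (0 : ℝ)..sg K m * h, g 0 a) - ∑ l, (h * iw K m l) • g 0 (sg K l * h)) := by
      rw [← hy']
      simp only [picard, smul_sub, Finset.sum_sub_distrib]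
      abel
    have h1 := weights_sum_le (iw K m) h0.le fun l =>
      (hL l _ _).trans (mul_le_mul_of_nonneg_left (ih l) hL0)
    have h2 := weights_sum_le (iw K m) h0.le hE
    have h3 := hQ m
    have h4 := (norm_nonneg _).trans (ih 0)
    rw [e]
    refine (norm_sub_le _ _).trans ((add_le_add (norm_add_le _ _) le_rfl).trans ?_)
    generalize ∑ l, ‖f (sg K l * h) (y (sg K l * h)) - g 0 (sg K l * h)‖ = E at *
    generalize WW K * h ^ (K + 1) * ∫ a in (0 : ℝ)..h, ‖g (K + 1) a‖ = Q at *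
    have h5 := mul_le_mul_of_nonneg_right (hW m) (mul_nonneg h0.le hE0)
    have h6 := mul_le_mul_of_nonneg_right (hW m) (mul_nonneg h0.le (mul_nonneg hL0 h4))
    have h7 := mul_le_mul_of_nonneg_right hq h4
    have h8 := mul_le_mul_of_nonneg_right hq1
      (add_nonneg hQ0 (mul_nonneg (mul_nonneg h0.le hW0) hE0))
    rw [pow_succ]
    linarith

omit [CompleteSpace X] in
/-- Stability with respect to the field and the initial value. -/
theorem picard_lip (K : ℕ) {h L D : ℝ} {f f' : ℝ → X → X} (y0 y0' : X) (h0 : 0 < h) (hL0 : 0 ≤ L)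
    (hD : 0 ≤ D) (hL : ∀ l Y Y', ‖f (sg K l * h) Y - f' (sg K l * h) Y'‖ ≤ D + L * ‖Y - Y'‖)
    (hq : h * WW K * L ≤ 1 / 2) (n : ℕ) (m : Fin (K + 1)) :
    ‖picard K h f y0 n m - picard K h f' y0' n m‖ ≤ 2 * (‖y0 - y0'‖ + h * WW K * D) := by
  have hW := fun m => (le_add_of_nonneg_left zero_le_one).trans (sum_abs_iw_le K m)
  have hW0 := zero_le_one.trans (one_le_WW K)
  have h1 : 0 ≤ h * WW K * D := by positivity
  have h2 := norm_nonneg (y0 - y0')
  induction n generalizing m with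
  | zero => exact (show ‖y0 - y0'‖ ≤ _ by linarith)
  | succ n ih =>
    have e : picard K h f y0 (n + 1) m - picard K h f' y0' (n + 1) m = (y0 - y0') +
        ∑ l, (h * iw K m l) • (f (sg K l * h) (picard K h f y0 n l) -
          f' (sg K l * h) (picard K h f' y0' n l)) := by
      simp only [picard, smul_sub, Finset.sum_sub_distrib]
      abel
    have h3 := weights_sum_le (iw K m) h0.le fun l =>
      (hL l _ _).trans (add_le_add le_rfl (mul_le_mul_of_nonneg_left (ih l) hL0))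
    have h4 : 0 ≤ h * (D + L * (2 * (‖y0 - y0'‖ + h * WW K * D))) := by positivity
    have h5 := mul_le_mul_of_nonneg_right (hW m) h4
    have h6 := mul_le_mul_of_nonneg_right hq (add_nonneg h2 h1)
    rw [e]
    refine (norm_add_le _ _).trans ?_
    linarith

omit [CompleteSpace X] in
theorem picard_continuous {Z : Type} [TopologicalSpace Z] (K : ℕ) (h : ℝ) {f : Z → ℝ → X → X}
    {y0 : Z → X} (hf : ∀ l, Continuous fun p : Z × X => f p.1 (sg K l * h) p.2)
    (hy : Continuous y0) (n : ℕ) (m : Fin (K + 1)) : Continuous fun z => picard K h (f z) (y0 z) n m := by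
  induction n generalizing m with
  | zero => exact hy
  | succ n ih =>
    exact hy.add (continuous_finsetSum _ fun l _ =>
      ((hf l).comp (continuous_id.prodMk (ih l))).const_smul _)

end

end Crest.Agent.R285
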