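import Crest.Agent.R285.DefsP
import Crest.Agent.R285.Weights

/-!
# R285/ParamA: the explicit parameters satisfy `ParOK`

Write `W = WW K ≥ 1`.  `N ≤ 2e^{-3}`, `N ≥ e^{-3}`; `kc = 2W³e^{D+8} ≤ e^{D+7}`;
`Cs e^K/β(r+1) = Cs e^{K-Pp-3r-1} ≤ e^{Dr+D+7}`; so `loc r ≤ 5 e^{D+7} θ^r`.
`(1+32B)^M ≤ exp(32 B M) ≤ 3` for `M ≤ N`; `√((1-e²)^N) ≤ exp(-e²N/2) ≤ exp(-1/(2e))`;
budget: `≤ 14 e^{D+4} θ^r · 3 · 49 e^{-3} ≤ θ^{r+1}`.
-/

set_option autoImplicit false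

namespace Crest.Agent.R285

open MeasureTheory ProbabilityTheory Crest.OracleSampling Set
open scoped RealInnerProductSpace ContDiff

noncomputable section

variable {D r0 NX J : ℕ} {Cs e : ℝ}

theorem parama_W (K : ℕ) : 1 ≤ WW K := by
  unfold WW
  have h1 : 0 ≤ ∑ l, |dw K l| := Finset.sum_nonneg fun _ _ => abs_nonneg _
  have h2 : 0 ≤ ∑ m, ∑ l, |iw K m l| :=
    Finset.sum_nonneg fun _ _ => Finset.sum_nonneg fun _ _ => abs_nonneg _
  linarith

/-- The smallness of `e` in the form in which it is used. -/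
theorem parama_key (H : Small D r0 J Cs e) {i j : ℕ} (hi : i ≤ 3) (hj : j ≤ r0) :
    e * WW (pK D r0) ^ i * 8 ^ j * (1 + Cs) ≤ 1 / 10000 := by
  have h0 := H.pos
  have hC := H.Cs0
  have hW := parama_W (pK D r0)
  have h1 : WW (pK D r0) ^ i ≤ WW (pK D r0) ^ 3 := pow_le_pow_right₀ hW hi
  have h2 : (8 : ℝ) ^ j ≤ 8 ^ r0 := pow_le_pow_right₀ (by norm_num) hj
  have h3 : (1 : ℝ) ≤ ((pK D r0 : ℝ) + 2) ^ 3 :=
    one_le_pow₀ (by linarith [(Nat.cast_nonneg _ : (0 : ℝ) ≤ pK D r0)])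
  have h4 : e * WW (pK D r0) ^ i * 8 ^ j * (1 + Cs) ≤
      e * WW (pK D r0) ^ 3 * 8 ^ r0 * ((pK D r0 : ℝ) + 2) ^ 3 * (1 + Cs) := by
    calc e * WW (pK D r0) ^ i * 8 ^ j * (1 + Cs) =
          e * WW (pK D r0) ^ i * 8 ^ j * 1 * (1 + Cs) := by ring
      _ ≤ _ := by gcongr
  have h5 := H.le
  nlinarith

theorem parama_W8 (H : Small D r0 J Cs e) {i j : ℕ} (hi : i ≤ 3) (hj : j ≤ r0) :
    e * WW (pK D r0) ^ i * 8 ^ j ≤ 1 / 10000 := by
  have h0 := H.pos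
  have hW := parama_W (pK D r0)
  refine le_trans (le_mul_of_one_le_right (by positivity) (by linarith [H.Cs0]))
    (parama_key H hi hj)

theorem parama_eW (H : Small D r0 J Cs e) {i : ℕ} (hi : i ≤ 3) :
    e * WW (pK D r0) ^ i ≤ 1 / 10000 := by
  simpa using parama_W8 H hi (Nat.zero_le _)

theorem parama_e (H : Small D r0 J Cs e) : e ≤ 1 / 10000 := by
  simpa using parama_eW H (Nat.zero_le _)

theorem parama_Cs (H : Small D r0 J Cs e) : e * Cs ≤ 1 / 10000 := by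
  have h := parama_key H (Nat.zero_le _) (Nat.zero_le _)
  rw [pow_zero, pow_zero, mul_one, mul_one] at h
  nlinarith [H.pos]

theorem parama_pow (H : Small D r0 J Cs e) {a b : ℕ} (h : a ≤ b) : e ^ b ≤ e ^ a :=
  pow_le_pow_of_le_one H.pos.le ((parama_e H).trans (by norm_num)) h

theorem parama_pow1 (H : Small D r0 J Cs e) {a b : ℕ} (h : a + 1 ≤ b) : e ^ b ≤ e * e ^ a := by
  rw [← pow_succ']
  exact parama_pow H h

theorem parama_inv (H : Small D r0 J Cs e) : 1 ≤ e⁻¹ :=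
  (one_le_inv₀ H.pos).2 ((parama_e H).trans (by norm_num))

theorem parama_kc (H : Small D r0 J Cs e) (L : ℕ) :
    0 ≤ (mkPar D r0 NX Cs e).kc L ∧ (mkPar D r0 NX Cs e).kc L ≤ e ^ (D + 7) := by
  have h0 := H.pos
  have hW := parama_W (pK D r0)
  have e1 : (mkPar D r0 NX Cs e).kc L = e ^ (D + 7) * (2 * (e * WW (pK D r0) ^ 3)) := by
    change 2 * e ^ (pa D + D + 7 + 3 * L) * e * WW (pK D r0) ^ 3 / e ^ (pa D + 3 * L) = _
    rw [div_eq_iff (by positivity)]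
    ring
  rw [e1]
  refine ⟨by positivity, mul_le_of_le_one_right (by positivity) ?_⟩
  linarith [parama_eW H (le_refl 3)]

theorem parama_B (H : Small D r0 J Cs e) (j : ℕ) :
    0 < (mkPar D r0 NX Cs e).B j ∧ (mkPar D r0 NX Cs e).B j ≤ e ^ (D + 7) := by
  have h0 := H.pos
  change 0 < e ^ (D + 7) / 8 ^ j ∧ e ^ (D + 7) / 8 ^ j ≤ _
  exact ⟨by positivity, div_le_self (by positivity) (one_le_pow₀ (by norm_num))⟩

theorem parama_B_ge (H : Small D r0 J Cs e) {i j a : ℕ} (hi : i ≤ 3) (hj : j ≤ r0)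
    (ha : D + 8 ≤ a) : e ^ a * WW (pK D r0) ^ i ≤ (mkPar D r0 NX Cs e).B j := by
  have h0 := H.pos
  have hW := parama_W (pK D r0)
  change _ ≤ e ^ (D + 7) / 8 ^ j
  rw [le_div_iff₀ (by positivity)]
  calc e ^ a * WW (pK D r0) ^ i * 8 ^ j ≤ e * e ^ (D + 7) * WW (pK D r0) ^ i * 8 ^ j := by
        gcongr
        exact parama_pow1 H ha
    _ = e ^ (D + 7) * (e * WW (pK D r0) ^ i * 8 ^ j) := by ring
    _ ≤ e ^ (D + 7) := mul_le_of_le_one_right (by positivity) (by linarith [parama_W8 H hi hj])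

theorem mk_N_le (H : Small D r0 J Cs e) :
    e⁻¹ ^ 3 ≤ ((mkPar D r0 NX Cs e).N : ℝ) ∧ ((mkPar D r0 NX Cs e).N : ℝ) ≤ 2 * e⁻¹ ^ 3 := by

  change e⁻¹ ^ 3 ≤ (⌈e⁻¹ ^ 3⌉₊ : ℝ) ∧ (⌈e⁻¹ ^ 3⌉₊ : ℝ) ≤ 2 * e⁻¹ ^ 3
  have h1 : 1 ≤ e⁻¹ ^ 3 := one_le_pow₀ (parama_inv H)
  have h2 := Nat.ceil_lt_add_one (zero_le_one.trans h1)
  exact ⟨Nat.le_ceil _, by linarith⟩

theorem mk_loc_le (H : Small D r0 J Cs e) {r : ℕ} (hr : r < r0) :
    (mkPar D r0 NX Cs e).loc r ≤ 5 * e ^ (D + 7) * (e ^ D) ^ r := by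

  have h0 := H.pos
  have h1 := (parama_B (NX := NX) H (r + 1)).2
  have h2 := (parama_kc (NX := NX) H (r + 1)).2
  have h3 : Cs * e ^ pK D r0 / e ^ (pa D + D + 7 + 3 * (r + 1)) ≤ e ^ (D + 7) * (e ^ D) ^ r := by
    rw [div_le_iff₀ (by positivity), ← pow_mul, ← pow_add, ← pow_add]
    have h4 : D * r ≤ D * r0 := Nat.mul_le_mul_left _ hr.le
    have h5 := parama_pow1 H (a := D + 7 + D * r + (pa D + D + 7 + 3 * (r + 1))) (b := pK D r0)
      (by unfold pK pP; omega)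
    calc Cs * e ^ pK D r0 ≤ Cs * (e * e ^ (D + 7 + D * r + (pa D + D + 7 + 3 * (r + 1)))) :=
          mul_le_mul_of_nonneg_left h5 H.Cs0
      _ = e ^ (D + 7 + D * r + (pa D + D + 7 + 3 * (r + 1))) * (e * Cs) := by ring
      _ ≤ _ := mul_le_of_le_one_right (by positivity) (by linarith [parama_Cs H])
  change 3 * (mkPar D r0 NX Cs e).B (r + 1) * (e ^ D) ^ r +
    Cs * e ^ pK D r0 / e ^ (pa D + D + 7 + 3 * (r + 1)) +
      (mkPar D r0 NX Cs e).kc (r + 1) * (e ^ D) ^ r ≤ _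
  have h6 : 0 < (e ^ D) ^ r := by positivity
  nlinarith

theorem mk_pow_le (H : Small D r0 J Cs e) (j : ℕ) {M : ℕ} (hM : M ≤ (mkPar D r0 NX Cs e).N) :
    (1 + 32 * (mkPar D r0 NX Cs e).B j) ^ M ≤ 3 := by

  have h0 := H.pos
  obtain ⟨b1, b2⟩ := parama_B (NX := NX) H j
  have hM' : (M : ℝ) ≤ 2 * e⁻¹ ^ 3 := le_trans (by exact_mod_cast hM) (mk_N_le (NX := NX) H).2
  generalize (mkPar D r0 NX Cs e).B j = B at b1 b2
  have h1 : B ≤ e * e ^ 3 := b2.trans (parama_pow1 H (by omega))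
  have h2 : (M : ℝ) * (32 * B) ≤ 1 := by
    calc (M : ℝ) * (32 * B) ≤ 2 * e⁻¹ ^ 3 * (32 * (e * e ^ 3)) := by gcongr
      _ = 64 * e := by field_simp; norm_num
      _ ≤ 1 := by linarith [parama_e H]
  calc (1 + 32 * B) ^ M ≤ Real.exp (32 * B) ^ M := by
        gcongr
        linarith [Real.add_one_le_exp (32 * B)]
    _ = Real.exp (M * (32 * B)) := by rw [Real.exp_nat_mul]
    _ ≤ Real.exp 1 := Real.exp_le_exp.2 h2
    _ ≤ 3 := Real.exp_one_lt_d9.le.trans (by norm_num)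

theorem mk_decay (H : Small D r0 J Cs e) : √((1 - e ^ 2) ^ (mkPar D r0 NX Cs e).N) ≤ e ^ J := by

  have h0 := H.pos
  have he := parama_e H
  have hN := (mk_N_le (NX := NX) H).1
  generalize (mkPar D r0 NX Cs e).N = N at hN
  refine le_trans ?_ H.exp
  rw [Real.sqrt_le_iff]
  refine ⟨(Real.exp_pos _).le, ?_⟩
  calc (1 - e ^ 2) ^ N ≤ Real.exp (-e ^ 2) ^ N := by
        gcongr
        · nlinarith
        · linarith [Real.add_one_le_exp (-e ^ 2)]
    _ = Real.exp (N * -e ^ 2) := by rw [Real.exp_nat_mul]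
    _ ≤ Real.exp ((2 : ℕ) * -(1 / (2 * e))) := by
        rw [Real.exp_le_exp]
        have h1 : e⁻¹ ^ 3 * e ^ 2 ≤ N * e ^ 2 := by gcongr
        have h2 : e⁻¹ ^ 3 * e ^ 2 = 2 * (1 / (2 * e)) := by field_simp
        push_cast
        linarith
    _ = _ := by rw [Real.exp_nat_mul]

theorem parama_hς (H : Small D r0 J Cs e) (r : ℕ) :
    (mkPar D r0 NX Cs e).h / (mkPar D r0 NX Cs e).ς r = e ^ (pa D + D + 7 + 3 * (r + 1)) := by
  have h0 := H.pos
  change e / e⁻¹ ^ (pP D + 3 * r) = _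
  rw [inv_pow, div_inv_eq_mul, ← pow_succ']
  congr 1
  unfold pP
  omega

theorem parama_u1 (H : Small D r0 J Cs e) {r : ℕ} (hr : r < r0) :
    (mkPar D r0 NX Cs e).u1 (r + 1) ≤ e ^ (pa D + D + 7 + 3 * (r + 1)) / 2 := by
  have h0 := H.pos
  have hW := parama_W (pK D r0)
  change e ^ 2 * WW (pK D r0) / e⁻¹ ^ pp D r0 +
    2 * e ^ (pa D + D + 7 + 3 * (r + 1)) * e * WW (pK D r0) ^ 2 ≤ _
  have h1 : e ^ (2 + pp D r0) ≤ e * e ^ (pa D + D + 7 + 3 * (r + 1)) :=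
    parama_pow1 H (by unfold pp pP; omega)
  have h2 : e ^ 2 * WW (pK D r0) / e⁻¹ ^ pp D r0 = e ^ (2 + pp D r0) * WW (pK D r0) := by
    rw [inv_pow, div_inv_eq_mul]
    ring
  have h3 := parama_eW H (i := 1) (by norm_num)
  have h4 := parama_eW H (i := 2) (by norm_num)
  rw [pow_one] at h3
  rw [h2]
  have h5 : 0 < e ^ (pa D + D + 7 + 3 * (r + 1)) := by positivity
  generalize e ^ (pa D + D + 7 + 3 * (r + 1)) = b at h1 h5
  calc e ^ (2 + pp D r0) * WW (pK D r0) + 2 * b * e * WW (pK D r0) ^ 2 ≤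
        e * b * WW (pK D r0) + 2 * b * e * WW (pK D r0) ^ 2 := by gcongr
    _ = b * (e * WW (pK D r0) + 2 * (e * WW (pK D r0) ^ 2)) := by ring
    _ ≤ b * (1 / 2) := by gcongr; linarith
    _ = b / 2 := by ring

theorem parama_u3 (H : Small D r0 J Cs e) (L : ℕ) :
    (mkPar D r0 NX Cs e).u3 L ≤ e ^ (pa D + D + 7 + 3 * L) := by
  have h0 := H.pos
  have he := parama_e H
  have e1 : (mkPar D r0 NX Cs e).u3 L =
      e ^ (pa D + D + 7 + 3 * L) * (e * ((mkPar D r0 NX Cs e).kc L + 2)) := by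
    change 2 * (e ^ (pa D + D + 7 + 3 * L)) ^ 2 * e ^ 2 * WW (pK D r0) ^ 3 / e ^ (pa D + 3 * L) +
      2 * e ^ (pa D + D + 7 + 3 * L) * e = e ^ (pa D + D + 7 + 3 * L) *
        (e * (2 * e ^ (pa D + D + 7 + 3 * L) * e * WW (pK D r0) ^ 3 / e ^ (pa D + 3 * L) + 2))
    ring
  have h1 : (mkPar D r0 NX Cs e).kc L ≤ 1 :=
    (parama_kc H L).2.trans (pow_le_one₀ h0.le (by linarith))
  rw [e1]
  refine mul_le_of_le_one_right (by positivity) ?_
  nlinarith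

theorem parama_step (H : Small D r0 J Cs e) (r : ℕ) :
    StepOK (pK D r0) e (e ^ (pa D + D + 7 + 3 * (r + 1))) (e ^ (pa D + 3 * (r + 1))) e := by
  have h0 := H.pos
  have he := parama_e H
  have hW := parama_W (pK D r0)
  refine ⟨by unfold pK; omega, h0, le_rfl, by linarith, ?_, by positivity, by positivity, ?_, ?_⟩
  · have := parama_eW H (i := 1) (by norm_num)
    rw [pow_one] at this
    linarith
  · have h1 : e ^ (pa D + 3 * (r + 1)) ≤ e * e ^ 1 := parama_pow1 H (by omega)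
    calc 2 * e ^ (pa D + 3 * (r + 1)) * WW (pK D r0) ^ 2 ≤ 2 * (e * e ^ 1) * WW (pK D r0) ^ 2 := by
          gcongr
      _ = e * (2 * (e * WW (pK D r0) ^ 2)) := by ring
      _ ≤ e := mul_le_of_le_one_right h0.le (by linarith [parama_eW H (i := 2) (by norm_num)])
  · have h1 : e ^ (pa D + D + 7 + 3 * (r + 1)) ≤ e * e ^ (pa D + 3 * (r + 1) + 1) :=
      parama_pow1 H (by omega)
    calc 100 * WW (pK D r0) ^ 3 * e ^ (pa D + D + 7 + 3 * (r + 1)) ≤
          100 * WW (pK D r0) ^ 3 * (e * e ^ (pa D + 3 * (r + 1) + 1)) := by gcongr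
      _ = e ^ (pa D + 3 * (r + 1)) * e * (100 * (e * WW (pK D r0) ^ 3)) := by ring
      _ ≤ _ := mul_le_of_le_one_right (by positivity) (by linarith [parama_eW H (le_refl 3)])

theorem parama_budget (H : Small D r0 J Cs e) (hJ : D * r0 + D + 4 ≤ J) {r : ℕ} (hr : r < r0) :
    ((mkPar D r0 NX Cs e).B (r + 1) * (e ^ D) ^ r + 3 * √((1 - e ^ 2) ^ (mkPar D r0 NX Cs e).N) +
      (mkPar D r0 NX Cs e).N * (mkPar D r0 NX Cs e).loc r) *
      (1 + 32 * (mkPar D r0 NX Cs e).B (r + 1)) ^ (mkPar D r0 NX Cs e).N *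
        (1 + 24 * (mkPar D r0 NX Cs e).N) ≤ (e ^ D) ^ (r + 1) := by
  have h0 := H.pos
  have he := parama_e H
  obtain ⟨b1, b2⟩ := parama_B (NX := NX) H (r + 1)
  have h1 := mk_loc_le (NX := NX) H hr
  have h2 := mk_pow_le (NX := NX) H (r + 1) le_rfl
  have h3 := mk_decay (NX := NX) H
  have h4 := (mk_N_le (NX := NX) H).2
  have h5 : 1 ≤ e⁻¹ ^ 3 := one_le_pow₀ (parama_inv H)
  have h6 : D * r ≤ D * r0 := Nat.mul_le_mul_left _ hr.le
  have h7 : e ^ J ≤ e ^ (D + 4) * (e ^ D) ^ r := by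
    rw [← pow_mul, ← pow_add]
    exact parama_pow H (by omega)
  have h8 : (mkPar D r0 NX Cs e).B (r + 1) * (e ^ D) ^ r ≤ e ^ (D + 4) * (e ^ D) ^ r := by
    gcongr
    exact b2.trans (parama_pow H (by omega))
  have h9 : (mkPar D r0 NX Cs e).N * (mkPar D r0 NX Cs e).loc r ≤
      10 * (e ^ (D + 4) * (e ^ D) ^ r) := by
    calc (mkPar D r0 NX Cs e).N * (mkPar D r0 NX Cs e).loc r ≤
          (mkPar D r0 NX Cs e).N * (5 * e ^ (D + 7) * (e ^ D) ^ r) := by gcongr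
      _ ≤ 2 * e⁻¹ ^ 3 * (5 * e ^ (D + 7) * (e ^ D) ^ r) := by gcongr
      _ = _ := by field_simp; ring
  calc _ ≤ 14 * (e ^ (D + 4) * (e ^ D) ^ r) * 3 * (49 * e⁻¹ ^ 3) := by
        gcongr <;> linarith
    _ = (e ^ D) ^ (r + 1) * (2058 * e) := by field_simp; ring
    _ ≤ _ := mul_le_of_le_one_right (by positivity) (by linarith)

theorem mk_ok (H : Small D r0 J Cs e) (hr : 1 ≤ r0) (hJ : D * r0 + D + 4 ≤ J) :
    ParOK (mkPar D r0 NX Cs e) := by

  have h0 := H.pos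
  have he := parama_e H
  have hW := parama_W (pK D r0)
  have hβ : ∀ r < r0, e ^ (pa D + D + 7 + 3 * (r + 1)) ≤ (mkPar D r0 NX Cs e).B (r + 1) :=
    fun r hr => by
      simpa using parama_B_ge (NX := NX) H (Nat.zero_le _) hr
        (a := pa D + D + 7 + 3 * (r + 1)) (by omega)
  refine
    { r0pos := hr
      step := fun r _ => parama_step H r
      Cs0 := H.Cs0
      θ0 := pow_pos h0 _
      θ1 := pow_le_one₀ h0.le (by linarith)
      γ0 := pow_pos h0 _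
      γ1 := ?_
      T2 := ?_
      ς0 := fun j => pow_pos (inv_pos.2 h0) _
      ςγ := fun j => ?_
      B0 := fun j => (parama_B H j).1
      B16 := ?_
      Bdec := fun r _ => ?_
      Sdec := fun r hr => ?_
      Sbig := fun r _ => Nat.le_mul_of_pos_left _ (by positivity)
      Qmono := monotone_nat_of_le_succ fun r => ?_
      Qrec := fun r _ => le_rfl
      u1n := fun r hr => by rw [parama_hς H]; exact parama_u1 H hr
      u1e := fun r hr => (parama_u1 H hr).trans ((half_le_self (by positivity)).trans (hβ r hr))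
      u2n := fun r _ => ?_
      u2e := fun r hr => ?_
      u3n := fun r _ => by rw [parama_hς H]; exact parama_u3 H _
      u3e := fun r hr => (parama_u3 H _).trans (hβ r hr)
      u4 := fun r _ => ?_
      noise := fun r _ => ?_
      budget := fun r hr => parama_budget H hJ hr }
  · change 16 * e ^ 3 ≤ 1
    have := parama_pow H (a := 1) (b := 3) (by norm_num)
    rw [pow_one] at this
    linarith
  · change 2 ≤ e⁻¹ ^ pp D r0
    refine le_trans ?_ (le_self_pow₀ (parama_inv H) (by unfold pp; omega))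
    rw [le_inv_comm₀ (by norm_num) h0]
    linarith
  · change e⁻¹ ^ (pP D + 3 * j) = e ^ 3 * e⁻¹ ^ (pP D + 3 * (j + 1))
    rw [show pP D + 3 * (j + 1) = 3 + (pP D + 3 * j) by omega, pow_add e⁻¹ 3, ← mul_assoc, ← mul_pow,
      mul_inv_cancel₀ h0.ne', one_pow, one_mul]
  · have := parama_pow H (a := 1) (b := D + 7) (by omega)
    rw [pow_one] at this
    linarith [(parama_B (NX := NX) H 0).2]
  · change 8 * (e ^ (D + 7) / 8 ^ (r + 1)) ≤ e ^ (D + 7) / 8 ^ r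
    refine le_of_eq ?_
    field_simp
    ring
  · change 8 * (8 ^ (r0 - (r + 1)) * (pK D r0 + 2) ^ 3) ≤ 8 ^ (r0 - r) * (pK D r0 + 2) ^ 3
    have hr' : r < r0 := hr
    rw [← mul_assoc, ← pow_succ', show r0 - (r + 1) + 1 = r0 - r by omega]
  · exact Nat.le_succ_of_le (Nat.le_mul_of_pos_left _ (by unfold pSq; positivity))
  · rw [parama_hς H]
    change e ^ (pa D + 3 * (r + 1)) * WW (pK D r0) ^ 2 * (e ^ 3) ^ (D + 9) ≤ _
    have h1 : e ^ (pa D + 3 * (r + 1) + 3 * (D + 9)) ≤ e * e ^ (pa D + D + 7 + 3 * (r + 1)) :=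
      parama_pow1 H (by omega)
    calc e ^ (pa D + 3 * (r + 1)) * WW (pK D r0) ^ 2 * (e ^ 3) ^ (D + 9) =
          e ^ (pa D + 3 * (r + 1) + 3 * (D + 9)) * WW (pK D r0) ^ 2 := by ring
      _ ≤ e * e ^ (pa D + D + 7 + 3 * (r + 1)) * WW (pK D r0) ^ 2 := by gcongr
      _ = e ^ (pa D + D + 7 + 3 * (r + 1)) * (e * WW (pK D r0) ^ 2) := by ring
      _ ≤ _ := mul_le_of_le_one_right (by positivity)
          (by linarith [parama_eW H (i := 2) (by norm_num)])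
  · change e ^ (pa D + 3 * (r + 1)) * WW (pK D r0) ^ 2 / (e ^ D) ^ (D + 9) ≤ _
    have e1 : e ^ (pa D + 3 * (r + 1)) * WW (pK D r0) ^ 2 / (e ^ D) ^ (D + 9) =
        e ^ (D + 8 + 3 * (r + 1)) * WW (pK D r0) ^ 2 := by
      rw [div_eq_iff (by positivity), pa]
      ring
    rw [e1]
    exact parama_B_ge H (by norm_num) hr (by omega)
  · change (mkPar D r0 NX Cs e).kc (r + 1) * e⁻¹ ^ (pP D + 3 * r) ≤
      (e ^ (pa D + D + 7 + 3 * (r + 1)))⁻¹
    have h1 : (mkPar D r0 NX Cs e).kc (r + 1) ≤ 1 :=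
      (parama_kc H _).2.trans (pow_le_one₀ h0.le (by linarith))
    refine (mul_le_of_le_one_left (by positivity) h1).trans ?_
    rw [← inv_pow]
    exact pow_le_pow_right₀ (parama_inv H) (by unfold pP; omega)
  · change 2 * ((mkPar D r0 NX Cs e).N : ℝ) / (e ^ (pa D + D + 7 + 3 * (r + 1))) ^ 2 ≤
      (e⁻¹ ^ (pP D + 3 * (r + 1))) ^ 2
    have e1 : (e⁻¹ ^ (pP D + 3 * (r + 1))) ^ 2 * (e ^ (pa D + D + 7 + 3 * (r + 1))) ^ 2 =
        e⁻¹ * e⁻¹ ^ 3 := by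
      rw [show pP D + 3 * (r + 1) = pa D + D + 7 + 3 * (r + 1) + 2 by unfold pP; omega]
      generalize pa D + D + 7 + 3 * (r + 1) = a
      rw [inv_pow]
      field_simp
      ring
    rw [div_le_iff₀ (by positivity), e1]
    have h1 : 4 ≤ e⁻¹ := by
      rw [le_inv_comm₀ (by norm_num) h0]
      linarith
    have h2 := (mk_N_le (NX := NX) H).2
    have h3 : 0 < e⁻¹ ^ 3 := by positivity
    nlinarith

/-- `exp(-1/(2e)) ≤ (J+1)! (2e)^{J+1} ≤ e^J` for small `e` (`Real.pow_div_factorial_le_exp`). -/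
theorem exists_small (D r0 J : ℕ) {Cs : ℝ} (hCs : 0 ≤ Cs) :
    ∃ e₀ : ℝ, 0 < e₀ ∧ ∀ e, 0 < e → e ≤ e₀ → Small D r0 J Cs e := by

  have hW := parama_W (pK D r0)
  obtain ⟨Z, hZ⟩ : ∃ Z : ℝ,
      Z = 10 ^ 4 * WW (pK D r0) ^ 3 * 8 ^ r0 * ((pK D r0 : ℝ) + 2) ^ 3 * (1 + Cs) := ⟨_, rfl⟩
  have hZ0 : 0 < Z := by rw [hZ]; positivity
  have hF : (0 : ℝ) < (J + 1).factorial * 2 ^ (J + 1) := by positivity
  refine ⟨min Z⁻¹ ((J + 1).factorial * 2 ^ (J + 1))⁻¹, by positivity, fun e h0 he =>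
    ⟨h0, hCs, ?_, ?_⟩⟩
  · rw [← hZ]
    exact (le_div_iff₀ hZ0).1 ((he.trans (min_le_left _ _)).trans_eq (one_div _).symm)
  · have h1 := (le_div_iff₀ hF).1 ((he.trans (min_le_right _ _)).trans_eq (one_div _).symm)
    have h2 := Real.pow_div_factorial_le_exp (1 / (2 * e)) (by positivity) (J + 1)
    rw [Real.exp_neg]
    refine (inv_anti₀ (by positivity) h2).trans ?_
    have e1 : ((1 / (2 * e)) ^ (J + 1) / (J + 1).factorial)⁻¹ =
        e ^ J * (e * ((J + 1).factorial * 2 ^ (J + 1))) := by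
      rw [one_div_pow, mul_pow]
      field_simp
      ring
    rw [e1]
    exact mul_le_of_le_one_right (by positivity) h1

end

end Crest.Agent.R285
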