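import Crest.Agent.R285.DefsW
import Crest.Agent.R285.PD
import Crest.Agent.R285.Gibbs

/-!
# R285/PsiF: the function `Ψ(s, x)`: smoothness, gradient, Hamilton–Jacobi equation
-/

set_option autoImplicit false

namespace Crest.Agent.R285

open MeasureTheory ProbabilityTheory Crest.OracleSampling Set
open scoped RealInnerProductSpace ContDiff

noncomputable section

variable {d : ℕ} {δ : ℝ} {W : E d → ℝ}

theorem th_pos (s : ℝ) : 0 < th s := by
  exact kk_th_pos s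

theorem one_le_th (s : ℝ) : 1 ≤ th s := by
  exact one_le_pow₀ (Real.one_le_cosh s)

theorem th_le_three {s : ℝ} (hs : s ∈ Icc (0 : ℝ) 1) : th s ≤ 3 := by
  have h1 : Real.cosh s ≤ Real.cosh 1 :=
    Real.cosh_le_cosh.2 (by rw [abs_of_nonneg hs.1, abs_one]; exact hs.2)
  have h2 : Real.cosh 1 ≤ 1.7 := by
    rw [Real.cosh_eq]
    have h3 := Real.exp_one_lt_d9
    have h4 := Real.exp_neg_one_lt_d9
    linarith
  have h5 := Real.cosh_pos s
  unfold th
  nlinarith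

theorem th_zero : th 0 = 1 := by
  simp [th]

theorem aa_zero : aa 0 = 0 := by
  simp [aa]

theorem aa_nonneg {s : ℝ} (hs : 0 ≤ s) : 0 ≤ aa s := by
  rw [aa, Real.tanh_eq_sinh_div_cosh]
  exact div_nonneg (Real.sinh_nonneg_iff.2 hs) (Real.cosh_pos s).le

theorem abs_aa_lt_one (s : ℝ) : |aa s| < 1 := by
  rw [aa, abs_lt]
  exact ⟨Real.neg_one_lt_tanh s, Real.tanh_lt_one s⟩

theorem psif_one_sub (s : ℝ) : 1 - aa s ^ 2 = (th s)⁻¹ := by
  have h := Real.cosh_pos s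
  have h2 := Real.cosh_sq s
  rw [aa, th, Real.tanh_eq_sinh_div_cosh]
  field_simp
  linarith

theorem th_eq (s : ℝ) : th s = 1 / (1 - aa s ^ 2) := by
  rw [psif_one_sub, one_div, inv_inv]

theorem sqrt_one_sub_aa (s : ℝ) : √(1 - aa s ^ 2) = (Real.cosh s)⁻¹ := by
  rw [psif_one_sub, th, ← inv_pow, Real.sqrt_sq (inv_pos.2 (Real.cosh_pos s)).le]

theorem th_smooth : ContDiff ℝ ∞ th := by
  exact Real.contDiff_cosh.pow 2

theorem aa_smooth : ContDiff ℝ ∞ aa := by
  have h : aa = fun s => Real.sinh s / Real.cosh s := funext fun s => Real.tanh_eq_sinh_div_cosh s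
  rw [h]
  exact Real.contDiff_sinh.div Real.contDiff_cosh fun s => (Real.cosh_pos s).ne'

theorem inv_th_smooth : ContDiff ℝ ∞ (fun s => (th s)⁻¹) := by
  exact th_smooth.inv fun s => (th_pos s).ne'

theorem hasDerivAt_aa (s : ℝ) : HasDerivAt aa (th s)⁻¹ s := by
  have h : aa = fun s => Real.sinh s / Real.cosh s := funext fun s => Real.tanh_eq_sinh_div_cosh s
  rw [h]
  have hc := Real.cosh_pos s
  have h2 := Real.cosh_sq s
  refine ((Real.hasDerivAt_sinh s).div (Real.hasDerivAt_cosh s) hc.ne').congr_deriv ?_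
  rw [th]
  field_simp
  linarith

theorem hasDerivAt_th (s : ℝ) : HasDerivAt th (2 * aa s * th s) s := by
  have hc := Real.cosh_pos s
  refine ((Real.hasDerivAt_cosh s).pow 2).congr_deriv ?_
  rw [th, aa, Real.tanh_eq_sinh_div_cosh]
  field_simp
  norm_num
  ring

theorem psif_Psi_eq (hW : Pot d δ W) : Psi W = fun y : ℝ × E d =>
    th y.1 * ‖y.2‖ ^ 2 / 2 - Real.log (II W (th y.1) y.2) - d * Real.log (Real.cosh y.1) := by
  funext y
  rw [Psi, Zc_eq, Real.log_mul (Real.exp_pos _).ne' (II_pos hW (th_pos _) _).ne', Real.log_exp]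
  ring

theorem psif_smII (hW : Pot d δ W) : ContDiff ℝ ∞ fun y : ℝ × E d => II W (th y.1) y.2 :=
  KK_smooth2 hW (pg_const 1)

theorem psif_smth : ContDiff ℝ ∞ fun y : ℝ × E d => th y.1 := th_smooth.comp contDiff_fst

theorem psif_smN : ContDiff ℝ ∞ fun y : ℝ × E d => ‖y.2‖ ^ 2 :=
  (contDiff_norm_sq ℝ).comp contDiff_snd

theorem psif_sm1 : ContDiff ℝ ∞ fun y : ℝ × E d => th y.1 * ‖y.2‖ ^ 2 / 2 :=
  (psif_smth.mul psif_smN).div_const 2

theorem psif_sm2 (hW : Pot d δ W) :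
    ContDiff ℝ ∞ fun y : ℝ × E d => Real.log (II W (th y.1) y.2) :=
  (psif_smII hW).log fun _ => (II_pos hW (th_pos _) _).ne'

theorem psif_smlc : ContDiff ℝ ∞ fun y : ℝ × E d => Real.log (Real.cosh y.1) :=
  (Real.contDiff_cosh.comp contDiff_fst).log fun _ => (Real.cosh_pos _).ne'

theorem psif_sm3 : ContDiff ℝ ∞ fun y : ℝ × E d => (d : ℝ) * Real.log (Real.cosh y.1) :=
  contDiff_const.mul psif_smlc

/-- `Ψ = θ|x|²/2 - log II - d log cosh s` (`Zc_eq`), `KK_smooth2`, `II_pos`. -/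
theorem Psi_smooth (hW : Pot d δ W) : ContDiff ℝ ∞ (Psi W) := by
  rw [psif_Psi_eq hW]
  exact (psif_sm1.sub (psif_sm2 hW)).sub psif_sm3

theorem psif_dd_log {X : Type} [NormedAddCommGroup X] [NormedSpace ℝ X] {φ : X → ℝ}
    (h : ContDiff ℝ ∞ φ) (h0 : ∀ y, φ y ≠ 0) (v : X) :
    dd v (fun y => Real.log (φ y)) = fun y => dd v φ y / φ y := by
  funext y
  have := congrArg (fun L : X →L[ℝ] ℝ => L v) ((pd_hf h y).log (h0 y)).fderiv
  refine this.trans ?_
  simp only [dd, smul_apply, smul_eq_mul]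
  ring

theorem psif_dd_div {X : Type} [NormedAddCommGroup X] [NormedSpace ℝ X] {φ ψ : X → ℝ}
    (h : ContDiff ℝ ∞ φ) (h' : ContDiff ℝ ∞ ψ) (h0 : ∀ y, ψ y ≠ 0) (v : X) :
    dd v (fun y => φ y / ψ y) = fun y => (dd v φ y * ψ y - φ y * dd v ψ y) / ψ y ^ 2 := by
  have hs : ContDiff ℝ ∞ fun y => φ y / ψ y := h.div h' h0
  have e : φ = fun y => φ y / ψ y * ψ y := funext fun y => (div_mul_cancel₀ _ (h0 y)).symm
  have h1 := dd_mul hs h' v
  rw [← e] at h1
  funext y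
  have h2 := congrFun h1 y
  have h3 := h0 y
  rw [h2]
  field_simp
  ring

theorem psif_dd_fst {f : ℝ → ℝ} {f' : ℝ} (y v : ℝ × E d) (h : HasDerivAt f f' y.1) :
    dd v (fun y : ℝ × E d => f y.1) y = f' * v.1 := by
  have h1 : HasFDerivAt (fun y : ℝ × E d => f y.1) _ y :=
    h.hasFDerivAt.comp y (hasFDerivAt_fst (𝕜 := ℝ) (p := y))
  rw [dd, h1.fderiv]
  simp [mul_comm]

theorem psif_dd_N (v : ℝ × E d) :
    dd v (fun y : ℝ × E d => ‖y.2‖ ^ 2) = fun y => 2 * ⟪y.2, v.2⟫ := by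
  funext y
  have h1 : HasFDerivAt (fun y : ℝ × E d => ‖y.2‖ ^ 2) _ y :=
    (hasFDerivAt_snd (𝕜 := ℝ) (p := y)).norm_sq
  rw [dd, h1.fderiv]
  simp

theorem psif_inner_ee (x : E d) (k : Fin d) : ⟪x, ee k⟫ = x k := by
  rw [ee, EuclideanSpace.inner_single_right]
  simp

theorem psif_dd_th (v : ℝ × E d) :
    dd v (fun y : ℝ × E d => th y.1) = fun y => 2 * aa y.1 * th y.1 * v.1 :=
  funext fun y => psif_dd_fst y v (hasDerivAt_th y.1)

theorem psif_dd_lc (v : ℝ × E d) :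
    dd v (fun y : ℝ × E d => Real.log (Real.cosh y.1)) = fun y => aa y.1 * v.1 := by
  funext y
  refine psif_dd_fst (f := fun s => Real.log (Real.cosh s)) y v ?_
  rw [aa, Real.tanh_eq_sinh_div_cosh]
  exact (Real.hasDerivAt_cosh y.1).log (Real.cosh_pos _).ne'

theorem psif_slice (k : Fin d) {φ : ℝ × E d → ℝ} (h : ContDiff ℝ ∞ φ) (y : ℝ × E d) :
    dd (ex k) φ y = dd (ee k) (fun x => φ (y.1, x)) y.2 := by
  have := pd_slice {k} h y.1 y.2
  rwa [pd_singleton, pd_singleton] at this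

theorem psif_ex_KK (hW : Pot d δ W) {h : E d → ℝ} (hh : PG h) (k : Fin d) :
    dd (ex k) (fun y : ℝ × E d => KK W (th y.1) h y.2) =
      fun y => th y.1 * KK W (th y.1) (fun z => z k * h z) y.2 := by
  funext y
  rw [psif_slice k (KK_smooth2 hW hh)]
  change dd (ee k) (KK W (th y.1) h) y.2 = _
  rw [dd_KK hW (th_pos _) hh, ← KK_const_mul]
  simp only [psif_inner_ee, mul_assoc]

/-- General directional derivative of `Ψ`. -/
theorem psif_dd_Psi (hW : Pot d δ W) (v : ℝ × E d) : dd v (Psi W) = fun y =>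
    aa y.1 * th y.1 * v.1 * ‖y.2‖ ^ 2 + th y.1 * ⟪y.2, v.2⟫ -
      dd v (fun y : ℝ × E d => II W (th y.1) y.2) y / II W (th y.1) y.2 - d * (aa y.1 * v.1) := by
  rw [psif_Psi_eq hW, dd_sub (psif_sm1.sub (psif_sm2 hW)) psif_sm3, dd_sub psif_sm1 (psif_sm2 hW),
    dd_div_const (psif_smth.mul psif_smN), dd_mul psif_smth psif_smN,
    psif_dd_log (psif_smII hW) fun _ => (II_pos hW (th_pos _) _).ne', dd_const_mul psif_smlc,
    psif_dd_th, psif_dd_N, psif_dd_lc]
  funext y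
  ring

theorem psif_ex_II (hW : Pot d δ W) (k : Fin d) :
    dd (ex k) (fun y : ℝ × E d => II W (th y.1) y.2) =
      fun y => th y.1 * KK W (th y.1) (fun z => z k) y.2 := by
  have := psif_ex_KK hW (pg_const 1) k
  simp only [mul_one] at this
  exact this

theorem psif_ex_Psi (hW : Pot d δ W) (k : Fin d) : dd (ex k) (Psi W) = fun y =>
    th y.1 * (y.2 k - KK W (th y.1) (fun z => z k) y.2 / II W (th y.1) y.2) := by
  rw [psif_dd_Psi hW, psif_ex_II hW]
  funext y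
  simp only [ex, psif_inner_ee]
  ring

/-- `∂_k Ψ = θ x_k - θ KK(z_k)/II = θ (x - mean)_k = GG_k` (`GG_eq`, `dd_KK`, `pd_slice`). -/
theorem dd_ex_Psi (hW : Pot d δ W) (hδ : 0 ≤ δ) (k : Fin d) (y : ℝ × E d) :
    dd (ex k) (Psi W) y = GG W (th y.1) y.2 k := by
  rw [psif_ex_Psi hW, GG_eq hW hδ (th_pos _)]
  have h1 : Integrable (fun z : E d => z) (mu W (th y.1) y.2) :=
    integrable_mu_of_norm hW (th_pos _) y.2 continuous_id (L := 1) fun z => by simp
  have h2 : (∫ z, z ∂(mu W (th y.1) y.2)) k = ∫ z, z k ∂(mu W (th y.1) y.2) :=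
    ((EuclideanSpace.proj k : E d →L[ℝ] ℝ).integral_comp_comm h1).symm
  simp only [PiLp.smul_apply, PiLp.sub_apply, smul_eq_mul, h2, integral_mu hW (th_pos _)]

theorem hess_Psi (hW : Pot d δ W) (hδ : 0 ≤ δ) (k l : Fin d) (y : ℝ × E d) :
    dd (ex l) (dd (ex k) (Psi W)) y = AA W (th y.1) y.2 (ee l) k := by
  rw [psif_slice l (dd_smooth (Psi_smooth hW) _)]
  simp only [dd_ex_Psi hW hδ]
  have h1 := ((GG_smooth hW hδ (th_pos y.1)).differentiable (by simp) y.2).hasFDerivAt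
  have h2 : HasFDerivAt (fun x => GG W (th y.1) x k) _ y.2 :=
    (EuclideanSpace.proj k : E d →L[ℝ] ℝ).hasFDerivAt.comp y.2 h1
  rw [dd, h2.fderiv]
  rfl

theorem psif_exex_Psi (hW : Pot d δ W) (k : Fin d) (y : ℝ × E d) :
    dd (ex k) (dd (ex k) (Psi W)) y = th y.1 - th y.1 ^ 2 *
      (KK W (th y.1) (fun z => z k * z k) y.2 / II W (th y.1) y.2 -
        (KK W (th y.1) (fun z => z k) y.2 / II W (th y.1) y.2) ^ 2) := by
  have h0 : ∀ y : ℝ × E d, II W (th y.1) y.2 ≠ 0 := fun _ => (II_pos hW (th_pos _) _).ne'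
  have hc : ContDiff ℝ ∞ fun y : ℝ × E d => y.2 k :=
    (EuclideanSpace.proj k : E d →L[ℝ] ℝ).contDiff.comp contDiff_snd
  have hc' : dd (ex k) (fun y : ℝ × E d => y.2 k) = fun _ => 1 := by
    have := dd_clm ((EuclideanSpace.proj k : E d →L[ℝ] ℝ).comp (ContinuousLinearMap.snd ℝ ℝ (E d)))
      (ex k)
    refine this.trans ?_
    funext _
    simp [ex, ee]
  have hq : ContDiff ℝ ∞ fun y : ℝ × E d =>
      KK W (th y.1) (fun z => z k) y.2 / II W (th y.1) y.2 :=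
    (KK_smooth2 hW (pg_coord k)).div (psif_smII hW) h0
  rw [psif_ex_Psi hW, dd_mul psif_smth (hc.sub hq), dd_sub hc hq,
    psif_dd_div (KK_smooth2 hW (pg_coord k)) (psif_smII hW) h0, psif_ex_KK hW (pg_coord k),
    psif_ex_II hW, psif_dd_th, hc']
  have := h0 y
  simp only [ex]
  field_simp
  ring

/-- Hamilton–Jacobi equation.  With `m_k = KK(z_k)/II`, `m_kk = KK(z_k²)/II`:
`∂_kΨ = θ(x_k - m_k)`, `∂_k²Ψ = θ - θ²(m_kk - m_k²)`,
`∂_sΨ = 2aθ(|x|²/2 - ∑ x_k m_k + ∑ m_kk/2) - d a` (`dd_et_KK`); then algebra. -/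
theorem Psi_pde (hW : Pot d δ W) (y : ℝ × E d) :
    dd et (Psi W) y = -(aa y.1 / th y.1) *
      (∑ k, dd (ex k) (dd (ex k) (Psi W)) y - ∑ k, dd (ex k) (Psi W) y ^ 2) := by
  have hθ := th_pos y.1
  have hI := II_pos hW hθ y.2
  simp only [psif_exex_Psi hW]
  simp only [psif_ex_Psi hW]
  rw [psif_dd_Psi hW]
  have h1 : dd et (fun y : ℝ × E d => II W (th y.1) y.2) y = 2 * aa y.1 * th y.1 *
      ∑ k, (y.2 k * KK W (th y.1) (fun z => z k) y.2 -
        KK W (th y.1) (fun z => z k * z k) y.2 / 2) := by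
    have h2 := dd_et_KK hW (pg_const 1) y
    refine h2.trans ?_
    congr 1
    have h3 : (fun z : E d => (⟪z, y.2⟫ - ‖z‖ ^ 2 / 2) * 1) =
        fun z => ∑ k, (y.2 k * z k + (-1 / 2) * (z k * z k)) := by
      funext z
      rw [EuclideanSpace.real_norm_sq_eq, PiLp.inner_apply, Finset.sum_div, mul_one,
        ← Finset.sum_sub_distrib]
      refine Finset.sum_congr rfl fun k _ => ?_
      simp
      ring
    rw [h3, KK_sum hW hθ _ fun k _ =>
      ((pg_coord k).const_mul _).add (((pg_coord k).mul (pg_coord k)).const_mul _)]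
    refine Finset.sum_congr rfl fun k _ => ?_
    rw [KK_add hW hθ ((pg_coord k).const_mul _) (((pg_coord k).mul (pg_coord k)).const_mul _),
      KK_const_mul, KK_const_mul]
    ring
  simp only [h1]
  simp only [et, inner_zero_right, EuclideanSpace.real_norm_sq_eq]
  have hd : (d : ℝ) = ∑ _k : Fin d, (1 : ℝ) := by simp
  rw [hd, ← Finset.sum_sub_distrib, Finset.mul_sum, Finset.mul_sum, Finset.mul_sum,
    Finset.sum_div, Finset.sum_mul, mul_zero, add_zero, ← Finset.sum_sub_distrib,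
    ← Finset.sum_sub_distrib]
  refine Finset.sum_congr rfl fun k _ => ?_
  field_simp
  ring

theorem gdens_exp_Psi (hW : Pot d δ W) (x u : E d) (s : ℝ) :
    gdens u * Real.exp (-Psi W (s, x + aa s • u) + Psi W (0, x)) = rhoU W x (aa s) u := by
  have h1 := Zc_pos hW (th_pos s) (x + aa s • u)
  have h2 := Zc_pos hW one_pos x
  have h3 := Real.cosh_pos s
  rw [rhoU, ← th_eq, sqrt_one_sub_aa]
  congr 1
  simp only [Psi, th_zero, Real.cosh_zero, Real.log_one, mul_zero, sub_zero]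
  have e : -(-Real.log (Zc W (th s) (x + aa s • u)) - d * Real.log (Real.cosh s)) +
      -Real.log (Zc W 1 x) = Real.log (Zc W (th s) (x + aa s • u)) +
        Real.log (Real.cosh s ^ d) - Real.log (Zc W 1 x) := by
    rw [Real.log_pow]
    ring
  rw [e, Real.exp_sub, Real.exp_add, Real.exp_log h1, Real.exp_log h2, Real.exp_log (pow_pos h3 d),
    inv_pow]
  field_simp

end

end Crest.Agent.R285
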