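import Crest.Agent.R285.Mul
import Crest.Agent.R285.Tower

/-!
# R285/Pt: chain rules through `pt`, the weight `ρ` and its logarithmic gradient `gW`
-/

set_option autoImplicit false

namespace Crest.Agent.R285

open MeasureTheory ProbabilityTheory Crest.OracleSampling Set
open scoped RealInnerProductSpace ContDiff

noncomputable section

theorem Inst.pt_smooth (I : Inst) : ContDiff ℝ ∞ I.pt := by
  exact contDiff_fst.prodMk
    (contDiff_const.add ((aa_smooth.comp contDiff_fst).smul contDiff_snd.fst))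

theorem Inst.comp_pt_smooth (I : Inst) {φ : I.X → ℝ} (hφ : ContDiff ℝ ∞ φ) :
    ContDiff ℝ ∞ (fun y => φ (I.pt y)) := by
  exact hφ.comp I.pt_smooth

theorem pt_fderiv (I : Inst) (y v : I.Y) :
    fderiv ℝ I.pt y v = (v.1, aa y.1 • v.2.1 + ((th y.1)⁻¹ * v.1) • y.2.1) := by
  have h1 : HasFDerivAt (fun y : I.Y => aa y.1) _ y :=
    (hasDerivAt_aa y.1).comp_hasFDerivAt y (hasFDerivAt_fst (𝕜 := ℝ))
  have h2 : HasFDerivAt (fun y : I.Y => y.2.1) _ y := (hasFDerivAt_snd (𝕜 := ℝ) (p := y)).fst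
  have h3 : HasFDerivAt I.pt _ y := (hasFDerivAt_fst (𝕜 := ℝ)).prodMk ((h1.smul h2).const_add I.x)
  rw [h3.fderiv]
  simp

theorem dd_pt_u (I : Inst) {φ : I.X → ℝ} (hφ : ContDiff ℝ ∞ φ) (k : Fin I.d) :
    dd (ey false k) (fun y => φ (I.pt y)) = fun y => aa y.1 * dd (ex k) φ (I.pt y) := by
  funext y
  rw [dd_comp hφ I.pt_smooth, pt_fderiv, ← dd_dir_smul]
  simp [ey, ex]

theorem dd_pt_x (I : Inst) {φ : I.X → ℝ} (hφ : ContDiff ℝ ∞ φ) (k : Fin I.d) :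
    dd (ey true k) (fun y => φ (I.pt y)) = fun _ => 0 := by
  funext y
  rw [dd_comp hφ I.pt_smooth, pt_fderiv]
  simp [ey, dd, Prod.mk_zero_zero]

theorem dd_pt_t (I : Inst) {φ : I.X → ℝ} (hφ : ContDiff ℝ ∞ φ) :
    dd eT (fun y => φ (I.pt y)) = fun y =>
      dd et φ (I.pt y) + (th y.1)⁻¹ * ∑ k, y.2.1 k * dd (ex k) φ (I.pt y) := by
  funext y
  rw [dd_comp hφ I.pt_smooth, pt_fderiv, dd_expand2, Finset.mul_sum]
  simp [eT, mul_assoc]

theorem time_smooth {d : ℕ} {g : ℝ → ℝ} (hg : ContDiff ℝ ∞ g) :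
    ContDiff ℝ ∞ (fun y : ℝ × E d × E d => g y.1) := by
  exact hg.comp contDiff_fst

theorem pt_dd_time {d : ℕ} {g : ℝ → ℝ} (hg : ContDiff ℝ ∞ g) (v y : ℝ × E d × E d) :
    dd v (fun y : ℝ × E d × E d => g y.1) y = deriv g y.1 * v.1 := by
  have h1 : HasFDerivAt (fun y : ℝ × E d × E d => g y.1) _ y :=
    (hg.differentiable (by simp) y.1).hasDerivAt.comp_hasFDerivAt y (hasFDerivAt_fst (𝕜 := ℝ))
  rw [dd, h1.fderiv]
  simp

theorem dd_ey_time {d : ℕ} {g : ℝ → ℝ} (hg : ContDiff ℝ ∞ g) (b : Bool) (k : Fin d) :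
    dd (ey b k) (fun y : ℝ × E d × E d => g y.1) = fun _ => 0 := by
  funext y
  rw [pt_dd_time hg]
  cases b <;> simp [ey]

theorem dd_eT_time {d : ℕ} {g : ℝ → ℝ} (hg : ContDiff ℝ ∞ g) :
    dd eT (fun y : ℝ × E d × E d => g y.1) = fun y => deriv g y.1 := by
  funext y
  rw [pt_dd_time hg]
  simp [eT]

theorem coordU_smooth {d : ℕ} (k : Fin d) : ContDiff ℝ ∞ (fun y : ℝ × E d × E d => y.2.1 k) := by
  fun_prop

theorem coordX_smooth {d : ℕ} (k : Fin d) : ContDiff ℝ ∞ (fun y : ℝ × E d × E d => y.2.2 k) := by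
  fun_prop

theorem pt_dd_coordU {d : ℕ} (l : Fin d) (v y : ℝ × E d × E d) :
    dd v (fun y : ℝ × E d × E d => y.2.1 l) y = v.2.1 l :=
  congrFun (dd_clm ((EuclideanSpace.proj l : E d →L[ℝ] ℝ).comp
    ((ContinuousLinearMap.fst ℝ (E d) (E d)).comp (ContinuousLinearMap.snd ℝ ℝ (E d × E d)))) v) y

theorem pt_dd_coordX {d : ℕ} (l : Fin d) (v y : ℝ × E d × E d) :
    dd v (fun y : ℝ × E d × E d => y.2.2 l) y = v.2.2 l :=
  congrFun (dd_clm ((EuclideanSpace.proj l : E d →L[ℝ] ℝ).comp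
    ((ContinuousLinearMap.snd ℝ (E d) (E d)).comp (ContinuousLinearMap.snd ℝ ℝ (E d × E d)))) v) y

theorem dd_ey_coordU {d : ℕ} (b : Bool) (k l : Fin d) :
    dd (ey b k) (fun y : ℝ × E d × E d => y.2.1 l) =
      fun _ => if b = false ∧ k = l then 1 else 0 := by
  funext y
  rw [pt_dd_coordU]
  cases b <;> simp [ey, ee, eq_comm]

theorem dd_ey_coordX {d : ℕ} (b : Bool) (k l : Fin d) :
    dd (ey b k) (fun y : ℝ × E d × E d => y.2.2 l) =
      fun _ => if b = true ∧ k = l then 1 else 0 := by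
  funext y
  rw [pt_dd_coordX]
  cases b <;> simp [ey, ee, eq_comm]

theorem dd_eT_coordU {d : ℕ} (l : Fin d) :
    dd eT (fun y : ℝ × E d × E d => y.2.1 l) = fun _ => 0 := by
  funext y
  rw [pt_dd_coordU]
  simp [eT]

theorem dd_eT_coordX {d : ℕ} (l : Fin d) :
    dd eT (fun y : ℝ × E d × E d => y.2.2 l) = fun _ => 0 := by
  funext y
  rw [pt_dd_coordX]
  simp [eT]

theorem dd_Y_expand {d : ℕ} (r : ℝ) (v w : E d) (φ : ℝ × E d × E d → ℝ) (y : ℝ × E d × E d) :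
    dd (r, v, w) φ y =
      r * dd eT φ y + ∑ k, v k * dd (ey false k) φ y + ∑ k, w k * dd (ey true k) φ y := by
  rw [← dd_dir_sum, ← dd_dir_sum, ← dd_dir_smul, ← dd_dir_add, ← dd_dir_add]
  congr 1
  refine Prod.ext ?_ (Prod.ext ?_ ?_)
  · simp [eT, ey, Prod.fst_sum]
  · simpa [eT, ey, Prod.fst_sum, Prod.snd_sum] using pd_basis v
  · simpa [eT, ey, Prod.fst_sum, Prod.snd_sum] using pd_basis w

/-- `DD` is `θ` times the derivative in the direction `(1, fld)`. -/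
theorem DD_eq (I : Inst) (φ : I.Y → ℝ) (y : I.Y) :
    DD I φ y = th y.1 * fderiv ℝ φ y (1, I.fld y) := by
  have h := dd_Y_expand 1 (I.fld y).1 (I.fld y).2 φ y
  have h0 := (th_pos y.1).ne'
  change DD I φ y = th y.1 * dd (1, (I.fld y).1, (I.fld y).2) φ y
  rw [h, DD, one_mul, mul_add, mul_add, Finset.mul_sum, Finset.mul_sum]
  simp only [Inst.fld, vec, Prod.smul_fst, Prod.smul_snd, PiLp.smul_apply, smul_eq_mul, ← mul_assoc,
    mul_inv_cancel₀ h0, one_mul]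

theorem Inst.gW_smooth (I : Inst) (b : Bool) (k : Fin I.d) : ContDiff ℝ ∞ (I.gW b k) := by
  cases b
  · exact (coordU_smooth k).add
      ((time_smooth aa_smooth).mul (I.comp_pt_smooth (dd_smooth I.Ψ_smooth _)))
  · exact coordX_smooth k

/-- The Hessian blocks of `-log ρ`. -/
def HessM (b b' : Bool) : MF Fam.leg Fam.leg := fun I i j y =>
  if b = b' then
    (if i = j then 1 else 0) + (if b = false then I.δ * aa y.1 ^ 2 * Ah I i j y else 0)
  else 0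

theorem dd_gW (I : Inst) (b b' : Bool) (i j : Fin I.d) :
    dd (ey b i) (I.gW b' j) = fun y => HessM b b' I i j (I.pt y) := by
  have hs := dd_smooth I.Ψ_smooth (ex j)
  cases b'
  · change dd (ey b i) (fun y => y.2.1 j + aa y.1 * dd (ex j) I.Ψ (I.pt y)) = _
    rw [dd_add (coordU_smooth j) ((time_smooth aa_smooth).mul (I.comp_pt_smooth hs)),
      dd_mul (time_smooth aa_smooth) (I.comp_pt_smooth hs), dd_ey_coordU, dd_ey_time aa_smooth]
    funext y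
    cases b
    · rw [dd_pt_u I hs]
      have h0 := I.δ0.ne'
      simp only [HessM, Ah, Inst.pt, true_and, if_true]
      field_simp
      ring
    · rw [dd_pt_x I hs]
      simp [HessM]
  · change dd (ey b i) (fun y => y.2.2 j) = _
    rw [dd_ey_coordX]
    funext y
    cases b <;> simp [HessM]

theorem mul_HessM (b b' : Bool) : Mul Fam.leg Fam.leg (HessM b b') := by
  have h1 := (mul_id Fam.leg).add (Mul.smul (fun I => I.δ)
    (fun I => by rw [abs_of_pos I.δ0]; exact I.δ1) (fun s => aa s ^ 2) (aa_smooth.pow 2) mul_Ah)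
  cases b <;> cases b'
  · exact h1.congr fun I o j y => by simp [HessM]
  · exact (mul_zero' _ _).congr fun I o j y => by simp [HessM]
  · exact (mul_zero' _ _).congr fun I o j y => by simp [HessM]
  · exact (mul_id _).congr fun I o j y => by simp [HessM]

theorem opBd_HessM (I : Inst) (b b' : Bool) (y : I.X) :
    OpBd (fun i j => HessM b b' I i j y) 2 := by
  have h1 := (opBd_id (O := Fin I.d)).add ((opBd_Ah I y).const_mul (I.δ * aa y.1 ^ 2))
  have h2 : |I.δ * aa y.1 ^ 2| ≤ 1 := by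
    rw [abs_mul, abs_of_pos I.δ0, abs_pow]
    exact mul_le_one₀ I.δ1 (by positivity) (pow_le_one₀ (abs_nonneg _) (abs_aa_lt_one _).le)
  cases b <;> cases b'
  · simpa [HessM] using h1.mono (C' := 2) (by linarith)
  · simpa [HessM] using opBd_zero (O := Fin I.d) (J := Fin I.d) (C := 2) (by norm_num)
  · simpa [HessM] using opBd_zero (O := Fin I.d) (J := Fin I.d) (C := 2) (by norm_num)
  · simpa [HessM] using (opBd_id (O := Fin I.d)).mono (C' := 2) (by norm_num)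

theorem pt_rho_eq (I : Inst) : I.rho = fun y => (√(2 * Real.pi))⁻¹ ^ I.d * (√(2 * Real.pi))⁻¹ ^ I.d *
    Real.exp ((-‖y.2.1‖ ^ 2 / 2 + -‖y.2.2‖ ^ 2 / 2 + I.Ψ (0, I.x)) - I.Ψ (I.pt y)) := by
  funext y
  rw [Inst.rho, gdens, gdens, sub_eq_add_neg]
  simp only [Real.exp_add]
  ring

theorem pt_q_smooth (I : Inst) :
    ContDiff ℝ ∞ fun y : I.Y => -‖y.2.1‖ ^ 2 / 2 + -‖y.2.2‖ ^ 2 / 2 + I.Ψ (0, I.x) :=
  (((contDiff_snd.fst.norm_sq ℝ).neg.div_const 2).add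
    ((contDiff_snd.snd.norm_sq ℝ).neg.div_const 2)).add contDiff_const

theorem pt_phi_smooth (I : Inst) : ContDiff ℝ ∞ fun y : I.Y =>
    (-‖y.2.1‖ ^ 2 / 2 + -‖y.2.2‖ ^ 2 / 2 + I.Ψ (0, I.x)) - I.Ψ (I.pt y) :=
  (pt_q_smooth I).sub (I.comp_pt_smooth I.Ψ_smooth)

theorem pt_dd_rho (I : Inst) (v y : I.Y) :
    dd v I.rho y = -(I.rho y * (⟪y.2.1, v.2.1⟫ + ⟪y.2.2, v.2.2⟫ + dd v (fun y => I.Ψ (I.pt y)) y)) := by
  have h1 : HasFDerivAt (fun y : I.Y => y.2.1) _ y := (hasFDerivAt_snd (𝕜 := ℝ) (p := y)).fst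
  have h2 : HasFDerivAt (fun y : I.Y => y.2.2) _ y := (hasFDerivAt_snd (𝕜 := ℝ) (p := y)).snd
  have h3 : HasFDerivAt (fun y : I.Y => -‖y.2.1‖ ^ 2 / 2 + -‖y.2.2‖ ^ 2 / 2 + I.Ψ (0, I.x)) _ y :=
    ((h1.norm_sq.neg.mul_const (2 : ℝ)⁻¹).add (h2.norm_sq.neg.mul_const (2 : ℝ)⁻¹)).add_const _
  have h4 : dd v (fun y : I.Y => -‖y.2.1‖ ^ 2 / 2 + -‖y.2.2‖ ^ 2 / 2 + I.Ψ (0, I.x)) y =
      -(⟪y.2.1, v.2.1⟫ + ⟪y.2.2, v.2.2⟫) := by
    rw [dd, h3.fderiv]
    simp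
    ring
  rw [pt_rho_eq, dd_const_mul (pt_phi_smooth I).exp, dd_exp (pt_phi_smooth I),
    dd_sub (pt_q_smooth I) (I.comp_pt_smooth I.Ψ_smooth)]
  simp only [h4]
  ring

theorem Inst.rho_smooth (I : Inst) : ContDiff ℝ ∞ I.rho := by
  rw [pt_rho_eq]
  exact contDiff_const.mul (pt_phi_smooth I).exp

theorem Inst.rho_pos (I : Inst) (y : I.Y) : 0 < I.rho y := by
  exact mul_pos (mul_pos (gdens_pos _) (gdens_pos _)) (Real.exp_pos _)

theorem dd_rho (I : Inst) (b : Bool) (k : Fin I.d) (y : I.Y) :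
    dd (ey b k) I.rho y = -(I.gW b k y * I.rho y) := by
  rw [pt_dd_rho]
  cases b
  · rw [dd_pt_u I I.Ψ_smooth]
    simp only [ey, Inst.gW, gibbs_inner_ee, inner_zero_right]
    ring
  · rw [dd_pt_x I I.Ψ_smooth]
    simp only [ey, Inst.gW, gibbs_inner_ee, inner_zero_right]
    ring

/-- Time derivative of `ρ` (uses `Psi_pde`, `dd_pt_t`). -/
theorem dd_eT_rho (I : Inst) (y : I.Y) :
    th y.1 * dd eT I.rho y = I.rho y *
      (aa y.1 * (∑ k, dd (ex k) (dd (ex k) I.Ψ) (I.pt y) - ∑ k, dd (ex k) I.Ψ (I.pt y) ^ 2) -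
        ∑ k, y.2.1 k * dd (ex k) I.Ψ (I.pt y)) := by
  have h0 := (th_pos y.1).ne'
  have h := Psi_pde I.pot (I.pt y)
  change dd et I.Ψ (I.pt y) = -(aa y.1 / th y.1) *
    (∑ k, dd (ex k) (dd (ex k) I.Ψ) (I.pt y) - ∑ k, dd (ex k) I.Ψ (I.pt y) ^ 2) at h
  rw [pt_dd_rho, dd_pt_t I I.Ψ_smooth]
  simp only [eT, inner_zero_right, h]
  field_simp
  ring

theorem rho_eq (I : Inst) (s : ℝ) (z : E I.d × E I.d) :
    I.rho (s, z) = rhoU I.W I.x (aa s) z.1 * gdens z.2 := by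
  rw [← gdens_exp_Psi I.pot, Inst.rho, mul_right_comm]
  rfl

theorem rho_le (I : Inst) : ∃ C, ∀ s ∈ Icc (0 : ℝ) 1, ∀ z : E I.d × E I.d,
    I.rho (s, z) ≤ C * (gdens z.1 * gdens z.2) := by
  obtain ⟨C, hC⟩ := rhoU_le I.pot I.x
  refine ⟨C, fun s hs z => ?_⟩
  rw [rho_eq, ← mul_assoc]
  exact mul_le_mul_of_nonneg_right
    (hC _ (aa_nonneg hs.1) (lt_of_abs_lt (abs_aa_lt_one s)) _) (gdens_pos _).le

theorem pt_integral_gdens {d : ℕ} : Integrable (gdens : E d → ℝ) ∧ ∫ z : E d, gdens z = 1 := by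
  have h := integral_rhoU (pot_zero d) 0 le_rfl one_pos
  have e : rhoU (fun _ => 0) (0 : E d) 0 = gdens := by
    funext u
    have := (Zc_pos (pot_zero d) one_pos (0 : E d)).ne'
    simp [rhoU, this]
  rwa [e] at h

theorem integral_rho (I : Inst) {s : ℝ} (hs : s ∈ Icc (0 : ℝ) 1) :
    Integrable (fun z : E I.d × E I.d => I.rho (s, z)) ∧ ∫ z : E I.d × E I.d, I.rho (s, z) = 1 := by
  have h := integral_rhoU I.pot I.x (aa_nonneg hs.1) (lt_of_abs_lt (abs_aa_lt_one s))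
  simp only [rho_eq]
  refine ⟨h.1.mul_prod pt_integral_gdens.1, ?_⟩
  rw [Measure.volume_eq_prod, integral_prod_mul (rhoU I.W I.x (aa s)) gdens, h.2,
    pt_integral_gdens.2, one_mul]

/-- `ρ_s` is the product of the law of `u` and of the standard Gaussian (`prod_withDensity`). -/
theorem rho_withDensity (I : Inst) {s : ℝ} (hs : s ∈ Icc (0 : ℝ) 1) :
    ((volume : Measure (E I.d × E I.d)).withDensity fun z => ENNReal.ofReal (I.rho (s, z))) =
      (volume.withDensity fun u => ENNReal.ofReal (rhoU I.W I.x (aa s) u)).prod (gam I.d) := by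
  have h0 := aa_nonneg hs.1
  have h1 := lt_of_abs_lt (abs_aa_lt_one s)
  rw [gam_eq, prod_withDensity (continuous_rhoU I.pot I.x h0 h1).measurable.ennreal_ofReal
    continuous_gdens.measurable.ennreal_ofReal, Measure.volume_eq_prod]
  congr 1
  funext z
  rw [rho_eq, ENNReal.ofReal_mul (rhoU_pos I.pot I.x h0 h1 _).le]

theorem rho_zero_withDensity (I : Inst) :
    ((volume : Measure (E I.d × E I.d)).withDensity fun z => ENNReal.ofReal (I.rho (0, z))) =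
      (gam I.d).prod (gam I.d) := by
  rw [rho_withDensity I ⟨le_rfl, zero_le_one⟩, aa_zero]
  congr 1
  rw [gam_eq]
  congr 1
  funext u
  have := (Zc_pos I.pot one_pos I.x).ne'
  simp [rhoU, this]

/-- `|∂_kΨ(pt y)| ≤ L (1 + ‖(u, ξ)‖)` (`dd_ex_Psi`, `GG_norm`). -/
theorem dPsi_pt_le (I : Inst) : ∃ L, ∀ y : I.Y, ∀ k,
    |dd (ex k) I.Ψ (I.pt y)| ≤ L * (1 + ‖y.2‖) := by
  refine ⟨√I.d + ‖I.x‖ + 1, fun y k => ?_⟩
  have h1 := GG_norm' (I.pot.mono I.δ1) (one_le_th y.1) (I.x + aa y.1 • y.2.1)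
  have h2 : |dd (ex k) I.Ψ (I.pt y)| ≤ ‖GG I.W (th y.1) (I.x + aa y.1 • y.2.1)‖ := by
    rw [Inst.Ψ, dd_ex_Psi I.pot I.δ0.le]
    exact PiLp.norm_apply_le (GG I.W (th y.1) (I.x + aa y.1 • y.2.1)) k
  have h3 : ‖aa y.1 • y.2.1‖ ≤ ‖y.2‖ := by
    rw [norm_smul]
    exact (mul_le_of_le_one_left (norm_nonneg _) (abs_aa_lt_one _).le).trans (norm_fst_le _)
  have h4 := norm_add_le I.x (aa y.1 • y.2.1)
  nlinarith [norm_nonneg y.2, norm_nonneg I.x, Real.sqrt_nonneg (I.d : ℝ)]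

end

end Crest.Agent.R285
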