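import Crest.Agent.R285.Gauss

/-!
# R285/Rot: the rotation flow `y₁' = -A y₂, y₂' = A y₁` preserves the Gaussian marginals

Take `R r = exp (r J)`, `J (x,y) = (-A y, A x)` (`NormedSpace.exp` in the Banach algebra
`E × E →L[ℝ] E × E`, `hasDerivAt_exp_smul_const`).  `‖y₁‖² + ‖y₂‖²` has derivative `0` by symmetry
of `A`, so `R r` is an isometry for the Euclidean norm of `E × E`, hence so is its adjoint
(finite dimension; or use `R (-r)`: `⟨R r z, z'⟩ = ⟨z, R (-r) z'⟩`); write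
`(R r z).1 = P z.1 + Q z.2` and use `gam_lin`.
-/

set_option autoImplicit false

namespace Crest.Agent.R285

open MeasureTheory ProbabilityTheory Crest.OracleSampling Set
open scoped RealInnerProductSpace ContDiff

noncomputable section

/-- The generator. -/
def rotJ {d : ℕ} (A : E d →L[ℝ] E d) : E d × E d →L[ℝ] E d × E d :=
  ((-A).comp (ContinuousLinearMap.snd ℝ _ _)).prod (A.comp (ContinuousLinearMap.fst ℝ _ _))

theorem rot_exp {X : Type} [NormedAddCommGroup X] [NormedSpace ℝ X] [CompleteSpace X]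
    (J : X →L[ℝ] X) : ∃ R : ℝ → X →L[ℝ] X, (∀ z, R 0 z = z) ∧
      (∀ z r, HasDerivAt (fun r => R r z) (J (R r z)) r) ∧ ∀ r z, R r (R (-r) z) = z := by
  refine ⟨fun r => NormedSpace.exp (r • J), fun z => by simp, fun z r => ?_, fun r z => ?_⟩
  · have h := (hasDerivAt_exp_smul_const' (𝕂 := ℝ) J r).clm_apply (hasDerivAt_const r z)
    simpa using h
  · have h : NormedSpace.exp (r • J + (-r) • J) =
        NormedSpace.exp (r • J) * NormedSpace.exp ((-r) • J) :=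
      NormedSpace.exp_add_of_commute_of_mem_ball (𝕂 := ℝ)
        (((Commute.refl J).smul_left r).smul_right (-r))
        ((NormedSpace.expSeries_radius_eq_top ℝ (X →L[ℝ] X)).symm ▸ edist_lt_top _ _)
        ((NormedSpace.expSeries_radius_eq_top ℝ (X →L[ℝ] X)).symm ▸ edist_lt_top _ _)
    rw [← add_smul, add_neg_cancel, zero_smul, NormedSpace.exp_zero] at h
    have := congrArg (fun T : X →L[ℝ] X => T z) h
    simpa using this.symm

/-- The flow. -/
def rotR {d : ℕ} (A : E d →L[ℝ] E d) : ℝ → E d × E d →L[ℝ] E d × E d :=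
  (rot_exp (rotJ A)).choose

theorem rot_deriv {d : ℕ} (A : E d →L[ℝ] E d) (z : E d × E d) (r : ℝ) :
    HasDerivAt (fun r => rotR A r z) (-A (rotR A r z).2, A (rotR A r z).1) r :=
  (rot_exp (rotJ A)).choose_spec.2.1 z r

theorem rot_zero {d : ℕ} (A : E d →L[ℝ] E d) (z : E d × E d) : rotR A 0 z = z :=
  (rot_exp (rotJ A)).choose_spec.1 z

theorem rot_inv {d : ℕ} (A : E d →L[ℝ] E d) (r : ℝ) (z : E d × E d) :
    rotR A r (rotR A (-r) z) = z :=
  (rot_exp (rotJ A)).choose_spec.2.2 r z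

theorem rot_deriv1 {d : ℕ} (A : E d →L[ℝ] E d) (z : E d × E d) (r : ℝ) :
    HasDerivAt (fun r => (rotR A r z).1) (-A (rotR A r z).2) r :=
  (ContinuousLinearMap.fst ℝ (E d) (E d)).hasFDerivAt.comp_hasDerivAt r (rot_deriv A z r)

theorem rot_deriv2 {d : ℕ} (A : E d →L[ℝ] E d) (z : E d × E d) (r : ℝ) :
    HasDerivAt (fun r => (rotR A r z).2) (A (rotR A r z).1) r :=
  (ContinuousLinearMap.snd ℝ (E d) (E d)).hasFDerivAt.comp_hasDerivAt r (rot_deriv A z r)

theorem rot_inner {d : ℕ} (A : E d →L[ℝ] E d) (hs : ∀ v w, ⟪A v, w⟫ = ⟪v, A w⟫) (r : ℝ)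
    (z z' : E d × E d) :
    ⟪(rotR A r z).1, (rotR A r z').1⟫ + ⟪(rotR A r z).2, (rotR A r z').2⟫ =
      ⟪z.1, z'.1⟫ + ⟪z.2, z'.2⟫ := by
  have hd : ∀ r, HasDerivAt (fun r => ⟪(rotR A r z).1, (rotR A r z').1⟫ +
      ⟪(rotR A r z).2, (rotR A r z').2⟫) 0 r := by
    intro r
    have a1 := rot_deriv1 A z r
    have a2 := rot_deriv2 A z r
    have b1 := rot_deriv1 A z' r
    have b2 := rot_deriv2 A z' r
    have := (a1.inner ℝ b1).add (a2.inner ℝ b2)
    refine HasDerivAt.congr_deriv this ?_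
    simp only [inner_neg_left, inner_neg_right, hs]
    ring
  have := is_const_of_deriv_eq_zero (fun r => (hd r).differentiableAt) (fun r => (hd r).deriv) r 0
  simpa [rot_zero] using this

theorem rot_adj {d : ℕ} (A : E d →L[ℝ] E d) (hs : ∀ v w, ⟪A v, w⟫ = ⟪v, A w⟫) (r : ℝ)
    (z z' : E d × E d) :
    ⟪(rotR A r z).1, z'.1⟫ + ⟪(rotR A r z).2, z'.2⟫ =
      ⟪z.1, (rotR A (-r) z').1⟫ + ⟪z.2, (rotR A (-r) z').2⟫ := by
  have := rot_inner A hs r z (rotR A (-r) z')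
  rwa [rot_inv] at this

theorem rot_sq {d : ℕ} (A : E d →L[ℝ] E d) (hs : ∀ v w, ⟪A v, w⟫ = ⟪v, A w⟫) (r : ℝ)
    (z : E d × E d) : ‖(rotR A r z).1‖ ^ 2 + ‖(rotR A r z).2‖ ^ 2 = ‖z.1‖ ^ 2 + ‖z.2‖ ^ 2 := by
  have := rot_inner A hs r z z
  simpa only [real_inner_self_eq_norm_sq] using this

theorem rot_law {d : ℕ} (A : E d →L[ℝ] E d) (hs : ∀ v w, ⟪A v, w⟫ = ⟪v, A w⟫) (r : ℝ)
    (π : E d × E d →L[ℝ] E d) (ι : E d → E d × E d)
    (h1 : ∀ y w, ⟪π y, w⟫ = ⟪y.1, (ι w).1⟫ + ⟪y.2, (ι w).2⟫)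
    (h2 : ∀ w, ‖(ι w).1‖ ^ 2 + ‖(ι w).2‖ ^ 2 = ‖w‖ ^ 2) :
    ((gam d).prod (gam d)).map (fun z => π (rotR A r z)) = gam d := by
  set P := π.comp ((rotR A r).comp (ContinuousLinearMap.inl ℝ (E d) (E d))) with hP
  set Q := π.comp ((rotR A r).comp (ContinuousLinearMap.inr ℝ (E d) (E d))) with hQ
  have e1 : ∀ w, ContinuousLinearMap.adjoint P w = (rotR A (-r) (ι w)).1 := by
    intro w
    refine ext_inner_left ℝ fun x => ?_
    rw [ContinuousLinearMap.adjoint_inner_right]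
    have := rot_adj A hs r (x, 0) (ι w)
    simp only [inner_zero_left, add_zero] at this
    rw [← this, ← h1]
    rfl
  have e2 : ∀ w, ContinuousLinearMap.adjoint Q w = (rotR A (-r) (ι w)).2 := by
    intro w
    refine ext_inner_left ℝ fun x => ?_
    rw [ContinuousLinearMap.adjoint_inner_right]
    have := rot_adj A hs r (0, x) (ι w)
    simp only [inner_zero_left, zero_add] at this
    rw [← this, ← h1]
    rfl
  have := gam_lin P Q fun w => by rw [e1, e2, rot_sq A hs, h2]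
  refine Eq.trans ?_ this
  congr 1
  funext z
  simp only [hP, hQ, ContinuousLinearMap.comp_apply, ContinuousLinearMap.inl_apply,
    ContinuousLinearMap.inr_apply]
  rw [← map_add, ← map_add]
  simp

theorem exists_rot {d : ℕ} (A : E d →L[ℝ] E d) (hs : ∀ v w, ⟪A v, w⟫ = ⟪v, A w⟫) :
    ∃ R : ℝ → (E d × E d →L[ℝ] E d × E d), (∀ z, R 0 z = z) ∧
      (∀ z r, HasDerivAt (fun r => R r z) (-A (R r z).2, A (R r z).1) r) ∧
      (∀ r z, ‖R r z‖ ≤ ‖z.1‖ + ‖z.2‖) ∧
      ∀ r, ((gam d).prod (gam d)).map (fun z => (R r z).1) = gam d ∧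
        ((gam d).prod (gam d)).map (fun z => (R r z).2) = gam d := by
  refine ⟨rotR A, rot_zero A, rot_deriv A, fun r z => ?_, fun r => ⟨?_, ?_⟩⟩
  · have h := rot_sq A hs r z
    have a := norm_nonneg z.1
    have b := norm_nonneg z.2
    rw [Prod.norm_def]
    refine max_le ?_ ?_ <;> refine abs_le_of_sq_le_sq' ?_ (by positivity) |>.2 <;>
      nlinarith [sq_nonneg ‖(rotR A r z).1‖, sq_nonneg ‖(rotR A r z).2‖]
  · exact rot_law A hs r (ContinuousLinearMap.fst ℝ _ _) (fun w => (w, 0)) (fun y w => by simp)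
      (fun w => by simp)
  · exact rot_law A hs r (ContinuousLinearMap.snd ℝ _ _) (fun w => (0, w)) (fun y w => by simp)
      (fun w => by simp)

end

end Crest.Agent.R285
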