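import Crest.Agent.R285.HVP
import Crest.Agent.R285.Rot

/-!
# R285/SQ: Lipschitz bounds and consistency of `SQ`
-/

set_option autoImplicit false

namespace Crest.Agent.R285

open MeasureTheory ProbabilityTheory Crest.OracleSampling Set
open scoped RealInnerProductSpace ContDiff

noncomputable section

variable {d : ℕ} {U : E d → ℝ}

theorem sq_sum_le {X : Type} [NormedAddCommGroup X] [NormedSpace ℝ X] {K : ℕ} {lam B : ℝ}
    (l0 : 0 < lam) (hB : 0 ≤ B) {u u' : Fin (K + 1) → X} (h : ∀ l, ‖u l - u' l‖ ≤ B) :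
    ‖∑ l, (lam⁻¹ * dw K l) • u l - ∑ l, (lam⁻¹ * dw K l) • u' l‖ ≤ lam⁻¹ * (WW K * B) := by
  rw [← Finset.sum_sub_distrib]
  refine (norm_sum_le _ _).trans ?_
  calc _ ≤ ∑ l, lam⁻¹ * (|dw K l| * B) := Finset.sum_le_sum fun l _ => by
        rw [← smul_sub, norm_smul, Real.norm_eq_abs, abs_mul, abs_of_pos (inv_pos.2 l0), mul_assoc]
        gcongr
        exact h l
    _ ≤ _ := by
        rw [← Finset.mul_sum, ← Finset.sum_mul]
        gcongr
        exact sum_abs_dw_le K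

theorem sq_fld_le {X : Type} [NormedAddCommGroup X] {H H' : X → X} {D L : ℝ} (hL : 0 ≤ L)
    (h : ∀ v v', ‖H v - H' v'‖ ≤ D + L * ‖v - v'‖) (Y Y' : X × X) :
    ‖(-H Y.2, H Y.1) - (-H' Y'.2, H' Y'.1)‖ ≤ D + L * ‖Y - Y'‖ := by
  rw [Prod.mk_sub_mk, Prod.norm_mk, neg_sub_neg, norm_sub_rev]
  refine max_le ((h _ _).trans ?_) ((h _ _).trans ?_)
  · gcongr; exact norm_snd_le (Y - Y')
  · gcongr; exact norm_fst_le (Y - Y')

/-- The deterministic part of `sq_err`. -/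
theorem sq_pt {X : Type} [NormedAddCommGroup X] [NormedSpace ℝ X] [CompleteSpace X] {K : ℕ}
    (hK : 1 ≤ K) {H : X → X} {A : X →L[ℝ] X} (hA : ‖A‖ ≤ 1)
    (hH : ∀ v v', ‖H v - H v'‖ ≤ 2 * WW K * ‖v - v'‖) {y : ℝ → X × X}
    (hy : ∀ r, HasDerivAt y (-A (y r).2, A (y r).1) r) {n : ℝ} (hn : ∀ r, ‖y r‖ ≤ n)
    {lam q : ℝ} (l0 : 0 < lam) (l1 : 2 * lam * WW K ^ 2 ≤ q) (q1 : q ≤ 1 / 2) :
    ‖∑ l, (lam⁻¹ * dw K l) •
        H (picard K lam (fun _ (Y : X × X) => (-H Y.2, H Y.1)) (y 0) K l).2 - A (A (y 0).1)‖ ≤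
      lam⁻¹ * ((2 * WW K ^ 2 * (1 + 2 * WW K) + WW K) * q ^ K * n + (4 * WW K ^ 3 + WW K) *
        ∑ l, (‖H (y (sg K l * lam)).1 - A (y (sg K l * lam)).1‖ +
          ‖H (y (sg K l * lam)).2 - A (y (sg K l * lam)).2‖)) := by
  set Ez := ∑ l, (‖H (y (sg K l * lam)).1 - A (y (sg K l * lam)).1‖ +
    ‖H (y (sg K l * lam)).2 - A (y (sg K l * lam)).2‖) with hEz
  have hW := one_le_WW K
  have hn0 : 0 ≤ n := (norm_nonneg _).trans (hn 0)
  have hE0 : 0 ≤ Ez := Finset.sum_nonneg fun l _ => by positivity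
  have lq : lam ≤ q := by nlinarith [mul_le_mul_of_nonneg_left (one_le_pow₀ hW (n := 2)) l0.le]
  have l2 : lam ≤ 1 := by linarith
  have hq0 : 0 ≤ q ^ K := pow_nonneg (l0.le.trans lq) K
  have lK : lam ^ K ≤ q ^ K := pow_le_pow_left₀ l0.le lq K
  have hAv : ∀ v, ‖A v‖ ≤ ‖v‖ := fun v => (A.le_of_opNorm_le hA v).trans_eq (one_mul _)
  let J : X × X →L[ℝ] X × X :=
    (-(A.comp (ContinuousLinearMap.snd ℝ X X))).prod (A.comp (ContinuousLinearMap.fst ℝ X X))
  have hJ : ∀ Y, J Y = (-A Y.2, A Y.1) := fun _ => rfl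
  have hJn : ∀ k Y, ‖(J ^ k) Y‖ ≤ ‖Y‖ := fun k => by
    induction k with
    | zero => intro Y; simp
    | succ k ih =>
      intro Y
      rw [pow_succ, mul_apply_eq_comp]
      refine (ih _).trans ?_
      rw [hJ, Prod.norm_mk, norm_neg]
      exact max_le ((hAv _).trans (norm_snd_le Y)) ((hAv _).trans (norm_fst_le Y))
  have hd : ∀ k r, HasDerivAt (fun r => (J ^ k) (y r)) ((J ^ (k + 1)) (y r)) r := fun k r => by
    rw [pow_succ, mul_apply_eq_comp, hJ]
    exact (J ^ k).hasFDerivAt.comp_hasDerivAt r (hy r)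
  have hint : ∀ {Z : Type} [NormedAddCommGroup Z] (g : ℝ → Z), (∀ r, ‖g r‖ ≤ n) →
      ∫ a in (0 : ℝ)..lam, ‖g a‖ ≤ n * lam := fun g hg => by
    have := intervalIntegral.norm_integral_le_of_norm_le_const (a := 0) (b := lam) (C := n)
      (f := fun a => ‖g a‖) fun x _ => by rw [norm_norm]; exact hg x
    rw [sub_zero, abs_of_pos l0] at this
    exact (le_abs_self _).trans this
  have hP : ∀ m, ‖picard K lam (fun _ (Y : X × X) => (-H Y.2, H Y.1)) (y 0) K m -
      y (sg K m * lam)‖ ≤ (1 + 2 * WW K) * q ^ K * n + 2 * WW K * Ez := fun m => by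
    have h1 := picard_err K (T := lam) (h := lam) (L := 2 * WW K) (q := q)
      (f := fun _ (Y : X × X) => (-H Y.2, H Y.1)) (y := y) (g := fun k r => (J ^ (k + 1)) (y r))
      (fun k a _ => (hd (k + 1) a).hasDerivWithinAt)
      (fun a _ => by simpa [hJ] using (hy a).hasDerivWithinAt) l0 le_rfl (by positivity)
      (fun l Y Y' => by
        simpa using sq_fld_le (D := 0) (by positivity) (fun v v' => by simpa using hH v v') Y Y')
      (by linarith) q1 K m
    have h2 := hint (fun r => (J ^ (0 + 1)) (y r)) fun r => (hJn _ _).trans (hn r)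
    have h3 := hint (fun r => (J ^ (K + 1 + 1)) (y r)) fun r => (hJn _ _).trans (hn r)
    have h4 : ∑ l, ‖(-H (y (sg K l * lam)).2, H (y (sg K l * lam)).1) -
        (J ^ (0 + 1)) (y (sg K l * lam))‖ ≤ Ez := by
      refine Finset.sum_le_sum fun l _ => ?_
      rw [zero_add, pow_one, hJ, Prod.mk_sub_mk, Prod.norm_mk, neg_sub_neg, norm_sub_rev]
      exact max_le (le_add_of_nonneg_left (norm_nonneg _)) (le_add_of_nonneg_right (norm_nonneg _))
    have h5 : n * lam ≤ n := mul_le_of_le_one_right hn0 l2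
    have h6 : lam ^ (K + 1) ≤ q ^ K := by
      rw [pow_succ]; exact (mul_le_of_le_one_right (by positivity) l2).trans lK
    refine h1.trans ?_
    calc _ ≤ q ^ K * n + 2 * (WW K * q ^ K * n + 1 * WW K * Ez) := by
          gcongr
          · exact h2.trans h5
          · exact intervalIntegral.integral_nonneg l0.le fun _ _ => norm_nonneg _
          · exact h3.trans h5
      _ = _ := by ring
  have h1 := sq_sum_le (K := K) l0
    (B := 2 * WW K * ((1 + 2 * WW K) * q ^ K * n + 2 * WW K * Ez) + Ez) (by positivity)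
    (u := fun l => H (picard K lam (fun _ (Y : X × X) => (-H Y.2, H Y.1)) (y 0) K l).2)
    (u' := fun l => A (y (sg K l * lam)).2) fun l => by
      refine (norm_sub_le_norm_sub_add_norm_sub _ (H (y (sg K l * lam)).2) _).trans
        (add_le_add ((hH _ _).trans ?_) ?_)
      · gcongr
        exact (norm_snd_le (_ - y (sg K l * lam))).trans (hP l)
      · exact (le_add_of_nonneg_left (norm_nonneg _)).trans (Finset.single_le_sum
          (f := fun l => ‖H (y (sg K l * lam)).1 - A (y (sg K l * lam)).1‖ +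
            ‖H (y (sg K l * lam)).2 - A (y (sg K l * lam)).2‖) (fun l _ => by positivity)
          (Finset.mem_univ l))
  have h2 := diff_err hK (T := lam) (h := lam) (g := fun k r => A ((J ^ k) (y r)).2)
    (fun k a _ => ((A.comp (ContinuousLinearMap.snd ℝ X X)).hasFDerivAt.comp_hasDerivAt a
      (hd k a)).hasDerivWithinAt) l0 le_rfl
  have h3 := hint (fun r => A ((J ^ (K + 1)) (y r)).2) fun r =>
    (hAv _).trans ((norm_snd_le _).trans ((hJn _ _).trans (hn r)))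
  simp only [pow_zero, pow_one, one_apply_eq_self, hJ] at h2
  have h4 : WW K * lam ^ (K - 1) * ∫ a in (0 : ℝ)..lam, ‖A ((J ^ (K + 1)) (y a)).2‖ ≤
      lam⁻¹ * (WW K * q ^ K * n) := by
    calc _ ≤ WW K * lam ^ (K - 1) * (n * lam) := by gcongr
      _ = 1 * (WW K * lam ^ K * n) := by
          rw [← pow_sub_one_mul (Nat.one_le_iff_ne_zero.1 hK) lam]
          ring
      _ ≤ _ := by
          gcongr
          exact (one_le_inv₀ l0).2 l2
  refine (norm_sub_le_norm_sub_add_norm_sub _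
    (∑ l, (lam⁻¹ * dw K l) • A (y (sg K l * lam)).2) _).trans ?_
  rw [norm_sub_rev] at h2
  refine (add_le_add h1 (h2.trans h4)).trans_eq ?_
  ring

/-- `picard_lip` on `E × E` (sup norm) with `D = (2W/h)‖Δc‖`, `L = 2W`. -/
theorem sq_lip (hU : Pot d 1 U) {K : ℕ} {t h lam : ℝ} (ht : 1 ≤ t) (h0 : 0 < h) (h1 : h ≤ 1 / 2)
    (hW : 2 * WW K * h ≤ 1) (l0 : 0 < lam) (l1 : 2 * lam * WW K ^ 2 ≤ 1 / 2)
    (c c' v v' ζ ζ' : E d) :
    ‖SQ K h lam U t c v ζ - SQ K h lam U t c' v' ζ'‖ ≤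
      4 * WW K ^ 2 / (lam * h) * (‖c - c'‖ + h * (‖v - v'‖ + ‖ζ - ζ'‖)) := by
  have hW1 := one_le_WW K
  have hH : ∀ v v', ‖HVP K h U t c v - HVP K h U t c' v'‖ ≤
      2 * WW K / h * ‖c - c'‖ + 2 * WW K * ‖v - v'‖ := fun v v' =>
    (hvp_lip hU ht h0 h1 hW c c' v v').trans_eq (by field_simp)
  have hP := picard_lip K (h := lam) (L := 2 * WW K) (D := 2 * WW K / h * ‖c - c'‖)
    (f := fun _ (y : E d × E d) => (-HVP K h U t c y.2, HVP K h U t c y.1))
    (f' := fun _ (y : E d × E d) => (-HVP K h U t c' y.2, HVP K h U t c' y.1)) (v, ζ) (v', ζ') l0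
    (by positivity) (by positivity) (fun _ Y Y' => sq_fld_le (by positivity) hH Y Y')
    (by linarith) K
  have h2 : ‖(v, ζ) - (v', ζ')‖ ≤ ‖v - v'‖ + ‖ζ - ζ'‖ := by
    rw [Prod.mk_sub_mk, Prod.norm_mk]
    exact max_le (le_add_of_nonneg_right (norm_nonneg _)) (le_add_of_nonneg_left (norm_nonneg _))
  refine (sq_sum_le l0 (B := 2 * (2 * WW K / h * ‖c - c'‖) + 4 * WW K * (‖v - v'‖ + ‖ζ - ζ'‖))
    (by positivity) fun l => (hH _ _).trans ?_).trans_eq (by field_simp; ring)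
  have h3 := mul_le_mul_of_nonneg_left ((norm_snd_le _).trans (hP l))
    (show 0 ≤ 2 * WW K by positivity)
  have h4 := mul_le_mul_of_nonneg_left l1 (show 0 ≤ 2 * WW K / h * ‖c - c'‖ by positivity)
  have h5 := mul_le_mul_of_nonneg_left h2 (show 0 ≤ 4 * WW K by positivity)
  rw [Prod.snd_sub] at h3
  nlinarith

theorem sq_cont_gen {X : Type} [NormedAddCommGroup X] [NormedSpace ℝ X] (K : ℕ) (lam : ℝ)
    {H : X → X → X} (hH : Continuous fun p : X × X => H p.1 p.2) :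
    Continuous fun p : X × X × X => ∑ l, (lam⁻¹ * dw K l) • H p.1
      (picard K lam (fun _ (y : X × X) => (-H p.1 y.2, H p.1 y.1)) (p.2.1, p.2.2) K l).2 := by
  refine continuous_finsetSum _ fun l _ => Continuous.fun_const_smul ?_ _
  have hP := picard_continuous (Z := X × X × X) K lam
    (f := fun p _ (y : X × X) => (-H p.1 y.2, H p.1 y.1)) (y0 := fun p => (p.2.1, p.2.2))
    (fun _ => (hH.comp (f := fun p : (X × X × X) × X × X => (p.1.1, p.2.2))
      (by fun_prop)).neg.prodMk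
      (hH.comp (f := fun p : (X × X × X) × X × X => (p.1.1, p.2.1)) (by fun_prop)))
    (by fun_prop) K l
  exact hH.comp (continuous_fst.prodMk hP.snd)

theorem sq_continuous (hU : Pot d 1 U) {K : ℕ} {t h lam : ℝ} (ht : 1 ≤ t) (h0 : 0 < h)
    (h1 : h ≤ 1 / 2) (hW : 2 * WW K * h ≤ 1) (l0 : 0 < lam) (l1 : 2 * lam * WW K ^ 2 ≤ 1 / 2) :
    Continuous fun p : E d × E d × E d => SQ K h lam U t p.1 p.2.1 p.2.2 := by
  exact sq_cont_gen K lam (H := HVP K h U t) (hvp_continuous hU ht h0 h1 hW)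

/-- `A = AA U t c` (`AA_symm`, `AA_norm`), `y r = R r ((√t)⁻¹ • z) = (√t)⁻¹ • R r z` from
`exists_rot`, chain `g k r = J^(k+1) (y r)` of norm `≤ ‖z.1‖ + ‖z.2‖`.  `picard_err` with `L = 2W`; the
defect of the field at `y(σ_l λ)` is at most `e(y.1) + e(y.2)`, `e v = ‖HVP v - A v‖`, dominated via
`hvp_err` and `Dom.comp` (Gaussian marginals).  `diff_err` for `r ↦ A (y r).2`, whose derivative at
`0` is `A (A v)`. -/
theorem sq_err {K : ℕ} (hK : 1 ≤ K) : ∃ C : ℝ, 0 ≤ C ∧ ∀ (d : ℕ) (U : E d → ℝ), Pot d 1 U →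
    ∀ (t h lam q : ℝ) (c : E d), 1 ≤ t → 0 < h → h ≤ q → q ≤ 1 / 2 → 2 * WW K * h ≤ 1 →
    0 < lam → 2 * lam * WW K ^ 2 ≤ q →
    Dom ((gam d).prod (gam d))
      (fun z => ‖SQ K h lam U t c ((√t)⁻¹ • z.1) ((√t)⁻¹ • z.2) -
        AA U t c (AA U t c ((√t)⁻¹ • z.1))‖) (C * q ^ K / lam * (√d + ‖c‖)) := by
  obtain ⟨C, hC, H⟩ := hvp_err hK
  have hW1 := one_le_WW K
  refine ⟨2 * (2 * WW K ^ 2 * (1 + 2 * WW K) + WW K) + (4 * WW K ^ 3 + WW K) * ((K + 1) * (2 * C)),
    by positivity, fun d U hU t h lam q c ht h0 hq q1 hW l0 l1 => ?_⟩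
  have ht0 : 0 < t := by linarith
  obtain ⟨R, R0, Rd, Rn, Rm⟩ := exists_rot (AA U t c) (AA_symm hU zero_le_one ht0 c)
  have He := H d U hU t h q c ht h0 hq q1 hW
  have hs : ‖(√t)⁻¹‖ ≤ 1 := by
    rw [Real.norm_of_nonneg (by positivity)]
    exact inv_le_one_of_one_le₀ (Real.one_le_sqrt.2 ht)
  have hq0 : 0 ≤ q ^ K := pow_nonneg (h0.le.trans hq) K
  have D1 := (dom_norm_gam (d := d)).fst (ν := gam d) |>.add (dom_norm_gam (d := d)).snd
  have D2 := Dom.sum (μ := (gam d).prod (gam d)) Finset.univ fun l (_ : l ∈ Finset.univ) =>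
    (He.comp (Φ := fun z => (R (sg K l * lam) z).1) (by fun_prop) (Rm _).1).add
      (He.comp (Φ := fun z => (R (sg K l * lam) z).2) (by fun_prop) (Rm _).2)
  refine (((D1.const_mul (c := (2 * WW K ^ 2 * (1 + 2 * WW K) + WW K) * q ^ K)
    (by positivity)).add (D2.const_mul (c := 4 * WW K ^ 3 + WW K) (by positivity))).const_mul
    (inv_pos.2 l0).le).mono (fun z => ?_) ?_
  · have h1 := sq_pt hK (H := HVP K h U t c) (AA_norm hU zero_le_one ht0 c)
      (fun v v' => (hvp_lip hU ht h0 (hq.trans q1) hW c c v v').trans_eq (by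
        rw [sub_self, norm_zero, zero_add]; field_simp))
      (y := fun r => R r ((√t)⁻¹ • z)) (Rd _) (n := ‖z.1‖ + ‖z.2‖)
      (fun r => by
        rw [map_smul, norm_smul]
        exact (mul_le_of_le_one_left (norm_nonneg _) hs).trans (Rn r z)) l0 l1 q1
    simp only [R0] at h1
    simp only [map_smul (R _), Prod.smul_fst, Prod.smul_snd] at h1
    exact h1
  · rw [Finset.sum_const, Finset.card_univ, Fintype.card_fin, nsmul_eq_mul, div_eq_inv_mul,
      mul_assoc lam⁻¹]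
    refine mul_le_mul_of_nonneg_left ?_ (inv_pos.2 l0).le
    have h1 : 0 ≤ (2 * WW K ^ 2 * (1 + 2 * WW K) + WW K) * q ^ K * ‖c‖ := by positivity
    push_cast
    nlinarith

end

end Crest.Agent.R285
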