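import Crest.Agent.R285.Tame

/-!
# R285/Sob: the divergence inequality and elementary facts on `nrm`
-/

set_option autoImplicit false

namespace Crest.Agent.R285

open MeasureTheory ProbabilityTheory Crest.OracleSampling Set
open scoped RealInnerProductSpace ContDiff

noncomputable section

variable (I : Inst) {T : Type} [Fintype T] {s : ℝ}

/-- Expectation with respect to `ρ_s`. -/
def sob_E (s : ℝ) (φ : I.Y → ℝ) : ℝ := ∫ z : E I.d × E I.d, φ (s, z) * I.rho (s, z)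

theorem sob_nrm (s : ℝ) (w : T → I.Y → ℝ) :
    nrm I s w = ∑ o, sob_E I s (fun y => w o y * w o y) := by
  simp only [nrm, sob_E, sq]

theorem sob_congr {φ ψ : I.Y → ℝ} (h : ∀ y, φ y = ψ y) : sob_E I s φ = sob_E I s ψ := by
  rw [funext h]

theorem sob_add (hs : s ∈ Icc (0 : ℝ) 1) {φ ψ : I.Y → ℝ} (h : Tame φ) (h' : Tame ψ) :
    sob_E I s (fun y => φ y + ψ y) = sob_E I s φ + sob_E I s ψ := by
  simp only [sob_E, add_mul]
  exact integral_add (h.integrable I hs) (h'.integrable I hs)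

theorem sob_const_mul (c : ℝ) (φ : I.Y → ℝ) :
    sob_E I s (fun y => c * φ y) = c * sob_E I s φ := by
  simp only [sob_E, mul_assoc]
  exact integral_const_mul _ _

theorem sob_sum (hs : s ∈ Icc (0 : ℝ) 1) {ι : Type} (S : Finset ι) {φ : ι → I.Y → ℝ}
    (h : ∀ i ∈ S, Tame (φ i)) :
    sob_E I s (fun y => ∑ i ∈ S, φ i y) = ∑ i ∈ S, sob_E I s (φ i) := by
  simp only [sob_E, Finset.sum_mul]
  exact integral_finsetSum _ fun i hi => (h i hi).integrable I hs

theorem sob_mono (hs : s ∈ Icc (0 : ℝ) 1) {φ ψ : I.Y → ℝ} (h : Tame φ) (h' : Tame ψ)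
    (hle : ∀ z, φ (s, z) ≤ ψ (s, z)) : sob_E I s φ ≤ sob_E I s ψ :=
  integral_mono (h.integrable I hs) (h'.integrable I hs) fun z =>
    mul_le_mul_of_nonneg_right (hle z) (I.rho_pos _).le

theorem sob_const (hs : s ∈ Icc (0 : ℝ) 1) (c : ℝ) : sob_E I s (fun _ => c) = c := by
  simp only [sob_E]
  rw [integral_const_mul, (integral_rho I hs).2, mul_one]

theorem sob_tame_cmul {d : ℕ} {φ : ℝ × E d × E d → ℝ} (h : Tame φ) (c : ℝ) :
    Tame (fun y => c * φ y) := (tame_const c).mul h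

/-- The one-dimensional divergence. -/
def sob_D (b : Bool) (k : Fin I.d) (φ : I.Y → ℝ) : I.Y → ℝ :=
  fun y => I.gW b k y * φ y - dd (ey b k) φ y

theorem sob_tame_D (b : Bool) (k : Fin I.d) {φ : I.Y → ℝ} (h : Tame φ) : Tame (sob_D I b k φ) :=
  ((tame_gW I b k).mul h).sub (h.dd b k)

theorem sob_adj (hs : s ∈ Icc (0 : ℝ) 1) (b : Bool) (k : Fin I.d) {φ ψ : I.Y → ℝ} (h : Tame φ)
    (h' : Tame ψ) : sob_E I s (fun y => sob_D I b k φ y * ψ y) =
      sob_E I s (fun y => φ y * dd (ey b k) ψ y) := by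
  have h1 := (h.mul h').ibp I hs b k
  rw [dd_mul h.smooth h'.smooth] at h1
  have h2 : sob_E I s (fun y => dd (ey b k) φ y * ψ y + φ y * dd (ey b k) ψ y) =
      sob_E I s (fun y => I.gW b k y * (φ y * ψ y)) := h1
  have h3 : sob_E I s (fun y => I.gW b k y * (φ y * ψ y)) =
      sob_E I s (fun y => sob_D I b k φ y * ψ y + dd (ey b k) φ y * ψ y) :=
    sob_congr I fun y => by simp only [sob_D]; ring
  rw [h3, sob_add I hs ((h.dd b k).mul h') (h.mul (h'.dd b k)),
    sob_add I hs ((sob_tame_D I b k h).mul h') ((h.dd b k).mul h')] at h2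
  linarith

theorem sob_comm (b : Bool) (i j : Fin I.d) {φ : I.Y → ℝ} (h : Tame φ) (y : I.Y) :
    dd (ey b i) (sob_D I b j φ) y =
      HessM b b I i j (I.pt y) * φ y + sob_D I b j (dd (ey b i) φ) y := by
  have e : sob_D I b j φ = fun y => I.gW b j y * φ y - dd (ey b j) φ y := rfl
  rw [e, dd_sub ((I.gW_smooth b j).mul h.smooth) (dd_smooth h.smooth _),
    dd_mul (I.gW_smooth b j) h.smooth, dd_gW, dd_comm h.smooth]
  simp only [sob_D]
  ring

theorem sob_tame_H (b : Bool) (i j : Fin I.d) :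
    Tame (fun y : I.Y => HessM b b I i j (I.pt y)) := (mul_HessM b b).tame I i j

theorem sob_pair (hs : s ∈ Icc (0 : ℝ) 1) (b : Bool) (i j : Fin I.d) {φ ψ : I.Y → ℝ} (h : Tame φ)
    (h' : Tame ψ) : sob_E I s (fun y => sob_D I b i φ y * sob_D I b j ψ y) =
      sob_E I s (fun y => φ y * HessM b b I i j (I.pt y) * ψ y +
        dd (ey b i) ψ y * dd (ey b j) φ y) := by
  rw [sob_adj I hs b i h (sob_tame_D I b j h'),
    sob_add I hs ((h.mul (sob_tame_H I b i j)).mul h') ((h'.dd b i).mul (h.dd b j)),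
    ← sob_adj I hs b j (h'.dd b i) h,
    ← sob_add I hs ((h.mul (sob_tame_H I b i j)).mul h') ((sob_tame_D I b j (h'.dd b i)).mul h)]
  refine sob_congr I fun y => ?_
  rw [sob_comm I b i j h']
  ring

theorem sob_one (hs : s ∈ Icc (0 : ℝ) 1) (b : Bool) {φ : Fin I.d → I.Y → ℝ}
    (h : ∀ k, Tame (φ k)) :
    sob_E I s (fun y => (∑ k, sob_D I b k (φ k) y) * ∑ k, sob_D I b k (φ k) y) ≤
      ∑ i, ∑ j, sob_E I s (fun y => dd (ey b j) (φ i) y * dd (ey b j) (φ i) y) +
        2 * ∑ i, sob_E I s (fun y => φ i y * φ i y) := by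
  have tD : ∀ i j, Tame fun y => sob_D I b i (φ i) y * sob_D I b j (φ j) y := fun i j =>
    (sob_tame_D I b i (h i)).mul (sob_tame_D I b j (h j))
  have tP : ∀ i j, Tame fun y => φ i y * HessM b b I i j (I.pt y) * φ j y +
      dd (ey b i) (φ j) y * dd (ey b j) (φ i) y := fun i j =>
    (((h i).mul (sob_tame_H I b i j)).mul (h j)).add (((h j).dd b i).mul ((h i).dd b j))
  have tQ : ∀ i j, Tame fun y => dd (ey b j) (φ i) y * dd (ey b j) (φ i) y := fun i j =>
    ((h i).dd b j).mul ((h i).dd b j)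
  have tS : ∀ i, Tame fun y => φ i y * φ i y := fun i => (h i).mul (h i)
  have e1 : sob_E I s (fun y => (∑ k, sob_D I b k (φ k) y) * ∑ k, sob_D I b k (φ k) y) =
      sob_E I s (fun y => ∑ i, ∑ j, (φ i y * HessM b b I i j (I.pt y) * φ j y +
        dd (ey b i) (φ j) y * dd (ey b j) (φ i) y)) := by
    rw [sob_congr I fun y => Finset.sum_mul_sum _ _ _ _,
      sob_sum I hs _ fun i _ => Tame.sum _ fun j _ => tD i j,
      sob_sum I hs _ fun i _ => Tame.sum _ fun j _ => tP i j]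
    refine Finset.sum_congr rfl fun i _ => ?_
    rw [sob_sum I hs _ fun j _ => tD i j, sob_sum I hs _ fun j _ => tP i j]
    exact Finset.sum_congr rfl fun j _ => sob_pair I hs b i j (h i) (h j)
  have e2 : ∑ i, ∑ j, sob_E I s (fun y => dd (ey b j) (φ i) y * dd (ey b j) (φ i) y) +
        2 * ∑ i, sob_E I s (fun y => φ i y * φ i y) =
      sob_E I s (fun y => ∑ i, ∑ j, dd (ey b j) (φ i) y * dd (ey b j) (φ i) y +
        2 * ∑ i, φ i y * φ i y) := by
    rw [sob_add I hs (Tame.sum _ fun i _ => Tame.sum _ fun j _ => tQ i j)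
      (sob_tame_cmul (Tame.sum _ fun i _ => tS i) 2), sob_const_mul,
      sob_sum I hs _ fun i _ => Tame.sum _ fun j _ => tQ i j, sob_sum I hs _ fun i _ => tS i]
    congr 1
    exact Finset.sum_congr rfl fun i _ => (sob_sum I hs _ fun j _ => tQ i j).symm
  rw [e1, e2]
  refine sob_mono I hs (Tame.sum _ fun i _ => Tame.sum _ fun j _ => tP i j)
    ((Tame.sum _ fun i _ => Tame.sum _ fun j _ => tQ i j).add
      (sob_tame_cmul (Tame.sum _ fun i _ => tS i) 2)) fun z => ?_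
  simp only [Finset.sum_add_distrib]
  generalize (s, z) = y
  have a1 := opBd_HessM I b b (I.pt y) (fun j => φ j y) (fun i => φ i y)
  rw [mul_assoc, Real.mul_self_sqrt (Finset.sum_nonneg fun _ _ => sq_nonneg _)] at a1
  have a2 := (le_abs_self _).trans a1
  simp only [sq] at a2
  have a3 : ∑ i, ∑ j, dd (ey b i) (φ j) y * dd (ey b j) (φ i) y ≤
      ∑ i, ∑ j, (dd (ey b i) (φ j) y * dd (ey b i) (φ j) y +
        dd (ey b j) (φ i) y * dd (ey b j) (φ i) y) / 2 :=
    Finset.sum_le_sum fun i _ => Finset.sum_le_sum fun j _ => by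
      nlinarith [sq_nonneg (dd (ey b i) (φ j) y - dd (ey b j) (φ i) y)]
  simp only [add_div, Finset.sum_add_distrib, ← Finset.sum_div] at a3
  rw [Finset.sum_comm (f := fun i j => dd (ey b i) (φ j) y * dd (ey b i) (φ j) y)] at a3
  linarith

theorem nrm_nonneg (s : ℝ) (w : T → I.Y → ℝ) : 0 ≤ nrm I s w := by
  exact Finset.sum_nonneg fun o _ => integral_nonneg fun z =>
    mul_nonneg (sq_nonneg _) (I.rho_pos _).le

theorem nrm_add_le (hs : s ∈ Icc (0 : ℝ) 1) {w w' : T → I.Y → ℝ} (h : ∀ o, Tame (w o))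
    (h' : ∀ o, Tame (w' o)) :
    nrm I s (fun o y => w o y + w' o y) ≤ 2 * nrm I s w + 2 * nrm I s w' := by
  rw [sob_nrm, sob_nrm, sob_nrm, Finset.mul_sum, Finset.mul_sum, ← Finset.sum_add_distrib]
  refine Finset.sum_le_sum fun o _ => ?_
  have t1 := sob_tame_cmul ((h o).mul (h o)) 2
  have t2 := sob_tame_cmul ((h' o).mul (h' o)) 2
  rw [← sob_const_mul, ← sob_const_mul, ← sob_add I hs t1 t2]
  refine sob_mono I hs (((h o).add (h' o)).mul ((h o).add (h' o))) (t1.add t2) fun z => ?_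
  nlinarith [sq_nonneg (w o (s, z) - w' o (s, z))]

theorem nrm_const (hs : s ∈ Icc (0 : ℝ) 1) (c : T → ℝ) :
    nrm I s (fun o _ => c o) = ∑ o, c o ^ 2 := by
  rw [sob_nrm]
  exact Finset.sum_congr rfl fun o _ => by rw [sob_const I hs, sq]

theorem nrm_reidx {T' : Type} [Fintype T'] (e : T' ≃ T) (w : T → I.Y → ℝ) :
    nrm I s (fun o => w (e o)) = nrm I s w := by
  exact e.sum_comp (fun o => ∫ z : E I.d × E I.d, w o (s, z) ^ 2 * I.rho (s, z))

/-- Pointwise `OpBd.apply_le`, then integrate. -/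
theorem nrm_mul_le (hs : s ∈ Icc (0 : ℝ) 1) {O : Type} [Fintype O] {M : O → T → I.Y → ℝ}
    {w : T → I.Y → ℝ} (hM : ∀ o j, Tame (M o j)) (hw : ∀ o, Tame (w o)) {C : ℝ} (hC : 0 ≤ C)
    (hb : ∀ z, OpBd (fun o j => M o j (s, z)) C) :
    nrm I s (fun o y => ∑ j, M o j y * w j y) ≤ C ^ 2 * nrm I s w := by
  have t1 : ∀ o, Tame fun y => ∑ j, M o j y * w j y := fun o =>
    Tame.sum _ fun j _ => (hM o j).mul (hw j)
  rw [sob_nrm, sob_nrm, ← sob_sum I hs _ fun o _ => (t1 o).mul (t1 o),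
    ← sob_sum I hs _ fun o _ => (hw o).mul (hw o), ← sob_const_mul]
  refine sob_mono I hs (Tame.sum _ fun o _ => (t1 o).mul (t1 o))
    (sob_tame_cmul (Tame.sum _ fun o _ => (hw o).mul (hw o)) _) fun z => ?_
  simpa only [sq] using (hb z).apply_le hC fun j => w j (s, z)

/-- For one `o`, write `δφ = ∑_k (g_k φ_k - ∂_k φ_k)`; `Tame.ibp` gives the adjointness
`∫ δφ · ψ ρ = ∫ ∑_k φ_k ∂_k ψ ρ`.  With `ψ = δφ`:
`∂_i δφ = ∑_j H_{ij} φ_j + δ(∂_i φ)` (`dd_gW`, `dd_comm`), hence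
`∫ (δφ)² ρ = ∫ ∑ φ_i H_{ij} φ_j ρ + ∑_{i,j} ∫ ∂_i φ_j ∂_j φ_i ρ ≤ 2 ‖φ‖² + ‖∇φ‖²`
(`opBd_HessM`, `2ab ≤ a² + b²`). -/
theorem sobolev (hs : s ∈ Icc (0 : ℝ) 1) (b : Bool) {φ : T × Fin I.d → I.Y → ℝ}
    (h : ∀ o, Tame (φ o)) :
    nrm I s (fun (o : T) y => ∑ k, (I.gW b k y * φ (o, k) y - dd (ey b k) (φ (o, k)) y)) ≤
      nrm I s (fun o : (T × Fin I.d) × Fin I.d => dd (ey b o.2) (φ o.1)) + 2 * nrm I s φ := by
  rw [sob_nrm, sob_nrm, sob_nrm]
  simp only [Fintype.sum_prod_type]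
  rw [Finset.mul_sum, ← Finset.sum_add_distrib]
  exact Finset.sum_le_sum fun o _ => sob_one I hs b (φ := fun k => φ (o, k)) fun k => h (o, k)

/-- From `L²` to `L¹` for vector-valued functions (Cauchy–Schwarz, `integral_rho`). -/
theorem dom_vec (hs : s ∈ Icc (0 : ℝ) 1) {w : Fin I.d → I.Y → ℝ} (h : ∀ k, Tame (w k)) {B : ℝ}
    (hB : 0 ≤ B) (hw : nrm I s w ≤ B ^ 2) :
    Dom ((volume : Measure (E I.d × E I.d)).withDensity fun z => ENNReal.ofReal (I.rho (s, z)))
      (fun z => ‖vec fun k => w k (s, z)‖) B := by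
  have hc : Continuous fun z : E I.d × E I.d => (s, z) := by fun_prop
  have hρc : Continuous fun z : E I.d × E I.d => I.rho (s, z) := I.rho_smooth.continuous.comp hc
  have hρm : Measurable fun z : E I.d × E I.d => ENNReal.ofReal (I.rho (s, z)) :=
    hρc.measurable.ennreal_ofReal
  have hfin : ∀ᵐ z : E I.d × E I.d, ENNReal.ofReal (I.rho (s, z)) < ⊤ :=
    Filter.Eventually.of_forall fun _ => ENNReal.ofReal_lt_top
  have hwc : ∀ k, Continuous fun z : E I.d × E I.d => w k (s, z) := fun k =>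
    (h k).smooth.continuous.comp hc
  have hfc : Continuous fun z : E I.d × E I.d => ‖vec fun k => w k (s, z)‖ := by
    exact ((PiLp.continuous_toLp 2 _).comp (continuous_pi hwc)).norm
  have hsq : ∀ z : E I.d × E I.d, ‖vec fun k => w k (s, z)‖ ^ 2 = ∑ k, w k (s, z) * w k (s, z) := by
    intro z
    rw [EuclideanSpace.real_norm_sq_eq]
    simp only [vec, sq]
  have tS : Tame fun y => ∑ k, w k y * w k y := Tame.sum _ fun k _ => (h k).mul (h k)
  have tg : ∀ c : ℝ, Tame fun y => c / 2 + (2 * c)⁻¹ * ∑ k, w k y * w k y := fun c =>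
    (tame_const _).add (sob_tame_cmul tS _)
  have hle : ∀ c : ℝ, 0 < c → ∀ z : E I.d × E I.d, ‖vec fun k => w k (s, z)‖ * I.rho (s, z) ≤
      (c / 2 + (2 * c)⁻¹ * ∑ k, w k (s, z) * w k (s, z)) * I.rho (s, z) := by
    intro c hc0 z
    refine mul_le_mul_of_nonneg_right ?_ (I.rho_pos _).le
    rw [← hsq]
    generalize ‖vec fun k => w k (s, z)‖ = r
    have : c / 2 + (2 * c)⁻¹ * r ^ 2 - r = (r - c) ^ 2 / (2 * c) := by field_simp; ring
    have h2 : 0 ≤ (r - c) ^ 2 / (2 * c) := by positivity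
    linarith
  have hint : Integrable fun z : E I.d × E I.d => ‖vec fun k => w k (s, z)‖ * I.rho (s, z) := by
    refine ((tg 1).integrable I hs).mono' (hfc.mul hρc).aestronglyMeasurable
      (Filter.Eventually.of_forall fun z => ?_)
    rw [Real.norm_of_nonneg (mul_nonneg (norm_nonneg _) (I.rho_pos _).le)]
    exact hle 1 one_pos z
  have hsm : (fun z : E I.d × E I.d => (ENNReal.ofReal (I.rho (s, z))).toReal •
      ‖vec fun k => w k (s, z)‖) = fun z => ‖vec fun k => w k (s, z)‖ * I.rho (s, z) := by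
    funext z
    rw [ENNReal.toReal_ofReal (I.rho_pos _).le, smul_eq_mul, mul_comm]
  refine ⟨_, ?_, fun z => le_rfl, ?_⟩
  · rw [integrable_withDensity_iff_integrable_smul' hρm hfin, hsm]
    exact hint
  · rw [integral_withDensity_eq_integral_toReal_smul hρm hfin, hsm]
    refine le_of_forall_pos_le_add fun ε hε => ?_
    have hc0 : 0 < B + ε := by linarith
    refine (integral_mono hint ((tg (B + ε)).integrable I hs) (hle _ hc0)).trans ?_
    have e : sob_E I s (fun y => (B + ε) / 2 + (2 * (B + ε))⁻¹ * ∑ k, w k y * w k y) =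
        (B + ε) / 2 + (2 * (B + ε))⁻¹ * nrm I s w := by
      rw [sob_add I hs (tame_const _) (sob_tame_cmul tS _), sob_const I hs, sob_const_mul,
        sob_sum I hs _ fun k _ => (h k).mul (h k), sob_nrm]
    refine e.le.trans ?_
    have h3 : (2 * (B + ε))⁻¹ * nrm I s w ≤ (2 * (B + ε))⁻¹ * (B + ε) ^ 2 := by
      refine mul_le_mul_of_nonneg_left (hw.trans ?_) (by positivity)
      nlinarith
    have h4 : (2 * (B + ε))⁻¹ * (B + ε) ^ 2 = (B + ε) / 2 := by field_simp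
    linarith

end

end Crest.Agent.R285
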