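import Crest.Agent.R285.Appell
import Crest.Agent.R285.Bilin
import Crest.Agent.R285.PsiF

/-!
# R285/Split: dimension-free bounds for all splittings of the tensors `∇^k Ψ`
-/

set_option autoImplicit false

namespace Crest.Agent.R285

open MeasureTheory ProbabilityTheory Crest.OracleSampling Set
open scoped RealInnerProductSpace ContDiff

noncomputable section

/-- Induction on `n`.  In `bilin` the term `S = ∅, T = ∅` (`T ≠ univ` as `ι` is nonempty) is the
wanted matrix; terms with exactly one of `S, T` empty vanish (`Xi_zero_left/right`); for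
`S, T ≠ ∅`, `T ≠ univ` use `OpBd.sub_prod` with `opBd_Xi` and the induction hypothesis for the
complements (`{m // m ∉ T}` is nonempty, total cardinality is smaller).  The left side is bounded by
`opBd_PFPP`; there are at most `2^n · 2^n` terms (`OpBd.sum`, `OpBd.sub`). -/
theorem split_core (n : ℕ) : ∃ C : ℝ, 0 ≤ C ∧ ∀ (d : ℕ) (δ : ℝ) (W : E d → ℝ), Pot d δ W →
    0 ≤ δ → ∀ θ ∈ Icc (1 : ℝ) 3, ∀ (x : E d) (ι κ : Type) [Fintype ι] [DecidableEq ι] [Fintype κ]
    [DecidableEq κ], Fintype.card ι + Fintype.card κ ≤ n → Nonempty ι →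
    OpBd (fun (j : Fin d × (κ → Fin d)) (i : ι → Fin d) =>
      pd ee (msf j.2 + msf i) (fun y => GG W θ y j.1) x) (C * δ) := by
  induction n with
  | zero =>
    refine ⟨0, le_rfl, fun d δ W _ _ θ _ x ι κ _ _ _ _ hc hne => ?_⟩
    have := Fintype.card_pos (α := ι)
    omega
  | succ n ih =>
    obtain ⟨C₀, hC₀, H₀⟩ := ih
    obtain ⟨C₁, hC₁, H₁⟩ := opBd_Xi (n + 1)
    obtain ⟨C₂, hC₂, H₂⟩ := opBd_PFPP (n + 1)
    refine ⟨C₂ + 2 ^ (n + 1) * (C₁ * C₀), by positivity,
      fun d δ W hW hδ θ hθ x ι κ _ _ _ _ hc hne => ?_⟩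
    have hθ0 : 0 < θ := lt_of_lt_of_le one_pos hθ.1
    let M : Finset κ × Finset ι → Fin d × (κ → Fin d) → (ι → Fin d) → ℝ := fun p j i =>
      if p.2 = Finset.univ then 0 else Xi W θ x (p.1.val.map j.2) (p.2.val.map i) *
        pd ee (p.1ᶜ.val.map j.2 + p.2ᶜ.val.map i) (fun y => GG W θ y j.1) x
    have hM : ∀ p ∈ (Finset.univ : Finset (Finset κ × Finset ι)).erase (∅, ∅),
        OpBd (M p) (C₁ * (C₀ * δ)) := by
      rintro ⟨S, T⟩ hp
      have hp := Finset.ne_of_mem_erase hp
      by_cases hT : T = Finset.univ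
      · simp only [M, if_pos hT]
        exact opBd_zero (by positivity)
      · simp only [M, if_neg hT]
        have a1 : Fintype.card {m // m ∈ S} ≤ Fintype.card κ := Fintype.card_subtype_le _
        have a2 : Fintype.card {m // m ∈ T} ≤ Fintype.card ι := Fintype.card_subtype_le _
        have a3 : Fintype.card {m // m ∉ S} = Fintype.card κ - Fintype.card {m // m ∈ S} :=
          Fintype.card_subtype_compl _
        have a4 : Fintype.card {m // m ∉ T} = Fintype.card ι - Fintype.card {m // m ∈ T} :=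
          Fintype.card_subtype_compl _
        have a5 : 0 < Fintype.card {m // m ∈ S} + Fintype.card {m // m ∈ T} := by
          rw [Fintype.card_coe, Fintype.card_coe]
          by_contra h
          refine hp (Prod.ext ?_ ?_) <;> refine Finset.card_eq_zero.1 ?_ <;> simp only <;> omega
        have a6 : Nonempty {m // m ∉ T} := by
          by_contra h
          exact hT (Finset.eq_univ_of_forall fun m => by_contra fun hm => h ⟨⟨m, hm⟩⟩)
        exact OpBd.sub_prod S T (M₁ := Xi W θ x)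
          (M₂ := fun k a b => pd ee (a + b) (fun y => GG W θ y k) x) hC₁ (by positivity)
          (H₁ d δ W hW θ hθ x _ _ (by omega) (by omega))
          (H₀ d δ W hW hδ θ hθ x _ _ (by omega) a6)
    have h := (H₂ d δ W hW hδ θ hθ x ι κ (by omega) (by omega)).sub (OpBd.sum _ hM)
    have hne' : (∅ : Finset ι) ≠ Finset.univ := Finset.univ_nonempty.ne_empty.symm
    have e : ∀ (j : Fin d × (κ → Fin d)) (i : ι → Fin d),
        ∫ z, PF W θ x j.1 (msf j.2) z * PP W θ x (msf i) z ∂(mu W θ x) -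
          ∑ p ∈ (Finset.univ : Finset (Finset κ × Finset ι)).erase (∅, ∅), M p j i =
        pd ee (msf j.2 + msf i) (fun y => GG W θ y j.1) x := by
      intro j i
      rw [bilin hW hδ hθ0, ← Fintype.sum_prod_type' (f := fun S T => M (S, T) j i),
        ← Finset.add_sum_erase _ _ (Finset.mem_univ (∅, ∅)), add_sub_cancel_right]
      simp only [M, if_neg hne', Finset.empty_val, Multiset.map_zero, Xi_zero_zero hW hθ0, one_mul,
        Finset.compl_empty, msf]
    simp only [e] at h
    refine h.mono ?_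
    rw [Finset.sum_const, nsmul_eq_mul]
    have b1 : ((Finset.univ : Finset (Finset κ × Finset ι)).erase (∅, ∅)).card ≤ 2 ^ (n + 1) := by
      refine Finset.card_erase_le.trans ?_
      rw [Finset.card_univ, Fintype.card_prod, Fintype.card_finset, Fintype.card_finset, ← pow_add]
      exact Nat.pow_le_pow_right (by norm_num) (by omega)
    have b2 : (((Finset.univ : Finset (Finset κ × Finset ι)).erase (∅, ∅)).card : ℝ) ≤
        2 ^ (n + 1) := by exact_mod_cast b1
    have b3 := mul_le_mul_of_nonneg_right b2 (show 0 ≤ C₁ * (C₀ * δ) by positivity)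
    linarith

theorem exists_idx_equiv (n d : ℕ) :
    ∃ e : (Fam.idx n).T d ≃ (Fin n → Fin d), ∀ i, ms n i = msf (e i) := by
  induction n with
  | zero => exact ⟨Equiv.ofUnique Unit (Fin 0 → Fin d), fun i => by simp [ms, msf]⟩
  | succ n ih =>
    obtain ⟨e, he⟩ := ih
    refine ⟨((Equiv.prodCongr e (Equiv.refl (Fin d))).trans (Equiv.prodComm _ _)).trans
      (Fin.consEquiv fun _ => Fin d), fun i => ?_⟩
    have : ∀ (k : Fin d) (f : Fin n → Fin d),
        msf (Fin.cons k f : Fin (n + 1) → Fin d) = k ::ₘ msf f := by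
      intro k f
      simp only [msf, Fin.univ_val_map, List.ofFn_succ, Fin.cons_zero, Fin.cons_succ,
        Multiset.cons_coe]
    rw [ms, he]
    exact (this _ _).symm

/-- `ms (q+1) j = j.2 ::ₘ ms q j.1`, `pd_cons'`, `pd_slice`, `dd_ex_Psi`, `OpBd.reidx`. -/
theorem split_bound (p q : ℕ) : ∃ C : ℝ, 0 ≤ C ∧ ∀ (I : Inst) (y : I.X), y.1 ∈ Icc (0 : ℝ) 1 →
    OpBd (fun (j : (Fam.idx (q + 1)).T I.d) (i : (Fam.idx (p + 1)).T I.d) =>
      pd ex (ms (q + 1) j + ms (p + 1) i) I.Ψ y / I.δ) C := by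
  obtain ⟨C, hC, H⟩ := split_core (p + 1 + q)
  refine ⟨C, hC, fun I y hy => ?_⟩
  obtain ⟨r, x⟩ := y
  obtain ⟨e₁, h₁⟩ := exists_idx_equiv q I.d
  obtain ⟨e₂, h₂⟩ := exists_idx_equiv (p + 1) I.d
  have h := ((H I.d I.δ I.W I.pot I.δ0.le (th r) ⟨one_le_th r, th_le_three hy⟩ x (Fin (p + 1))
    (Fin q) (by simp) inferInstance).reidx
    ((Equiv.prodCongr e₁ (Equiv.refl (Fin I.d))).trans (Equiv.prodComm _ _)) e₂).const_mul I.δ⁻¹
  have hs := Psi_smooth I.pot
  have e : |I.δ⁻¹| * (C * I.δ) = C := by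
    rw [abs_of_pos (inv_pos.2 I.δ0)]
    field_simp [I.δ0.ne']
  rw [e] at h
  convert h using 3 with j i
  rw [div_eq_inv_mul, ms, Multiset.cons_add, Inst.Ψ, pd_cons' _ _ _ hs,
    pd_slice _ (dd_smooth hs _), h₁, h₂]
  simp only [dd_ex_Psi I.pot I.δ0.le]
  rfl

end

end Crest.Agent.R285
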