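import Crest.Agent.R285.SQ

/-!
# R285/StepLip: Lipschitz bounds and continuity of one step
-/

set_option autoImplicit false

namespace Crest.Agent.R285

open MeasureTheory ProbabilityTheory Crest.OracleSampling Set
open scoped RealInnerProductSpace ContDiff

noncomputable section

variable {d : ℕ} {U : E d → ℝ} {K : ℕ} {t h β lam q : ℝ}

theorem StepOK.β1 (H : StepOK K h β lam q) : β ≤ 1 ∧ β ≤ lam ∧ lam ≤ q := by
  have hW := one_le_WW K
  have h2 : 1 ≤ WW K ^ 2 := one_le_pow₀ hW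
  have h3 : 1 ≤ WW K ^ 3 := one_le_pow₀ hW
  have hl : lam ≤ q := by nlinarith [H.lamq, H.lam0]
  have hb : β ≤ lam := by nlinarith [H.βq, H.β0, H.lam0, H.q1]
  exact ⟨by linarith [H.q1], hb, hl⟩

theorem steplip_h1 (H : StepOK K h β lam q) : h ≤ 1 / 2 := H.hq.trans H.q1

theorem steplip_lam1 (H : StepOK K h β lam q) : 2 * lam * WW K ^ 2 ≤ 1 / 2 := H.lamq.trans H.q1

theorem steplip_fst (Y Y' : E d × E d) : ‖Y.1 - Y'.1‖ ≤ ‖Y - Y'‖ := norm_fst_le (Y - Y')

theorem steplip_snd (Y Y' : E d × E d) : ‖Y.2 - Y'.2‖ ≤ ‖Y - Y'‖ := norm_snd_le (Y - Y')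

theorem steplip_node (hU : Pot d 1 U) (ht : 1 ≤ t) (H : StepOK K h β lam q) (c : E d) {a : ℝ}
    (ha0 : 0 ≤ a) (ha : a ≤ h) (Y Y' : E d × E d) :
    ‖node U t c a Y.1 - node U t c a Y'.1‖ ≤ h * ‖Y - Y'‖ := by
  have h1 := node_lip hU (t := t) (by linarith) ha0 (ha.trans (steplip_h1 H)) c c Y.1 Y'.1
  rw [sub_self, norm_zero, zero_add] at h1
  exact h1.trans (mul_le_mul ha (steplip_fst Y Y') (norm_nonneg _) H.h0.le)

theorem steplip_ctr (H : StepOK K h β lam q) (c : E d) {a : ℝ}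
    (ha0 : 0 ≤ a) (ha : a ≤ h) (Y Y' : E d × E d) :
    ‖(c + a • Y.1) - (c + a • Y'.1)‖ ≤ h * ‖Y - Y'‖ := by
  rw [add_sub_add_left_eq_sub, ← smul_sub, norm_smul, Real.norm_of_nonneg ha0]
  exact mul_le_mul ha (steplip_fst Y Y') (norm_nonneg _) H.h0.le

theorem steplip_xi (hU : Pot d 1 U) (ht : 1 ≤ t) (H : StepOK K h β lam q) (c : E d) {a : ℝ}
    (ha0 : 0 ≤ a) (ha : a ≤ h) (Y Y' : E d × E d) :
    ‖√(1 - a ^ 2) • xih U t c β a Y - √(1 - a ^ 2) • xih U t c β a Y'‖ ≤ 2 * ‖Y - Y'‖ := by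
  obtain ⟨-, hs1⟩ := half_le_sqrt ha0 (ha.trans (steplip_h1 H))
  have e : xih U t c β a Y - xih U t c β a Y' =
      (Y.2 - Y'.2) + β • (node U t c a Y.1 - node U t c a Y'.1) := by
    simp only [xih, smul_sub]; abel
  have h1 : ‖xih U t c β a Y - xih U t c β a Y'‖ ≤ 2 * ‖Y - Y'‖ := by
    rw [e]
    refine (norm_add_le _ _).trans ?_
    rw [norm_smul, Real.norm_of_nonneg H.β0.le]
    have h2 := steplip_node hU ht H c ha0 ha Y Y'
    have h3 := steplip_snd Y Y'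
    have h4 : β * ‖node U t c a Y.1 - node U t c a Y'.1‖ ≤ 1 * (1 * ‖Y - Y'‖) :=
      mul_le_mul H.β1.1 (h2.trans (mul_le_mul_of_nonneg_right (by linarith [steplip_h1 H])
        (norm_nonneg _))) (norm_nonneg _) zero_le_one
    linarith
  rw [← smul_sub, norm_smul, Real.norm_of_nonneg (Real.sqrt_nonneg _)]
  calc _ ≤ 1 * (2 * ‖Y - Y'‖) := mul_le_mul hs1 h1 (norm_nonneg _) zero_le_one
    _ = _ := one_mul _

/-- For `0 ≤ a ≤ h`: `‖Δp‖ ≤ hΔ`, `‖Δξ‖ ≤ 2Δ` (`Δ = ‖Y - Y'‖`, sup norm), `1/√(1-a²) ≤ 2`. -/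
theorem fldN_lip (hU : Pot d 1 U) (ht : 1 ≤ t) (H : StepOK K h β lam q) (c ζ : E d) {a : ℝ}
    (ha0 : 0 ≤ a) (ha : a ≤ h) (Y Y' : E d × E d) :
    ‖(fldN K h β lam U t c ζ a Y).1 - (fldN K h β lam U t c ζ a Y').1‖ ≤
        (h + 12 * β * WW K) * ‖Y - Y'‖ ∧
      ‖(fldN K h β lam U t c ζ a Y).2 - (fldN K h β lam U t c ζ a Y').2‖ ≤
        24 * β ^ 2 * h * WW K ^ 2 / lam * ‖Y - Y'‖ := by
  have ha1 := ha.trans (steplip_h1 H)
  obtain ⟨hs0, -⟩ := half_le_sqrt ha0 ha1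
  have hta : 1 ≤ ta t a := ht.trans (ta_ge (by linarith) ha0 ha1)
  have hW := one_le_WW K
  have h0 := H.h0
  have hβ := H.β0
  have hl := H.lam0
  have hN := steplip_node hU ht H c ha0 ha Y Y'
  have hC := steplip_ctr H c ha0 ha Y Y'
  have hX := steplip_xi hU ht H c ha0 ha Y Y'
  have hΔ := norm_nonneg (Y - Y')
  have hspos : 0 < √(1 - a ^ 2) := by linarith
  constructor
  · have hH := hvp_lip hU (K := K) hta h0 (steplip_h1 H) H.hW (c + a • Y.1) (c + a • Y'.1)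
      (√(1 - a ^ 2) • xih U t c β a Y) (√(1 - a ^ 2) • xih U t c β a Y')
    have hH' : ‖HVP K h U (ta t a) (c + a • Y.1) (√(1 - a ^ 2) • xih U t c β a Y) -
        HVP K h U (ta t a) (c + a • Y'.1) (√(1 - a ^ 2) • xih U t c β a Y')‖ ≤
        6 * WW K * ‖Y - Y'‖ := by
      refine hH.trans ?_
      have h1 := mul_le_mul_of_nonneg_left hX h0.le
      calc _ ≤ 2 * WW K / h * (h * ‖Y - Y'‖ + h * (2 * ‖Y - Y'‖)) :=
            mul_le_mul_of_nonneg_left (add_le_add hC h1) (by positivity)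
        _ = _ := by field_simp; ring
    have e : (fldN K h β lam U t c ζ a Y).1 - (fldN K h β lam U t c ζ a Y').1 =
        (-t⁻¹) • (node U t c a Y.1 - node U t c a Y'.1) - (β / √(1 - a ^ 2)) •
          (HVP K h U (ta t a) (c + a • Y.1) (√(1 - a ^ 2) • xih U t c β a Y) -
            HVP K h U (ta t a) (c + a • Y'.1) (√(1 - a ^ 2) • xih U t c β a Y')) := by
      simp only [fldN, smul_sub]; abel
    rw [e]
    refine (norm_sub_le _ _).trans ?_
    have ht1 : t⁻¹ ≤ 1 := inv_le_one_of_one_le₀ ht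
    have ht0 : 0 ≤ t⁻¹ := inv_nonneg.2 (by linarith)
    have hb : β / √(1 - a ^ 2) ≤ 2 * β := by
      rw [div_le_iff₀ hspos]; nlinarith
    rw [norm_smul, norm_smul, norm_neg, Real.norm_of_nonneg ht0,
      Real.norm_of_nonneg (div_nonneg hβ.le hspos.le)]
    have h1 := mul_le_mul ht1 hN (norm_nonneg _) zero_le_one
    have h2 := mul_le_mul hb hH' (norm_nonneg _) (by positivity)
    nlinarith
  · have hS := sq_lip hU (K := K) hta h0 (steplip_h1 H) H.hW hl (steplip_lam1 H)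
      (c + a • Y.1) (c + a • Y'.1)
      (√(1 - a ^ 2) • xih U t c β a Y) (√(1 - a ^ 2) • xih U t c β a Y')
      (√(1 - a ^ 2) • ζ) (√(1 - a ^ 2) • ζ)
    rw [sub_self, norm_zero, add_zero] at hS
    have hS' : ‖SQ K h lam U (ta t a) (c + a • Y.1) (√(1 - a ^ 2) • xih U t c β a Y)
          (√(1 - a ^ 2) • ζ) -
        SQ K h lam U (ta t a) (c + a • Y'.1) (√(1 - a ^ 2) • xih U t c β a Y')
          (√(1 - a ^ 2) • ζ)‖ ≤ 12 * WW K ^ 2 / lam * ‖Y - Y'‖ := by
      refine hS.trans ?_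
      have h1 := mul_le_mul_of_nonneg_left hX h0.le
      calc _ ≤ 4 * WW K ^ 2 / (lam * h) * (h * ‖Y - Y'‖ + h * (2 * ‖Y - Y'‖)) :=
            mul_le_mul_of_nonneg_left (add_le_add hC h1) (by positivity)
        _ = _ := by field_simp; ring
    have hb : β ^ 2 * a / √(1 - a ^ 2) ≤ 2 * β ^ 2 * h := by
      rw [div_le_iff₀ hspos]
      have h1 : β ^ 2 * a ≤ β ^ 2 * h := mul_le_mul_of_nonneg_left ha (by positivity)
      have h2 : 0 ≤ β ^ 2 * h := by positivity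
      nlinarith
    simp only [fldN]
    rw [← smul_sub, norm_smul, Real.norm_of_nonneg (by positivity)]
    calc _ ≤ 2 * β ^ 2 * h * (12 * WW K ^ 2 / lam * ‖Y - Y'‖) :=
          mul_le_mul hb hS' (norm_nonneg _) (by positivity)
      _ = _ := by ring

theorem steplip_βW (H : StepOK K h β lam q) : β * WW K ^ 3 / lam ≤ q / 100 := by
  rw [div_le_iff₀ H.lam0]
  nlinarith [H.βq]

/-- A Lipschitz constant `L` of the field with `h W L ≤ q`. -/
theorem fldN_lip' (hU : Pot d 1 U) (ht : 1 ≤ t) (H : StepOK K h β lam q) :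
    ∃ L, 0 ≤ L ∧ h * WW K * L ≤ q ∧ ∀ (c ζ : E d) (a : ℝ), 0 ≤ a → a ≤ h → ∀ Y Y',
      ‖fldN K h β lam U t c ζ a Y - fldN K h β lam U t c ζ a Y'‖ ≤ L * ‖Y - Y'‖ := by
  have hW := one_le_WW K
  have h0 := H.h0
  have hβ := H.β0
  have hl := H.lam0
  have hh := steplip_h1 H
  obtain ⟨hβ1, hβl, hlq⟩ := H.β1
  refine ⟨(h + 12 * β * WW K) + 24 * β ^ 2 * h * WW K ^ 2 / lam, by positivity, ?_, ?_⟩
  · have e : h * WW K * ((h + 12 * β * WW K) + 24 * β ^ 2 * h * WW K ^ 2 / lam) =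
        (h * WW K) * h + 12 * (h * WW K) * (β * WW K) +
          24 * (β * h * h) * (β * WW K ^ 3 / lam) := by ring
    rw [e]
    have h1 : h * WW K ≤ 1 / 2 := by linarith [H.hW]
    have h2 : (h * WW K) * h ≤ 1 / 2 * q := mul_le_mul h1 H.hq h0.le (by norm_num)
    have h3 : β * WW K ≤ q / 100 := by
      have h4 : WW K ≤ WW K ^ 3 := le_self_pow₀ hW (by norm_num)
      have h5 : β * WW K ≤ β * WW K ^ 3 := mul_le_mul_of_nonneg_left h4 hβ.le
      have h6 : lam * q ≤ 1 * q := mul_le_mul_of_nonneg_right (by linarith [H.q1])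
        (by linarith [H.hq])
      nlinarith [H.βq]
    have h4 : (h * WW K) * (β * WW K) ≤ 1 / 2 * (q / 100) :=
      mul_le_mul h1 h3 (by positivity) (by norm_num)
    have h5 : β * h * h ≤ 1 := by
      have : β * h ≤ 1 := by nlinarith
      nlinarith
    have h6 : (β * h * h) * (β * WW K ^ 3 / lam) ≤ 1 * (q / 100) :=
      mul_le_mul h5 (steplip_βW H) (by positivity) zero_le_one
    have h7 : 0 ≤ q := by linarith [H.hq]
    nlinarith
  · intro c ζ a ha0 ha Y Y'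
    obtain ⟨h1, h2⟩ := fldN_lip hU ht H c ζ ha0 ha Y Y'
    have hA : 0 ≤ (h + 12 * β * WW K) * ‖Y - Y'‖ := by positivity
    have hB : 0 ≤ 24 * β ^ 2 * h * WW K ^ 2 / lam * ‖Y - Y'‖ := by positivity
    rw [Prod.norm_def, add_mul]
    exact max_le (by rw [Prod.fst_sub]; linarith) (by rw [Prod.snd_sub]; linarith)

theorem steplip_sg0 (H : StepOK K h β lam q) (l : Fin (K + 1)) : 0 ≤ sg K l * h :=
  mul_nonneg (sg_pos K l).le H.h0.le

theorem steplip_sg1 (H : StepOK K h β lam q) (l : Fin (K + 1)) : sg K l * h ≤ h :=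
  mul_le_of_le_one_left H.h0.le (sg_le_one K l)

theorem steplip_picard (hU : Pot d 1 U) (ht : 1 ≤ t) (H : StepOK K h β lam q) (c x x' ξ ζ : E d)
    (n : ℕ) (m : Fin (K + 1)) :
    ‖picard K h (fldN K h β lam U t c ζ) (h⁻¹ • (x - c), ξ) n m -
      picard K h (fldN K h β lam U t c ζ) (h⁻¹ • (x' - c), ξ) n m‖ ≤ 2 * (h⁻¹ * ‖x - x'‖) := by
  obtain ⟨L, hL0, hLq, hL⟩ := fldN_lip' hU ht H
  have h1 := picard_lip K (f := fldN K h β lam U t c ζ) (f' := fldN K h β lam U t c ζ) (D := 0)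
    (h⁻¹ • (x - c), ξ) (h⁻¹ • (x' - c), ξ) H.h0 hL0 le_rfl
    (fun l Y Y' => by
      rw [zero_add]; exact hL c ζ _ (steplip_sg0 H l) (steplip_sg1 H l) Y Y')
    (hLq.trans H.q1) n m
  have e : ‖((h⁻¹ • (x - c), ξ) : E d × E d) - (h⁻¹ • (x' - c), ξ)‖ = h⁻¹ * ‖x - x'‖ := by
    rw [Prod.mk_sub_mk, sub_self, ← smul_sub, sub_sub_sub_cancel_right,
      Prod.norm_mk, norm_zero, max_eq_left (norm_nonneg _), norm_smul,
      Real.norm_of_nonneg (inv_nonneg.2 H.h0.le)]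
  rw [mul_zero, add_zero, e] at h1
  exact h1

/-- `picard_lip` gives `‖ΔY‖ ≤ 2‖Δĉ‖/h` for all iterates; the second component of the last iterate
(`K = K'+1`) is `ξ/√t + ∑ h iw fldN.2`, so `‖Δcorr‖ ≤ 48 β h W³/λ ‖Δĉ‖`. -/
theorem step_lip (hU : Pot d 1 U) (ht : 1 ≤ t) (H : StepOK K h β lam q) (c x x' : E d)
    (w : E d × E d) :
    ‖newC K h β lam U t c (x, w) - newC K h β lam U t c (x', w)‖ ≤ 2 * ‖x - x'‖ ∧
      ‖corr K h β lam U t c (x, w) - corr K h β lam U t c (x', w)‖ ≤ ‖x - x'‖ := by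
  have h0 := H.h0
  have hβ := H.β0
  have hl := H.lam0
  have hW := one_le_WW K
  have hP := steplip_picard hU ht H c x x' ((√t)⁻¹ • w.1) ((√t)⁻¹ • w.2)
  constructor
  · simp only [newC, stepY]
    rw [add_sub_add_left_eq_sub, ← smul_sub, norm_smul, Real.norm_of_nonneg h0.le]
    have h1 := (steplip_fst _ _).trans (hP K (Fin.last K))
    calc _ ≤ h * (2 * (h⁻¹ * ‖x - x'‖)) := mul_le_mul_of_nonneg_left h1 h0.le
      _ = _ := by field_simp
  · simp only [corr, stepY]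
    obtain ⟨n, hn⟩ : ∃ n, K = n + 1 := ⟨K - 1, by have := H.K1; omega⟩
    have e : ∀ y0 : E d × E d,
        picard K h (fldN K h β lam U t c ((√t)⁻¹ • w.2)) y0 K (Fin.last K) =
        y0 + ∑ l, (h * iw K (Fin.last K) l) • fldN K h β lam U t c ((√t)⁻¹ • w.2) (sg K l * h)
          (picard K h (fldN K h β lam U t c ((√t)⁻¹ • w.2)) y0 n l) := by
      intro y0
      have : picard K h (fldN K h β lam U t c ((√t)⁻¹ • w.2)) y0 K =
          picard K h (fldN K h β lam U t c ((√t)⁻¹ • w.2)) y0 (n + 1) := by rw [← hn]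
      rw [this]; rfl
    rw [e, e, ← smul_sub, norm_smul, Real.norm_of_nonneg (inv_nonneg.2 hβ.le), Prod.snd_add,
      Prod.snd_add, Prod.snd_sum, Prod.snd_sum]
    dsimp only
    rw [add_sub_add_left_eq_sub, ← Finset.sum_sub_distrib]
    have hb : ∀ l : Fin (K + 1), ‖((h * iw K (Fin.last K) l) •
          fldN K h β lam U t c ((√t)⁻¹ • w.2) (sg K l * h)
            (picard K h (fldN K h β lam U t c ((√t)⁻¹ • w.2))
              (h⁻¹ • (x - c), (√t)⁻¹ • w.1) n l)).2 -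
        ((h * iw K (Fin.last K) l) • fldN K h β lam U t c ((√t)⁻¹ • w.2) (sg K l * h)
            (picard K h (fldN K h β lam U t c ((√t)⁻¹ • w.2))
              (h⁻¹ • (x' - c), (√t)⁻¹ • w.1) n l)).2‖ ≤
        |iw K (Fin.last K) l| * (48 * β ^ 2 * h * WW K ^ 2 / lam * ‖x - x'‖) := by
      intro l
      rw [Prod.smul_snd, Prod.smul_snd, ← smul_sub, norm_smul, Real.norm_eq_abs, abs_mul,
        abs_of_pos h0]
      have h1 := (fldN_lip hU ht H c ((√t)⁻¹ • w.2) (steplip_sg0 H l) (steplip_sg1 H l) _ _).2.trans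
        (mul_le_mul_of_nonneg_left (hP n l) (by positivity))
      calc _ ≤ h * |iw K (Fin.last K) l| *
            (24 * β ^ 2 * h * WW K ^ 2 / lam * (2 * (h⁻¹ * ‖x - x'‖))) :=
            mul_le_mul_of_nonneg_left h1 (by positivity)
        _ = _ := by field_simp; ring
    have h2 := (norm_sum_le _ _).trans (Finset.sum_le_sum fun l (_ : l ∈ Finset.univ) => hb l)
    rw [← Finset.sum_mul] at h2
    have h3 : ∑ l, |iw K (Fin.last K) l| ≤ WW K := by linarith [sum_abs_iw_le K (Fin.last K)]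
    have h4 := h2.trans (mul_le_mul_of_nonneg_right h3 (by positivity))
    have h5 := steplip_βW H
    have h6 := steplip_h1 H
    have h7 := H.q1
    calc _ ≤ β⁻¹ * (WW K * (48 * β ^ 2 * h * WW K ^ 2 / lam * ‖x - x'‖)) :=
          mul_le_mul_of_nonneg_left h4 (inv_nonneg.2 hβ.le)
      _ = 48 * h * (β * WW K ^ 3 / lam) * ‖x - x'‖ := by field_simp
      _ ≤ 1 * ‖x - x'‖ := by
          refine mul_le_mul_of_nonneg_right ?_ (norm_nonneg _)
          have h8 : 0 ≤ β * WW K ^ 3 / lam := by positivity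
          nlinarith
      _ = _ := one_mul _

theorem steplip_fld_cont (hU : Pot d 1 U) (ht : 1 ≤ t) (H : StepOK K h β lam q) (c : E d) {a : ℝ}
    (ha0 : 0 ≤ a) (ha : a ≤ h) :
    Continuous fun p : E d × (E d × E d) => fldN K h β lam U t c p.1 a p.2 := by
  have ha1 := ha.trans (steplip_h1 H)
  have hta : 1 ≤ ta t a := ht.trans (ta_ge (by linarith) ha0 ha1)
  have hN : Continuous fun p : E d × (E d × E d) => node U t c a p.2.1 :=
    (node_continuous hU (t := t) (by linarith) ha0 ha1).comp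
      (f := fun p : E d × (E d × E d) => (c, p.2.1)) (by fun_prop)
  have hX : Continuous fun p : E d × (E d × E d) => √(1 - a ^ 2) • xih U t c β a p.2 := by
    simp only [xih]
    exact ((continuous_snd.comp continuous_snd).add
      ((hN.sub continuous_const).const_smul β)).const_smul (√(1 - a ^ 2))
  have hC : Continuous fun p : E d × (E d × E d) => c + a • p.2.1 := by fun_prop
  have hH := (hvp_continuous hU (K := K) hta H.h0 (steplip_h1 H) H.hW).comp (hC.prodMk hX)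
  have hZ : Continuous fun p : E d × (E d × E d) => √(1 - a ^ 2) • p.1 := by fun_prop
  have hS := (sq_continuous hU (K := K) hta H.h0 (steplip_h1 H) H.hW H.lam0 (steplip_lam1 H)).comp
    (hC.prodMk (hX.prodMk hZ))
  exact ((hN.const_smul (-t⁻¹)).sub (hH.const_smul (β / √(1 - a ^ 2)))).prodMk
    (hS.const_smul (β ^ 2 * a / √(1 - a ^ 2)))

/-- `picard_continuous`, `node_continuous`, `hvp_continuous`, `sq_continuous`. -/
theorem step_continuous (hU : Pot d 1 U) (ht : 1 ≤ t) (H : StepOK K h β lam q) (c : E d) :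
    Continuous (newC K h β lam U t c) ∧ Continuous (corr K h β lam U t c) := by
  have hY : Continuous (stepY K h β lam U t c) :=
    picard_continuous K h
      (f := fun w : E d × E d × E d => fldN K h β lam U t c ((√t)⁻¹ • w.2.2))
      (y0 := fun w : E d × E d × E d => (h⁻¹ • (w.1 - c), (√t)⁻¹ • w.2.1))
      (fun l => (steplip_fld_cont hU ht H c (steplip_sg0 H l) (steplip_sg1 H l)).comp
        (f := fun p : (E d × E d × E d) × (E d × E d) => ((√t)⁻¹ • p.1.2.2, p.2)) (by fun_prop))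
      (by fun_prop) K (Fin.last K)
  exact ⟨continuous_const.add ((continuous_fst.comp hY).const_smul h),
    (continuous_snd.comp hY).const_smul β⁻¹⟩

end

end Crest.Agent.R285
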