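import Crest.Agent.R285.Pt

/-!
# R285/Tame: the class `Tame`, integrability and integration by parts against `ρ_s`

For closure under products prove by induction on `n`: for all tame `φ ψ` and lists `l` of length
`n`, `pdl l (φψ)` has polynomial growth (write `l = l' ++ [j]`, `pdl_append`, `dd_mul`).
-/

set_option autoImplicit false

namespace Crest.Agent.R285

open MeasureTheory ProbabilityTheory Crest.OracleSampling Set
open scoped RealInnerProductSpace ContDiff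

noncomputable section

variable {d : ℕ}

theorem Tame.smooth {φ : ℝ × E d × E d → ℝ} (h : Tame φ) : ContDiff ℝ ∞ φ := h.1

/-- Polynomial growth for `s ∈ [0,1]`. -/
def tame_PG (φ : ℝ × E d × E d → ℝ) : Prop :=
  ∃ (C : ℝ) (k : ℕ), ∀ y : ℝ × E d × E d, y.1 ∈ Icc (0 : ℝ) 1 → |φ y| ≤ C * (1 + ‖y‖) ^ k

theorem tame_PG.nonneg {φ : ℝ × E d × E d → ℝ} (h : tame_PG φ) : ∃ (C : ℝ) (k : ℕ), 0 ≤ C ∧
    ∀ y : ℝ × E d × E d, y.1 ∈ Icc (0 : ℝ) 1 → |φ y| ≤ C * (1 + ‖y‖) ^ k := by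
  obtain ⟨C, k, h⟩ := h
  refine ⟨max C 0, k, le_max_right _ _, fun y hy => (h y hy).trans ?_⟩
  gcongr
  exact le_max_left _ _

theorem tame_PG.add {φ ψ : ℝ × E d × E d → ℝ} (h : tame_PG φ) (h' : tame_PG ψ) :
    tame_PG (fun y => φ y + ψ y) := by
  obtain ⟨C, k, hC, h⟩ := h.nonneg
  obtain ⟨C', k', hC', h'⟩ := h'.nonneg
  refine ⟨C + C', k + k', fun y hy => ?_⟩
  have h1 : (1 : ℝ) ≤ 1 + ‖y‖ := by linarith [norm_nonneg y]
  have h2 : (1 + ‖y‖) ^ k ≤ (1 + ‖y‖) ^ (k + k') := pow_le_pow_right₀ h1 (Nat.le_add_right _ _)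
  have h3 : (1 + ‖y‖) ^ k' ≤ (1 + ‖y‖) ^ (k + k') := pow_le_pow_right₀ h1 (Nat.le_add_left _ _)
  calc |φ y + ψ y| ≤ |φ y| + |ψ y| := abs_add_le _ _
    _ ≤ C * (1 + ‖y‖) ^ k + C' * (1 + ‖y‖) ^ k' := add_le_add (h y hy) (h' y hy)
    _ ≤ C * (1 + ‖y‖) ^ (k + k') + C' * (1 + ‖y‖) ^ (k + k') := by gcongr
    _ = _ := by ring

theorem tame_PG.mul {φ ψ : ℝ × E d × E d → ℝ} (h : tame_PG φ) (h' : tame_PG ψ) :
    tame_PG (fun y => φ y * ψ y) := by
  obtain ⟨C, k, hC, h⟩ := h.nonneg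
  obtain ⟨C', k', hC', h'⟩ := h'.nonneg
  refine ⟨C * C', k + k', fun y hy => ?_⟩
  calc |φ y * ψ y| = |φ y| * |ψ y| := abs_mul _ _
    _ ≤ (C * (1 + ‖y‖) ^ k) * (C' * (1 + ‖y‖) ^ k') :=
        mul_le_mul (h y hy) (h' y hy) (abs_nonneg _) (by positivity)
    _ = _ := by ring

theorem tame_PG_of_bdd {φ : ℝ × E d × E d → ℝ} {C : ℝ}
    (h : ∀ y : ℝ × E d × E d, y.1 ∈ Icc (0 : ℝ) 1 → |φ y| ≤ C) : tame_PG φ :=
  ⟨C, 0, fun y hy => by simpa using h y hy⟩

theorem tame_PG_of_lin {φ : ℝ × E d × E d → ℝ} {C : ℝ}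
    (h : ∀ y : ℝ × E d × E d, |φ y| ≤ C * (1 + ‖y.2‖)) : tame_PG φ := by
  refine ⟨|C|, 1, fun y _ => (h y).trans ?_⟩
  rw [pow_one]
  have h1 : ‖y.2‖ ≤ ‖y‖ := norm_snd_le y
  calc C * (1 + ‖y.2‖) ≤ |C| * (1 + ‖y.2‖) := by gcongr; exact le_abs_self _
    _ ≤ _ := by gcongr

theorem Tame.tame_pg {φ : ℝ × E d × E d → ℝ} (h : Tame φ) : tame_PG φ := h.2 []

/-- Coinduction principle for `Tame`. -/
theorem tame_coind (P : (ℝ × E d × E d → ℝ) → Prop) (h1 : ∀ φ, P φ → ContDiff ℝ ∞ φ)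
    (h2 : ∀ φ, P φ → tame_PG φ) (h3 : ∀ φ, P φ → ∀ b k, P (dd (ey b k) φ)) :
    ∀ φ, P φ → Tame φ := by
  intro φ hφ
  refine ⟨h1 φ hφ, fun l => ?_⟩
  induction l using List.reverseRecOn generalizing φ with
  | nil => exact h2 φ hφ
  | append_singleton l j ih =>
    rw [pdl_append]
    exact ih _ (h3 φ hφ j.1 j.2)

theorem Tame.dd {φ : ℝ × E d × E d → ℝ} (h : Tame φ) (b : Bool) (k : Fin d) :
    Tame (dd (ey b k) φ) := by
  refine ⟨dd_smooth h.1 _, fun l => ?_⟩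
  have := h.2 (l ++ [(b, k)])
  rw [pdl_append] at this
  exact this

theorem tame_of_dd {φ : ℝ × E d × E d → ℝ} (h : ContDiff ℝ ∞ φ)
    (h0 : ∃ (C : ℝ) (k : ℕ), ∀ y : ℝ × E d × E d, y.1 ∈ Icc (0 : ℝ) 1 → |φ y| ≤ C * (1 + ‖y‖) ^ k)
    (h1 : ∀ b k, Tame (dd (ey b k) φ)) : Tame φ := by
  refine ⟨h, fun l => ?_⟩
  induction l using List.reverseRecOn with
  | nil => exact h0
  | append_singleton l j _ =>
    rw [pdl_append]
    exact (h1 j.1 j.2).2 l

theorem tame_const (c : ℝ) : Tame (fun _ : ℝ × E d × E d => c) := by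
  refine tame_coind (fun φ => ∃ c : ℝ, φ = fun _ => c) ?_ ?_ ?_ _ ⟨c, rfl⟩
  · rintro _ ⟨c, rfl⟩
    exact contDiff_const
  · rintro _ ⟨c, rfl⟩
    exact tame_PG_of_bdd (C := |c|) fun _ _ => le_rfl
  · rintro _ ⟨c, rfl⟩ b k
    exact ⟨0, dd_const _ _⟩

theorem tame_time {g : ℝ → ℝ} (hg : ContDiff ℝ ∞ g) : Tame (fun y : ℝ × E d × E d => g y.1) := by
  refine tame_of_dd (time_smooth hg) ?_ fun b k => ?_
  · obtain ⟨C, hC⟩ := isCompact_Icc.exists_bound_of_continuousOn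
      (hg.continuous.continuousOn (s := Icc (0 : ℝ) 1))
    exact tame_PG_of_bdd (C := C) fun y hy => hC y.1 hy
  · rw [dd_ey_time hg]
    exact tame_const 0

theorem Tame.add {φ ψ : ℝ × E d × E d → ℝ} (h : Tame φ) (h' : Tame ψ) :
    Tame (fun y => φ y + ψ y) := by
  refine tame_coind (fun f => ∃ φ ψ : ℝ × E d × E d → ℝ, Tame φ ∧ Tame ψ ∧
    f = fun y => φ y + ψ y) ?_ ?_ ?_ _ ⟨φ, ψ, h, h', rfl⟩
  · rintro _ ⟨φ, ψ, h, h', rfl⟩
    exact h.1.add h'.1
  · rintro _ ⟨φ, ψ, h, h', rfl⟩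
    exact h.tame_pg.add h'.tame_pg
  · rintro _ ⟨φ, ψ, h, h', rfl⟩ b k
    exact ⟨_, _, h.dd b k, h'.dd b k, dd_add h.1 h'.1 _⟩

/-- Finite sums of products of tame functions. -/
inductive tame_SP : (ℝ × E d × E d → ℝ) → Prop
  | mul {φ ψ : ℝ × E d × E d → ℝ} : Tame φ → Tame ψ → tame_SP (fun y => φ y * ψ y)
  | add {φ ψ : ℝ × E d × E d → ℝ} : tame_SP φ → tame_SP ψ → tame_SP (fun y => φ y + ψ y)

theorem tame_SP.smooth {φ : ℝ × E d × E d → ℝ} (h : tame_SP φ) : ContDiff ℝ ∞ φ := by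
  induction h with
  | mul h h' => exact h.1.mul h'.1
  | add _ _ ih ih' => exact ih.add ih'

theorem tame_SP.pg {φ : ℝ × E d × E d → ℝ} (h : tame_SP φ) : tame_PG φ := by
  induction h with
  | mul h h' => exact h.tame_pg.mul h'.tame_pg
  | add _ _ ih ih' => exact ih.add ih'

theorem tame_SP.der {φ : ℝ × E d × E d → ℝ} (h : tame_SP φ) (b : Bool) (k : Fin d) :
    tame_SP (dd (ey b k) φ) := by
  induction h with
  | mul h h' =>
    rw [dd_mul h.1 h'.1]
    exact (tame_SP.mul (h.dd b k) h').add (tame_SP.mul h (h'.dd b k))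
  | add h h' ih ih' =>
    rw [dd_add h.smooth h'.smooth]
    exact ih.add ih'

theorem Tame.mul {φ ψ : ℝ × E d × E d → ℝ} (h : Tame φ) (h' : Tame ψ) :
    Tame (fun y => φ y * ψ y) := by
  exact tame_coind tame_SP (fun _ h => h.smooth) (fun _ h => h.pg) (fun _ h => h.der) _
    (tame_SP.mul h h')

theorem Tame.sub {φ ψ : ℝ × E d × E d → ℝ} (h : Tame φ) (h' : Tame ψ) :
    Tame (fun y => φ y - ψ y) := by
  have := h.add ((tame_const (-1)).mul h')
  simpa only [neg_mul, one_mul, ← sub_eq_add_neg] using this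

theorem Tame.sum {ι : Type} (s : Finset ι) {φ : ι → ℝ × E d × E d → ℝ} (h : ∀ i ∈ s, Tame (φ i)) :
    Tame (fun y => ∑ i ∈ s, φ i y) := by
  classical
  induction s using Finset.induction_on with
  | empty => simpa only [Finset.sum_empty] using tame_const 0
  | insert a s ha ih =>
    simp only [Finset.sum_insert ha]
    exact (h a (Finset.mem_insert_self _ _)).add
      (ih fun i hi => h i (Finset.mem_insert_of_mem hi))

/-- Induction on the length of the list, for all multipliers at once: `∂_{u_k}(M∘pt)` is an entry of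
`(a · dOut M)∘pt` (`dd_pt_u`, `Mul.tmul`), `∂_{ξ_k}(M∘pt) = 0`; entries are bounded
(`Mul.bound`, `OpBd.entry_le`). -/
theorem Mul.tame {O J : Fam} {M : MF O J} (h : Mul O J M) (I : Inst) (o : O.T I.d) (j : J.T I.d) :
    Tame (fun y : I.Y => M I o j (I.pt y)) := by
  refine tame_coind (fun f => ∃ (O J : Fam) (M : MF O J), Mul O J M ∧
    ∃ (o : O.T I.d) (j : J.T I.d), f = fun y : I.Y => M I o j (I.pt y)) ?_ ?_ ?_ _
    ⟨O, J, M, h, o, j, rfl⟩
  · rintro _ ⟨O, J, M, h, o, j, rfl⟩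
    exact I.comp_pt_smooth (h.smooth I o j)
  · rintro _ ⟨O, J, M, h, o, j, rfl⟩
    obtain ⟨C, -, hC⟩ := h.bound
    exact tame_PG_of_bdd (C := C) fun y hy => (hC I (I.pt y) hy).entry_le o j
  · rintro _ ⟨O, J, M, h, o, j, rfl⟩ b k
    cases b
    · exact ⟨_, _, _, h.dOut.tmul aa_smooth, (o, k), j, dd_pt_u I (h.smooth I o j) k⟩
    · exact ⟨O, J, _, mul_zero' O J, o, j, dd_pt_x I (h.smooth I o j) k⟩

theorem tame_abs_coord (z : E d) (k : Fin d) : |z k| ≤ ‖z‖ := by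
  simpa only [Real.norm_eq_abs] using PiLp.norm_apply_le z k

theorem tame_gW (I : Inst) (b : Bool) (k : Fin I.d) : Tame (I.gW b k) := by
  refine tame_of_dd (I.gW_smooth b k) ?_ fun b' k' => ?_
  · cases b
    · obtain ⟨L, hL⟩ := dPsi_pt_le I
      refine tame_PG_of_lin (C := 1 + |L|) fun y => ?_
      have h1 : |y.2.1 k| ≤ ‖y.2‖ := (tame_abs_coord _ _).trans (norm_fst_le y.2)
      have h2 := hL y k
      have h3 := (abs_aa_lt_one y.1).le
      have h4 := norm_nonneg y.2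
      have h5 : L * (1 + ‖y.2‖) ≤ |L| * (1 + ‖y.2‖) := by gcongr; exact le_abs_self _
      calc |I.gW false k y| ≤ |y.2.1 k| + |aa y.1| * |dd (ex k) I.Ψ (I.pt y)| := by
            rw [← abs_mul]; exact abs_add_le _ _
        _ ≤ ‖y.2‖ + 1 * (|L| * (1 + ‖y.2‖)) := by gcongr; exact h2.trans h5
        _ ≤ _ := by nlinarith
    · refine tame_PG_of_lin (C := 1) fun y => ?_
      have h1 : |y.2.2 k| ≤ ‖y.2‖ := (tame_abs_coord _ _).trans (norm_snd_le y.2)
      change |y.2.2 k| ≤ _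
      linarith
  · rw [dd_gW]
    exact (mul_HessM b' b).tame I k' k

theorem tame_FY (I : Inst) (k : Fin I.d) : Tame (FY I k) := by
  refine tame_of_dd (I.comp_pt_smooth (Fh_smooth I k)) ?_ fun b l => ?_
  · obtain ⟨L, hL⟩ := dPsi_pt_le I
    refine tame_PG_of_lin (C := L / I.δ) fun y => ?_
    have := hL y k
    have hδ := I.δ0
    change |dd (ex k) I.Ψ (I.pt y) / I.δ| ≤ _
    rw [abs_div, abs_of_pos hδ, div_mul_eq_mul_div]
    gcongr
  · cases b
    · have := dd_pt_u I (Fh_smooth I k) l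
      rw [dd_Fh] at this
      change Tame (dd (ey false l) fun y => Fh I k (I.pt y))
      rw [this]
      exact (mul_Ah.tmul aa_smooth).tame I k l
    · change Tame (dd (ey true l) fun y => Fh I k (I.pt y))
      rw [dd_pt_x I (Fh_smooth I k)]
      exact tame_const 0

theorem Word.tame {T : Fam} {w : WF T} (h : Word T w) : ∀ I o, Tame (w I o) := by
  induction h with
  | cst T c _ => exact fun I o => tame_const _
  | mul hM _ ih => exact fun I o => Tame.sum _ fun j _ => (hM.tame I o j).mul (ih I j)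
  | grad b _ ih => exact fun I o => (ih I o.1).dd b o.2
  | dive b _ ih =>
    exact fun I o => Tame.sum _ fun k _ =>
      ((tame_gW I b k).mul (ih I (o, k))).sub ((ih I (o, k)).dd b k)
  | add _ _ ih ih' => exact fun I o => (ih I o).add (ih' I o)
  | reidx e _ ih => exact fun I o => ih I _

theorem tame_integrable_gdens (k : ℕ) :
    Integrable (fun z : E d => (1 + ‖z‖) ^ k * gdens z) := by
  have h1 : Integrable (fun z : E d => (1 + ‖z‖) ^ k) (gam d) := by
    simp_rw [add_comm (1 : ℝ), add_pow]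
    exact integrable_finsetSum _ fun i _ =>
      ((integrable_norm_pow_gam i).mul_const _).mul_const _
  rw [gam_eq, integrable_withDensity_iff_integrable_smul'
    (continuous_gdens.measurable.ennreal_ofReal) (by simp)] at h1
  refine h1.congr (ae_of_all _ fun z => ?_)
  simp only [ENNReal.toReal_ofReal (gdens_pos z).le, smul_eq_mul]
  ring

/-- `rho_le` and Gaussian moments. -/
theorem Tame.integrable (I : Inst) {φ : I.Y → ℝ} (h : Tame φ) {s : ℝ} (hs : s ∈ Icc (0 : ℝ) 1) :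
    Integrable (fun z : E I.d × E I.d => φ (s, z) * I.rho (s, z)) := by
  obtain ⟨C, k, hC0, hC⟩ := h.tame_pg.nonneg
  obtain ⟨D, hD⟩ := rho_le I
  have hi : Integrable (fun z : E I.d × E I.d => (C * 2 ^ k * D) *
      (((1 + ‖z.1‖) ^ k * gdens z.1) * ((1 + ‖z.2‖) ^ k * gdens z.2))) :=
    (Integrable.mul_prod (tame_integrable_gdens k) (tame_integrable_gdens k)).const_mul _
  have hc : Continuous fun z : E I.d × E I.d => φ (s, z) * I.rho (s, z) :=
    (h.1.continuous.comp (Continuous.prodMk_right s)).mul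
      (I.rho_smooth.continuous.comp (Continuous.prodMk_right s))
  refine hi.mono' hc.aestronglyMeasurable (ae_of_all _ fun z => ?_)
  have h1 := hC (s, z) hs
  have h2 := hD s hs z
  have h3 := (I.rho_pos (s, z)).le
  have n1 := norm_nonneg z.1
  have n2 := norm_nonneg z.2
  have h4 : 1 + ‖((s, z) : ℝ × E I.d × E I.d)‖ ≤ 2 * ((1 + ‖z.1‖) * (1 + ‖z.2‖)) := by
    have a1 : ‖s‖ ≤ 1 := by rw [Real.norm_eq_abs, abs_of_nonneg hs.1]; exact hs.2
    have a2 : ‖((s, z) : ℝ × E I.d × E I.d)‖ ≤ 1 + ‖z.1‖ + ‖z.2‖ := by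
      rw [Prod.norm_def, Prod.norm_def z]
      refine max_le ?_ (max_le ?_ ?_)
      · change ‖s‖ ≤ _
        linarith
      · linarith
      · linarith
    nlinarith [mul_nonneg n1 n2]
  rw [Real.norm_eq_abs, abs_mul, abs_of_nonneg h3]
  calc |φ (s, z)| * I.rho (s, z)
      ≤ (C * (2 * ((1 + ‖z.1‖) * (1 + ‖z.2‖))) ^ k) * (D * (gdens z.1 * gdens z.2)) := by
        refine mul_le_mul (h1.trans ?_) h2 h3 (by positivity)
        gcongr
    _ = _ := by rw [mul_pow, mul_pow]; ring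

/-- The direction on `E d × E d` corresponding to `ey b k`. -/
theorem tame_slice {φ : ℝ × E d × E d → ℝ} (h : ContDiff ℝ ∞ φ) (s : ℝ) (b : Bool) (k : Fin d)
    (z : E d × E d) :
    fderiv ℝ (fun z : E d × E d => φ (s, z)) z (ey b k).2 = dd (ey b k) φ (s, z) := by
  have := congrFun (dd_comp_affine h (ContinuousLinearMap.inr ℝ ℝ (E d × E d)) (s, 0) (ey b k).2) z
  simp only [ContinuousLinearMap.inr_apply, Prod.mk_add_mk, zero_add, add_zero] at this
  refine this.trans ?_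
  cases b <;> rfl

/-- Integration by parts (`integral_mul_fderiv_eq_neg_fderiv_mul_of_integrable` on `E d × E d`,
`dd_rho`). -/
theorem Tame.ibp (I : Inst) {φ : I.Y → ℝ} (h : Tame φ) {s : ℝ} (hs : s ∈ Icc (0 : ℝ) 1) (b : Bool)
    (k : Fin I.d) :
    ∫ z : E I.d × E I.d, R285.dd (ey b k) φ (s, z) * I.rho (s, z) =
      ∫ z : E I.d × E I.d, I.gW b k (s, z) * φ (s, z) * I.rho (s, z) := by
  have hs' : ContDiff ℝ ∞ (fun z : E I.d × E I.d => ((s, z) : I.Y)) :=
    contDiff_const.prodMk contDiff_id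
  have h1 : ∀ z : E I.d × E I.d, φ (s, z) *
      fderiv ℝ (fun z : E I.d × E I.d => I.rho (s, z)) z (ey b k).2 =
      -(I.gW b k (s, z) * φ (s, z) * I.rho (s, z)) := fun z => by
    rw [tame_slice I.rho_smooth, dd_rho]
    ring
  have : (volume : Measure (E I.d × E I.d)).IsAddHaarMeasure :=
    Measure.prod.instIsAddHaarMeasure _ _
  have key := integral_mul_fderiv_eq_neg_fderiv_mul_of_integrable
    (μ := (volume : Measure (E I.d × E I.d))) (f := fun z : E I.d × E I.d => φ (s, z))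
    (g := fun z : E I.d × E I.d => I.rho (s, z)) (v := (ey b k).2)
    (by simpa only [tame_slice h.1] using (h.dd b k).integrable I hs)
    (by simp only [h1]; exact (((tame_gW I b k).mul h).integrable I hs).neg)
    (h.integrable I hs)
    (fun z _ => ((h.1.comp hs').differentiable (by simp)) z)
    (fun z _ => ((I.rho_smooth.comp hs').differentiable (by simp)) z)
  simp only [h1, tame_slice h.1, integral_neg, neg_inj] at key
  exact key.symm

end

end Crest.Agent.R285
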