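import Crest.Agent.R285.TrueN
import Crest.Agent.R285.Scale
import Crest.Agent.R285.Weights

/-!
# R285/True: the true flow in original units; the rotation flow

Apply `true_flowN` to the instance `δ = 1/t`, `W = resc U t`, `x = √t • c` (`Pot.rescale`) and
divide all vectors by `√t`: `u = y.1/√t`, `ξ = y.2/√t`, `η = ξ - β (G_a - G_0)`, `gG/√t` etc.
(`GG_resc`, `AA_resc`, `qq_resc`).  For `k = 0`:
`‖gG 0 a‖ ≤ ‖GG U t c‖ + ∫_0^h ‖gG 1‖` (`sub_eq_integral`, `GG_norm'`).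
-/

set_option autoImplicit false

namespace Crest.Agent.R285

open MeasureTheory ProbabilityTheory Crest.OracleSampling Set
open scoped RealInnerProductSpace ContDiff

noncomputable section

theorem true_chain_smul {d : ℕ} {T : ℝ} {g : ℕ → ℝ → E d} (hg : Chain T g) (r : ℝ) :
    Chain T (fun k a => r • g k a) := fun k a ha => (hg k a ha).const_smul r

theorem true_int {d : ℕ} {g : ℕ → ℝ → E d} (hg : Chain (1 / 2) g) (k : ℕ) {h : ℝ}
    (hh : h ∈ Icc (0 : ℝ) (1 / 2)) : IntervalIntegrable (fun a => ‖g k a‖) volume 0 h :=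
  (((hg.continuousOn k).norm).mono (by
    rw [uIcc_of_le hh.1]; exact Icc_subset_Icc_right hh.2)).intervalIntegrable

/-- the pointwise bound for `k = 0` -/
theorem true_bd0 {d : ℕ} {G A S : ℕ → ℝ → E d} (hG : Chain (1 / 2) G) (hA : Chain (1 / 2) A)
    (hS : Chain (1 / 2) S) {h : ℝ} (hh : h ∈ Icc (0 : ℝ) (1 / 2)) :
    ∫ a in (0 : ℝ)..h, (‖G 0 a‖ + ‖A 0 a‖ + ‖S 0 a‖) ≤
      h * ‖G 0 0‖ + 2 * ∫ a in (0 : ℝ)..h, (‖G 1 a‖ + ‖A 0 a‖ + ‖S 0 a‖) := by
  have iG0 := true_int hG 0 hh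
  have iG1 := true_int hG 1 hh
  have iA := true_int hA 0 hh
  have iS := true_int hS 0 hh
  have h1 : ∀ a ∈ Icc (0 : ℝ) h, ‖G 0 a‖ ≤ ‖G 0 0‖ + ∫ x in (0 : ℝ)..h, ‖G 1 x‖ := by
    intro a ha
    have ha' : a ∈ Icc (0 : ℝ) (1 / 2) := ⟨ha.1, ha.2.trans hh.2⟩
    have e := sub_eq_integral (hG 0) (hG.continuousOn 1) ha'
    have e1 : ‖G 0 a - G 0 0‖ ≤ ∫ x in (0 : ℝ)..a, ‖G 1 x‖ := by
      rw [e]
      exact intervalIntegral.norm_integral_le_integral_norm ha.1
    have e2 : ∫ x in (0 : ℝ)..a, ‖G 1 x‖ ≤ ∫ x in (0 : ℝ)..h, ‖G 1 x‖ :=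
      intervalIntegral.integral_mono_interval le_rfl ha.1 ha.2
        (ae_of_all _ fun x => norm_nonneg _) iG1
    have e3 := norm_sub_norm_le (G 0 a) (G 0 0)
    linarith
  have h2 : ∫ a in (0 : ℝ)..h, ‖G 0 a‖ ≤
      ∫ _ in (0 : ℝ)..h, (‖G 0 0‖ + ∫ x in (0 : ℝ)..h, ‖G 1 x‖) :=
    intervalIntegral.integral_mono_on hh.1 iG0 intervalIntegrable_const h1
  rw [intervalIntegral.integral_const, sub_zero, smul_eq_mul] at h2
  rw [intervalIntegral.integral_add (iG0.add iA) iS, intervalIntegral.integral_add iG0 iA,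
    intervalIntegral.integral_add (iG1.add iA) iS, intervalIntegral.integral_add iG1 iA]
  have p1 : 0 ≤ ∫ x in (0 : ℝ)..h, ‖G 1 x‖ :=
    intervalIntegral.integral_nonneg hh.1 fun _ _ => norm_nonneg _
  have p2 : 0 ≤ ∫ x in (0 : ℝ)..h, ‖A 0 x‖ :=
    intervalIntegral.integral_nonneg hh.1 fun _ _ => norm_nonneg _
  have p3 : 0 ≤ ∫ x in (0 : ℝ)..h, ‖S 0 x‖ :=
    intervalIntegral.integral_nonneg hh.1 fun _ _ => norm_nonneg _
  have p4 := mul_le_mul_of_nonneg_right hh.2 p1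
  linarith

/-- the pointwise bound for `k = j + 1` -/
theorem true_bd1 {d : ℕ} {G A S : ℕ → ℝ → E d} (hG : Chain (1 / 2) G) (hA : Chain (1 / 2) A)
    (hS : Chain (1 / 2) S) (j : ℕ) {h : ℝ} (hh : h ∈ Icc (0 : ℝ) (1 / 2)) :
    ∫ a in (0 : ℝ)..h, (‖G (j + 1) a‖ + ‖A (j + 1) a‖ + ‖S (j + 1) a‖) ≤
      (∫ a in (0 : ℝ)..h, (‖G (j + 1) a‖ + ‖A j a‖ + ‖S j a‖)) +
        ∫ a in (0 : ℝ)..h, (‖G (j + 1 + 1) a‖ + ‖A (j + 1) a‖ + ‖S (j + 1) a‖) := by
  have i1 := ((true_int hG (j + 1) hh).add (true_int hA j hh)).add (true_int hS j hh)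
  have i2 := ((true_int hG (j + 1 + 1) hh).add (true_int hA (j + 1) hh)).add
    (true_int hS (j + 1) hh)
  rw [← intervalIntegral.integral_add i1 i2]
  refine intervalIntegral.integral_mono_on hh.1
    (((true_int hG (j + 1) hh).add (true_int hA (j + 1) hh)).add (true_int hS (j + 1) hh))
    (i1.add i2) fun a _ => ?_
  have := norm_nonneg (A j a)
  have := norm_nonneg (S j a)
  have := norm_nonneg (G (j + 1 + 1) a)
  linarith

/-- dividing by `r ≥ 1` decreases the integrals -/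
theorem true_scale {d : ℕ} {G A S : ℕ → ℝ → E d} (hG : Chain (1 / 2) G) (hA : Chain (1 / 2) A)
    (hS : Chain (1 / 2) S) (i j : ℕ) {h r : ℝ} (hh : h ∈ Icc (0 : ℝ) (1 / 2)) (hr : 1 ≤ r) :
    ∫ a in (0 : ℝ)..h, (‖r⁻¹ • G i a‖ + ‖r⁻¹ • A j a‖ + ‖r⁻¹ • S j a‖) ≤
      ∫ a in (0 : ℝ)..h, (‖G i a‖ + ‖A j a‖ + ‖S j a‖) := by
  have key : ∀ v : E d, ‖r⁻¹ • v‖ ≤ ‖v‖ := fun v => by
    rw [norm_smul, Real.norm_eq_abs, abs_of_nonneg (by positivity)]
    exact mul_le_of_le_one_left (norm_nonneg _) (inv_le_one_of_one_le₀ hr)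
  refine intervalIntegral.integral_mono_on hh.1
    (((true_int (true_chain_smul hG r⁻¹) i hh).add (true_int (true_chain_smul hA r⁻¹) j hh)).add
      (true_int (true_chain_smul hS r⁻¹) j hh))
    (((true_int hG i hh).add (true_int hA j hh)).add (true_int hS j hh)) fun a _ => ?_
  exact add_le_add (add_le_add (key _) (key _)) (key _)

theorem true_flow (n : ℕ) : ∃ C : ℝ, 0 ≤ C ∧ ∀ (d : ℕ) (U : E d → ℝ), Pot d 1 U →
    ∀ (t : ℝ) (c : E d) (β : ℝ), 1 ≤ t → 0 ≤ β → β ≤ 1 → Nonempty (TrueFlow U t c β n C) := by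
  obtain ⟨C, hC, H⟩ := true_flowN n
  refine ⟨2 * C + 1, by positivity, fun d U hU t c β ht hβ0 hβ1 => ?_⟩
  have ht0 : 0 < t := by linarith
  have hr : 1 ≤ √t := Real.one_le_sqrt.mpr ht
  have hr0 : √t ≠ 0 := by positivity
  have hrr : √t * √t = t := Real.mul_self_sqrt ht0.le
  obtain ⟨y, G, A, S, y0, hy, d1, hm, bd⟩ := H ⟨d, 1 / t, resc U t, √t • c, β, hU.rescale ht0,
    by positivity, by rw [div_le_one ht0]; exact ht, hβ0, hβ1⟩
  dsimp only at y G A S y0 hy d1 hm bd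
  have cG : ∀ z, Chain (1 / 2) (G z) := fun z k a ha => ((hy z a ha).2.1 k).1
  have cA : ∀ z, Chain (1 / 2) (A z) := fun z k a ha => ((hy z a ha).2.1 k).2.1
  have cS : ∀ z, Chain (1 / 2) (S z) := fun z k a ha => ((hy z a ha).2.1 k).2.2
  have hpt : ∀ (a : ℝ) (v : E d), √t • c + a • v = √t • (c + a • (√t)⁻¹ • v) := by
    intro a v
    rw [smul_add, smul_comm √t a, smul_smul √t, mul_inv_cancel₀ hr0, one_smul]
  have hθ : ∀ a ∈ Icc (0 : ℝ) (1 / 2), 0 < 1 / (1 - a ^ 2) := by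
    intro a ha
    have : a ^ 2 < 1 := by nlinarith [ha.1, ha.2]
    exact one_div_pos.mpr (by linarith)
  have hta : ∀ a : ℝ, t * (1 / (1 - a ^ 2)) = ta t a := fun a => by rw [ta, mul_one_div]
  have eG : ∀ z, ∀ a ∈ Icc (0 : ℝ) (1 / 2),
      (√t)⁻¹ • G z 0 a = node U t c a ((√t)⁻¹ • (y z a).1) := by
    intro z a ha
    rw [(hy z a ha).2.2.1, hpt, GG_resc hU zero_le_one ht0 (hθ a ha), hta, smul_smul, smul_smul,
      node]
    have : (√t)⁻¹ * (1 / t)⁻¹ * (√t)⁻¹ = 1 := by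
      rw [one_div, inv_inv]
      field_simp
      rw [sq, hrr]
    rw [this, one_smul]
  have eG0 : ∀ z, (√t)⁻¹ • G z 0 0 = GG U t c := by
    intro z
    rw [eG z 0 ⟨le_rfl, by norm_num⟩, node, zero_smul, add_zero, ta]
    norm_num
  have eAA : ∀ a ∈ Icc (0 : ℝ) (1 / 2), ∀ v w : E d,
      (1 / t)⁻¹ • AA (resc U t) (1 / (1 - a ^ 2)) (√t • c + a • v) w =
        AA U (ta t a) (c + a • (√t)⁻¹ • v) w := by
    intro a ha v w
    rw [hpt, AA_resc hU zero_le_one ht0 (hθ a ha), hta, smul_apply, smul_smul,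
      one_div, inv_inv, mul_inv_cancel₀ ht0.ne', one_smul]
  have exi : ∀ z, ∀ a ∈ Icc (0 : ℝ) (1 / 2), xih U t c β a ((√t)⁻¹ • (y z a).1,
      (√t)⁻¹ • (y z a).2 - β • ((√t)⁻¹ • G z 0 a - GG U t c)) = (√t)⁻¹ • (y z a).2 := by
    intro z a ha
    rw [xih, ← eG z a ha]
    exact sub_add_cancel _ _
  have eA : ∀ z, ∀ a ∈ Icc (0 : ℝ) (1 / 2), (√t)⁻¹ • A z 0 a =
      AA U (ta t a) (c + a • (√t)⁻¹ • (y z a).1) ((√t)⁻¹ • (y z a).2) := by
    intro z a ha
    rw [(hy z a ha).2.2.2.1, eAA a ha, map_smul]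
  refine ⟨{
    y := fun z a => ((√t)⁻¹ • (y z a).1,
      (√t)⁻¹ • (y z a).2 - β • ((√t)⁻¹ • G z 0 a - GG U t c))
    gG := fun z k a => (√t)⁻¹ • G z k a
    gA := fun z k a => (√t)⁻¹ • A z k a
    gS := fun z k a => (√t)⁻¹ • S z k a
    y0 := fun z => ?_
    dy := fun z a ha => ?_
    cG := fun z => true_chain_smul (cG z) _
    cA := fun z => true_chain_smul (cA z) _
    cS := fun z => true_chain_smul (cS z) _
    eG := eG
    eA := fun z a ha => ?_
    eS := fun z a ha => ?_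
    d1 := fun z => ?_
    meas := fun a ha => ?_
    law := fun a ha => ?_
    bd := fun k hk h hh => ?_ }⟩
  · rw [eG0, y0, sub_self, smul_zero, sub_zero]
    rfl
  · have h1 := (hy z a ha).1
    have h11 : HasDerivWithinAt (fun a => (y z a).1) (-(1 / t) • G z 0 a - β • A z 0 a)
        (Icc 0 (1 / 2)) a :=
      (ContinuousLinearMap.fst ℝ (E d) (E d)).hasFDerivAt.comp_hasDerivWithinAt a h1
    have h12 : HasDerivWithinAt (fun a => (y z a).2) (β • G z 1 a + β ^ 2 • S z 0 a)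
        (Icc 0 (1 / 2)) a :=
      (ContinuousLinearMap.snd ℝ (E d) (E d)).hasFDerivAt.comp_hasDerivWithinAt a h1
    have h2 := h11.fun_const_smul (√t)⁻¹
    have h3 := (h12.fun_const_smul (√t)⁻¹).fun_sub
      ((((cG z 0 a ha).fun_const_smul (√t)⁻¹).sub_const (GG U t c)).fun_const_smul β)
    refine (h2.prodMk h3).congr_deriv (Prod.ext ?_ ?_)
    · simp only [one_div]
      module
    · simp only [zero_add]
      module
  · rw [exi z a ha]
    exact eA z a ha
  · rw [exi z a ha, ← eA z a ha, (hy z a ha).2.2.2.2, mul_smul, eAA a ha, map_smul, smul_comm]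
  · have := eAA 0 ⟨le_rfl, by norm_num⟩ 0 z.1
    simp only [smul_zero, add_zero, ta] at this
    norm_num at this
    rw [d1, map_smul, ← this]
    norm_num
  · have m0 := (hm a ha).1
    have m1 : Measurable fun z => (√t)⁻¹ • (y z a).1 := by fun_prop
    have m2 : Measurable fun z => (√t)⁻¹ • (y z a).2 := by fun_prop
    have hc : Continuous (GG U (ta t a)) :=
      (GG_smooth hU zero_le_one (by rw [← hta]; exact mul_pos ht0 (hθ a ha))).continuous
    have m3 : Measurable fun z => (√t)⁻¹ • G z 0 a := by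
      simp only [eG _ a ha, node]
      exact hc.measurable.comp (by fun_prop)
    exact m1.prodMk (by fun_prop)
  · have := qq_prob hU ht0 c a
    have := qq_prob (hU.rescale ht0) one_pos (√t • c) a
    have ms : Measurable fun z : E d => (√t)⁻¹ • z := measurable_const_smul _
    have ms' : Measurable fun z : E d => √t • z := measurable_const_smul _
    have e1 : (qq (resc U t) 1 (√t • c) a).map (fun z => (√t)⁻¹ • z) = qq U t c a := by
      rw [qq_resc hU ht0, Measure.map_map ms ms']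
      convert Measure.map_id
      funext z
      simp only [Function.comp_apply, smul_smul, inv_mul_cancel₀ hr0, one_smul, id]
    have e2 := Measure.map_prod_map (qq (resc U t) 1 (√t • c) a) (gam d) ms measurable_id
    have m0 := (hm a ha).1
    rw [e1, Measure.map_id, ← (hm a ha).2, Measure.map_map (ms.prodMap measurable_id)
      (by fun_prop)] at e2
    rw [e2]
    congr 1
    funext z
    rw [exi z a ha]
    simp only [Function.comp_apply, Prod.map_apply, id, hpt, smul_smul √t, smul_smul (√t)⁻¹ √t,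
      mul_inv_cancel₀ hr0, inv_mul_cancel₀ hr0, one_smul]
  · have hd : 0 ≤ √(d : ℝ) := Real.sqrt_nonneg _
    have hc := norm_nonneg c
    have hh0 := hh.1
    rcases k with _ | j
    · refine ((dom_const (h * (√d + ‖c‖))).add
        ((bd 0 hk h hh).const_mul (c := 2) (by norm_num))).mono (fun z => ?_) ?_
      · have a1 := true_bd0 (true_chain_smul (cG z) (√t)⁻¹) (true_chain_smul (cA z) (√t)⁻¹)
          (true_chain_smul (cS z) (√t)⁻¹) hh
        have a2 := true_scale (cG z) (cA z) (cS z) 1 0 hh hr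
        have a3 := mul_le_mul_of_nonneg_left (GG_norm' hU ht c) hh0
        rw [eG0] at a1
        simp only [zero_add]
        linarith
      · have : 0 ≤ C * h * ‖c‖ := by positivity
        nlinarith
    · refine ((bd j (by omega) h hh).add (bd (j + 1) hk h hh)).mono (fun z => ?_) ?_
      · exact (true_scale (cG z) (cA z) (cS z) (j + 1) (j + 1) hh hr).trans
          (true_bd1 (cG z) (cA z) (cS z) j hh)
      · have : 0 ≤ C * h * ‖c‖ := by positivity
        have : 0 ≤ h * (√d + ‖c‖) := by positivity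
        nlinarith

end

end Crest.Agent.R285
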