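import Crest.Agent.R285.WordD
import Crest.Agent.R285.Cont

/-!
# R285/TrueN: the true flow of a normalised instance in the time variable `a = tanh s`

Let `Φ` be the flow of `exists_normalised_flow`, `s(a) = Real.artanh a` (`a ∈ [0,1/2]` gives
`s ∈ [0,1]`, `aa (s a) = a`, `th (s a) = 1/(1-a²) = s'(a)`), `Y z a = (s a, Φ (s a) z)`.  For smooth
`φ`, `a ↦ φ (Y z a)` has derivative `DD φ (Y z a)` (`DD_eq`).  Put
`gG z k a = vec fun j => (DD I)^[k] (FY I j) (Y z a)` and likewise for `AX`, `SX`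
(smoothness: `iter_tame`).  `bX = β delA = β DD F + β² SX` (`DD_FY`).  The law: `rho_withDensity`,
`qq_density`.  The bound: for fixed `a`, `Dom.comp`, `dom_vec`, `iter_bound`; integrate in `a` by
Tonelli (`(z,a) ↦ Y z (clamp a)` is jointly measurable:
`measurable_uncurry_of_continuous_of_measurable`; `Dom.prod` or `integrable_prod_iff`).
-/

set_option autoImplicit false

namespace Crest.Agent.R285

open MeasureTheory ProbabilityTheory Crest.OracleSampling Set
open scoped RealInnerProductSpace ContDiff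

noncomputable section

theorem truen_mem {a : ℝ} (ha : a ∈ Icc (0 : ℝ) (1 / 2)) : Real.artanh a ∈ Icc (0 : ℝ) 1 := by
  obtain ⟨h0, h1⟩ := ha
  refine ⟨Real.artanh_nonneg h0, ?_⟩
  have h2 : 0 < 1 - a := by linarith
  have h3 := Real.log_le_sub_one_of_pos (show 0 < (1 + a) / (1 - a) by positivity)
  have h4 : (1 + a) / (1 - a) ≤ 3 := by rw [div_le_iff₀ h2]; linarith
  rw [Real.artanh_eq_half_log ⟨by linarith, by linarith⟩]
  linarith

theorem truen_aa {a : ℝ} (ha : a ∈ Icc (0 : ℝ) (1 / 2)) : aa (Real.artanh a) = a :=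
  Real.tanh_artanh ⟨by linarith [ha.1], by linarith [ha.2]⟩

theorem truen_th {a : ℝ} (ha : a ∈ Icc (0 : ℝ) (1 / 2)) : th (Real.artanh a) = 1 / (1 - a ^ 2) := by
  rw [th_eq, truen_aa ha]

theorem truen_deriv {a : ℝ} (ha : a ∈ Icc (0 : ℝ) (1 / 2)) :
    HasDerivWithinAt Real.artanh (th (Real.artanh a)) (Icc 0 (1 / 2)) a := by
  have h1 : 0 < 1 - a := by linarith [ha.2]
  have h2 : 0 < 1 + a := by linarith [ha.1]
  have h3 := ((((hasDerivAt_id a).const_add 1).div ((hasDerivAt_id a).const_sub 1) h1.ne').log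
    (div_pos h2 h1).ne').const_mul (1 / 2 : ℝ)
  refine (h3.hasDerivWithinAt.congr_deriv ?_).congr (fun x hx => Real.artanh_eq_half_log
    ⟨by linarith [hx.1], by linarith [hx.2]⟩) (Real.artanh_eq_half_log
    ⟨by linarith [ha.1], by linarith [ha.2]⟩)
  rw [truen_th ha, show 1 - a ^ 2 = (1 - a) * (1 + a) by ring]
  simp only [Pi.div_apply, id]
  field_simp
  ring

theorem truen_vec_deriv {d : ℕ} {f : Fin d → ℝ → ℝ} {f' : Fin d → ℝ} {S : Set ℝ} {a : ℝ}
    (h : ∀ j, HasDerivWithinAt (f j) (f' j) S a) :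
    HasDerivWithinAt (fun a => vec fun j => f j a) (vec f') S a :=
  (EuclideanSpace.equiv (Fin d) ℝ).symm.toContinuousLinearMap.hasFDerivAt.comp_hasDerivWithinAt a
    (hasDerivWithinAt_pi.2 h)

theorem truen_vec_cont {d : ℕ} {X : Type} [TopologicalSpace X] {f : Fin d → X → ℝ}
    (h : ∀ j, Continuous (f j)) : Continuous fun x => vec fun j => f j x :=
  (EuclideanSpace.equiv (Fin d) ℝ).symm.continuous.comp (continuous_pi h)

theorem truen_Ah (I : Inst) (y : I.X) (v : E I.d) (k : Fin I.d) :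
    ∑ l, Ah I k l y * v l = I.δ⁻¹ * AA I.W (th y.1) y.2 v k := by
  conv_rhs => rw [pd_basis v, map_sum]
  simp only [map_smul, WithLp.ofLp_sum, WithLp.ofLp_smul, Finset.sum_apply, Pi.smul_apply,
    smul_eq_mul, Finset.mul_sum]
  refine Finset.sum_congr rfl fun l _ => ?_
  rw [Ah_symm, Ah, Inst.Ψ, hess_Psi I.pot I.δ0.le]
  ring

theorem truen_delA (I : Inst) (z : E I.d × E I.d) (k : Fin I.d) :
    DD I (FY I k) (0, z) = I.δ⁻¹ * AA I.W 1 I.x z.1 k := by
  have := truen_Ah I (I.pt (0, z)) z.1 k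
  simp only [Inst.pt, aa_zero, zero_smul, add_zero, th_zero] at this
  rw [DD_FY, ← this, delA, SX]
  simp only [dd_pt_u I (dzero_Ah_smooth I _ _)]
  simp only [Inst.gW, Inst.pt, aa_zero, zero_smul, add_zero, zero_mul, mul_zero, sub_zero, mul_comm]

/-- Tonelli for a path that is continuous in time and measurable in the initial value. -/
theorem truen_tonelli {Z Y : Type} [MeasurableSpace Z] {ν : Measure Z} [SFinite ν]
    [NormedAddCommGroup Y] [MeasurableSpace Y] [BorelSpace Y] {y : Z → ℝ → Y}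
    (hc : ∀ z, ContinuousOn (y z) (Icc 0 (1 / 2)))
    (hm : ∀ a ∈ Icc (0 : ℝ) (1 / 2), Measurable fun z => y z a) {F : Y → ℝ} (hF : Continuous F)
    (h0 : ∀ y, 0 ≤ F y) {c : ℝ} (hd : ∀ a ∈ Icc (0 : ℝ) (1 / 2), Dom ν (fun z => F (y z a)) c)
    {h : ℝ} (hh : h ∈ Icc (0 : ℝ) (1 / 2)) :
    Dom ν (fun z => ∫ a in (0 : ℝ)..h, F (y z a)) (c * h) := by
  have h2 : (0 : ℝ) ≤ 1 / 2 := by norm_num
  have hu : Measurable (Function.uncurry fun a z => y z (projIcc 0 (1 / 2) h2 a)) :=
    measurable_uncurry_of_continuous_of_measurable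
      (fun z => (hc z).comp_continuous (continuous_subtype_val.comp continuous_projIcc)
        fun a => (projIcc 0 (1 / 2) h2 a).2) fun a => hm _ (projIcc 0 (1 / 2) h2 a).2
  have hf := hF.measurable.comp hu
  have h3 := (Dom.prod (μ := volume.restrict (Ioc 0 h)) hf (fun _ => h0 _) (b := fun _ => c)
    (B := c * h) (fun a => hd _ (projIcc 0 (1 / 2) h2 a).2)
    (dom_of_integrable (integrable_const _) (by simp [hh.1, mul_comm]))).integrable
    hf.aestronglyMeasurable fun _ => h0 _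
  refine ⟨_, h3.1.integral_prod_right, fun z => le_of_eq ?_,
    (integral_prod_symm _ h3.1).symm.trans_le h3.2⟩
  refine (intervalIntegral.integral_of_le hh.1).trans
    (setIntegral_congr_fun measurableSet_Ioc fun a ha => ?_)
  simp only [Function.comp, Function.uncurry]
  rw [projIcc_of_mem h2 ⟨ha.1.le, ha.2.trans hh.2⟩]

theorem true_flowN (n : ℕ) : ∃ C : ℝ, 0 ≤ C ∧ ∀ I : Inst,
    ∃ (y : E I.d × E I.d → ℝ → E I.d × E I.d) (gG gA gS : E I.d × E I.d → ℕ → ℝ → E I.d),
      (∀ z, y z 0 = z) ∧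
      (∀ z, ∀ a ∈ Icc (0 : ℝ) (1 / 2),
        HasDerivWithinAt (y z) ((-I.δ) • gG z 0 a - I.β • gA z 0 a,
          I.β • gG z 1 a + I.β ^ 2 • gS z 0 a) (Icc 0 (1 / 2)) a ∧
        (∀ k, HasDerivWithinAt (gG z k) (gG z (k + 1) a) (Icc 0 (1 / 2)) a ∧
          HasDerivWithinAt (gA z k) (gA z (k + 1) a) (Icc 0 (1 / 2)) a ∧
          HasDerivWithinAt (gS z k) (gS z (k + 1) a) (Icc 0 (1 / 2)) a) ∧
        gG z 0 a = I.δ⁻¹ • GG I.W (1 / (1 - a ^ 2)) (I.x + a • (y z a).1) ∧
        gA z 0 a = I.δ⁻¹ • AA I.W (1 / (1 - a ^ 2)) (I.x + a • (y z a).1) (y z a).2 ∧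
        gS z 0 a = (a * I.δ⁻¹) • AA I.W (1 / (1 - a ^ 2)) (I.x + a • (y z a).1) (gA z 0 a)) ∧
      (∀ z, gG z 1 0 = I.δ⁻¹ • AA I.W 1 I.x z.1) ∧
      (∀ a ∈ Icc (0 : ℝ) (1 / 2), Measurable (fun z => y z a) ∧
        ((gam I.d).prod (gam I.d)).map (fun z => (I.x + a • (y z a).1, (y z a).2)) =
          (qq I.W 1 I.x a).prod (gam I.d)) ∧
      ∀ k ≤ n, ∀ h ∈ Icc (0 : ℝ) (1 / 2), Dom ((gam I.d).prod (gam I.d))
        (fun z => ∫ a in (0 : ℝ)..h, (‖gG z (k + 1) a‖ + ‖gA z k a‖ + ‖gS z k a‖))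
        (C * h * √I.d) := by
  choose C hC0 hC using iter_bound
  refine ⟨3 * ∑ k ∈ Finset.range (n + 1), C k,
    mul_nonneg (by norm_num) (Finset.sum_nonneg fun k _ => hC0 k), fun I => ?_⟩
  obtain ⟨Φ, hc, h0, hd, hlaw⟩ := exists_normalised_flow I
  let Y : E I.d × E I.d → ℝ → I.Y := fun z a => (Real.artanh a, Φ (Real.artanh a) z)
  have hY : ∀ z, ∀ a ∈ Icc (0 : ℝ) (1 / 2), HasDerivWithinAt (Y z)
      (th (Y z a).1 • ((1 : ℝ), I.fld (Y z a))) (Icc 0 (1 / 2)) a := fun z a ha =>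
    HasDerivWithinAt.scomp a (g₁ := fun s => (s, Φ s z))
      ((hasDerivWithinAt_id _ _).prodMk (hd z _ (truen_mem ha))) (truen_deriv ha)
      fun x hx => truen_mem hx
  have hφ : ∀ {φ : Fin I.d → I.Y → ℝ}, (∀ k j, Tame ((DD I)^[k] (φ j))) → ∀ z,
      ∀ a ∈ Icc (0 : ℝ) (1 / 2), ∀ k, HasDerivWithinAt
        (fun a => vec fun j => (DD I)^[k] (φ j) (Y z a))
        (vec fun j => (DD I)^[k + 1] (φ j) (Y z a)) (Icc 0 (1 / 2)) a :=
    fun {φ} h z a ha k => truen_vec_deriv fun j => by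
      refine ((pd_hf (h k j).smooth _).comp_hasDerivWithinAt a (hY z a ha)).congr_deriv ?_
      rw [Function.iterate_succ_apply', DD_eq, map_smul, smul_eq_mul]
  have hm : ∀ a ∈ Icc (0 : ℝ) (1 / 2), Measurable (Φ (Real.artanh a)) := fun a ha =>
    (hc _ (truen_mem ha)).measurable
  refine ⟨fun z a => Φ (Real.artanh a) z, fun z k a => vec fun j => (DD I)^[k] (FY I j) (Y z a),
    fun z k a => vec fun j => (DD I)^[k] (AX I j) (Y z a),
    fun z k a => vec fun j => (DD I)^[k] (SX I j) (Y z a), fun z => by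
      simp only [Real.artanh_zero, h0], fun z a ha => ⟨?_, fun k =>
      ⟨hφ (fun k j => (iter_tame I k j).1) z a ha k, hφ (fun k j => (iter_tame I k j).2.1) z a ha k,
        hφ (fun k j => (iter_tame I k j).2.2) z a ha k⟩, ?_, ?_, ?_⟩, fun z => ?_,
    fun a ha => ⟨hm a ha, ?_⟩, fun k hk h hh => ?_⟩
  · refine ((ContinuousLinearMap.snd ℝ ℝ (E I.d × E I.d)).hasFDerivAt.comp_hasDerivWithinAt a
      (hY z a ha)).congr_deriv ?_
    have := I.δ0.ne'
    rw [ContinuousLinearMap.coe_snd', Prod.smul_snd, Inst.fld, smul_inv_smul₀ (th_pos _).ne']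
    refine Prod.ext ?_ ?_ <;> ext j
    · simp only [vec, bU, FY, Fh, Function.iterate_zero, id, PiLp.sub_apply, PiLp.smul_apply,
        smul_eq_mul]
      field_simp
    · simp only [vec, bX, Function.iterate_one, Function.iterate_zero, id, PiLp.add_apply,
        PiLp.smul_apply, smul_eq_mul, DD_FY]
      ring
  · ext j
    simp only [vec, FY, Fh, Function.iterate_zero, id, PiLp.smul_apply, smul_eq_mul, Inst.Ψ,
      dd_ex_Psi I.pot I.δ0.le, Inst.pt, Y, truen_aa ha, truen_th ha]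
    ring
  · ext j
    have := truen_Ah I (I.pt (Y z a)) (Y z a).2.2 j
    simp only [vec, AX, Function.iterate_zero, id, PiLp.smul_apply, smul_eq_mul, this]
    simp only [Inst.pt, Y, truen_aa ha, truen_th ha]
  · ext j
    have := truen_Ah I (I.pt (Y z a)) (vec fun j => AX I j (Y z a)) j
    simp only [Function.iterate_zero, id, PiLp.smul_apply, smul_eq_mul, mul_assoc]
    simp only [Inst.pt, Y, truen_aa ha, truen_th ha] at this ⊢
    rw [← this]
    simp only [vec, SX, Inst.pt, truen_aa ha]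
  · ext j
    simp only [vec, Function.iterate_one, Y, Real.artanh_zero, h0, truen_delA, PiLp.smul_apply,
      smul_eq_mul]
  · have hf : Measurable fun u : E I.d => I.x + a • u := by fun_prop
    have := hlaw _ (truen_mem ha)
    rw [rho_withDensity I (truen_mem ha), truen_aa ha] at this
    rw [qq_density I.pot I.x ha.1 (by linarith [ha.2]), ← Measure.map_id (μ := gam I.d),
      Measure.map_prod_map _ _ hf measurable_id, Measure.map_id, ← this,
      Measure.map_map (hf.prodMap measurable_id) (hm a ha)]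
    rfl
  · have hCk : C k ≤ ∑ k ∈ Finset.range (n + 1), C k :=
      Finset.single_le_sum (fun k _ => hC0 k) (Finset.mem_range.2 (by omega))
    have hB : 0 ≤ C k * √I.d := mul_nonneg (hC0 k) (Real.sqrt_nonneg _)
    have hB2 : C k ^ 2 * I.d = (C k * √I.d) ^ 2 := by
      rw [mul_pow, Real.sq_sqrt (Nat.cast_nonneg _)]
    refine (truen_tonelli (y := Y) (fun z a ha => (hY z a ha).continuousWithinAt)
      (fun a ha => measurable_const.prodMk (hm a ha))
      (F := fun y => ‖vec fun j => (DD I)^[k + 1] (FY I j) y‖ + ‖vec fun j => (DD I)^[k] (AX I j) y‖ +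
        ‖vec fun j => (DD I)^[k] (SX I j) y‖)
      (((truen_vec_cont fun j => (iter_tame I (k + 1) j).1.smooth.continuous).norm.add
        (truen_vec_cont fun j => (iter_tame I k j).2.1.smooth.continuous).norm).add
        (truen_vec_cont fun j => (iter_tame I k j).2.2.smooth.continuous).norm)
      (fun y => by positivity) (c := C k * √I.d + C k * √I.d + C k * √I.d) (fun a ha => ?_) hh).mono
      (fun z => le_rfl) ?_
    · have hs := truen_mem ha
      obtain ⟨h1, h2, h3⟩ := hC k I _ hs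
      exact Dom.comp (hm a ha) (hlaw _ hs)
        (((dom_vec I hs (fun j => (iter_tame I (k + 1) j).1) hB (h1.trans_eq hB2)).add
          (dom_vec I hs (fun j => (iter_tame I k j).2.1) hB (h2.trans_eq hB2))).add
          (dom_vec I hs (fun j => (iter_tame I k j).2.2) hB (h3.trans_eq hB2)))
    · have := mul_le_mul_of_nonneg_right hCk (mul_nonneg hh.1 (Real.sqrt_nonneg (I.d : ℝ)))
      linarith

end

end Crest.Agent.R285
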