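import Crest.Agent.R285.Cls
import Crest.Agent.R285.StepLip

/-!
# R285/Units: the new centre and the correction of a step have oracles

Throughout `L = r+1`, `K = P.K`, `h = P.h`, `W = WW K`, `U = Uof V`.  All claims on Picard iterates
are proved by induction on the iteration number (`picard (n+1) m = y0 + ∑ l, (h iw m l) • f ..`).
-/

set_option autoImplicit false

namespace Crest.Agent.R285

open MeasureTheory ProbabilityTheory Crest.OracleSampling Set
open scoped RealInnerProductSpace ContDiff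

noncomputable section

variable {d : ℕ} {A : Type} [MeasurableSpace A] {P : Par} {r : ℕ} {t : ℝ}
  {b bb ρ : VV d → A → ℝ}

theorem units_ctr (hP : ParOK P) {kp ky : ℕ} {p y : VV d → A → E d}
    (hp : Ctr P (r + 1) t b bb ρ kp p) (hy : TU P (r + 1) t bb ρ ky (fun V a => P.h • y V a))
    (hb0 : ∀ V a, 0 ≤ bb V a) (hρ : ∀ V a, 0 ≤ ρ V a) {s : ℝ} (hs0 : 0 ≤ s) (hs : s ≤ P.h) :
    Ctr P (r + 1) t b bb ρ (kp + ky) (fun V a => p V a + s • y V a) := by
  have h0 := hP.h_pos.1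
  have h1 : |s / P.h| ≤ 1 := by
    rw [abs_of_nonneg (by positivity), div_le_one h0]
    exact hs
  refine hp.add hP ((hy.smul hP h1 hb0 hρ).congr fun V a => ?_)
  rw [smul_smul, div_mul_cancel₀ _ h0.ne']

theorem units_t (H : Ctx P d r t) : 2 ≤ t := H.ok.T2.trans H.ht

theorem units_node (H : Ctx P d r t) {t₁ : ℝ} (h1 : t ≤ t₁) (h2 : t₁ ≤ 2 * t) {kp ky : ℕ}
    (hk : kp + ky ≤ 8) {p y : VV d → A → E d} (hp : Ctr P (r + 1) t b bb ρ kp p)
    (hy : TU P (r + 1) t bb ρ ky (fun V a => P.h • y V a))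
    (hb0 : ∀ V a, 0 ≤ bb V a) (hρ : ∀ V a, 0 ≤ ρ V a)
    (hb : ∀ V a, b V a + 8 * (ρ V a + P.B (r + 1) * bb V a) ≤ bb V a) {s : ℝ} (hs0 : 0 ≤ s)
    (hs : s ≤ P.h) :
    Pure P (r + 1) t bb (fun V a => node (Uof V.1) t₁ (p V a) s (y V a)) 1 1 1 := by
  have ht := units_t H
  have hs2 := hs.trans H.ok.h_pos.2
  have e1 := ta_ge (t := t₁) (by linarith) hs0 hs2
  have e2 := ta_le (t := t₁) (by linarith) hs0 hs2
  exact pure_node H (t' := ta t₁ s) (by linarith) (by linarith)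
    ((units_ctr H.ok hp hy hb0 hρ hs0 hs).mono H.ok hk hb0 hρ) hb

theorem units_sg (hP : ParOK P) (l : Fin (P.K + 1)) :
    0 ≤ sg P.K l * P.h ∧ sg P.K l * P.h ≤ P.h :=
  ⟨mul_nonneg (sg_pos _ _).le hP.h_pos.1.le, mul_le_of_le_one_left hP.h_pos.1.le (sg_le_one _ _)⟩

theorem units_iw {K : ℕ} (m : Fin (K + 1)) {κ κ' : ℝ} (hκ : |κ| ≤ κ') :
    ∑ l, |κ * iw K m l| ≤ κ' * WW K := by
  simp only [abs_mul, ← Finset.mul_sum]
  have := sum_abs_iw_le K m
  exact mul_le_mul hκ (by linarith) (Finset.sum_nonneg fun _ _ => abs_nonneg _)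
    ((abs_nonneg _).trans hκ)

theorem units_dw {K : ℕ} {κ : ℝ} (hκ : 0 ≤ κ) : ∑ l, |κ * dw K l| ≤ κ * WW K := by
  simp only [abs_mul, ← Finset.mul_sum, abs_of_nonneg hκ]
  exact mul_le_mul_of_nonneg_left (sum_abs_dw_le K) hκ

theorem units_size (H : Ctx P d r t) {s : ℕ} (hs : s ≤ (P.K + 1) ^ 3 + 2 ∨
    s ≤ (P.K + 1) * (P.K + 2)) : s ≤ P.Sq (r + 1) := by
  refine le_trans ?_ (H.ok.Sbig r H.lt)
  rcases hs with hs | hs <;> refine hs.trans ?_ <;> nlinarith [Nat.zero_le P.K, sq_nonneg P.K]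

theorem units_u1 (H : Ctx P d r t) : 0 ≤ P.u1 (r + 1) ∧ P.u1 (r + 1) ≤ P.h / P.ς (r + 1 - 1) ∧
    P.h ^ 2 * P.T0⁻¹ * WW P.K ≤ P.u1 (r + 1) := by
  have h0 := H.ok.h_pos.1
  have h1 := one_le_WW P.K
  have h2 := H.ok.T2
  have h3 := (H.ok.step r H.lt).β0
  have h4 := H.ok.u1n r H.lt
  have h5 := H.ok.ς0 r
  have h6 : 0 ≤ P.h / P.ς r := by positivity
  have h7 : 0 ≤ 2 * P.β (r + 1) * P.h * WW P.K ^ 2 := by positivity
  refine ⟨by unfold Par.u1; positivity, by rw [Nat.add_sub_cancel]; linarith, ?_⟩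
  unfold Par.u1
  rw [div_eq_mul_inv]
  linarith

/-- Iterates `Y`: `h • Y = h • v + ∑ (h · h iw · (-t₁⁻¹)) • node`, the sum being `Pure` with
coefficient `h² W/T0 ≤ u1` and size `K+1`, hence a unit (`Pure.tu`, `u1n`, `u1e`, `Sbig`); so
`h • Y` is `TU (kv+1)` and the centre `p + a • Y = p + (a/h) • (h • Y)` is `Ctr 8`; the time
`ta t₁ a ∈ [t, 4t]` (`ta_ge`, `ta_le`). -/
theorem pure_HVP (H : Ctx P d r t) {t₁ : ℝ} (h1 : t ≤ t₁) (h2 : t₁ ≤ 2 * t) {kp kv : ℕ}
    (hk : kp + kv + 1 ≤ 8) {p v : VV d → A → E d} (hp : Ctr P (r + 1) t b bb ρ kp p)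
    (hv : TU P (r + 1) t bb ρ kv (fun V a => P.h • v V a))
    (hb0 : ∀ V a, 0 ≤ bb V a) (hρ : ∀ V a, 0 ≤ ρ V a)
    (hb : ∀ V a, b V a + 8 * (ρ V a + P.B (r + 1) * bb V a) ≤ bb V a) :
    Pure P (r + 1) t bb (fun V a => HVP P.K P.h (Uof V.1) t₁ (p V a) (v V a))
      (WW P.K / P.h) (WW P.K / P.h) (P.K + 1) := by
  have hP := H.ok
  have h0 := hP.h_pos.1
  have hW := one_le_WW P.K
  have hT := hP.T2
  have ht := H.ht
  have key : ∀ n m, TU P (r + 1) t bb ρ (kv + 1) (fun V a => P.h • picard P.K P.h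
      (fun s u => (-t₁⁻¹) • node (Uof V.1) t₁ (p V a) s u) (v V a) n m) := by
    intro n
    induction n with
    | zero => exact fun m => hv.mono hP (Nat.le_succ _) hb0 hρ
    | succ n ih =>
      intro m
      have hκ : |-(P.h ^ 2 * t₁⁻¹)| ≤ P.h ^ 2 * P.T0⁻¹ := by
        rw [abs_neg, abs_of_nonneg (mul_nonneg (sq_nonneg _) (inv_nonneg.2 (by linarith)))]
        exact mul_le_mul_of_nonneg_left (inv_anti₀ (by linarith) (by linarith)) (sq_nonneg _)
      have hs := Pure.sum hP (fun l => -(P.h ^ 2 * t₁⁻¹) * iw P.K m l)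
        (fun l => units_node H h1 h2 (by omega) hp (ih l) hb0 hρ hb (units_sg hP l).1
          (units_sg hP l).2) hb0 zero_le_one zero_le_one (units_iw m hκ)
      rw [mul_one] at hs
      have hu := units_u1 H
      refine (hv.add hP (hs.tu hP hb0 hρ (by positivity) (hu.2.2.trans hu.2.1)
        (hu.2.2.trans (hP.u1e r H.lt)) (units_size H (Or.inr (by nlinarith))))).congr
        fun V a => ?_
      simp only [picard, smul_add, Finset.smul_sum, smul_smul]
      congr 1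
      refine Finset.sum_congr rfl fun l _ => ?_
      congr 1
      ring
  have hs := Pure.sum hP (fun l => P.h⁻¹ * dw P.K l)
    (fun l => units_node H h1 h2 (by omega) hp (key P.K l) hb0 hρ hb (units_sg hP l).1
      (units_sg hP l).2) hb0 zero_le_one zero_le_one (units_dw (inv_nonneg.2 h0.le))
  rw [mul_one, mul_one, ← div_eq_inv_mul] at hs
  exact hs

/-- Iterates `y`: `h • y.i = h • v (or ζ) + ∑ (h λ iw) • (± HVP)`, the sum being `Pure` with
coefficient `λ W²`, size `(K+1)²`; after `Pure.shift P.R` it is a unit (`u2n`, `u2e`). -/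
theorem pure_SQ (H : Ctx P d r t) {t₁ : ℝ} (h1 : t ≤ t₁) (h2 : t₁ ≤ 2 * t) {kp kv : ℕ}
    (hk : kp + kv + 2 ≤ 8) {p v ζ : VV d → A → E d} (hp : Ctr P (r + 1) t b bb ρ kp p)
    (hv : TU P (r + 1) t bb ρ kv (fun V a => P.h • v V a))
    (hζ : TU P (r + 1) t bb ρ kv (fun V a => P.h • ζ V a))
    (hb0 : ∀ V a, 0 ≤ bb V a) (hρ : ∀ V a, 0 ≤ ρ V a)
    (hb : ∀ V a, b V a + 8 * (ρ V a + P.B (r + 1) * bb V a) ≤ bb V a) :
    Pure P (r + 1) t bb
      (fun V a => SQ P.K P.h (P.lam (r + 1)) (Uof V.1) t₁ (p V a) (v V a) (ζ V a))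
      (WW P.K ^ 2 / (P.lam (r + 1) * P.h)) (WW P.K ^ 2 / (P.lam (r + 1) * P.h))
      ((P.K + 1) ^ 2) := by
  have hP := H.ok
  have h0 := hP.h_pos.1
  have hW := one_le_WW P.K
  have hl := (hP.step r H.lt).lam0
  have hγ := hP.γ0
  have hθ := hP.θ0
  have unit : ∀ (m : Fin (P.K + 1)) (κ : ℝ), |κ| ≤ P.h * P.lam (r + 1) →
      ∀ z : Fin (P.K + 1) → VV d → A → E d,
      (∀ l, TU P (r + 1) t bb ρ (kv + 1) (fun V a => P.h • z l V a)) →
      TU P (r + 1) t bb ρ 1 (fun V a => ∑ l, (κ * iw P.K m l) •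
        HVP P.K P.h (Uof V.1) t₁ (p V a) (z l V a)) := by
    intro m κ hκ z hz
    have hs := Pure.sum hP (fun l => κ * iw P.K m l)
      (fun l => pure_HVP H h1 h2 (by omega) hp (hz l) hb0 hρ hb) hb0 (by positivity)
      (by positivity) (units_iw m hκ)
    have e : P.h * P.lam (r + 1) * WW P.K * (WW P.K / P.h) = P.lam (r + 1) * WW P.K ^ 2 := by
      field_simp
    rw [e] at hs
    exact (hs.shift hP hb0 (by positivity) P.R).tu hP hb0 hρ (by positivity) (hP.u2n r H.lt)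
      (hP.u2e r H.lt) (units_size H (Or.inr (by nlinarith)))
  have habs : |P.h * P.lam (r + 1)| ≤ P.h * P.lam (r + 1) := (abs_of_nonneg (by positivity)).le
  have key : ∀ n m, TU P (r + 1) t bb ρ (kv + 1) (fun V a => P.h • (picard P.K (P.lam (r + 1))
      (fun _ (y : E d × E d) => (-HVP P.K P.h (Uof V.1) t₁ (p V a) y.2,
        HVP P.K P.h (Uof V.1) t₁ (p V a) y.1)) (v V a, ζ V a) n m).1) ∧
      TU P (r + 1) t bb ρ (kv + 1) (fun V a => P.h • (picard P.K (P.lam (r + 1))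
      (fun _ (y : E d × E d) => (-HVP P.K P.h (Uof V.1) t₁ (p V a) y.2,
        HVP P.K P.h (Uof V.1) t₁ (p V a) y.1)) (v V a, ζ V a) n m).2) := by
    intro n
    induction n with
    | zero => exact fun m => ⟨hv.mono hP (Nat.le_succ _) hb0 hρ, hζ.mono hP (Nat.le_succ _) hb0 hρ⟩
    | succ n ih =>
      intro m
      constructor
      · refine (hv.add hP (unit m (-(P.h * P.lam (r + 1))) (by rwa [abs_neg]) _
          fun l => (ih l).2)).congr fun V a => ?_
        simp only [picard, Prod.fst_add, Prod.fst_sum, Prod.smul_fst, smul_add, Finset.smul_sum,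
          smul_smul, smul_neg, ← neg_smul]
        congr 1
        refine Finset.sum_congr rfl fun l _ => ?_
        congr 1
        ring
      · refine (hζ.add hP (unit m (P.h * P.lam (r + 1)) habs _
          fun l => (ih l).1)).congr fun V a => ?_
        simp only [picard, Prod.snd_add, Prod.snd_sum, Prod.smul_snd, smul_add, Finset.smul_sum,
          smul_smul]
        congr 1
        refine Finset.sum_congr rfl fun l _ => ?_
        congr 1
        ring
  have hs := Pure.sum hP (fun l => (P.lam (r + 1))⁻¹ * dw P.K l)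
    (fun l => pure_HVP H h1 h2 (by omega) hp (key P.K l).2 hb0 hρ hb) hb0 (by positivity)
    (by positivity) (units_dw (inv_nonneg.2 hl.le))
  have e : (P.lam (r + 1))⁻¹ * WW P.K * (WW P.K / P.h) =
      WW P.K ^ 2 / (P.lam (r + 1) * P.h) := by
    field_simp
  rw [e, ← sq] at hs
  exact hs

/-- The field at a node. -/
theorem units_fld (H : Ctx P d r t) {c : VV d → A → E d} {x ξ ζ : A → E d}
    {Y : VV d → A → E d × E d} (hc : Ctr P (r + 1) t b bb ρ 1 c)
    (hx : TU P (r + 1) t bb ρ 1 (fun V a => x a - c V a)) (hξ : Measurable ξ) (hζ : Measurable ζ)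
    (hξρ : ∀ V a, ‖ξ a‖ ≤ ρ V a) (hζρ : ∀ V a, ‖ζ a‖ ≤ ρ V a)
    (hb0 : ∀ V a, 0 ≤ bb V a) (hρ : ∀ V a, 0 ≤ ρ V a)
    (hb : ∀ V a, b V a + 8 * (ρ V a + P.B (r + 1) * bb V a) ≤ bb V a)
    (I1 : Pure P (r + 1) t bb (fun V a => P.h • (Y V a).1 - (x a - c V a)) (P.u1 (r + 1))
      (P.u1 (r + 1)) ((P.K + 1) * (P.K + 2)))
    (I2 : Pure P (r + 1) t bb (fun V a => (Y V a).2 - (√t)⁻¹ • ξ a)
      (P.β (r + 1) * P.kc (r + 1)) (P.β (r + 1) * P.kc (r + 1)) ((P.K + 1) ^ 3))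
    {s : ℝ} (hs0 : 0 ≤ s) (hs : s ≤ P.h) :
    Pure P (r + 1) t bb (fun V a => (fldN P.K P.h (P.β (r + 1)) (P.lam (r + 1)) (Uof V.1) t (c V a)
        ((√t)⁻¹ • ζ a) s (Y V a)).1) (P.T0⁻¹ + 2 * P.β (r + 1) * (WW P.K / P.h))
        (P.T0⁻¹ + 2 * P.β (r + 1) * (WW P.K / P.h)) (P.K + 2) ∧
      Pure P (r + 1) t bb (fun V a => (fldN P.K P.h (P.β (r + 1)) (P.lam (r + 1)) (Uof V.1) t
        (c V a) ((√t)⁻¹ • ζ a) s (Y V a)).2)
        (2 * P.β (r + 1) ^ 2 * P.h * (WW P.K ^ 2 / (P.lam (r + 1) * P.h)))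
        (2 * P.β (r + 1) ^ 2 * P.h * (WW P.K ^ 2 / (P.lam (r + 1) * P.h))) ((P.K + 1) ^ 2) := by
  have hP := H.ok
  obtain ⟨h0, hh⟩ := hP.h_pos
  have hW := one_le_WW P.K
  have hl := (hP.step r H.lt).lam0
  have hβ := (hP.step r H.lt).β0
  have hT := hP.T2
  have ht := H.ht
  have ht2 := units_t H
  have hu := units_u1 H
  obtain ⟨hq1, hq2⟩ := half_le_sqrt hs0 (hs.trans hh)
  have e1 := ta_ge (t := t) (by linarith) hs0 (hs.trans hh)
  have e2 := ta_le (t := t) (by linarith) hs0 (hs.trans hh)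
  have hkc : 0 ≤ P.kc (r + 1) := by unfold Par.kc; positivity
  have hY1 : TU P (r + 1) t bb ρ 2 (fun V a => P.h • (Y V a).1) :=
    (hx.add hP (I1.tu hP hb0 hρ hu.1 hu.2.1 (hP.u1e r H.lt) (units_size H (Or.inr le_rfl)))).congr
      fun V a => by abel
  have hp := units_ctr hP hc hY1 hb0 hρ hs0 hs
  have hnode := units_node H le_rfl (by linarith) (by norm_num) hc hY1 hb0 hρ hb hs0 hs
  have hG := pure_node H le_rfl (by linarith) (hc.mono hP (by norm_num) hb0 hρ) hb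
  generalize hq : √(1 - s ^ 2) = q at hq1 hq2
  have hq0 : 0 < q := by linarith
  have hrt : (√t)⁻¹ ≤ 1 := inv_le_one_of_one_le₀ (Real.one_le_sqrt.2 (by linarith))
  have hrt0 : 0 ≤ (√t)⁻¹ := by positivity
  have hhq : P.h * q ≤ P.h := mul_le_of_le_one_right h0.le hq2
  have hκ : |P.h * q * (√t)⁻¹| ≤ 1 := by
    rw [abs_of_nonneg (by positivity)]
    exact mul_le_one₀ (by linarith) hrt0 hrt
  have hv : TU P (r + 1) t bb ρ 2
      (fun V a => P.h • q • xih (Uof V.1) t (c V a) (P.β (r + 1)) s (Y V a)) := by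
    have h1 := ((I2.smul (P.h * q)).add hP (hnode.smul (P.h * q * P.β (r + 1))) (by positivity)
      (by positivity)).add hP (hG.smul (-(P.h * q * P.β (r + 1)))) (by positivity) (by positivity)
    rw [abs_neg, abs_of_nonneg (show 0 ≤ P.h * q by positivity),
      abs_of_nonneg (show 0 ≤ P.h * q * P.β (r + 1) by positivity)] at h1
    have h2 : P.h * q * (P.β (r + 1) * P.kc (r + 1)) + P.h * q * P.β (r + 1) * 1 +
        P.h * q * P.β (r + 1) * 1 ≤ P.u3 (r + 1) := by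
      have h3 : P.u3 (r + 1) = P.h * (P.β (r + 1) * P.kc (r + 1)) + 2 * (P.h * P.β (r + 1)) := by
        unfold Par.u3 Par.kc
        ring
      have h4 := mul_le_mul_of_nonneg_right hhq (mul_nonneg hβ.le hkc)
      have h5 := mul_le_mul_of_nonneg_right hhq hβ.le
      linarith
    refine (((tu_known hP hξ hb0 hξρ).smul hP hκ hb0 hρ).add hP (h1.tu hP hb0 hρ (by positivity)
      (h2.trans (hP.u3n r H.lt)) (h2.trans (hP.u3e r H.lt))
      (units_size H (Or.inl le_rfl)))).congr fun V a => ?_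
    simp only [xih]
    module
  have hz : TU P (r + 1) t bb ρ 2 (fun _ a => P.h • q • (√t)⁻¹ • ζ a) :=
    (((tu_known hP hζ hb0 hζρ).smul hP hκ hb0 hρ).mono hP (by norm_num) hb0 hρ).congr
      fun V a => by rw [smul_smul, smul_smul]
  have hH := pure_HVP H e1 (by linarith) (by norm_num) hp hv hb0 hρ hb
  have hS := pure_SQ H e1 (by linarith) (by norm_num) hp hv hz hb0 hρ hb
  have hqi : q⁻¹ ≤ 2 := by
    rw [inv_le_comm₀ hq0 (by norm_num)]
    linarith
  constructor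
  · have h1 := (hnode.smul (-t⁻¹)).add hP (hH.smul (-(P.β (r + 1) / q))) (by positivity)
      (by positivity)
    have h2 : |(-t⁻¹)| * 1 + |(-(P.β (r + 1) / q))| * (WW P.K / P.h) ≤
        P.T0⁻¹ + 2 * P.β (r + 1) * (WW P.K / P.h) := by
      rw [abs_neg, abs_neg, abs_of_nonneg (by positivity), abs_of_nonneg (by positivity), mul_one]
      refine add_le_add (inv_anti₀ (by linarith) ht) (mul_le_mul_of_nonneg_right ?_ (by positivity))
      rw [div_eq_mul_inv, mul_comm]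
      exact mul_le_mul_of_nonneg_right hqi hβ.le
    refine (h1.mono hP hb0 (by positivity) h2 (by positivity) h2 (by omega)).congr fun V a => ?_
    simp only [fldN, hq]
    rw [neg_smul (P.β (r + 1) / q), sub_eq_add_neg]
  · have h1 := hS.smul (P.β (r + 1) ^ 2 * s / q)
    have h2 : |P.β (r + 1) ^ 2 * s / q| * (WW P.K ^ 2 / (P.lam (r + 1) * P.h)) ≤
        2 * P.β (r + 1) ^ 2 * P.h * (WW P.K ^ 2 / (P.lam (r + 1) * P.h)) := by
      rw [abs_of_nonneg (by positivity)]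
      refine mul_le_mul_of_nonneg_right ?_ (by positivity)
      have h3 : s * q⁻¹ ≤ P.h * 2 := mul_le_mul hs hqi (by positivity) h0.le
      have h4 := mul_le_mul_of_nonneg_left h3 (sq_nonneg (P.β (r + 1)))
      rw [div_eq_mul_inv]
      linarith
    refine (h1.mono hP hb0 (by positivity) h2 (by positivity) h2 le_rfl).congr fun V a => ?_
    simp only [fldN, hq]

/-- The invariant of the Picard iterates of a step. -/
theorem units_iter (H : Ctx P d r t) {c : VV d → A → E d} {x ξ ζ : A → E d}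
    (hc : Ctr P (r + 1) t b bb ρ 1 c)
    (hx : TU P (r + 1) t bb ρ 1 (fun V a => x a - c V a)) (hξ : Measurable ξ) (hζ : Measurable ζ)
    (hξρ : ∀ V a, ‖ξ a‖ ≤ ρ V a) (hζρ : ∀ V a, ‖ζ a‖ ≤ ρ V a)
    (hb0 : ∀ V a, 0 ≤ bb V a) (hρ : ∀ V a, 0 ≤ ρ V a)
    (hb : ∀ V a, b V a + 8 * (ρ V a + P.B (r + 1) * bb V a) ≤ bb V a) (n : ℕ) :
    ∀ m, Pure P (r + 1) t bb (fun V a => P.h • (picard P.K P.h (fldN P.K P.h (P.β (r + 1))
        (P.lam (r + 1)) (Uof V.1) t (c V a) ((√t)⁻¹ • ζ a))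
        (P.h⁻¹ • (x a - c V a), (√t)⁻¹ • ξ a) n m).1 - (x a - c V a)) (P.u1 (r + 1))
        (P.u1 (r + 1)) ((P.K + 1) * (P.K + 2)) ∧
      Pure P (r + 1) t bb (fun V a => (picard P.K P.h (fldN P.K P.h (P.β (r + 1))
        (P.lam (r + 1)) (Uof V.1) t (c V a) ((√t)⁻¹ • ζ a))
        (P.h⁻¹ • (x a - c V a), (√t)⁻¹ • ξ a) n m).2 - (√t)⁻¹ • ξ a)
        (P.β (r + 1) * P.kc (r + 1)) (P.β (r + 1) * P.kc (r + 1)) ((P.K + 1) ^ 3) := by
  have hP := H.ok
  have h0 := hP.h_pos.1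
  have hW := one_le_WW P.K
  have hl := (hP.step r H.lt).lam0
  have hβ := (hP.step r H.lt).β0
  have hT := hP.T2
  have hu := (units_u1 H).1
  have hkc : 0 ≤ P.β (r + 1) * P.kc (r + 1) := by unfold Par.kc; positivity
  induction n with
  | zero =>
    intro m
    refine ⟨(pure_zero.mono hP hb0 le_rfl hu hu hu (Nat.zero_le _)).congr fun V a => ?_,
      (pure_zero.mono hP hb0 le_rfl hkc hkc hkc (Nat.zero_le _)).congr fun V a => ?_⟩
    · simp only [picard, smul_inv_smul₀ h0.ne', sub_self]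
    · simp only [picard, sub_self]
  | succ n ih =>
    intro m
    have hf := fun l => units_fld H hc hx hξ hζ hξρ hζρ hb0 hρ hb (ih l).1 (ih l).2
      (units_sg hP l).1 (units_sg hP l).2
    constructor
    · have h1 := Pure.sum hP (fun l => P.h ^ 2 * iw P.K m l) (fun l => (hf l).1) hb0
        (by positivity) (by positivity) (units_iw m (abs_of_nonneg (sq_nonneg P.h)).le)
      have e : P.h ^ 2 * WW P.K * (P.T0⁻¹ + 2 * P.β (r + 1) * (WW P.K / P.h)) = P.u1 (r + 1) := by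
        unfold Par.u1
        field_simp
      rw [e] at h1
      refine h1.congr fun V a => ?_
      simp only [picard, Prod.fst_add, Prod.fst_sum, Prod.smul_fst, smul_add, Finset.smul_sum,
        smul_inv_smul₀ h0.ne', add_sub_cancel_left]
      refine Finset.sum_congr rfl fun l _ => ?_
      rw [smul_smul]
      congr 1
      ring
    · have h1 := Pure.sum hP (fun l => P.h * iw P.K m l) (fun l => (hf l).2) hb0
        (by positivity) (by positivity) (units_iw m (abs_of_nonneg h0.le).le)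
      have e : P.h * WW P.K * (2 * P.β (r + 1) ^ 2 * P.h * (WW P.K ^ 2 / (P.lam (r + 1) * P.h))) =
          P.β (r + 1) * P.kc (r + 1) := by
        unfold Par.kc
        field_simp
      rw [e, ← pow_succ'] at h1
      refine h1.congr fun V a => ?_
      simp only [picard, Prod.snd_add, Prod.snd_sum, Prod.smul_snd, add_sub_cancel_left]

/-- Input space `A × (E × E × E) ∋ (a, ĉ, ξ, ζ)`, `ρ = rsz`, `bb = b1`.  Invariant of the iterates
`Y`: `h • Y.1 - (ĉ - c)` is `Pure u1 u1 ((K+1)(K+2))` and `Y.2 - ξ/√t` is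
`Pure (β kc) (β kc) ((K+1)³)` (`β kc = 2β²hW³/λ`).  Then `h • Y.1` is `TU 2`, `p = c + a • Y.1` is
`Ctr 3`, `h • (ρ_a • xih)` is `TU 2` (known part `hρ_a ξ/√t`, pure part with coefficient `u3`, size
`(K+1)³ + 2`; the two nodes are `node` and `GG U t c`), `h • (ρ_a • ζ/√t)` is known; so `pure_node`,
`pure_HVP`, `pure_SQ` apply (`3 + 2 + 2 ≤ 8`), with `β/ρ_a ≤ 2β`, `β² a/ρ_a ≤ 2β² h`.
Finally `newC = ĉ + pure` (`Cls.time`, `u1n`), `corr = (β√t)⁻¹ ξ + β⁻¹ pure` (level `r`, `u4`). -/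
theorem units (H : Ctx P d r t) {c : VV d → A → E d} (hc : Arg P (r + 1) t c b) :
    Arg P (r + 1) (ta t P.h)
        (fun V (a : A × E d × E d × E d) =>
          newC P.K P.h (P.β (r + 1)) (P.lam (r + 1)) (Uof V.1) t (c V a.1) a.2)
        (fun V a => b1 (P.B (r + 1)) (b V a.1) (c V a.1) a.2) ∧
      Orc (fun V (a : A × E d × E d × E d) =>
          corr P.K P.h (P.β (r + 1)) (P.lam (r + 1)) (Uof V.1) t (c V a.1) a.2)
        (P.β (r + 1) * √t)⁻¹
        (fun V a => P.kc (r + 1) * P.θ ^ r * b1 (P.B (r + 1)) (b V a.1) (c V a.1) a.2)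
        (P.Sq (r + 1) * P.Q r) := by
  have hP := H.ok
  obtain ⟨h0, hh⟩ := hP.h_pos
  have hW := one_le_WW P.K
  have hl := (hP.step r H.lt).lam0
  have hβ := (hP.step r H.lt).β0
  have ht := units_t H
  have hu := units_u1 H
  have hB0 := hP.B0 (r + 1)
  have hB := hP.B_le (j := r + 1) H.lt
  have hkc : 0 ≤ P.kc (r + 1) := by unfold Par.kc; positivity
  have hbn : ∀ V a, 0 ≤ b V a := fun V a => le_trans (by positivity) (hc.2 V a)
  have hρ : ∀ V (a : A × E d × E d × E d), 0 ≤ rsz (c V a.1) a.2 := fun V a => by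
    unfold rsz; positivity
  have hb0 : ∀ V (a : A × E d × E d × E d), 0 ≤ b1 (P.B (r + 1)) (b V a.1) (c V a.1) a.2 :=
    fun V a => by
      have := hbn V a.1
      have := hρ V a
      unfold b1; positivity
  have hb : ∀ V (a : A × E d × E d × E d), b V a.1 + 8 * (rsz (c V a.1) a.2 +
      P.B (r + 1) * b1 (P.B (r + 1)) (b V a.1) (c V a.1) a.2) ≤
      b1 (P.B (r + 1)) (b V a.1) (c V a.1) a.2 := fun V a => by
    have h1 : 0 ≤ b V a.1 + 8 * rsz (c V a.1) a.2 := by linarith [hbn V a.1, hρ V a]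
    have h2 := mul_nonneg (mul_nonneg hB0.le (show 0 ≤ 1 - 16 * P.B (r + 1) by linarith)) h1
    unfold b1
    nlinarith
  have hbb : ∀ V (a : A × E d × E d × E d), b V a.1 ≤ b1 (P.B (r + 1)) (b V a.1) (c V a.1) a.2 :=
    fun V a => by linarith [hb V a, hρ V a, mul_nonneg hB0.le (hb0 V a)]
  have hc' := hc.comap (A' := A × E d × E d × E d) measurable_fst
  have hxm : Measurable fun a : A × E d × E d × E d => a.2.1 := measurable_snd.fst
  have hξm : Measurable fun a : A × E d × E d × E d => a.2.2.1 := measurable_snd.snd.fst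
  have hζm : Measurable fun a : A × E d × E d × E d => a.2.2.2 := measurable_snd.snd.snd
  have hxρ : ∀ V (a : A × E d × E d × E d), ‖a.2.1 - c V a.1‖ ≤ rsz (c V a.1) a.2 := fun V a => by
    unfold rsz; linarith [norm_nonneg a.2.2.1, norm_nonneg a.2.2.2]
  obtain ⟨I1, I2⟩ := units_iter H (hc'.ctr hP hbb hρ) (hc'.tu_sub hP hbb hxm hxρ) hξm hζm
    (fun V a => by unfold rsz; linarith [norm_nonneg (a.2.1 - c V a.1), norm_nonneg a.2.2.2])
    (fun V a => by unfold rsz; linarith [norm_nonneg (a.2.1 - c V a.1), norm_nonneg a.2.2.1])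
    hb0 hρ hb P.K (Fin.last P.K)
  have e1 := ta_ge (t := t) (by linarith) h0.le hh
  have e2 := ta_le (t := t) (by linarith) h0.le hh
  refine ⟨⟨?_, fun V a => ?_⟩, ?_⟩
  · have h1 := ((cls_known hxm).add hP I1.1 le_rfl hu.1).time hP (t' := ta t P.h) (by linarith)
      (by linarith) (by linarith [hu.1])
    refine (h1.mono hP hb0 (fun _ _ => le_rfl) (by linarith [hu.1]) ?_ hB0.le
      (by linarith [hP.u1e r H.lt]) (units_size H (Or.inr (by omega)))).congr fun V a => ?_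
    · rw [Nat.add_sub_cancel]
      linarith [hP.u1n r H.lt]
    · simp only [newC, stepY]
      abel
  · have h1 := I1.2 V a
    have h2 := norm_add₃_le (a := c V a.1) (b := a.2.1 - c V a.1)
      (c := P.h • (stepY P.K P.h (P.β (r + 1)) (P.lam (r + 1)) (Uof V.1) t (c V a.1) a.2).1 -
        (a.2.1 - c V a.1))
    rw [add_assoc, add_sub_cancel] at h2
    have h3 := mul_le_mul_of_nonneg_right (hP.u1e r H.lt) (hb0 V a)
    have h4 := mul_nonneg hB0.le (hb0 V a)
    simp only [newC, stepY] at h1 h2 ⊢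
    linarith [hc.2 V a.1, hb V a, hρ V a, hxρ V a]
  · have h1 := (cls_known (x := fun a : A × E d × E d × E d =>
      (P.β (r + 1))⁻¹ • (√t)⁻¹ • a.2.2.1) (by fun_prop)).add hP
      (I2.1.smul (P.β (r + 1))⁻¹) le_rfl (by positivity) r (Nat.lt_succ_self r)
    rw [abs_of_nonneg (inv_nonneg.2 hβ.le), inv_mul_cancel_left₀ hβ.ne', zero_add, zero_add] at h1
    refine (h1.mono ?_ (fun _ _ => le_rfl)
      (Nat.mul_le_mul_right _ (units_size H (Or.inl (by omega))))).congr fun V a => ?_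
    · have hς := hP.ς0 r
      refine pow_le_pow_left₀ (by positivity) ?_ 2
      rw [mul_inv, div_eq_mul_inv]
      exact mul_le_mul_of_nonneg_right (hP.u4 r H.lt) (by positivity)
    · simp only [corr, stepY, ← smul_add, add_sub_cancel]

end

end Crest.Agent.R285
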