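import Crest.Agent.R285.Sob

/-!
# R285/WordBd: every word has squared `L²(ρ_s)` norm `≤ C d`
-/

set_option autoImplicit false

namespace Crest.Agent.R285

open MeasureTheory ProbabilityTheory Crest.OracleSampling Set
open scoped RealInnerProductSpace ContDiff

noncomputable section

variable {T : Fam}

theorem Bd.bd0 {k : ℕ} {w : WF T} (h : Bd k T w) : Bd0 T w := by
  cases k with
  | zero => exact h
  | succ k => exact h.1

theorem Bd.congr {k : ℕ} {w w' : WF T} (h : Bd k T w) (H : ∀ I o y, w' I o y = w I o y) :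
    Bd k T w' := by
  have : w' = w := funext fun I => funext fun o => funext fun y => H I o y
  rw [this]
  exact h

theorem Bd.pred {k : ℕ} {w : WF T} (h : Bd (k + 1) T w) : Bd k T w := by
  induction k generalizing T with
  | zero => exact h.1
  | succ k ih => exact ⟨h.1, fun b => ih (h.2 b)⟩

theorem wordbd_add0 {w w' : WF T} (h : Bd0 T w) (h' : Bd0 T w') :
    Bd0 T (fun I o y => w I o y + w' I o y) := by
  obtain ⟨h1, C, hC⟩ := h
  obtain ⟨h1', C', hC'⟩ := h'
  refine ⟨fun I o => (h1 I o).add (h1' I o), 2 * C + 2 * C', fun I s hs => ?_⟩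
  have h2 := nrm_add_le I hs (h1 I) (h1' I)
  have h3 := hC I s hs
  have h4 := hC' I s hs
  calc _ ≤ 2 * nrm I s (w I) + 2 * nrm I s (w' I) := h2
    _ ≤ 2 * (C * I.d) + 2 * (C' * I.d) := by linarith
    _ = _ := by ring

theorem Bd.add {k : ℕ} {w w' : WF T} (h : Bd k T w) (h' : Bd k T w') :
    Bd k T (fun I o y => w I o y + w' I o y) := by
  induction k generalizing T with
  | zero => exact wordbd_add0 h h'
  | succ k ih =>
    refine ⟨wordbd_add0 h.1 h'.1, fun b => (ih (h.2 b) (h'.2 b)).congr fun I o y => ?_⟩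
    exact congrFun (dd_add (h.1.1 I o.1).smooth (h'.1.1 I o.1).smooth (ey b o.2)) y

theorem wordbd_reidx0 {T' : Fam} {w : WF T} (e : ∀ d, T'.T d ≃ T.T d) (h : Bd0 T w) :
    Bd0 T' (fun I o => w I (e I.d o)) := by
  obtain ⟨h1, C, hC⟩ := h
  refine ⟨fun I o => h1 I _, C, fun I s hs => ?_⟩
  have := nrm_reidx I (s := s) (e I.d) (w I)
  exact this.le.trans (hC I s hs)

theorem Bd.reidx {k : ℕ} {T' : Fam} {w : WF T} (e : ∀ d, T'.T d ≃ T.T d) (h : Bd k T w) :
    Bd k T' (fun I o => w I (e I.d o)) := by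
  induction k generalizing T T' with
  | zero => exact wordbd_reidx0 e h
  | succ k ih =>
    exact ⟨wordbd_reidx0 e h.1, fun b =>
      ih (T := T.prod Fam.leg) (T' := T'.prod Fam.leg)
        (fun d => (e d).prodCongr (Equiv.refl (Fin d))) (h.2 b)⟩

theorem wordbd_cst0 (c : ∀ d, T.T d → ℝ) (h : ∀ d, ∑ o, c d o ^ 2 ≤ d) :
    Bd0 T (fun I o _ => c I.d o) := by
  refine ⟨fun I o => tame_const _, 1, fun I s hs => ?_⟩
  have := nrm_const I hs (c I.d)
  rw [one_mul]
  exact this.le.trans (h I.d)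

theorem bd_cst (k : ℕ) (c : ∀ d, T.T d → ℝ) (h : ∀ d, ∑ o, c d o ^ 2 ≤ d) :
    Bd k T (fun I o _ => c I.d o) := by
  induction k generalizing T with
  | zero => exact wordbd_cst0 c h
  | succ k ih =>
    refine ⟨wordbd_cst0 c h, fun b =>
      (ih (T := T.prod Fam.leg) (fun _ _ => 0) fun d => by simp).congr fun I o y => ?_⟩
    exact congrFun (dd_const (ey b o.2) (c I.d o.1)) y

theorem wordbd_mul0 {O J : Fam} {M : MF O J} {w : WF J} (hM : Mul O J M) (h : Bd0 J w) :
    Bd0 O (mulW M w) := by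
  obtain ⟨h1, C, hC⟩ := h
  obtain ⟨B, hB0, hB⟩ := hM.bound
  refine ⟨fun I o => Tame.sum _ fun j _ => (hM.tame I o j).mul (h1 I j), B ^ 2 * C,
    fun I s hs => ?_⟩
  have h2 := nrm_mul_le I hs (M := fun o j y => M I o j (I.pt y)) (hM.tame I) (h1 I) hB0
    fun z => hB I (I.pt (s, z)) hs
  calc _ ≤ B ^ 2 * nrm I s (w I) := h2
    _ ≤ B ^ 2 * (C * I.d) := mul_le_mul_of_nonneg_left (hC I s hs) (sq_nonneg _)
    _ = _ := by ring

theorem wordbd_aa_smooth : ContDiff ℝ ∞ aa := by
  have : aa = fun s => Real.sinh s / Real.cosh s := funext fun s => Real.tanh_eq_sinh_div_cosh s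
  rw [this]
  exact Real.contDiff_sinh.div Real.contDiff_cosh fun s => (Real.cosh_pos s).ne'

theorem wordbd_grad_mul {O J : Fam} {M : MF O J} {w : WF J} (hM : Mul O J M)
    (h : ∀ I j, Tame (w I j)) (b : Bool) (I : Inst) (o : (O.prod Fam.leg).T I.d) (y : I.Y) :
    gradW b (mulW M w) I o y =
      ∑ j, dd (ey b o.2) (fun y => M I o.1 j (I.pt y)) y * w I j y +
        mulW (O := O.prod Fam.leg) (J := J.prod Fam.leg)
          (fun I o j y => if o.2 = j.2 then M I o.1 j.1 y else 0) (gradW b w) I o y := by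
  have e1 : gradW b (mulW M w) I o y =
      ∑ j, (dd (ey b o.2) (fun y => M I o.1 j (I.pt y)) y * w I j y +
        M I o.1 j (I.pt y) * dd (ey b o.2) (w I j) y) := by
    refine (congrFun (dd_sum Finset.univ (φ := fun j y => M I o.1 j (I.pt y) * w I j y)
      (fun j _ => ((hM.tame I o.1 j).mul (h I j)).smooth) (ey b o.2)) y).trans ?_
    exact Finset.sum_congr rfl fun j _ =>
      congrFun (dd_mul (hM.tame I o.1 j).smooth (h I j).smooth (ey b o.2)) y
  rw [e1, Finset.sum_add_distrib]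
  congr 1
  simp only [mulW, gradW]
  rw [Fintype.sum_prod_type]
  refine Finset.sum_congr rfl fun j _ => ?_
  simp

/-- Induction on `k` for all `O J M w`:
`gradW b (mulW M w) = mulW M₁ w + mulW (M ⊗ id) (gradW b w)` with `M₁ = a · dOut M` for `b = false`
and `M₁ = 0` for `b = true` (`dd_pt_u`, `dd_pt_x`, `Mul.idR`). -/
theorem Bd.mul {k : ℕ} {O J : Fam} {M : MF O J} {w : WF J} (hM : Mul O J M) (h : Bd k J w) :
    Bd k O (mulW M w) := by
  induction k generalizing O J with
  | zero => exact wordbd_mul0 hM h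
  | succ k ih =>
    refine ⟨wordbd_mul0 hM h.1, fun b => ?_⟩
    have h2 := ih (hM.idR Fam.leg) (h.2 b)
    cases b with
    | false =>
      refine ((ih (hM.dOut.tmul wordbd_aa_smooth) h.pred).add h2).congr fun I o y => ?_
      rw [wordbd_grad_mul hM h.1.1]
      congr 1
      refine Finset.sum_congr rfl fun j _ => ?_
      rw [dd_pt_u I (hM.smooth I o.1 j)]
      rfl
    | true =>
      refine h2.congr fun I o y => ?_
      rw [wordbd_grad_mul hM h.1.1, Finset.sum_eq_zero fun j _ => by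
        rw [dd_pt_x I (hM.smooth I o.1 j), zero_mul], zero_add]

theorem wordbd_dive0 {w : WF (T.prod Fam.leg)} (b : Bool) (h : Bd0 (T.prod Fam.leg) w)
    (h' : Bd0 ((T.prod Fam.leg).prod Fam.leg) (gradW b w)) : Bd0 T (divW b w) := by
  obtain ⟨h1, C, hC⟩ := h
  obtain ⟨-, C', hC'⟩ := h'
  refine ⟨fun I o => Tame.sum _ fun k _ =>
    ((tame_gW I b k).mul (h1 I (o, k))).sub ((h1 I (o, k)).dd b k), C' + 2 * C, fun I s hs => ?_⟩
  have h2 := sobolev I hs b (φ := w I) (h1 I)
  have h3 := hC I s hs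
  have h4 := hC' I s hs
  calc _ ≤ nrm I s (gradW b w I) + 2 * nrm I s (w I) := h2
    _ ≤ C' * I.d + 2 * (C * I.d) := by linarith
    _ = _ := by ring

/-- Exchange of the last two indices. -/
def wordbdSwap (A B : Type) : (A × B) × B ≃ (A × B) × B where
  toFun x := ((x.1.1, x.2), x.1.2)
  invFun x := ((x.1.1, x.2), x.1.2)
  left_inv _ := rfl
  right_inv _ := rfl

/-- Induction on `k` for all `T w`; `k = 0` is `sobolev`; and
`gradW b' (divW b w) (o,i) = mulW (id ⊗ HessM b' b) w (o,i) + divW b w' (o,i)` with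
`w' ((o,i),j) = gradW b' w ((o,j),i)` (`dd_gW`, `dd_comm`). -/
theorem Bd.dive {k : ℕ} {w : WF (T.prod Fam.leg)} (b : Bool) (h : Bd (k + 1) (T.prod Fam.leg) w) :
    Bd k T (divW b w) := by
  induction k generalizing T with
  | zero => exact wordbd_dive0 b h.1 (h.2 b)
  | succ k ih =>
    refine ⟨wordbd_dive0 b h.1 (h.2 b).bd0, fun b' => ?_⟩
    have h1 := Bd.mul (Mul.idL T (mul_HessM b' b)) h.pred.pred
    have h2 := ih (T := T.prod Fam.leg) ((h.2 b').reidx (T' := (T.prod Fam.leg).prod Fam.leg)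
      fun d => wordbdSwap (T.T d) (Fin d))
    refine (h1.add h2).congr fun I o y => ?_
    have hw := h.1.1 I
    have e1 : gradW b' (divW b w) I o y =
        ∑ k, (HessM b' b I o.2 k (I.pt y) * w I (o.1, k) y +
          (I.gW b k y * dd (ey b' o.2) (w I (o.1, k)) y -
            dd (ey b k) (dd (ey b' o.2) (w I (o.1, k))) y)) := by
      refine (congrFun (dd_sum Finset.univ
        (φ := fun k y => I.gW b k y * w I (o.1, k) y - dd (ey b k) (w I (o.1, k)) y)
        (fun k _ => (((tame_gW I b k).mul (hw (o.1, k))).sub ((hw (o.1, k)).dd b k)).smooth)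
        (ey b' o.2)) y).trans ?_
      refine Finset.sum_congr rfl fun k _ => ?_
      rw [dd_sub ((tame_gW I b k).mul (hw (o.1, k))).smooth ((hw (o.1, k)).dd b k).smooth,
        dd_mul (tame_gW I b k).smooth (hw (o.1, k)).smooth, dd_gW,
        dd_comm (hw (o.1, k)).smooth (ey b' o.2) (ey b k)]
      ring
    rw [e1, Finset.sum_add_distrib]
    congr 1
    simp only [mulW]
    rw [Fintype.sum_prod_type, Finset.sum_comm]
    refine Finset.sum_congr rfl fun j _ => ?_
    simp

theorem Word.bd {w : WF T} (h : Word T w) : ∀ k, Bd k T w := by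
  induction h with
  | cst T c h => exact fun k => bd_cst k c h
  | mul hM _ ih => exact fun k => (ih k).mul hM
  | grad b _ ih => exact fun k => (ih (k + 1)).2 b
  | dive b _ ih => exact fun k => (ih (k + 1)).dive b
  | add _ _ ih ih' => exact fun k => (ih k).add (ih' k)
  | reidx e _ ih => exact fun k => (ih k).reidx e

theorem word_bound {w : WF T} (h : Word T w) : ∃ C : ℝ, 0 ≤ C ∧ ∀ I : Inst,
    ∀ s ∈ Icc (0 : ℝ) 1, nrm I s (w I) ≤ C * I.d := by
  obtain ⟨-, C, hC⟩ := (h.bd 0).bd0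
  exact ⟨max C 0, le_max_right _ _, fun I s hs =>
    (hC I s hs).trans (mul_le_mul_of_nonneg_right (le_max_left _ _) (Nat.cast_nonneg _))⟩

end

end Crest.Agent.R285
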