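import Crest.Agent.R285.DZero
import Crest.Agent.R285.WordBd

/-!
# R285/WordD: words are closed under `DD`; bounds for iterated flow derivatives
-/

set_option autoImplicit false

namespace Crest.Agent.R285

open MeasureTheory ProbabilityTheory Crest.OracleSampling Set
open scoped RealInnerProductSpace ContDiff

noncomputable section

variable {T : Fam}

theorem Word.congr {w w' : WF T} (h : Word T w) (H : ∀ I o y, w' I o y = w I o y) :
    Word T w' := by
  have : w' = w := funext fun I => funext fun o => funext fun y => H I o y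
  rw [this]
  exact h

theorem word_zero (T : Fam) : Word T (fun _ _ _ => 0) := by
  exact Word.cst T (fun _ _ => 0) fun d => by simp

theorem Word.smul {w : WF T} (h : Word T w) (c : Inst → ℝ) (hc : ∀ I, |c I| ≤ 1) {g : ℝ → ℝ}
    (hg : ContDiff ℝ ∞ g) : Word T (fun I o y => c I * g y.1 * w I o y) := by
  refine (Word.mul (Mul.smul c hc g hg (mul_id T)) h).congr fun I o y => ?_
  simp [mulW, Inst.pt]

theorem wordd_idA {w : WF (T.prod Fam.leg)} (h : Word (T.prod Fam.leg) w) :
    Word (T.prod Fam.leg) (fun I o y => ∑ l, Ah I o.2 l (I.pt y) * w I (o.1, l) y) := by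
  refine (Word.mul (Mul.idL T mul_Ah) h).congr fun I o y => ?_
  simp [mulW, Fintype.sum_prod_type]

theorem wordd_δ (I : Inst) : |I.δ| ≤ 1 := by
  rw [abs_of_pos I.δ0]; exact I.δ1

theorem wordd_β (I : Inst) : |I.β| ≤ 1 := by
  rw [abs_of_nonneg I.β0]; exact I.β1

theorem wordd_cmul {w : WF T} (h : Word T w) (c : Inst → ℝ) (hc : ∀ I, |c I| ≤ 1) :
    Word T (fun I o y => c I * w I o y) :=
  (h.smul c hc (g := fun _ => 1) contDiff_const).congr fun I o y => by simp

theorem wordd_sub {w w' : WF T} (h : Word T w) (h' : Word T w') :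
    Word T (fun I o y => w I o y - w' I o y) :=
  (h.add (wordd_cmul h' (fun _ => -1) fun _ => by simp)).congr fun I o y => by ring

/-- Induction on the derivation.
* `mul`: `D0 (M w) = divW false (mulW (dOut M) w) + mulW (dIn M) (gradW false w)
   + mulW (θ H̃ M) w + mulW M (D0 w)` (`D0_pt`, `Mul.Hs`, product rule for `∂_{u_k}`);
* `grad`: `D0_dd_u`, `D0_dd_x` (extra term `mulW (δ a (id ⊗ Â)) (gradW false w)`);
* `dive`: `D0_div_u`, `D0_div_x`. -/
theorem Word.D0 {w : WF T} (h : Word T w) : Word T (fun I o => D0 I (w I o)) := by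
  induction h with
  | cst T c h => exact (word_zero T).congr fun I o y => D0_const I _ y
  | @mul O J M w hM hw ih =>
    refine ((((Word.dive false (Word.mul hM.dOut hw)).add (Word.mul hM.dIn (Word.grad false hw))).add
      (Word.mul (hM.Hs.tmul th_smooth) hw)).add (Word.mul hM ih)).congr fun I o y => ?_
    have hs : ∀ j, ContDiff ℝ ∞ (w I j) := fun j => (hw.tame I j).smooth
    have hm : ∀ j, ContDiff ℝ ∞ fun y => M I o j (I.pt y) :=
      fun j => I.comp_pt_smooth (hM.smooth I o j)
    have hm' : ∀ j k, ContDiff ℝ ∞ fun y => dd (ex k) (M I o j) (I.pt y) :=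
      fun j k => I.comp_pt_smooth (dd_smooth (hM.smooth I o j) _)
    have e1 : R285.D0 I (mulW M w I o) y = ∑ j, (R285.D0 I (fun y => M I o j (I.pt y)) y * w I j y +
        M I o j (I.pt y) * R285.D0 I (w I j) y) := by
      rw [show mulW M w I o = fun y => ∑ j, M I o j (I.pt y) * w I j y from rfl,
        D0_sum I _ fun j _ => (hm j).mul (hs j)]
      exact Finset.sum_congr rfl fun j _ => D0_mul I (hm j) (hs j) y
    have e2 : ∀ k, dd (ey false k) (mulW (dOut M) w I (o, k)) y =
        ∑ j, (dd (ey false k) (fun y => dd (ex k) (M I o j) (I.pt y)) y * w I j y +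
          dd (ex k) (M I o j) (I.pt y) * dd (ey false k) (w I j) y) := by
      intro k
      rw [show mulW (dOut M) w I (o, k) = fun y => ∑ j, dd (ex k) (M I o j) (I.pt y) * w I j y
        from rfl, dd_sum _ fun j _ => (hm' j k).mul (hs j)]
      exact Finset.sum_congr rfl fun j _ => congrFun (dd_mul (hm' j k) (hs j) _) y
    rw [e1]
    simp only [D0_pt I (hM.smooth I o _), divW, e2]
    simp only [mulW, dOut, dIn, gradW, Fintype.sum_prod_type, Finset.mul_sum,
      ← Finset.sum_sub_distrib]
    rw [Finset.sum_comm, ← Finset.sum_add_distrib, ← Finset.sum_add_distrib,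
      ← Finset.sum_add_distrib]
    refine Finset.sum_congr rfl fun j _ => ?_
    rw [← Finset.sum_add_distrib, add_mul, Finset.sum_mul]
    congr 2
    exact Finset.sum_congr rfl fun k _ => by ring
  | @grad T w b hw ih =>
    cases b with
    | false =>
      refine ((Word.grad false ih).add
        ((wordd_idA (Word.grad false hw)).smul (fun I => I.δ) wordd_δ aa_smooth)).congr
        fun I o y => ?_
      exact D0_dd_u I (hw.tame I o.1).smooth o.2 y
    | true =>
      refine (Word.grad true ih).congr fun I o y => ?_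
      exact D0_dd_x I (hw.tame I o.1).smooth o.2 y
  | @dive T w b hw ih =>
    cases b with
    | false =>
      refine ((Word.dive false ih).add (Word.dive false
        ((wordd_idA hw).smul (fun I => I.δ) wordd_δ aa_smooth))).congr fun I o y => ?_
      exact D0_div_u I (fun k => (hw.tame I (o, k)).smooth) y
    | true =>
      refine (Word.dive true ih).congr fun I o y => ?_
      exact D0_div_x I (fun k => (hw.tame I (o, k)).smooth) y
  | @add T w w' hw hw' ih ih' =>
    exact (ih.add ih').congr fun I o y => D0_add I (hw.tame I o).smooth (hw'.tame I o).smooth y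
  | @reidx T T' w e hw ih => exact Word.reidx e ih

/-- `DD_eq_D0`: `𝒱 w = divW false (mulW (id ⊗ Â) (gradW true w)) - divW true (mulW (id ⊗ Â) (gradW false w))`. -/
theorem Word.DD {w : WF T} (h : Word T w) : Word T (fun I o => DD I (w I o)) := by
  refine (h.D0.add (wordd_cmul (wordd_sub (Word.dive false (wordd_idA (Word.grad true h)))
    (Word.dive true (wordd_idA (Word.grad false h)))) (fun I => I.β) wordd_β)).congr
    fun I o y => ?_
  exact DD_eq_D0 I (h.tame I o).smooth y

theorem Word.DDiter {w : WF T} (h : Word T w) (n : ℕ) :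
    Word T (fun I o => (R285.DD I)^[n] (w I o)) := by
  induction n with
  | zero => exact h
  | succ n ih => exact ih.DD.congr fun I o y => by rw [Function.iterate_succ_apply']

theorem wordd_id : Word (Fam.leg.prod Fam.leg) (fun _ o _ => if o.1 = o.2 then 1 else 0) :=
  Word.cst (Fam.leg.prod Fam.leg) (fun _ o => if o.1 = o.2 then 1 else 0) fun d => by
    rw [Fintype.sum_prod_type]
    simp

/-- `ξ = divW true (identity matrix)`, the identity matrix being a constant word on `leg × leg`. -/
theorem word_AX : Word Fam.leg AX := by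
  refine (Word.mul mul_Ah (Word.dive true wordd_id)).congr fun I k y => ?_
  simp [mulW, divW, AX, dd_const, Inst.gW]

theorem word_SX : Word Fam.leg SX := by
  refine ((Word.mul mul_Ah word_AX).smul (fun _ => 1) (fun _ => by simp) aa_smooth).congr
    fun I k y => ?_
  simp [mulW, SX]

/-- `delA = divW false (Â as a word on leg × leg)`, `Â = mulW (Â ⊗ id) (identity matrix)`. -/
theorem word_delA : Word Fam.leg delA := by
  have h : Word (Fam.leg.prod Fam.leg) (fun I o y => Ah I o.1 o.2 (I.pt y)) :=
    (wordd_idA wordd_id).congr fun I o y => by simp [Ah_symm I o.1 o.2]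
  exact Word.dive false h

theorem word_DD_FY : Word Fam.leg (fun I k => DD I (FY I k)) := by
  exact (wordd_sub word_delA (wordd_cmul word_SX (fun I => I.β) wordd_β)).congr
    fun I k y => DD_FY I k y

theorem iter_bound (n : ℕ) : ∃ C : ℝ, 0 ≤ C ∧ ∀ I : Inst, ∀ s ∈ Icc (0 : ℝ) 1,
    nrm I s (fun k => (DD I)^[n + 1] (FY I k)) ≤ C ^ 2 * I.d ∧
    nrm I s (fun k => (DD I)^[n] (AX I k)) ≤ C ^ 2 * I.d ∧
    nrm I s (fun k => (DD I)^[n] (SX I k)) ≤ C ^ 2 * I.d := by
  obtain ⟨C₁, h₁, H₁⟩ := word_bound (word_DD_FY.DDiter n)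
  obtain ⟨C₂, h₂, H₂⟩ := word_bound (word_AX.DDiter n)
  obtain ⟨C₃, h₃, H₃⟩ := word_bound (word_SX.DDiter n)
  refine ⟨√(C₁ + C₂ + C₃), Real.sqrt_nonneg _, fun I s hs => ?_⟩
  rw [Real.sq_sqrt (by positivity)]
  have hd : (0 : ℝ) ≤ I.d := Nat.cast_nonneg _
  refine ⟨(H₁ I s hs).trans ?_, (H₂ I s hs).trans ?_, (H₃ I s hs).trans ?_⟩ <;>
    exact mul_le_mul_of_nonneg_right (by linarith) hd

theorem iter_tame (I : Inst) (n : ℕ) (k : Fin I.d) :
    Tame ((DD I)^[n] (FY I k)) ∧ Tame ((DD I)^[n] (AX I k)) ∧ Tame ((DD I)^[n] (SX I k)) := by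
  refine ⟨?_, (word_AX.DDiter n).tame I k, (word_SX.DDiter n).tame I k⟩
  cases n with
  | zero => exact tame_FY I k
  | succ n => exact (word_DD_FY.DDiter n).tame I k

end

end Crest.Agent.R285
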